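import Mathlib
import Vale.Agent.P225.Defs

/-! Elementary facts on the linear fields, the polar coordinates and the shears. -/

open scoped ContDiff Matrix Topology BoundedContinuousFunction
open Filter Set

noncomputable section

namespace Vale.Agent.P225

variable {D : ℕ}

theorem A_zero : A 0 = 1 := rfl

theorem A_three : A 3 = TH + PS := by
  ext i j; fin_cases i <;> fin_cases j <;> simp [A, TH, PS]

theorem A_antisymm {μ : Fin 4} (h : μ ≠ 0) : (A μ)ᵀ = -A μ := by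
  fin_cases μ
  · exact absurd rfl h
  all_goals ext i j; fin_cases i <;> fin_cases j <;> simp [A]

theorem TH_antisymm : THᵀ = -TH := by
  ext i j; fin_cases i <;> fin_cases j <;> simp [TH]

theorem PS_antisymm : PSᵀ = -PS := by
  ext i j; fin_cases i <;> fin_cases j <;> simp [PS]

theorem baseA_one : A 1 = !![0, 0, -1, 0; 0, 0, 0, 1; 1, 0, 0, 0; 0, -1, 0, 0] := rfl

theorem baseA_two : A 2 = !![0, 0, 0, -1; 0, 0, -1, 0; 0, 1, 0, 0; 1, 0, 0, 0] := rfl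

theorem baseA_three : A 3 = !![0, -1, 0, 0; 1, 0, 0, 0; 0, 0, 0, -1; 0, 0, 1, 0] := rfl

theorem base_A11 : A 1 * A 2 = A 3 ∧ A 2 * A 1 = -A 3 ∧ A 2 * A 3 = A 1 ∧ A 3 * A 2 = -A 1 ∧
    A 3 * A 1 = A 2 ∧ A 1 * A 3 = -A 2 := by
  refine ⟨?_, ?_, ?_, ?_, ?_, ?_⟩ <;>
  · rw [baseA_one, baseA_two, baseA_three]
    ext i j; fin_cases i <;> fin_cases j <;> simp [Matrix.mul_apply, Fin.sum_univ_four]

theorem A_comm (μ ν : Fin 4) : A ν * A μ - A μ * A ν = ∑ l, Cst μ ν l • A l := by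
  obtain ⟨h1, h2, h3, h4, h5, h6⟩ := base_A11
  fin_cases μ <;> fin_cases ν <;>
    simp [Fin.sum_univ_four, Cst, A_zero, h1, h2, h3, h4, h5, h6, two_smul, sub_eq_add_neg]

theorem base_Zm (y : E) : Zm y = !![y 0, y 1, y 2, y 3; -y 2, y 3, y 0, -y 1;
    -y 3, -y 2, y 1, y 0; -y 1, y 0, -y 3, y 2] := by
  ext i j; fin_cases i <;> fin_cases j <;>
    simp [Zm, A, Matrix.mulVec, dotProduct, Fin.sum_univ_four]

theorem base_dot (x y : E) : x ⬝ᵥ y = x 0 * y 0 + x 1 * y 1 + x 2 * y 2 + x 3 * y 3 := by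
  simp [dotProduct, Fin.sum_univ_four]

theorem Zm_mul (y : E) : Zm y * (Zm y)ᵀ = (y ⬝ᵥ y) • (1 : Mat) := by
  rw [base_Zm, base_dot]
  ext i j; fin_cases i <;> fin_cases j <;> simp [Matrix.mul_apply, Fin.sum_univ_four] <;> ring

theorem Zm_mul' (y : E) : (Zm y)ᵀ * Zm y = (y ⬝ᵥ y) • (1 : Mat) := by
  rw [base_Zm, base_dot]
  ext i j; fin_cases i <;> fin_cases j <;> simp [Matrix.mul_apply, Fin.sum_univ_four] <;> ring

theorem thv_dot_psv (y : E) : thv y ⬝ᵥ psv y = 0 := by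
  simp [base_dot, thv, psv]; ring

theorem base_A_mulVec (μ : Fin 4) (y : E) : A μ *ᵥ y = Zm y μ := rfl

theorem sum_thv (y : E) : ∑ μ, thv y μ • (A μ *ᵥ y) = (y ⬝ᵥ y) • (TH *ᵥ y) := by
  simp only [base_A_mulVec, base_Zm, base_dot]
  ext i; fin_cases i <;>
    simp [Fin.sum_univ_four, thv, TH, Matrix.mulVec, dotProduct] <;> ring

theorem sum_psv (y : E) : ∑ μ, psv y μ • (A μ *ᵥ y) = (y ⬝ᵥ y) • (PS *ᵥ y) := by
  simp only [base_A_mulVec, base_Zm, base_dot]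
  ext i; fin_cases i <;>
    simp [Fin.sum_univ_four, psv, PS, Matrix.mulVec, dotProduct] <;> ring

theorem dot_self_pos {x : E} (hx : x ≠ 0) : 0 < x ⬝ᵥ x := by
  have h0 : 0 ≤ x ⬝ᵥ x := Finset.sum_nonneg fun i _ => mul_self_nonneg (x i)
  refine lt_of_le_of_ne h0 fun h => hx ?_
  exact dotProduct_self_eq_zero.1 h.symm

theorem nrm_dot {x : E} (hx : x ≠ 0) : nrm x ⬝ᵥ nrm x = 1 := by
  have h := dot_self_pos hx
  have hs : √(x ⬝ᵥ x) ≠ 0 := (Real.sqrt_pos.2 h).ne'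
  have h2 : √(x ⬝ᵥ x) * √(x ⬝ᵥ x) = x ⬝ᵥ x := Real.mul_self_sqrt h.le
  simp only [nrm, smul_dotProduct, dotProduct_smul, smul_eq_mul]
  field_simp
  nlinarith [h2]

theorem norm_le_of_dot {y : E} (hy : y ⬝ᵥ y ≤ 1) : ‖y‖ ≤ 1 := by
  refine (pi_norm_le_iff_of_nonneg zero_le_one).2 fun i => ?_
  have h : y i * y i ≤ y ⬝ᵥ y :=
    Finset.single_le_sum (f := fun i => y i * y i) (fun i _ => mul_self_nonneg (y i))
      (Finset.mem_univ i)
  rw [Real.norm_eq_abs]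
  exact abs_le_one_iff_mul_self_le_one.2 (h.trans hy)

theorem exp_tau {x : E} (hx : x ≠ 0) : Real.exp (tau x) = √(x ⬝ᵥ x) := by
  have h := dot_self_pos hx
  rw [tau, ← Real.log_sqrt h.le, Real.exp_log (Real.sqrt_pos.2 h)]

theorem exp_tau_smul {x : E} (hx : x ≠ 0) : Real.exp (tau x) • nrm x = x := by
  have h := dot_self_pos hx
  have hs : √(x ⬝ᵥ x) ≠ 0 := (Real.sqrt_pos.2 h).ne'
  rw [exp_tau hx, nrm, smul_smul, mul_inv_cancel₀ hs, one_smul]

theorem tau_nonpos {x : E} (hx : x ⬝ᵥ x ≤ 1) : tau x ≤ 0 := by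
  have h0 : 0 ≤ x ⬝ᵥ x := Finset.sum_nonneg fun i _ => mul_self_nonneg (x i)
  have := Real.log_nonpos h0 hx
  unfold tau; linarith

theorem base_contDiff_dot : ContDiff ℝ ∞ fun x : E => x ⬝ᵥ x := by
  unfold dotProduct
  fun_prop

theorem contDiffAt_tau {x : E} (hx : x ≠ 0) : ContDiffAt ℝ ∞ tau x :=
  (base_contDiff_dot.contDiffAt.log (dot_self_pos hx).ne').div_const 2

theorem contDiffAt_nrm {x : E} (hx : x ≠ 0) : ContDiffAt ℝ ∞ nrm x := by
  have h := dot_self_pos hx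
  exact ((base_contDiff_dot.contDiffAt.sqrt h.ne').inv (Real.sqrt_pos.2 h).ne').smul
    contDiffAt_id

theorem base_line_dot (x v : E) :
    HasDerivAt (fun t : ℝ => (x + t • v) ⬝ᵥ (x + t • v)) (2 * (x ⬝ᵥ v)) 0 := by
  have h : (fun t : ℝ => (x + t • v) ⬝ᵥ (x + t • v)) =
      fun t => x ⬝ᵥ x + 2 * (x ⬝ᵥ v) * t + (v ⬝ᵥ v) * (t * t) := by
    funext t
    simp only [base_dot, Pi.add_apply, Pi.smul_apply, smul_eq_mul]; ring
  rw [h]
  have h1 := (((hasDerivAt_id (0 : ℝ)).const_mul (2 * (x ⬝ᵥ v))).const_add (x ⬝ᵥ x)).add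
    (((hasDerivAt_id (0 : ℝ)).mul (hasDerivAt_id (0 : ℝ))).const_mul (v ⬝ᵥ v))
  exact h1.congr_deriv (by simp)

theorem base_fderiv_line {F : Type} [NormedAddCommGroup F] [NormedSpace ℝ F] {f : E → F} {x v : E}
    {w : F} (hf : DifferentiableAt ℝ f x) (h : HasDerivAt (fun t : ℝ => f (x + t • v)) w 0) :
    fderiv ℝ f x v = w := by
  rw [← hf.lineDeriv_eq_fderiv]
  exact HasLineDerivAt.lineDeriv h

theorem base_fderiv_tau {x : E} (hx : x ≠ 0) (v : E) :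
    fderiv ℝ tau x v = x ⬝ᵥ v / (x ⬝ᵥ x) := by
  have h := dot_self_pos hx
  refine base_fderiv_line ((contDiffAt_tau hx).differentiableAt (by simp)) ?_
  have h1 := ((base_line_dot x v).log (by simpa using h.ne')).div_const 2
  refine h1.congr_deriv ?_
  simp only [zero_smul, add_zero]
  field_simp

theorem base_fderiv_nrm {x : E} (hx : x ≠ 0) (v : E) :
    fderiv ℝ nrm x v = (√(x ⬝ᵥ x))⁻¹ • (v - (x ⬝ᵥ v / (x ⬝ᵥ x)) • x) := by
  have h := dot_self_pos hx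
  have hs : √(x ⬝ᵥ x) ≠ 0 := (Real.sqrt_pos.2 h).ne'
  have h2 : √(x ⬝ᵥ x) ^ 2 = x ⬝ᵥ x := Real.sq_sqrt h.le
  refine base_fderiv_line ((contDiffAt_nrm hx).differentiableAt (by simp)) ?_
  have h1 := ((base_line_dot x v).sqrt (by simpa using h.ne')).inv (by simpa using hs)
  have h3 : HasDerivAt (fun t : ℝ => x + t • v) v 0 := by
    simpa using ((hasDerivAt_id (0 : ℝ)).smul_const v).const_add x
  refine (h1.smul h3).congr_deriv ?_
  simp only [zero_smul, add_zero, Pi.inv_apply, h2, smul_sub, smul_smul]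
  rw [sub_eq_add_neg, ← neg_smul]
  congr 2
  field_simp

theorem fderiv_tau_self {x : E} (hx : x ≠ 0) : fderiv ℝ tau x x = 1 := by
  rw [base_fderiv_tau hx, div_self (dot_self_pos hx).ne']

theorem fderiv_nrm_self {x : E} (hx : x ≠ 0) : fderiv ℝ nrm x x = 0 := by
  rw [base_fderiv_nrm hx, div_self (dot_self_pos hx).ne']; simp

theorem base_dot_anti {M : Mat} (hM : Mᵀ = -M) (x : E) : x ⬝ᵥ M *ᵥ x = 0 := by
  have h : x ⬝ᵥ M *ᵥ x = -(x ⬝ᵥ M *ᵥ x) := by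
    conv_lhs => rw [Matrix.dotProduct_mulVec, ← Matrix.mulVec_transpose, hM, Matrix.neg_mulVec,
      neg_dotProduct, dotProduct_comm]
  linarith

theorem fderiv_tau_anti {M : Mat} (hM : Mᵀ = -M) {x : E} (hx : x ≠ 0) :
    fderiv ℝ tau x (M *ᵥ x) = 0 := by
  rw [base_fderiv_tau hx, base_dot_anti hM, zero_div]

theorem fderiv_nrm_anti {M : Mat} (hM : Mᵀ = -M) {x : E} (hx : x ≠ 0) :
    fderiv ℝ nrm x (M *ᵥ x) = M *ᵥ nrm x := by
  rw [base_fderiv_nrm hx, base_dot_anti hM, zero_div, zero_smul, sub_zero, nrm,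
    Matrix.mulVec_smul]

theorem Prof.F_pos (p : Prof D) (t : ℝ) : 0 < p.F t := Real.exp_pos _

theorem Prof.base_int_deriv (p : Prof D) (t : ℝ) :
    HasDerivAt (fun u => ∫ s in (0 : ℝ)..u, p.κ s) (p.κ t) t :=
  (p.κ_smooth.continuous.integral_hasStrictDerivAt 0 t).hasDerivAt

theorem Prof.F_deriv (p : Prof D) (t : ℝ) : HasDerivAt p.F (p.κ t * p.F t) t := by
  have h := (p.base_int_deriv t).exp
  rw [mul_comm] at h
  exact h

theorem Prof.F_smooth (p : Prof D) : ContDiff ℝ ∞ p.F := by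
  have h : ContDiff ℝ ∞ fun u => ∫ s in (0 : ℝ)..u, p.κ s := by
    rw [contDiff_infty_iff_deriv]
    refine ⟨fun t => (p.base_int_deriv t).differentiableAt, ?_⟩
    have : (deriv fun u => ∫ s in (0 : ℝ)..u, p.κ s) = p.κ :=
      funext fun t => (p.base_int_deriv t).deriv
    rw [this]; exact p.κ_smooth
  exact h.exp

theorem Prof.F_init (p : Prof D) {t : ℝ} (ht : t ≤ 0) : p.F t = Real.exp t := by
  unfold Prof.F
  congr 1
  have : ∫ s in (0 : ℝ)..t, p.κ s = ∫ s in (0 : ℝ)..t, (1 : ℝ) := by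
    refine intervalIntegral.integral_congr fun s hs => p.κ_init s ?_
    rw [uIcc_of_ge ht] at hs
    exact hs.2
  rw [this]; simp

theorem Prof.F_lower (p : Prof D) {c : ℝ} (hc : ∀ t, c ≤ p.κ t) {t : ℝ} (ht : 0 ≤ t) :
    Real.exp (c * t) ≤ p.F t := by
  refine Real.exp_le_exp.2 ?_
  have h := intervalIntegral.integral_mono_on (μ := MeasureTheory.volume) ht
    (continuous_const.intervalIntegrable 0 t)
    (p.κ_smooth.continuous.intervalIntegrable 0 t) fun s _ => hc s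
  simpa [mul_comm] using h

end Vale.Agent.P225
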