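import Mathlib
import Vale.Agent.P225.Base

/-! Pointwise second order bounds and series. -/

open scoped ContDiff Matrix Topology BoundedContinuousFunction
open Filter Set

noncomputable section

namespace Vale.Agent.P225

theorem Bd_iff {F : Type} [NormedAddCommGroup F] [NormedSpace ℝ F] {f : E → F} {x : E} {C : ℝ} :
    Bd2 f x C ↔ ContDiffAt ℝ 2 f x ∧ ∀ i ≤ 2, ‖iteratedFDeriv ℝ i f x‖ ≤ C := by
  have e : ‖iteratedFDeriv ℝ 2 f x‖ = ‖fderiv ℝ (fderiv ℝ f) x‖ := by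
    rw [← norm_iteratedFDeriv_fderiv, norm_iteratedFDeriv_one]
  refine ⟨fun h => ⟨h.1, fun i hi => ?_⟩, fun h => ⟨h.1, ?_, ?_, e ▸ h.2 2 le_rfl⟩⟩
  · interval_cases i
    · rw [norm_iteratedFDeriv_zero]
      exact h.2.1
    · rw [norm_iteratedFDeriv_one]
      exact h.2.2.1
    · exact e ▸ h.2.2.2
  · rw [← norm_iteratedFDeriv_zero (𝕜 := ℝ)]
    exact h.2 0 (by norm_num)
  · rw [← norm_iteratedFDeriv_one]
    exact h.2 1 (by norm_num)

theorem Bd_const {F : Type} [NormedAddCommGroup F] [NormedSpace ℝ F] (c : F) (x : E) :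
    Bd2 (fun _ => c) x ‖c‖ := ⟨contDiffAt_const, le_rfl, by simp, by
    rw [fderiv_fun_const, fderiv_zero]
    exact (norm_zero (E := E →L[ℝ] E →L[ℝ] F)).trans_le (norm_nonneg c)⟩

theorem Bd2.mono {F : Type} [NormedAddCommGroup F] [NormedSpace ℝ F] {f : E → F} {x : E}
    {C C' : ℝ} (h : Bd2 f x C) (hC : C ≤ C') : Bd2 f x C' :=
  ⟨h.1, h.2.1.trans hC, h.2.2.1.trans hC, h.2.2.2.trans hC⟩

theorem Bd2.congr {F : Type} [NormedAddCommGroup F] [NormedSpace ℝ F] {f g : E → F} {x : E}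
    {C : ℝ} (h : Bd2 f x C) (hg : g =ᶠ[𝓝 x] f) : Bd2 g x C :=
  ⟨h.1.congr_of_eventuallyEq hg, hg.eq_of_nhds ▸ h.2.1, hg.fderiv_eq (𝕜 := ℝ) ▸ h.2.2.1,
    (hg.fderiv (𝕜 := ℝ)).fderiv_eq (𝕜 := ℝ) ▸ h.2.2.2⟩

theorem Bd2.add {F : Type} [NormedAddCommGroup F] [NormedSpace ℝ F] {f g : E → F} {x : E}
    {C C' : ℝ} (h : Bd2 f x C) (h' : Bd2 g x C') : Bd2 (fun y => f y + g y) x (C + C') := by
  rw [Bd_iff] at *
  refine ⟨h.1.add h'.1, fun i hi => ?_⟩
  have h2 : (i : WithTop ℕ∞) ≤ 2 := by exact_mod_cast hi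
  rw [fun_iteratedFDeriv_add_apply (h.1.of_le h2) (h'.1.of_le h2)]
  exact (norm_add_le _ _).trans (add_le_add (h.2 i hi) (h'.2 i hi))

theorem Bd2.sum {F : Type} [NormedAddCommGroup F] [NormedSpace ℝ F] {ι : Type} (s : Finset ι)
    {f : ι → E → F} {x : E} {C : ι → ℝ} (h : ∀ i ∈ s, Bd2 (f i) x (C i)) :
    Bd2 (fun y => ∑ i ∈ s, f i y) x (∑ i ∈ s, C i) := by
  classical
  induction s using Finset.induction_on with
  | empty => simpa using Bd_const (0 : F) x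
  | insert a s ha ih =>
    simp only [Finset.sum_insert ha]
    exact (h a (Finset.mem_insert_self _ _)).add
      (ih fun i hi => h i (Finset.mem_insert_of_mem hi))

theorem Bd2.mul {F : Type} [NormedRing F] [NormedAlgebra ℝ F] {f g : E → F} {x : E}
    {C C' : ℝ} (h : Bd2 f x C) (h' : Bd2 g x C') : Bd2 (fun y => f y * g y) x (4 * C * C') := by
  have h0 : 0 ≤ C := (norm_nonneg _).trans h.2.1
  have h0' : 0 ≤ C' := (norm_nonneg _).trans h'.2.1
  rw [Bd_iff] at *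
  refine ⟨h.1.mul h'.1, fun i hi => ?_⟩
  obtain ⟨u, hu, uo, ux⟩ := eventually_nhds_iff.1
    ((h.1.eventually (by simp)).and (h'.1.eventually (by simp)))
  have a1 := norm_iteratedFDerivWithin_mul_le (fun y hy => (hu y hy).1.contDiffWithinAt)
    (fun y hy => (hu y hy).2.contDiffWithinAt) uo.uniqueDiffOn ux (n := i) (by exact_mod_cast hi)
  simp only [iteratedFDerivWithin_of_isOpen _ uo ux] at a1
  refine a1.trans ((Finset.sum_le_sum (g := fun k => (i.choose k : ℝ) * (C * C')) fun k hk => ?_).trans ?_)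
  · rw [mul_assoc]
    have := Finset.mem_range.1 hk
    exact mul_le_mul_of_nonneg_left (mul_le_mul (h.2 k (by omega)) (h'.2 _ (by omega))
      (norm_nonneg _) h0) (Nat.cast_nonneg _)
  · rw [← Finset.sum_mul, ← Nat.cast_sum, Nat.sum_range_choose, mul_assoc]
    refine mul_le_mul_of_nonneg_right ?_ (mul_nonneg h0 h0')
    exact_mod_cast Nat.pow_le_pow_right two_pos hi

theorem Bd2.pow {f : E → ℂ} {x : E} {C : ℝ} (h : Bd2 f x C) (k : ℕ) :
    Bd2 (fun y => f y ^ k) x ((4 * C) ^ k) := by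
  induction k with
  | zero => simpa using Bd_const (1 : ℂ) x
  | succ k ih =>
    simp only [pow_succ]
    exact (ih.mul h).mono (le_of_eq (by ring))

theorem Bd2.clm {F G : Type} [NormedAddCommGroup F] [NormedSpace ℝ F] [NormedAddCommGroup G]
    [NormedSpace ℝ G] (L : F →L[ℝ] G) {f : E → F} {x : E} {C : ℝ} (h : Bd2 f x C) :
    Bd2 (fun y => L (f y)) x (‖L‖ * C) := by
  rw [Bd_iff] at *
  exact ⟨L.contDiff.contDiffAt.comp x h.1, fun i hi =>
    (L.norm_iteratedFDeriv_comp_left h.1 (by exact_mod_cast hi)).trans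
      (mul_le_mul_of_nonneg_left (h.2 i hi) (norm_nonneg _))⟩

theorem Bd_hom {F : Type} [NormedAddCommGroup F] [NormedSpace ℝ F] {g : E → F} {t a : ℝ} {c : F}
    (ht : t ≠ 0) (h : ∀ y ≠ 0, g (t • y) = a • g y + c) {y : E} (hy : y ≠ 0) :
    fderiv ℝ g (t • y) = (t⁻¹ * a) • fderiv ℝ g y := by
  have e : (fun y => g (t • y)) =ᶠ[𝓝 y] fun y => a • g y + c :=
    eventually_of_mem (isOpen_ne.mem_nhds hy) h
  have e1 := e.fderiv_eq (𝕜 := ℝ)
  have e2 : fderiv ℝ (fun y => a • g y) y = a • fderiv ℝ g y :=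
    congrFun (fderiv_const_smul_field (𝕜 := ℝ) (f := g) a) y
  rw [fderiv_comp_smul, fderiv_add_const, e2] at e1
  rw [mul_smul, ← e1, inv_smul_smul₀ ht]

theorem Bd_nsmul {F : Type} [NormedAddCommGroup F] [NormedSpace ℝ F] (c : ℝ)
    (v : E →L[ℝ] E →L[ℝ] F) : ‖c • v‖ = ‖c‖ * ‖v‖ :=
  @norm_smul ℝ (E →L[ℝ] E →L[ℝ] F) _ _ _ NormedSpace.toNormSMulClass c v

theorem Bd_ne {x : E} (hx : 1 / 4 ≤ x ⬝ᵥ x) : x ≠ 0 := by
  rintro rfl
  norm_num at hx

theorem Bd_scale {F : Type} [NormedAddCommGroup F] [NormedSpace ℝ F] {f : E → F}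
    (hf : ∀ x ≠ 0, ContDiffAt ℝ ∞ f x) (hs : ∀ t : ℝ, 0 < t → ∃ c, ∀ y ≠ 0, f (t • y) = f y + c) :
    ∃ C, 0 ≤ C ∧ ∀ x : E, 1 / 4 ≤ x ⬝ᵥ x →
      ‖fderiv ℝ f x‖ ≤ C ∧ ‖fderiv ℝ (fderiv ℝ f) x‖ ≤ C := by
  have hK : IsCompact {y : E | y ⬝ᵥ y = 1} :=
    (isCompact_closedBall (0 : E) 1).of_isClosed_subset
      (isClosed_eq base_contDiff_dot.continuous continuous_const)
      fun y hy => mem_closedBall_zero_iff.2 (norm_le_of_dot hy.le)
  have h0 : ∀ y ∈ {y : E | y ⬝ᵥ y = 1}, y ≠ 0 := fun y hy => Bd_ne (by rw [hy]; norm_num)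
  have h1 : ∀ x ≠ 0, ContDiffAt ℝ 1 (fderiv ℝ f) x := fun x hx =>
    (hf x hx).fderiv_right (by norm_cast)
  obtain ⟨M1, a1⟩ := hK.exists_bound_of_continuousOn fun y hy =>
    (h1 y (h0 y hy)).continuousAt.continuousWithinAt
  obtain ⟨M2, a2⟩ := hK.exists_bound_of_continuousOn fun y hy =>
    ((h1 y (h0 y hy)).fderiv_right (m := 0) (by norm_cast)).continuousAt.continuousWithinAt
  refine ⟨4 * (|M1| + |M2|), by positivity, fun x hx => ?_⟩
  have x0 := Bd_ne hx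
  have n1 := nrm_dot x0
  have n0 := h0 _ n1
  have t1 : 1 / 2 ≤ Real.exp (tau x) := by
    rw [exp_tau x0]
    exact Real.le_sqrt_of_sq_le (by linarith)
  have ex := exp_tau_smul x0
  generalize Real.exp (tau x) = t at t1 ex
  have t0 : 0 < t := by linarith
  have t2 : t⁻¹ ≤ 2 := by
    rw [inv_le_comm₀ t0 two_pos]
    linarith
  have t3 := inv_pos.2 t0
  obtain ⟨c, hc⟩ := hs t t0
  have b1 : ∀ y ≠ 0, fderiv ℝ f (t • y) = (t⁻¹ * 1) • fderiv ℝ f y := fun y hy =>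
    Bd_hom t0.ne' (fun y hy => by rw [one_smul, hc y hy]) hy
  have b2 := Bd_hom t0.ne' (c := 0) (fun y hy => (b1 y hy).trans (add_zero _).symm) n0
  have b3 := (a1 _ n1).trans (le_abs_self M1)
  have b4 := (a2 _ n1).trans (le_abs_self M2)
  rw [← ex, b2, b1 _ n0, norm_smul, Bd_nsmul, mul_one, Real.norm_of_nonneg t3.le,
    Real.norm_of_nonneg (mul_pos t3 t3).le]
  constructor
  · linarith [mul_le_mul t2 b3 (norm_nonneg _) zero_le_two, abs_nonneg M1, abs_nonneg M2]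
  · linarith [mul_le_mul (mul_le_mul t2 t2 t3.le zero_le_two) b4 (ContinuousLinearMap.opNorm_nonneg _)
      (by norm_num),
      abs_nonneg M1]

theorem Bd_dot (t : ℝ) (y : E) : (t • y) ⬝ᵥ (t • y) = t ^ 2 * (y ⬝ᵥ y) := by
  rw [smul_dotProduct, dotProduct_smul, smul_eq_mul, smul_eq_mul]
  ring

theorem bd2_nrm : ∃ C : ℝ, ∀ x : E, 1 / 4 ≤ x ⬝ᵥ x → Bd2 nrm x C := by
  obtain ⟨C, C0, hC⟩ := Bd_scale (f := nrm) (fun x hx => contDiffAt_nrm hx) fun t ht =>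
    ⟨0, fun y _ => by
      rw [add_zero, nrm, nrm, Bd_dot, Real.sqrt_mul (sq_nonneg t), Real.sqrt_sq ht.le, smul_smul,
        mul_inv, mul_right_comm, inv_mul_cancel₀ ht.ne', one_mul]⟩
  refine ⟨C + 1, fun x hx => ⟨(contDiffAt_nrm (Bd_ne hx)).of_le (by norm_cast), ?_, ?_, ?_⟩⟩
  · linarith [norm_le_of_dot (nrm_dot (Bd_ne hx)).le]
  · linarith [(hC x hx).1]
  · linarith [(hC x hx).2]

theorem bd2_comp_tau : ∃ C : ℝ, 0 ≤ C ∧ ∀ (w w' w'' : ℝ → ℝ) (x : E) (B : ℝ),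
    (∀ t, HasDerivAt w (w' t) t) → (∀ t, HasDerivAt w' (w'' t) t) → Continuous w'' →
    1 / 4 ≤ x ⬝ᵥ x → |w (tau x)| ≤ B → |w' (tau x)| ≤ B → |w'' (tau x)| ≤ B →
    Bd2 (fun y => w (tau y)) x (C * B) := by
  obtain ⟨C, C0, hC⟩ := Bd_scale (f := tau) (fun x hx => contDiffAt_tau hx) fun t ht =>
    ⟨Real.log t, fun y hy => by
      rw [tau, tau, Bd_dot, Real.log_mul (pow_pos ht 2).ne' (dot_self_pos hy).ne', Real.log_pow]
      push_cast
      ring⟩
  refine ⟨1 + C + C * C, by positivity, fun w w' w'' x B h1 h2 h3 hx b0 b1 b2 => ?_⟩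
  have x0 := Bd_ne hx
  have B0 : 0 ≤ B := (abs_nonneg _).trans b0
  have e1 : deriv w = w' := funext fun t => (h1 t).deriv
  have e2 : deriv w' = w'' := funext fun t => (h2 t).deriv
  have hw : ContDiff ℝ 2 w := by
    rw [show (2 : WithTop ℕ∞) = 1 + 1 from rfl, contDiff_succ_iff_deriv, e1, contDiff_one_iff_deriv,
      e2]
    exact ⟨fun t => (h1 t).differentiableAt, by simp, fun t => (h2 t).differentiableAt, h3⟩
  have d1 : ∀ y ≠ 0, HasFDerivAt tau (fderiv ℝ tau y) y := fun y hy =>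
    ((contDiffAt_tau hy).differentiableAt (by simp)).hasFDerivAt
  have d2 : ∀ y ≠ 0, fderiv ℝ (fun y => w (tau y)) y = w' (tau y) • fderiv ℝ tau y := fun y hy =>
    ((h1 _).comp_hasFDerivAt y (d1 y hy)).fderiv
  have d3 : HasFDerivAt (fderiv ℝ tau) (fderiv ℝ (fderiv ℝ tau) x) x :=
    (((contDiffAt_tau x0).fderiv_right (m := 1) (by norm_cast)).differentiableAt
      (by simp)).hasFDerivAt
  have d4 := (((h2 _).comp_hasFDerivAt x (d1 x x0)).smul d3).congr_of_eventuallyEq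
    (eventually_of_mem (isOpen_ne.mem_nhds x0) d2)
  obtain ⟨c1, c2⟩ := hC x hx
  have p1 := mul_nonneg C0 B0
  have p2 := mul_nonneg C0 p1
  refine ⟨hw.contDiffAt.comp x ((contDiffAt_tau x0).of_le (by norm_cast)), ?_, ?_, ?_⟩
  · rw [Real.norm_eq_abs]
    linarith
  · rw [d2 x x0, norm_smul, Real.norm_eq_abs]
    linarith [mul_le_mul b1 c1 (norm_nonneg _) B0]
  · rw [d4.fderiv]
    refine (norm_add_le (E := E →L[ℝ] E →L[ℝ] ℝ) _ _).trans ?_
    rw [Bd_nsmul, ContinuousLinearMap.norm_smulRight_apply, norm_smul, Real.norm_eq_abs,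
      Real.norm_eq_abs, Function.comp_apply]
    linarith [mul_le_mul b1 c2 (ContinuousLinearMap.opNorm_nonneg _) B0,
      mul_le_mul (mul_le_mul b2 c1 (norm_nonneg _) B0) c1 (norm_nonneg _) (mul_nonneg B0 C0)]

theorem bd2_tsum {I : Type} {f : I → E → ℝ} {C : I → ℝ} (hC : Summable C) {x : E} {s : Set E}
    (hs : s ∈ 𝓝 x) (h : ∀ n, ∀ y ∈ s, Bd2 (f n) y (C n)) :
    ContDiffAt ℝ 2 (fun y => ∑' n, f n y) x ∧
      HasSum (fun n => fderiv ℝ (f n) x) (fderiv ℝ (fun y => ∑' n, f n y) x) ∧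
      HasSum (fun n => fderiv ℝ (fderiv ℝ (f n)) x)
        (fderiv ℝ (fderiv ℝ fun y => ∑' n, f n y) x) := by
  obtain ⟨r, r0, hr⟩ := Metric.mem_nhds_iff.1 hs
  have x0 := Metric.mem_ball_self (x := x) r0
  have hp := (convex_ball x r).isPreconnected
  have s1 := Summable.of_norm_bounded hC fun n => (h n x (hr x0)).2.2.1
  have s2 := Summable.of_norm_bounded (E := E →L[ℝ] E →L[ℝ] ℝ) hC fun n => (h n x (hr x0)).2.2.2
  have c1 : ∀ n, ∀ y ∈ Metric.ball x r, ContDiffAt ℝ 1 (fderiv ℝ (f n)) y := fun n y hy =>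
    (h n y (hr hy)).1.fderiv_right (by norm_cast)
  have a1 : ∀ y ∈ Metric.ball x r,
      HasFDerivAt (fun y => ∑' n, f n y) (∑' n, fderiv ℝ (f n) y) y := fun y hy =>
    hasFDerivAt_tsum_of_isPreconnected hC Metric.isOpen_ball hp
      (fun n y hy => ((h n y (hr hy)).1.differentiableAt (by simp)).hasFDerivAt)
      (fun n y hy => (h n y (hr hy)).2.2.1) x0
      (Summable.of_norm_bounded hC fun n => (h n x (hr x0)).2.1) hy
  have a2 : ∀ y ∈ Metric.ball x r, HasFDerivAt (fderiv ℝ fun y => ∑' n, f n y)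
      (∑' n, fderiv ℝ (fderiv ℝ (f n)) y) y := fun y hy =>
    (hasFDerivAt_tsum_of_isPreconnected hC Metric.isOpen_ball hp
      (fun n y hy => ((c1 n y hy).differentiableAt (by simp)).hasFDerivAt)
      (fun n y hy => (h n y (hr hy)).2.2.2) x0 s1 hy).congr_of_eventuallyEq
      (eventually_of_mem (Metric.isOpen_ball.mem_nhds hy) fun z hz => (a1 z hz).fderiv)
  refine ⟨ContDiffOn.contDiffAt ?_ (Metric.ball_mem_nhds x r0), (a1 x x0).fderiv ▸ s1.hasSum,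
    (a2 x x0).fderiv ▸ s2.hasSum⟩
  rw [show (2 : WithTop ℕ∞) = 0 + 1 + 1 from rfl,
    contDiffOn_succ_iff_fderiv_of_isOpen Metric.isOpen_ball,
    contDiffOn_succ_iff_fderiv_of_isOpen Metric.isOpen_ball, contDiffOn_zero]
  refine ⟨fun y hy => (a1 y hy).differentiableAt.differentiableWithinAt, by simp,
    fun y hy => (a2 y hy).differentiableAt.differentiableWithinAt, by simp, ?_⟩
  exact (continuousOn_tsum (fun n y hy => ((c1 n y hy).fderiv_right (m := 0)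
    (by norm_cast)).continuousAt.continuousWithinAt) hC
    fun n y hy => (h n y (hr hy)).2.2.2).congr fun y hy => (a2 y hy).fderiv

end Vale.Agent.P225
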