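import Mathlib
import Vale.Agent.P252.Global

/-! The scalar equation: existence lemmas. -/

open scoped Topology NNReal
open Filter Set

noncomputable section

namespace Vale.Agent.P225

theorem sca_global {F : ℝ → ℝ → ℝ} {K L : ℝ≥0} (hK : ∀ t, LipschitzWith K (F t))
    (hc : ∀ x, Continuous fun t => F t x) (hL : ∀ t x, ‖F t x‖ ≤ L) (x₀ : ℝ) :
    ∃ γ : ℝ → ℝ, γ 0 = x₀ ∧ ∀ t, HasDerivAt γ (F t (γ t)) t := by
  have h1 : ∀ N : ℕ, ∃ α : ℝ → ℝ, α 0 = x₀ ∧
      ∀ t ∈ Ioo (-((N : ℝ) + 1)) (N + 1), HasDerivAt α (F t (α t)) t := by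
    intro N
    have hN : (0 : ℝ) ∈ Icc (-((N : ℝ) + 1)) (N + 1) :=
      ⟨by have : (0 : ℝ) ≤ N := N.cast_nonneg; linarith, by positivity⟩
    have hpl : IsPicardLindelof F (⟨0, hN⟩ : Icc (-((N : ℝ) + 1)) (N + 1)) x₀
        (L * (N + 1)) 0 L K :=
      ⟨fun t _ => (hK t).lipschitzOnWith, fun x _ => (hc x).continuousOn,
        fun t _ x _ => hL t x, by simp⟩
    obtain ⟨α, h0, hα⟩ := hpl.exists_eq_forall_mem_Icc_hasDerivWithinAt₀
    exact ⟨α, h0, fun t ht => (hα t (Ioo_subset_Icc_self ht)).hasDerivAt (Icc_mem_nhds ht.1 ht.2)⟩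
  choose α h0 hα using h1
  have huniq : ∀ M N : ℕ, M ≤ N → EqOn (α M) (α N) (Ioo (-((M : ℝ) + 1)) (M + 1)) := by
    intro M N hMN
    have hMN' : (M : ℝ) ≤ N := by exact_mod_cast hMN
    have hM : (0 : ℝ) ≤ M := M.cast_nonneg
    refine ODE_solution_unique_of_mem_Ioo (v := F) (s := fun _ => univ) (K := K)
      (t₀ := 0) (fun t _ => (hK t).lipschitzOnWith) ⟨by linarith, by linarith⟩
      (fun t ht => ⟨hα M t ht, trivial⟩)
      (fun t ht => ⟨hα N t ⟨by linarith [ht.1], by linarith [ht.2]⟩, trivial⟩) ?_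
    rw [h0, h0]
  have hmem : ∀ t : ℝ, t ∈ Ioo (-((⌈|t|⌉₊ : ℝ) + 1)) (⌈|t|⌉₊ + 1) := by
    intro t
    have h1 := Nat.le_ceil |t|
    have h2 := le_abs_self t
    have h3 := neg_abs_le t
    exact ⟨by linarith, by linarith⟩
  refine ⟨fun t => α ⌈|t|⌉₊ t, h0 _, fun t => ?_⟩
  have hev : (fun r => α ⌈|r|⌉₊ r) =ᶠ[𝓝 t] α (⌈|t|⌉₊ + 1) := by
    filter_upwards [Metric.ball_mem_nhds t zero_lt_one] with r hr
    refine huniq _ _ ?_ (hmem r)
    rw [Nat.ceil_le]
    have h1 := Nat.le_ceil |t|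
    have h2 : |r - t| < 1 := hr
    have h3 := abs_sub_abs_le_abs_sub r t
    push_cast
    linarith
  have h2 := hα (⌈|t|⌉₊ + 1) t (by
    have := hmem t
    push_cast
    exact ⟨by linarith [this.1], by linarith [this.2]⟩)
  have h3 : α ⌈|t|⌉₊ t = α (⌈|t|⌉₊ + 1) t := hev.eq_of_nhds
  simp only [h3]
  exact h2.congr_of_eventuallyEq hev

theorem sca_mono {f f' : ℝ → ℝ} {s t : ℝ} (h : s ≤ t) (hd : ∀ r, HasDerivAt f (f' r) r)
    (h0 : ∀ r ∈ Icc s t, 0 ≤ f' r) : f s ≤ f t := by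
  have h1 : MonotoneOn f (Icc s t) :=
    monotoneOn_of_hasDerivWithinAt_nonneg (convex_Icc s t)
      (fun r _ => (hd r).continuousAt.continuousWithinAt)
      (fun r _ => (hd r).hasDerivWithinAt) fun r hr => h0 r (interior_subset hr)
  exact h1 ⟨le_rfl, h⟩ ⟨h, le_rfl⟩ h

theorem sca_lo {f f' : ℝ → ℝ} {s t a : ℝ} (h : s ≤ t) (hd : ∀ r, HasDerivAt f (f' r) r)
    (h0 : ∀ r ∈ Icc s t, a * f r ≤ f' r) : Real.exp (a * (t - s)) * f s ≤ f t := by
  have h1 : ∀ r, HasDerivAt (fun r => Real.exp (-(a * r)) * f r)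
      (Real.exp (-(a * r)) * (f' r - a * f r)) r := by
    intro r
    have h2 : HasDerivAt (fun r => -(a * r)) (-(a * 1)) r := ((hasDerivAt_id r).const_mul a).neg
    refine (h2.exp.mul (hd r)).congr_deriv ?_
    ring
  have h2 := sca_mono h h1 fun r hr => mul_nonneg (Real.exp_pos _).le (by linarith [h0 r hr])
  have h3 := mul_le_mul_of_nonneg_left h2 (Real.exp_pos (a * t)).le
  rw [← mul_assoc, ← mul_assoc, ← Real.exp_add, ← Real.exp_add, add_neg_cancel, Real.exp_zero,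
    one_mul] at h3
  rwa [mul_sub, sub_eq_add_neg]

theorem sca_hi {f f' : ℝ → ℝ} {s t a : ℝ} (h : s ≤ t) (hd : ∀ r, HasDerivAt f (f' r) r)
    (h0 : ∀ r ∈ Icc s t, f' r ≤ a * f r) : f t ≤ Real.exp (a * (t - s)) * f s := by
  have h1 := sca_lo (f := fun r => -f r) (f' := fun r => -f' r) (a := a) h (fun r => (hd r).neg)
    fun r hr => by linarith [h0 r hr]
  linarith

theorem sca_riccati {Λ a b : ℝ} {q : ℝ → ℝ} (ha : 0 ≤ a) (haΛ : a ≤ Λ) (hb : Λ ≤ b)
    (hq : Continuous q) (hlo : ∀ t, a ^ 2 ≤ q t) (hhi : ∀ t, q t ≤ b ^ 2)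
    (h0 : ∀ t ≤ 0, q t = Λ ^ 2) :
    ∃ ρ : ℝ → ℝ, (∀ t, HasDerivAt ρ (q t - ρ t ^ 2) t) ∧ (∀ t, a ≤ ρ t) ∧ (∀ t, ρ t ≤ b) ∧
      ∀ t ≤ 0, ρ t = Λ := by
  have hab : a ≤ b := haΛ.trans hb
  have hb0 : 0 ≤ b := ha.trans hab
  let cl : ℝ → ℝ := fun x => max a (min x b)
  have c1 : ∀ x, a ≤ cl x := fun x => le_max_left _ _
  have c2 : ∀ x, cl x ≤ b := fun x => max_le hab (min_le_right _ _)
  have c3 : ∀ x, a ≤ x → x ≤ b → cl x = x := fun x h1 h2 => by
    show max a (min x b) = x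
    rw [min_eq_left h2, max_eq_right h1]
  have c4 : LipschitzWith 1 cl := (LipschitzWith.id.min_const b).const_max a
  obtain ⟨γ, g0, hγ⟩ := sca_global (F := fun t x => q t - cl x ^ 2) (K := ⟨2 * b, by positivity⟩)
    (L := ⟨b ^ 2, by positivity⟩) (fun t => LipschitzWith.of_dist_le_mul fun x y => by
      have h1 := c4.dist_le_mul x y
      rw [NNReal.coe_one, one_mul] at h1
      rw [Real.dist_eq] at h1 ⊢
      have h2 : q t - cl x ^ 2 - (q t - cl y ^ 2) = -((cl x + cl y) * (cl x - cl y)) := by ring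
      rw [h2, abs_neg, abs_mul, abs_of_nonneg (by linarith [c1 x, c1 y])]
      exact mul_le_mul (show _ ≤ 2 * b by linarith [c2 x, c2 y]) h1 (abs_nonneg _)
        (show 0 ≤ 2 * b by positivity))
    (fun x => hq.sub continuous_const) (fun t x => by
      have h1 : cl x ^ 2 ≤ b ^ 2 := pow_le_pow_left₀ (ha.trans (c1 x)) (c2 x) 2
      show |q t - cl x ^ 2| ≤ b ^ 2
      rw [abs_le]
      constructor <;> nlinarith [hlo t, hhi t, sq_nonneg a, sq_nonneg (cl x)]) Λ
  have g1 : ∀ t, 0 ≤ t → γ t ≤ b := fun t ht =>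
    P252.barrier_le hγ (by rwa [g0]) (fun r hr => by
      have : cl (γ r) = b := by
        show max a (min (γ r) b) = b
        rw [min_eq_right hr.le, max_eq_right hab]
      rw [this]; linarith [hhi r]) ht
  have g2 : ∀ t, 0 ≤ t → a ≤ γ t := fun t ht =>
    P252.barrier_ge hγ (by rwa [g0]) (fun r hr => by
      have : cl (γ r) = a := by
        show max a (min (γ r) b) = a
        exact max_eq_left ((min_le_left _ _).trans hr.le)
      rw [this]; linarith [hlo r]) ht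
  refine ⟨fun t => if t ≤ 0 then Λ else γ t, fun t => ?_, fun t => ?_, fun t => ?_,
    fun t ht => if_pos ht⟩
  · rcases lt_trichotomy t 0 with h | h | h
    · have h1 : (fun r : ℝ => if r ≤ 0 then Λ else γ r) =ᶠ[𝓝 t] fun _ => Λ := by
        filter_upwards [Iio_mem_nhds h] with r hr
        exact if_pos (le_of_lt hr)
      simp only [if_pos h.le, h0 t h.le, sub_self]
      exact (hasDerivAt_const t Λ).congr_of_eventuallyEq h1
    · subst h
      have h1 := hγ 0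
      simp only [g0, c3 Λ haΛ hb, h0 0 le_rfl, sub_self] at h1
      simp only [if_pos le_rfl, h0 0 le_rfl, sub_self]
      exact P252.hasDerivAt_glue (hasDerivAt_const 0 Λ) h1 g0.symm
    · have h1 : (fun r : ℝ => if r ≤ 0 then Λ else γ r) =ᶠ[𝓝 t] γ := by
        filter_upwards [Ioi_mem_nhds h] with r hr
        exact if_neg (not_le.2 hr)
      have h2 := hγ t
      simp only [c3 _ (g2 t h.le) (g1 t h.le)] at h2
      simp only [if_neg (not_le.2 h)]
      exact h2.congr_of_eventuallyEq h1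
  · dsimp only
    split_ifs with h
    · exact haΛ
    · exact g2 t (le_of_not_ge h)
  · dsimp only
    split_ifs with h
    · exact hb
    · exact g1 t (le_of_not_ge h)

theorem sca_psi {ρ : ℝ → ℝ} {Λ : ℝ} (hc : Continuous ρ) (h0 : ∀ t ≤ 0, ρ t = Λ) :
    ∃ ψ : ℝ → ℝ, (∀ t, 0 < ψ t) ∧ (∀ t, HasDerivAt ψ (ρ t * ψ t) t) ∧
      ∀ t ≤ 0, ψ t = Real.exp (Λ * t) := by
  refine ⟨fun t => Real.exp (∫ r in (0 : ℝ)..t, ρ r), fun t => Real.exp_pos _, fun t => ?_,
    fun t ht => ?_⟩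
  · have h1 := (hc.integral_hasStrictDerivAt 0 t).hasDerivAt.exp
    exact h1.congr_deriv (mul_comm _ _)
  · have h1 : ∫ r in (0 : ℝ)..t, ρ r = ∫ _ in (0 : ℝ)..t, Λ :=
      intervalIntegral.integral_congr fun r hr => h0 r (by
        rw [uIcc_of_ge ht] at hr; exact hr.2)
    simp [h1, mul_comm]

theorem sca_g {ρ ψ : ℝ → ℝ} {a b : ℝ} (ha : 0 < a) (h1 : ∀ t, a ≤ ρ t) (h2 : ∀ t, ρ t ≤ b)
    (hp : ∀ t, 0 < ψ t) (hd : ∀ t, HasDerivAt ψ (ρ t * ψ t) t) :
    ∃ g : ℝ → ℝ, (∀ t, HasDerivAt g (2 * ρ t * g t - 1) t) ∧ (∀ t, 1 ≤ 2 * b * g t) ∧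
      ∀ t, 2 * a * g t ≤ 1 := by
  have hb : 0 < b := ha.trans_le ((h1 0).trans (h2 0))
  let u : ℝ → ℝ := fun t => (ψ t ^ 2)⁻¹
  have up : ∀ t, 0 < u t := fun t => inv_pos.2 (pow_pos (hp t) 2)
  have du : ∀ t, HasDerivAt u (-(2 * ρ t * u t)) t := fun t => by
    have h3 := (hp t).ne'
    refine (((hd t).pow 2).inv (pow_ne_zero 2 h3)).congr_deriv ?_
    simp only [u, Pi.pow_apply]
    field_simp
    simp
    ring
  have cu : Continuous u := continuous_iff_continuousAt.2 fun t => (du t).continuousAt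
  let H : ℝ → ℝ := fun t => ∫ r in (0 : ℝ)..t, u r
  have dH : ∀ t, HasDerivAt H (u t) t := fun t => (cu.integral_hasStrictDerivAt 0 t).hasDerivAt
  have mH : Monotone H := fun s t h => sca_mono h dH fun r _ => (up r).le
  have k1 : ∀ s t, 2 * a * H t ≤ 2 * a * H s + u s := by
    intro s t
    rcases le_total s t with h | h
    · have h3 := sca_mono (f := fun r => -(2 * a * H r + u r))
        (f' := fun r => -(2 * a * u r + -(2 * ρ r * u r))) h
        (fun r => (((dH r).const_mul _).add (du r)).neg) fun r _ => by nlinarith [h1 r, up r]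
      linarith [up t]
    · nlinarith [mH h, up s]
  have bH : BddAbove (range H) := ⟨H 0 + u 0 / (2 * a), by
    rintro _ ⟨t, rfl⟩
    have h3 := k1 0 t
    have h4 : H 0 + u 0 / (2 * a) = (2 * a * H 0 + u 0) / (2 * a) := by field_simp
    rw [h4, le_div_iff₀ (by positivity)]
    linarith⟩
  have lH := tendsto_atTop_ciSup mH bH
  set I := ⨆ t, H t
  have lu : Tendsto u atTop (𝓝 0) := by
    have h3 : Tendsto (fun t => Real.exp (-(2 * a) * (t - 0)) * u 0) atTop (𝓝 (0 * u 0)) := by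
      refine Tendsto.mul_const _ (Real.tendsto_exp_atBot.comp ?_)
      simp only [sub_zero]
      exact tendsto_id.const_mul_atTop_of_neg (by linarith)
    rw [zero_mul] at h3
    refine squeeze_zero' (Eventually.of_forall fun t => (up t).le) ?_ h3
    filter_upwards [eventually_ge_atTop 0] with t ht
    exact sca_hi ht du fun r _ => by nlinarith [h1 r, up r]
  have k2 : ∀ s, 2 * a * I ≤ 2 * a * H s + u s := fun s =>
    le_of_tendsto' (lH.const_mul (2 * a)) (k1 s)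
  have k3 : ∀ s, 2 * b * H s + u s ≤ 2 * b * I + 0 := fun s => by
    refine ge_of_tendsto ((lH.const_mul (2 * b)).add lu) ?_
    filter_upwards [eventually_ge_atTop s] with t ht
    exact sca_mono (f := fun r => 2 * b * H r + u r) ht
      (fun r => ((dH r).const_mul _).add (du r)) fun r _ => by nlinarith [h2 r, up r]
  have e1 : ∀ t, ψ t ^ 2 * u t = 1 := fun t => mul_inv_cancel₀ (pow_pos (hp t) 2).ne'
  refine ⟨fun t => ψ t ^ 2 * (I - H t), fun t => ?_, fun t => ?_, fun t => ?_⟩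
  · refine (((hd t).pow 2).mul ((dH t).const_sub I)).congr_deriv ?_
    have := e1 t
    simp only [Pi.pow_apply]
    norm_num
    linarith
  · have h3 := mul_le_mul_of_nonneg_left (k3 t) (pow_pos (hp t) 2).le
    have := e1 t
    dsimp only
    linarith
  · have h3 := mul_le_mul_of_nonneg_left (k2 t) (pow_pos (hp t) 2).le
    have := e1 t
    dsimp only
    linarith

end Vale.Agent.P225
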