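import Mathlib
import Vale.Agent.P225.Defs
import Vale.Agent.P225.ScalarA

/-! The scalar equation. -/

open scoped ContDiff Matrix Topology BoundedContinuousFunction
open Filter Set

noncomputable section

namespace Vale.Agent.P225

theorem exists_sys {I : Type} (Λ : I → ℝ) (q : I → ℝ → ℝ) (h1 : ∀ n, 1 ≤ Λ n)
    (hq : ∀ n, Continuous (q n)) (hlo : ∀ n t, (9 / 10 * Λ n) ^ 2 ≤ q n t)
    (hhi : ∀ n t, q n t ≤ (11 / 10 * Λ n) ^ 2) (h0 : ∀ n, ∀ t ≤ 0, q n t = Λ n ^ 2) :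
    ∃ S : Sys I, S.Λ = Λ ∧ S.q = q := by
  have ha : ∀ n, 0 < 9 / 10 * Λ n := fun n => by linarith [h1 n]
  choose ρ r1 r2 r3 r4 using fun n => sca_riccati (ha n).le (by linarith [h1 n])
    (by linarith [h1 n] : Λ n ≤ 11 / 10 * Λ n) (hq n) (hlo n) (hhi n) (h0 n)
  choose ψ p1 p2 p3 using fun n => sca_psi
    (continuous_iff_continuousAt.2 fun t => (r1 n t).continuousAt) (r4 n)
  choose g g1 g2 g3 using fun n => sca_g (ha n) (r2 n) (r3 n) (p1 n) (p2 n)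
  exact ⟨⟨Λ, q, ρ, ψ, g, h1, hq, hlo, hhi, p1, p2, r1, r2, r3, g1,
    fun n t => by linarith [g2 n t], fun n t => by linarith [g3 n t], p3⟩, rfl, rfl⟩

variable {I : Type} (S : Sys I)

theorem Sys.g_pos (n : I) (t : ℝ) : 0 < S.g n t := by
  have h1 := S.g_lo n t
  have h2 := S.one_le n
  by_contra h
  have h3 : 11 / 5 * S.Λ n * S.g n t ≤ 0 :=
    mul_nonpos_of_nonneg_of_nonpos (by linarith) (not_lt.1 h)
  linarith

theorem Sys.χ_pos (n : I) (t : ℝ) : 0 < S.χ n t :=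
  div_pos (S.g_pos n t) (S.ψ_pos n t)

theorem Sys.χ_deriv (n : I) (t : ℝ) :
    HasDerivAt (S.χ n) ((S.ρ n t - (S.g n t)⁻¹) * S.χ n t) t := by
  have h1 := (S.ψ_pos n t).ne'
  have h2 := (S.g_pos n t).ne'
  refine ((S.g_deriv n t).div (S.ψ_deriv n t) h1).congr_deriv ?_
  simp only [Sys.χ]
  field_simp
  ring

theorem Sys.nu_bd (n : I) (t : ℝ) :
    7 / 10 * S.Λ n ≤ (S.g n t)⁻¹ - S.ρ n t ∧ (S.g n t)⁻¹ - S.ρ n t ≤ 13 / 10 * S.Λ n := by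
  have h1 := S.g_pos n t
  have h2 : 9 / 5 * S.Λ n ≤ (S.g n t)⁻¹ := by
    rw [inv_eq_one_div, le_div_iff₀ h1]; exact S.g_hi n t
  have h3 : (S.g n t)⁻¹ ≤ 11 / 5 * S.Λ n := by
    rw [inv_eq_one_div, div_le_iff₀ h1]; exact S.g_lo n t
  constructor <;> linarith [S.ρ_lo n t, S.ρ_hi n t]

theorem Sys.ψ_lo (n : I) {s t : ℝ} (h : s ≤ t) :
    Real.exp (9 / 10 * S.Λ n * (t - s)) * S.ψ n s ≤ S.ψ n t :=
  sca_lo h (S.ψ_deriv n) fun r _ =>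
    mul_le_mul_of_nonneg_right (S.ρ_lo n r) (S.ψ_pos n r).le

theorem Sys.ψ_hi (n : I) {s t : ℝ} (h : s ≤ t) :
    S.ψ n t ≤ Real.exp (11 / 10 * S.Λ n * (t - s)) * S.ψ n s :=
  sca_hi h (S.ψ_deriv n) fun r _ =>
    mul_le_mul_of_nonneg_right (S.ρ_hi n r) (S.ψ_pos n r).le

theorem Sys.χ_hi (n : I) {s t : ℝ} (h : s ≤ t) :
    Real.exp (7 / 10 * S.Λ n * (t - s)) * S.χ n t ≤ S.χ n s := by
  have h1 := sca_hi (a := -(7 / 10 * S.Λ n)) h (S.χ_deriv n) fun r _ =>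
    mul_le_mul_of_nonneg_right (by linarith [(S.nu_bd n r).1]) (S.χ_pos n r).le
  have h2 := mul_le_mul_of_nonneg_left h1 (Real.exp_pos (7 / 10 * S.Λ n * (t - s))).le
  rwa [← mul_assoc, ← Real.exp_add, neg_mul, add_neg_cancel, Real.exp_zero, one_mul] at h2

theorem Sys.sca_deriv (n : I) (M r : ℝ) :
    HasDerivAt (fun r => S.ψ n r * (S.ρ n r + M)) (S.ψ n r * (S.ρ n r * M + S.q n r)) r := by
  refine ((S.ψ_deriv n r).mul ((S.ρ_deriv n r).add_const M)).congr_deriv ?_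
  ring

theorem Sys.sca_ratio (n : I) (s t : ℝ) {M : ℝ} (hM : 0 ≤ M) :
    0 < S.ρ n t + M ∧ S.ρ n s + M ≤ 2 * (S.ρ n t + M) := by
  constructor <;> linarith [S.ρ_lo n t, S.ρ_hi n s, S.one_le n]

theorem Sys.ψ_le_of_q (n : I) {s t M : ℝ} (h : s ≤ t) (hM : 0 ≤ M)
    (hq : ∀ r ∈ Icc s t, S.q n r ≤ M ^ 2) : S.ψ n t ≤ 2 * Real.exp (M * (t - s)) * S.ψ n s := by
  have h1 := sca_hi (a := M) h (S.sca_deriv n M) fun r hr => by
    have h2 := mul_le_mul_of_nonneg_left (hq r hr) (S.ψ_pos n r).le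
    nlinarith
  obtain ⟨h2, h3⟩ := S.sca_ratio n s t hM
  have h4 := mul_le_mul_of_nonneg_left h3
    (mul_pos (Real.exp_pos (M * (t - s))) (S.ψ_pos n s)).le
  refine le_of_mul_le_mul_right ?_ h2
  nlinarith

theorem Sys.le_ψ_of_q (n : I) {s t M : ℝ} (h : s ≤ t) (hM : 0 ≤ M)
    (hq : ∀ r ∈ Icc s t, M ^ 2 ≤ S.q n r) : Real.exp (M * (t - s)) * S.ψ n s ≤ 2 * S.ψ n t := by
  have h1 := sca_lo (a := M) h (S.sca_deriv n M) fun r hr => by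
    have h2 := mul_le_mul_of_nonneg_left (hq r hr) (S.ψ_pos n r).le
    nlinarith
  obtain ⟨h2, h3⟩ := S.sca_ratio n t s hM
  have h4 := mul_le_mul_of_nonneg_left h3 (S.ψ_pos n t).le
  refine le_of_mul_le_mul_right ?_ h2
  nlinarith

end Vale.Agent.P225
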