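import Mathlib
import Vale.Agent.P225.Scalar

/-! One pulse: the elementary operators. -/

open scoped ContDiff Matrix Topology BoundedContinuousFunction
open Filter Set

noncomputable section

namespace Vale.Agent.P225

/-- Bounded families of continuous functions. -/
abbrev PulX := (Ix × ℝ) →ᵇ ℝ

theorem pul_exists_clm {Y Z : Type} [NormedAddCommGroup Y] [NormedSpace ℝ Y] [TopologicalSpace Z]
    (F : Y → Z → ℝ) (hc : ∀ y, Continuous (F y)) (C : ℝ) (hC : 0 ≤ C)
    (hb : ∀ y z, |F y z| ≤ C * ‖y‖) (ha : ∀ y y' z, F (y + y') z = F y z + F y' z)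
    (hs : ∀ (a : ℝ) y z, F (a • y) z = a * F y z) :
    ∃ L : Y →L[ℝ] (Z →ᵇ ℝ), ‖L‖ ≤ C ∧ ∀ y z, L y z = F y z := by
  let G : Y → (Z →ᵇ ℝ) := fun y =>
    BoundedContinuousFunction.ofNormedAddCommGroup (F y) (hc y) (C * ‖y‖) (fun z => hb y z)
  have hG : ∀ y z, G y z = F y z := fun _ _ => rfl
  let L0 : Y →ₗ[ℝ] (Z →ᵇ ℝ) :=
    { toFun := G
      map_add' := fun y y' => by ext z; simp [hG, ha]
      map_smul' := fun a y => by ext z; simp [hG, hs] }
  have hL : ∀ y, ‖L0 y‖ ≤ C * ‖y‖ := fun y =>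
    (BoundedContinuousFunction.norm_le (by positivity)).2 fun z => hb y z
  exact ⟨L0.mkContinuous C hL, LinearMap.mkContinuous_norm_le _ hC _, fun y z => rfl⟩

theorem pul_exists_clmX {Y : Type} [NormedAddCommGroup Y] [NormedSpace ℝ Y]
    (F : Y → Ix → ℝ → ℝ) (hc : ∀ y n, Continuous (F y n)) (C : ℝ) (hC : 0 ≤ C)
    (hb : ∀ y n t, |F y n t| ≤ C * ‖y‖) (ha : ∀ y y' n t, F (y + y') n t = F y n t + F y' n t)
    (hs : ∀ (a : ℝ) y n t, F (a • y) n t = a * F y n t) :
    ∃ L : Y →L[ℝ] PulX, ‖L‖ ≤ C ∧ ∀ y n t, L y (n, t) = F y n t := by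
  obtain ⟨L, h1, h2⟩ := pul_exists_clm (fun y (z : Ix × ℝ) => F y z.1 z.2)
    (fun y => continuous_prod_of_discrete_left.2 fun n => hc y n) C hC
    (fun y z => hb y z.1 z.2) (fun y y' z => ha y y' z.1 z.2) (fun a y z => hs a y z.1 z.2)
  exact ⟨L, h1, fun y n t => h2 y (n, t)⟩

theorem pul_exists_ev (t : ℝ) : ∃ L : PulX →L[ℝ] W, ‖L‖ ≤ 1 ∧ ∀ v n, L v n = v (n, t) :=
  pul_exists_clm (fun (v : PulX) (n : Ix) => v (n, t)) (fun _ => continuous_of_discreteTopology) 1
    zero_le_one (fun v n => by simpa using v.norm_coe_le_norm (n, t)) (fun _ _ _ => rfl)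
    (fun _ _ _ => rfl)

/-- Clamping to the pulse interval. -/
def pulCl (s t : ℝ) : ℝ := max s (min t (s + 1))

theorem pulCl_cont (s : ℝ) : Continuous (pulCl s) := by
  unfold pulCl; fun_prop

theorem pulCl_lo (s t : ℝ) : s ≤ pulCl s t := le_max_left _ _

theorem pulCl_hi (s t : ℝ) : pulCl s t ≤ s + 1 := max_le (by linarith) (min_le_right _ _)

theorem pulCl_eq {s t : ℝ} (h : t ∈ Icc s (s + 1)) : pulCl s t = t := by
  unfold pulCl; rw [min_eq_left h.2, max_eq_right h.1]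

theorem pul_int_right {h : ℝ → ℝ} {a b M μ : ℝ} (hab : a ≤ b) (hμ : 0 < μ) (hM : 0 ≤ M)
    (hb : ∀ r ∈ Icc a b, |h r| ≤ M * Real.exp (-(μ * (r - a)))) : |∫ r in a..b, h r| ≤ M / μ := by
  have hd : ∀ r, HasDerivAt (fun r => -(M / μ) * Real.exp (-(μ * (r - a))))
      (M * Real.exp (-(μ * (r - a)))) r := by
    intro r
    have h1 : HasDerivAt (fun r => -(μ * (r - a))) (-(μ * 1)) r :=
      (((hasDerivAt_id r).sub_const a).const_mul μ).neg
    have h2 := h1.exp.const_mul (-(M / μ))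
    refine h2.congr_deriv ?_
    field_simp
  have hc : Continuous fun r => M * Real.exp (-(μ * (r - a))) := by fun_prop
  have h1 := intervalIntegral.integral_eq_sub_of_hasDerivAt (fun r _ => hd r)
    (hc.intervalIntegrable a b)
  have h2 : ‖∫ r in a..b, h r‖ ≤ ∫ r in a..b, M * Real.exp (-(μ * (r - a))) :=
    intervalIntegral.norm_integral_le_of_norm_le hab
      (Eventually.of_forall fun r hr => hb r ⟨hr.1.le, hr.2⟩) (hc.intervalIntegrable a b)
  rw [h1] at h2
  have h3 : 0 ≤ M / μ * Real.exp (-(μ * (b - a))) := by positivity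
  simp only [sub_self, mul_zero, neg_zero, Real.exp_zero, Real.norm_eq_abs] at h2
  linarith

theorem pul_int_left {h : ℝ → ℝ} {a b M μ : ℝ} (hab : a ≤ b) (hμ : 0 < μ) (hM : 0 ≤ M)
    (hb : ∀ r ∈ Icc a b, |h r| ≤ M * Real.exp (-(μ * (b - r)))) : |∫ r in a..b, h r| ≤ M / μ := by
  have hd : ∀ r, HasDerivAt (fun r => (M / μ) * Real.exp (-(μ * (b - r))))
      (M * Real.exp (-(μ * (b - r)))) r := by
    intro r
    have h1 : HasDerivAt (fun r => -(μ * (b - r))) (-(μ * (-1))) r :=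
      (((hasDerivAt_id r).const_sub b).const_mul μ).neg
    have h2 := h1.exp.const_mul (M / μ)
    refine h2.congr_deriv ?_
    field_simp
  have hc : Continuous fun r => M * Real.exp (-(μ * (b - r))) := by fun_prop
  have h1 := intervalIntegral.integral_eq_sub_of_hasDerivAt (fun r _ => hd r)
    (hc.intervalIntegrable a b)
  have h2 : ‖∫ r in a..b, h r‖ ≤ ∫ r in a..b, M * Real.exp (-(μ * (b - r))) :=
    intervalIntegral.norm_integral_le_of_norm_le hab
      (Eventually.of_forall fun r hr => hb r ⟨hr.1.le, hr.2⟩) (hc.intervalIntegrable a b)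
  rw [h1] at h2
  have h3 : 0 ≤ M / μ * Real.exp (-(μ * (b - a))) := by positivity
  simp only [sub_self, mul_zero, neg_zero, Real.exp_zero, Real.norm_eq_abs] at h2
  linarith

variable (S : Sys Ix)

theorem pul_ψ_cont (n : Ix) : Continuous (S.ψ n) :=
  continuous_iff_continuousAt.2 fun t => (S.ψ_deriv n t).continuousAt

theorem pul_χ_cont (n : Ix) : Continuous (S.χ n) :=
  continuous_iff_continuousAt.2 fun t => (S.χ_deriv n t).continuousAt

theorem pul_ψ_mono (n : Ix) {s t : ℝ} (h : s ≤ t) : S.ψ n s ≤ S.ψ n t := by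
  have h1 := S.ψ_lo n h
  have h2 : 1 ≤ Real.exp (9 / 10 * S.Λ n * (t - s)) :=
    Real.one_le_exp (mul_nonneg (by linarith [S.one_le n]) (by linarith))
  nlinarith [S.ψ_pos n s]

theorem pul_χ_anti (n : Ix) {s t : ℝ} (h : s ≤ t) : S.χ n t ≤ S.χ n s := by
  have h1 := S.χ_hi n h
  have h2 : 1 ≤ Real.exp (7 / 10 * S.Λ n * (t - s)) :=
    Real.one_le_exp (mul_nonneg (by linarith [S.one_le n]) (by linarith))
  nlinarith [S.χ_pos n t]

theorem pul_exists_U (s : ℝ) : ∃ L : W →L[ℝ] PulX, ‖L‖ ≤ 1 ∧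
    ∀ x n t, L x (n, t) = S.ψ n (pulCl s t) / S.ψ n (s + 1) * x n := by
  refine pul_exists_clmX (fun (x : W) n t => S.ψ n (pulCl s t) / S.ψ n (s + 1) * x n)
    (fun x n => (((pul_ψ_cont S n).comp (pulCl_cont s)).div_const _).mul continuous_const) 1
    zero_le_one (fun x n t => ?_) (fun x y n t => by simp [mul_add])
    (fun a x n t => by simp; ring)
  have h1 := S.ψ_pos n (pulCl s t)
  have h2 := S.ψ_pos n (s + 1)
  rw [abs_mul, abs_of_pos (div_pos h1 h2)]
  exact mul_le_mul ((div_le_one h2).2 (pul_ψ_mono S n (pulCl_hi s t)))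
    (x.norm_coe_le_norm n) (abs_nonneg _) zero_le_one

theorem pul_exists_V (s : ℝ) : ∃ L : W →L[ℝ] PulX, ‖L‖ ≤ 1 ∧
    ∀ x n t, L x (n, t) = S.χ n (pulCl s t) / S.χ n s * x n := by
  refine pul_exists_clmX (fun (x : W) n t => S.χ n (pulCl s t) / S.χ n s * x n)
    (fun x n => (((pul_χ_cont S n).comp (pulCl_cont s)).div_const _).mul continuous_const) 1
    zero_le_one (fun x n t => ?_) (fun x y n t => by simp [mul_add])
    (fun a x n t => by simp; ring)
  have h1 := S.χ_pos n (pulCl s t)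
  have h2 := S.χ_pos n s
  rw [abs_mul, abs_of_pos (div_pos h1 h2)]
  exact mul_le_mul ((div_le_one h2).2 (pul_χ_anti S n (pulCl_lo s t)))
    (x.norm_coe_le_norm n) (abs_nonneg _) zero_le_one

theorem pul_slice_cont (f : PulX) (n : Ix) : Continuous fun r : ℝ => f (n, r) :=
  f.continuous.comp (Continuous.prodMk_right n)

theorem pul_gΛ (n : Ix) (r : ℝ) : S.g n r * S.Λ n ^ 2 ≤ 5 / 9 * S.Λ n := by
  have h1 := S.g_hi n r
  have h2 := S.one_le n
  nlinarith

theorem pul_exists_K1 (s : ℝ) : ∃ L : PulX →L[ℝ] PulX, ‖L‖ ≤ 1 ∧ ∀ f n t, L f (n, t) =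
    -(S.ψ n (pulCl s t) * ∫ r in pulCl s t..s + 1, S.χ n r * (S.Λ n ^ 2 * f (n, r))) := by
  have hc : ∀ (f : PulX) n, Continuous fun r => S.χ n r * (S.Λ n ^ 2 * f (n, r)) := fun f n =>
    (pul_χ_cont S n).mul (continuous_const.mul (pul_slice_cont f n))
  refine pul_exists_clmX (fun (f : PulX) n t =>
    -(S.ψ n (pulCl s t) * ∫ r in pulCl s t..s + 1, S.χ n r * (S.Λ n ^ 2 * f (n, r))))
    (fun f n => ?_) 1 zero_le_one (fun f n t => ?_) (fun f f' n t => ?_) (fun a f n t => ?_)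
  · have h1 : Continuous fun u : ℝ => ∫ r in u..s + 1, S.χ n r * (S.Λ n ^ 2 * f (n, r)) := by
      have h2 : Continuous fun u : ℝ => -∫ r in (s + 1)..u, S.χ n r * (S.Λ n ^ 2 * f (n, r)) :=
        (intervalIntegral.continuous_primitive (fun a b => (hc f n).intervalIntegrable a b) _).neg
      refine h2.congr fun u => ?_
      rw [intervalIntegral.integral_symm, neg_neg]
    exact (((pul_ψ_cont S n).comp (pulCl_cont s)).mul (h1.comp (pulCl_cont s))).neg
  · have hΛ := S.one_le n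
    rw [abs_neg, ← intervalIntegral.integral_const_mul]
    refine (pul_int_right (M := 5 / 9 * S.Λ n * ‖f‖) (μ := 9 / 10 * S.Λ n) (pulCl_hi s t)
      (by linarith) (by positivity) fun r hr => ?_).trans ?_
    · have h1 := S.ψ_lo n hr.1
      have h2 := S.ψ_pos n r
      have h3 := S.ψ_pos n (pulCl s t)
      have h4 := S.g_pos n r
      have h5 : S.ψ n (pulCl s t) / S.ψ n r ≤
          Real.exp (-(9 / 10 * S.Λ n * (r - pulCl s t))) := by
        rw [Real.exp_neg, div_le_iff₀ h2, ← div_eq_inv_mul, le_div_iff₀ (Real.exp_pos _)]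
        linarith
      have h6 : S.ψ n (pulCl s t) * (S.χ n r * (S.Λ n ^ 2 * f (n, r))) =
          (S.g n r * S.Λ n ^ 2 * f (n, r)) * (S.ψ n (pulCl s t) / S.ψ n r) := by
        unfold Sys.χ; ring
      rw [h6, abs_mul, abs_mul, abs_of_pos (div_pos h3 h2), abs_of_nonneg (by positivity)]
      exact mul_le_mul (mul_le_mul (pul_gΛ S n r) (f.norm_coe_le_norm _) (abs_nonneg _)
        (by positivity)) h5 (by positivity) (by positivity)
    · rw [div_le_iff₀ (by linarith)]
      nlinarith [mul_nonneg (norm_nonneg f) (by linarith : (0 : ℝ) ≤ S.Λ n)]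
  · simp only [BoundedContinuousFunction.coe_add, Pi.add_apply, mul_add]
    rw [intervalIntegral.integral_add ((hc f n).intervalIntegrable _ _)
      ((hc f' n).intervalIntegrable _ _)]
    ring
  · have : (fun r => S.χ n r * (S.Λ n ^ 2 * (a • f) (n, r))) =
        fun r => a * (S.χ n r * (S.Λ n ^ 2 * f (n, r))) := by
      ext r; simp; ring
    simp only [this, intervalIntegral.integral_const_mul]
    ring

theorem pul_exists_K2 (s : ℝ) : ∃ L : PulX →L[ℝ] PulX, ‖L‖ ≤ 1 ∧ ∀ f n t, L f (n, t) =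
    -(S.χ n (pulCl s t) * ∫ r in s..pulCl s t, S.ψ n r * (S.Λ n ^ 2 * f (n, r))) := by
  have hc : ∀ (f : PulX) n, Continuous fun r => S.ψ n r * (S.Λ n ^ 2 * f (n, r)) := fun f n =>
    (pul_ψ_cont S n).mul (continuous_const.mul (pul_slice_cont f n))
  refine pul_exists_clmX (fun (f : PulX) n t =>
    -(S.χ n (pulCl s t) * ∫ r in s..pulCl s t, S.ψ n r * (S.Λ n ^ 2 * f (n, r))))
    (fun f n => ?_) 1 zero_le_one (fun f n t => ?_) (fun f f' n t => ?_) (fun a f n t => ?_)
  · have h1 : Continuous fun u : ℝ => ∫ r in s..u, S.ψ n r * (S.Λ n ^ 2 * f (n, r)) :=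
      intervalIntegral.continuous_primitive (fun a b => (hc f n).intervalIntegrable a b) _
    exact (((pul_χ_cont S n).comp (pulCl_cont s)).mul (h1.comp (pulCl_cont s))).neg
  · have hΛ := S.one_le n
    rw [abs_neg, ← intervalIntegral.integral_const_mul]
    refine (pul_int_left (M := 5 / 9 * S.Λ n * ‖f‖) (μ := 7 / 10 * S.Λ n) (pulCl_lo s t)
      (by linarith) (by positivity) fun r hr => ?_).trans ?_
    · have h1 := S.χ_hi n hr.2
      have h2 := S.χ_pos n r
      have h3 := S.χ_pos n (pulCl s t)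
      have h4 := S.g_pos n r
      have h7 := S.ψ_pos n r
      have h5 : S.χ n (pulCl s t) / S.χ n r ≤
          Real.exp (-(7 / 10 * S.Λ n * (pulCl s t - r))) := by
        rw [Real.exp_neg, div_le_iff₀ h2, ← div_eq_inv_mul, le_div_iff₀ (Real.exp_pos _)]
        linarith
      have h6 : S.χ n (pulCl s t) * (S.ψ n r * (S.Λ n ^ 2 * f (n, r))) =
          (S.g n r * S.Λ n ^ 2 * f (n, r)) * (S.χ n (pulCl s t) / S.χ n r) := by
        have : S.χ n r = S.g n r / S.ψ n r := rfl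
        rw [this]; field_simp
      rw [h6, abs_mul, abs_mul, abs_of_pos (div_pos h3 h2), abs_of_nonneg (by positivity)]
      exact mul_le_mul (mul_le_mul (pul_gΛ S n r) (f.norm_coe_le_norm _) (abs_nonneg _)
        (by positivity)) h5 (by positivity) (by positivity)
    · rw [div_le_iff₀ (by linarith)]
      nlinarith [mul_nonneg (norm_nonneg f) (by linarith : (0 : ℝ) ≤ S.Λ n)]
  · simp only [BoundedContinuousFunction.coe_add, Pi.add_apply, mul_add]
    rw [intervalIntegral.integral_add ((hc f n).intervalIntegrable _ _)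
      ((hc f' n).intervalIntegrable _ _)]
    ring
  · have : (fun r => S.ψ n r * (S.Λ n ^ 2 * (a • f) (n, r))) =
        fun r => a * (S.ψ n r * (S.Λ n ^ 2 * f (n, r))) := by
      ext r; simp; ring
    simp only [this, intervalIntegral.integral_const_mul]
    ring

theorem pul_cpl_bd (N : Ix → Finset Ix) {T : Type} [Fintype T] (β : T → Ix → Ix → ℝ)
    (hβ : ∀ n, ∑ a, ∑ m ∈ N n, |β a n m| ≤ 1) (k : ℝ →ᵇ (T → ℝ)) (v : PulX) (n : Ix) (t : ℝ) :
    |∑ m ∈ N n, cpl β k t n m * v (m, t)| ≤ ‖k‖ * ‖v‖ := by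
  have h1 : ∀ m, |cpl β k t n m * v (m, t)| ≤ ∑ a, ‖k‖ * ‖v‖ * |β a n m| := by
    intro m
    unfold cpl
    rw [Finset.sum_mul]
    refine (Finset.abs_sum_le_sum_abs _ _).trans (Finset.sum_le_sum fun a _ => ?_)
    have h2 : |k t a| ≤ ‖k‖ := (norm_le_pi_norm (k t) a).trans (k.norm_coe_le_norm t)
    have h3 : |v (m, t)| ≤ ‖v‖ := v.norm_coe_le_norm _
    rw [abs_mul, abs_mul]
    calc |k t a| * |β a n m| * |v (m, t)| = |k t a| * |v (m, t)| * |β a n m| := by ring
      _ ≤ _ := mul_le_mul_of_nonneg_right (mul_le_mul h2 h3 (abs_nonneg _) (norm_nonneg _))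
          (abs_nonneg _)
  refine (Finset.abs_sum_le_sum_abs _ _).trans ((Finset.sum_le_sum fun m _ => h1 m).trans ?_)
  rw [Finset.sum_comm]
  simp only [← Finset.mul_sum]
  exact mul_le_of_le_one_right (by positivity) (hβ n)

theorem pul_exists_B (N : Ix → Finset Ix) {T : Type} [Fintype T] (β : T → Ix → Ix → ℝ)
    (hβ : ∀ n, ∑ a, ∑ m ∈ N n, |β a n m| ≤ 1) :
    ∃ B : (ℝ →ᵇ (T → ℝ)) → PulX →L[ℝ] PulX, Continuous B ∧ (∀ k, ‖B k‖ ≤ ‖k‖) ∧
      ∀ k v n t, B k v (n, t) = ∑ m ∈ N n, cpl β k t n m * v (m, t) := by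
  have h : ∀ k : ℝ →ᵇ (T → ℝ), ∃ L : PulX →L[ℝ] PulX, ‖L‖ ≤ ‖k‖ ∧
      ∀ v n t, L v (n, t) = ∑ m ∈ N n, cpl β k t n m * v (m, t) := by
    intro k
    refine pul_exists_clmX (fun (v : PulX) n t => ∑ m ∈ N n, cpl β k t n m * v (m, t))
      (fun v n => ?_) ‖k‖ (norm_nonneg _) (pul_cpl_bd N β hβ k)
      (fun v v' n t => by simp [mul_add, Finset.sum_add_distrib])
      (fun a v n t => by simp [Finset.mul_sum, mul_left_comm])
    refine continuous_finsetSum _ fun m _ => Continuous.mul ?_ (pul_slice_cont v m)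
    unfold cpl
    exact continuous_finsetSum _ fun a _ =>
      ((continuous_apply a).comp k.continuous).mul continuous_const
  choose B h1 h2 using h
  refine ⟨B, ?_, h1, h2⟩
  refine (LipschitzWith.of_dist_le_mul (K := 1) (f := B) fun k k' => ?_).continuous
  have h0 : dist (B k) (B k') = ‖B k - B k'‖ := dist_eq_norm (B k) (B k')
  rw [h0, dist_eq_norm k k', NNReal.coe_one, one_mul]
  refine ContinuousLinearMap.opNorm_le_bound _ (norm_nonneg _) fun v => ?_
  refine (BoundedContinuousFunction.norm_le (by positivity)).2 fun z => ?_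
  obtain ⟨n, t⟩ := z
  have h3 : (B k - B k') v (n, t) = ∑ m ∈ N n, cpl β (k - k' : ℝ →ᵇ (T → ℝ)) t n m * v (m, t) := by
    simp only [sub_apply, BoundedContinuousFunction.coe_sub, Pi.sub_apply, h2,
      cpl, ← Finset.sum_sub_distrib, ← sub_mul]
  rw [h3]
  exact pul_cpl_bd N β hβ (k - k') v n t

end Vale.Agent.P225
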