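import Mathlib
import Vale.Agent.P225.Scalar
import Vale.Agent.P225.PulseA

/-! One pulse: the scattering operators. -/

open scoped ContDiff Matrix Topology BoundedContinuousFunction
open Filter Set

noncomputable section

namespace Vale.Agent.P225

theorem pul_apply_le {Y Z : Type} [NormedAddCommGroup Y] [NormedSpace ℝ Y] [NormedAddCommGroup Z]
    [NormedSpace ℝ Z] {L : Y →L[ℝ] Z} {C : ℝ} (h : ‖L‖ ≤ C) (y : Y) : ‖L y‖ ≤ C * ‖y‖ :=
  L.le_of_opNorm_le h y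

/-- The abstract fixed point. -/
theorem pul_solve {X Y K : Type} [NormedAddCommGroup X] [NormedSpace ℝ X] [CompleteSpace X]
    [NormedAddCommGroup Y] [NormedSpace ℝ Y] [NormedAddCommGroup K]
    (U : Y →L[ℝ] X) (P K1 K2 : X →L[ℝ] X) (B : K → X →L[ℝ] X) (hP : ‖P‖ ≤ 1 / 4)
    (h1 : ‖K1‖ ≤ 1) (h2 : ‖K2‖ ≤ 1) (hB : Continuous B) (hB' : ∀ k, ‖B k‖ ≤ ‖k‖) :
    ∃ Sol : K → Y →L[ℝ] X, ContinuousOn Sol (Metric.closedBall 0 (1 / 100)) ∧
      ∀ k, ‖k‖ ≤ 1 / 100 → ∀ x, Sol k x = (U x + K1 (B k (Sol k x))) +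
        (P (U x + K1 (B k (Sol k x))) + K2 (B k (Sol k x))) := by
  let T : K → X →L[ℝ] X := fun k => (K1 + P * K1 + K2) * B k
  have hT : ∀ k, ‖k‖ ≤ 1 / 100 → ‖T k‖ < 1 := by
    intro k hk
    have h3 : ‖K1 + P * K1 + K2‖ ≤ 3 := by
      have h4 := norm_add₃_le (a := K1) (b := P * K1) (c := K2)
      have h5 := norm_mul_le P K1
      nlinarith [norm_nonneg P, norm_nonneg K1]
    have h4 := norm_mul_le (K1 + P * K1 + K2) (B k)
    have h5 := hB' k
    have h6 : ‖K1 + P * K1 + K2‖ * ‖B k‖ ≤ 3 * (1 / 100) :=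
      mul_le_mul h3 (h5.trans hk) (norm_nonneg _) (by norm_num)
    show ‖(K1 + P * K1 + K2) * B k‖ < 1
    linarith
  have hTc : Continuous fun k => 1 - T k := continuous_const.sub (continuous_const.mul hB)
  refine ⟨fun k => (Ring.inverse (1 - T k) * (1 + P)).comp U, ?_, ?_⟩
  · intro k hk
    have hk' : ‖k‖ ≤ 1 / 100 := by simpa using hk
    have h3 : ContinuousAt (fun k => Ring.inverse (1 - T k)) k := by
      have h4 := NormedRing.inverse_continuousAt (Units.oneSub (T k) (hT k hk'))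
      exact ContinuousAt.comp (f := fun k => 1 - T k) h4 hTc.continuousAt
    exact ((h3.mul continuousAt_const).clm_comp continuousAt_const).continuousWithinAt
  · intro k hk x
    have h3 : IsUnit (1 - T k) := (Units.oneSub (T k) (hT k hk)).isUnit
    have h4 := Ring.mul_inverse_cancel _ h3
    set z := ((Ring.inverse (1 - T k) * (1 + P)).comp U) x with hz
    have h5 : (1 - T k) z = (1 + P) (U x) := by
      have : z = Ring.inverse (1 - T k) ((1 + P) (U x)) := rfl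
      rw [this, ← mul_apply_eq_comp, h4, one_apply_eq_self]
    simp only [T, sub_apply, one_apply_eq_self,
      mul_apply_eq_comp, add_apply] at h5
    rw [map_add]
    have h6 := sub_eq_iff_eq_add.1 h5
    exact h6.trans (by abel)

theorem pulse_step (S : Sys Ix) (N : Ix → Finset Ix) {T : Type} [Fintype T] (β : T → Ix → Ix → ℝ)
    (hβ : ∀ n, ∑ a, ∑ m ∈ N n, |β a n m| ≤ 1) (s : ℝ) (Eo : W →L[ℝ] W) (hE : ‖Eo‖ ≤ 1 / 4) :
    ∃ No E' : (ℝ →ᵇ (T → ℝ)) → W →L[ℝ] W, ContinuousOn No (Metric.closedBall 0 (1 / 100)) ∧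
      ∀ k : ℝ →ᵇ (T → ℝ), ‖k‖ ≤ 1 / 100 → ‖No k‖ ≤ 2 ∧ ‖E' k‖ ≤ 1 ∧ ∀ x : W,
        (∃ v, S.PSol N (cpl β k) s (No k x) (Eo (No k x)) x (E' k x) (2 * ‖x‖) v) ∧
        (∀ m, |No k x m - S.ψ m s / S.ψ m (s + 1) * x m| ≤ 10 * ‖k‖ * ‖x‖) ∧
        ∀ m, |No k x m - S.ψ m s / S.ψ m (s + 1) * x m +
          ∫ r in s..s + 1, ∑ i ∈ N m, S.ker s m i r * cpl β k r m i * x i| ≤
            100 * ‖k‖ * (‖k‖ + ‖Eo‖) * ‖x‖ := by
  obtain ⟨U, hU, eU⟩ := pul_exists_U S s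
  obtain ⟨Vv, hV, eV⟩ := pul_exists_V S s
  obtain ⟨K1, hK1, eK1⟩ := pul_exists_K1 S s
  obtain ⟨K2, hK2, eK2⟩ := pul_exists_K2 S s
  obtain ⟨B, cB, hB, eB⟩ := pul_exists_B N β hβ
  obtain ⟨e0, he0, ee0⟩ := pul_exists_ev s
  obtain ⟨e1, he1, ee1⟩ := pul_exists_ev (s + 1)
  have hs0 : s ∈ Icc s (s + 1) := ⟨le_rfl, by linarith⟩
  have hs1 : s + 1 ∈ Icc s (s + 1) := ⟨by linarith, le_rfl⟩
  let P : PulX →L[ℝ] PulX := Vv.comp (Eo.comp e0)
  have hPE : ∀ z, ‖P z‖ ≤ ‖Eo‖ * ‖z‖ := fun z => by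
    have h1 := pul_apply_le hV (Eo (e0 z))
    have h2 := Eo.le_opNorm (e0 z)
    have h3 := pul_apply_le he0 z
    have h4 : ‖Eo‖ * ‖e0 z‖ ≤ ‖Eo‖ * ‖z‖ :=
      mul_le_mul_of_nonneg_left (by linarith) (norm_nonneg Eo)
    show ‖Vv (Eo (e0 z))‖ ≤ _
    linarith
  have hP : ‖P‖ ≤ 1 / 4 := (P.opNorm_le_bound (norm_nonneg Eo) hPE).trans hE
  obtain ⟨Sol, cS, eS⟩ := pul_solve U P K1 K2 B hP hK1 hK2 cB hB
  let Al : (ℝ →ᵇ (T → ℝ)) → W →L[ℝ] PulX := fun k => U + K1.comp ((B k).comp (Sol k))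
  let Be : (ℝ →ᵇ (T → ℝ)) → W →L[ℝ] PulX := fun k =>
    P.comp (Al k) + K2.comp ((B k).comp (Sol k))
  have eAl : ∀ k x, Al k x = U x + K1 (B k (Sol k x)) := fun _ _ => rfl
  have eBe : ∀ k x, Be k x = P (Al k x) + K2 (B k (Sol k x)) := fun _ _ => rfl
  refine ⟨fun k => e0.comp (Al k), fun k => e1.comp (Be k), ?_, fun k hk => ?_⟩
  · exact continuousOn_const.clm_comp (continuousOn_const.add
      (continuousOn_const.clm_comp (cB.continuousOn.clm_comp cS)))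
  have hk0 := norm_nonneg k
  have hE0 := norm_nonneg Eo
  have hBz : ∀ z, ‖B k z‖ ≤ ‖k‖ * ‖z‖ := pul_apply_le (hB k)
  have key : ∀ x, ‖Sol k x‖ ≤ 13 / 10 * ‖x‖ ∧ ‖B k (Sol k x)‖ ≤ 13 / 10 * ‖k‖ * ‖x‖ ∧
      ‖Al k x‖ ≤ 11 / 10 * ‖x‖ ∧ ‖Be k x‖ ≤ ‖x‖ ∧
      ‖Sol k x - U x‖ ≤ 4 * (‖k‖ + ‖Eo‖) * ‖x‖ := by
    intro x
    have hx := norm_nonneg x
    have h0 := eS k hk x
    set z := Sol k x
    have hz := norm_nonneg z
    have h1 := hBz z
    have h1' : ‖k‖ * ‖z‖ ≤ 1 / 100 * ‖z‖ := mul_le_mul_of_nonneg_right hk hz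
    have h2 := pul_apply_le hK1 (B k z)
    have h3 := pul_apply_le hK2 (B k z)
    have h4 := pul_apply_le hU x
    have h5 := norm_add_le (U x) (K1 (B k z))
    have h6 := pul_apply_le hP (U x + K1 (B k z))
    have h7 := norm_add_le (P (U x + K1 (B k z))) (K2 (B k z))
    have h8 : ‖z‖ ≤ ‖U x + K1 (B k z)‖ + ‖P (U x + K1 (B k z)) + K2 (B k z)‖ := by
      conv_lhs => rw [h0]
      exact norm_add_le _ _
    have h9 : ‖z‖ ≤ 13 / 10 * ‖x‖ := by linarith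
    have h10 : ‖k‖ * ‖z‖ ≤ ‖k‖ * (13 / 10 * ‖x‖) := mul_le_mul_of_nonneg_left h9 hk0
    have h11 : z - U x = K1 (B k z) + (P (U x + K1 (B k z)) + K2 (B k z)) := by
      conv_lhs => rw [h0]
      abel
    have h12 := norm_add_le (K1 (B k z)) (P (U x + K1 (B k z)) + K2 (B k z))
    have h13 := hPE (U x + K1 (B k z))
    have h14 : ‖Eo‖ * ‖U x + K1 (B k z)‖ ≤ ‖Eo‖ * (11 / 10 * ‖x‖) :=
      mul_le_mul_of_nonneg_left (by linarith) hE0
    have h15 := mul_nonneg hk0 hx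
    have h16 := mul_nonneg hE0 hx
    refine ⟨h9, by linarith, ?_, ?_, ?_⟩
    · rw [eAl]; linarith
    · rw [eBe, eAl]; linarith
    · rw [h11]; linarith
  refine ⟨?_, ?_, fun x => ?_⟩
  · refine ContinuousLinearMap.opNorm_le_bound _ (by norm_num) fun x => ?_
    have h1 := pul_apply_le he0 (Al k x)
    have h2 := (key x).2.2.1
    have h3 := norm_nonneg x
    show ‖e0 (Al k x)‖ ≤ _
    linarith
  · refine ContinuousLinearMap.opNorm_le_bound _ (by norm_num) fun x => ?_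
    have h1 := pul_apply_le he1 (Be k x)
    have h2 := (key x).2.2.2.1
    show ‖e1 (Be k x)‖ ≤ _
    linarith
  obtain ⟨-, k2, k3, k4, k5⟩ := key x
  have hx := norm_nonneg x
  have hkx := mul_nonneg hk0 hx
  have hsrc : ∀ n r, S.src N (cpl β k) (fun m t => Sol k x (m, t)) n r =
      S.Λ n ^ 2 * B k (Sol k x) (n, r) := fun n r => by rw [eB]; rfl
  have hal : ∀ n, ∀ t ∈ Icc s (s + 1),
      S.al N (cpl β k) s x (fun m t => Sol k x (m, t)) n t = Al k x (n, t) := by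
    intro n t ht
    rw [eAl, BoundedContinuousFunction.add_apply, eU, eK1, pulCl_eq ht]
    simp only [Sys.al, hsrc]
    ring
  have hbe : ∀ n, ∀ t ∈ Icc s (s + 1),
      S.be N (cpl β k) s (Eo (e0 (Al k x))) (fun m t => Sol k x (m, t)) n t = Be k x (n, t) := by
    intro n t ht
    have : P (Al k x) = Vv (Eo (e0 (Al k x))) := rfl
    rw [eBe, BoundedContinuousFunction.add_apply, this, eV, eK2, pulCl_eq ht]
    simp only [Sys.be, hsrc]
    ring
  have hNo : ∀ m, e0 (Al k x) m - S.ψ m s / S.ψ m (s + 1) * x m = K1 (B k (Sol k x)) (m, s) := by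
    intro m
    rw [ee0, eAl, BoundedContinuousFunction.add_apply, eU, pulCl_eq hs0]
    ring
  refine ⟨⟨fun m t => Sol k x (m, t), ⟨fun n => pul_slice_cont _ n, fun n t ht => ?_,
    fun n => ?_, fun n => ?_, fun n t ht => ?_, fun n t ht => ?_⟩⟩, fun m => ?_, fun m => ?_⟩
  · show Sol k x (n, t) = _ + S.be N (cpl β k) s (Eo (e0 (Al k x))) _ n t
    rw [hal n t ht, hbe n t ht, ← BoundedContinuousFunction.add_apply, eBe, eAl, ← eS k hk x]
  · show e0 (Al k x) n = _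
    rw [hal n s hs0, ee0]
  · show e1 (Be k x) n = S.be N (cpl β k) s (Eo (e0 (Al k x))) _ n (s + 1)
    rw [hbe n _ hs1, ee1]
  · rw [hal n t ht]
    have := (Al k x).norm_coe_le_norm (n, t)
    rw [Real.norm_eq_abs] at this
    linarith
  · show |S.be N (cpl β k) s (Eo (e0 (Al k x))) _ n t| ≤ _
    rw [hbe n t ht]
    have := (Be k x).norm_coe_le_norm (n, t)
    rw [Real.norm_eq_abs] at this
    linarith
  · show |e0 (Al k x) m - _| ≤ _
    rw [hNo]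
    have h1 := (K1 (B k (Sol k x))).norm_coe_le_norm (m, s)
    have h2 := pul_apply_le hK1 (B k (Sol k x))
    rw [Real.norm_eq_abs] at h1
    linarith
  · show |e0 (Al k x) m - _ + _| ≤ _
    have h0 : ∫ r in s..s + 1, ∑ i ∈ N m, S.ker s m i r * cpl β k r m i * x i =
        -K1 (B k (U x)) (m, s) := by
      rw [eK1, pulCl_eq hs0, neg_neg, ← intervalIntegral.integral_const_mul]
      refine intervalIntegral.integral_congr fun r hr => ?_
      rw [uIcc_of_le (by linarith)] at hr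
      simp only [eB, eU, pulCl_eq hr, Finset.mul_sum]
      refine Finset.sum_congr rfl fun i _ => ?_
      unfold Sys.ker Sys.χ
      ring
    rw [hNo, h0, ← sub_eq_add_neg, ← BoundedContinuousFunction.sub_apply, ← map_sub, ← map_sub]
    have h1 := (K1 (B k (Sol k x - U x))).norm_coe_le_norm (m, s)
    have h2 := pul_apply_le hK1 (B k (Sol k x - U x))
    have h3 := hBz (Sol k x - U x)
    have h4 := mul_le_mul_of_nonneg_left k5 hk0
    have h5 : 0 ≤ ‖k‖ * (‖k‖ + ‖Eo‖) * ‖x‖ := by positivity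
    rw [Real.norm_eq_abs] at h1
    nlinarith

end Vale.Agent.P225
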