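import Mathlib
import Vale.Agent.P225.Pulse

/-! Exact control by one pulse: one sector. -/

open scoped ContDiff Matrix Topology BoundedContinuousFunction
open Filter Set

noncomputable section

namespace Vale.Agent.P225

theorem ctl_diag (a : Ix → ℝ) (C : ℝ) (hC : 0 ≤ C) (h : ∀ n, |a n| ≤ C) :
    ∃ L : W →L[ℝ] W, ‖L‖ ≤ C ∧ ∀ x n, L x n = a n * x n :=
  pul_exists_clm (fun (x : W) (n : Ix) => a n * x n) (fun _ => continuous_of_discreteTopology) C hC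
    (fun x n => by
      rw [abs_mul]
      exact mul_le_mul (h n) (x.norm_coe_le_norm n) (abs_nonneg _) hC)
    (fun _ _ _ => by simp [mul_add]) (fun _ _ _ => by simp; ring)

theorem ctl_eW (i j : Ix) : eW i j = if j = i then 1 else 0 := by
  have : eW i j = (Pi.single i (1 : ℝ) : Ix → ℝ) j := rfl
  rw [this, Pi.single_apply]

theorem ctl_eW_norm (i : Ix) : ‖eW i‖ ≤ 1 :=
  (BoundedContinuousFunction.norm_le zero_le_one).2 fun j => by
    rw [ctl_eW]; split_ifs <;> simp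

theorem ctl_split (B' : Finset Ix) (x : W) (j : Ix) :
    (x - ∑ i ∈ B', x i • eW i) j = if j ∈ B' then 0 else x j := by
  rw [BoundedContinuousFunction.sub_apply, BoundedContinuousFunction.sum_apply]
  simp only [BoundedContinuousFunction.smul_apply, ctl_eW, smul_eq_mul, mul_ite, mul_one, mul_zero,
    Finset.sum_ite_eq]
  split_ifs <;> simp

theorem ctl_hat (S : Sys Ix) {B B' : Finset Ix} (hB : B ⊆ B')
    (hgap : ∀ m ∈ B, ∀ h ∉ B', 11 / 10 * S.Λ m + 1 ≤ 9 / 10 * S.Λ h) {t0 s C : ℝ} (hts : t0 ≤ s)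
    {Eo : W →L[ℝ] W} {R : Ix → W →L[ℝ] ℝ} (hG : Good B B' C Eo R) {D : W →L[ℝ] W}
    (eD : ∀ x n, D x n = S.ψ n t0 / S.ψ n s * x n) {m : Ix} (hm : m ∈ B) (x : W) {a : ℝ}
    (ha : 0 ≤ a) (hx : ∀ h ∉ B', |x h| ≤ a) :
    |S.ψ m s / S.ψ m t0 * R m (D x) - x m| ≤ C * Real.exp (-(s - t0)) * a := by
  set z := x - ∑ i ∈ B', x i • eW i with hz
  have hC : 0 ≤ C := (norm_nonneg (R m)).trans (hG.R_le m hm)
  have p0 := S.ψ_pos m t0
  have p1 := S.ψ_pos m s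
  have h1 : x = z + ∑ i ∈ B', x i • eW i := by rw [hz]; abel
  have h2 : ∀ i, D (eW i) = (S.ψ i t0 / S.ψ i s) • eW i := by
    intro i
    ext j
    rw [eD, BoundedContinuousFunction.smul_apply, ctl_eW, smul_eq_mul]
    split_ifs with h
    · rw [h]
    · simp
  have h3 : R m (D x) = R m (D z) + S.ψ m t0 / S.ψ m s * x m := by
    conv_lhs => rw [h1]
    rw [map_add, map_add, map_sum, map_sum]
    congr 1
    rw [Finset.sum_congr rfl (g := fun i => if m = i then S.ψ i t0 / S.ψ i s * x i else 0)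
      fun i hi => by
        rw [map_smul, h2, map_smul, map_smul, hG.R_eq m hm i hi]
        split_ifs <;> simp [mul_comm]]
    rw [Finset.sum_ite_eq, if_pos (hB hm)]
  have h4 : ‖D z‖ ≤ Real.exp (-((11 / 10 * S.Λ m + 1) * (s - t0))) * a := by
    refine (BoundedContinuousFunction.norm_le (by positivity)).2 fun j => ?_
    rw [eD, hz, ctl_split]
    split_ifs with h
    · simp; positivity
    · have q0 := S.ψ_pos j t0
      have q1 := S.ψ_pos j s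
      have q2 := S.ψ_lo j hts
      have q3 : Real.exp ((11 / 10 * S.Λ m + 1) * (s - t0)) ≤
          Real.exp (9 / 10 * S.Λ j * (s - t0)) :=
        Real.exp_le_exp.2 (mul_le_mul_of_nonneg_right (hgap m hm j h) (by linarith))
      have q4 : S.ψ j t0 / S.ψ j s ≤ Real.exp (-((11 / 10 * S.Λ m + 1) * (s - t0))) := by
        rw [Real.exp_neg, div_le_iff₀ q1, ← div_eq_inv_mul, le_div_iff₀ (Real.exp_pos _)]
        nlinarith
      rw [Real.norm_eq_abs, abs_mul, abs_of_pos (div_pos q0 q1)]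
      exact mul_le_mul q4 (hx j h) (abs_nonneg _) (Real.exp_pos _).le
  have h5 : S.ψ m s / S.ψ m t0 ≤ Real.exp (11 / 10 * S.Λ m * (s - t0)) := by
    rw [div_le_iff₀ p0]; exact S.ψ_hi m hts
  have h6 : S.ψ m s / S.ψ m t0 * R m (D x) - x m = S.ψ m s / S.ψ m t0 * R m (D z) := by
    rw [h3]; field_simp; ring
  have h7 : |R m (D z)| ≤ C * ‖D z‖ := pul_apply_le (hG.R_le m hm) (D z)
  rw [h6, abs_mul, abs_of_pos (div_pos p1 p0)]
  calc S.ψ m s / S.ψ m t0 * |R m (D z)| ≤ Real.exp (11 / 10 * S.Λ m * (s - t0)) *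
        (C * (Real.exp (-((11 / 10 * S.Λ m + 1) * (s - t0))) * a)) :=
        mul_le_mul h5 (h7.trans (mul_le_mul_of_nonneg_left h4 hC)) (abs_nonneg _)
          (Real.exp_pos _).le
    _ = C * (Real.exp (11 / 10 * S.Λ m * (s - t0)) *
        Real.exp (-((11 / 10 * S.Λ m + 1) * (s - t0)))) * a := by ring
    _ = _ := by rw [← Real.exp_add]; congr 3; ring

theorem ctl_sector (S : Sys Ix) (N : Ix → Finset Ix) {T : Type} [Fintype T]
    (β : T → Ix → Ix → ℝ) (hβ : ∀ n, ∑ a, ∑ m ∈ N n, |β a n m| ≤ 1) {B B' : Finset Ix}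
    (hB : B ⊆ B') (hgap : ∀ m ∈ B, ∀ h ∉ B', 11 / 10 * S.Λ m + 1 ≤ 9 / 10 * S.Λ h)
    {t0 s C δ : ℝ} (hts : t0 ≤ s) {Eo : W →L[ℝ] W} {R : Ix → W →L[ℝ] ℝ} (hG : Good B B' C Eo R)
    (hC : 0 ≤ C) (hδ : Real.exp (-(7 / 10 * (s - t0))) ≤ δ) (hδ4 : δ ≤ 1 / 4) (hCδ : C * δ ≤ 1) :
    ∃ (Rt : (ℝ →ᵇ (T → ℝ)) → Ix → W →L[ℝ] ℝ) (No E' : (ℝ →ᵇ (T → ℝ)) → W →L[ℝ] W),
      (∀ m x, ContinuousOn (fun k => Rt k m x) (Metric.closedBall 0 (1 / 100))) ∧
      ∀ k : ℝ →ᵇ (T → ℝ), ‖k‖ ≤ 1 / 100 → ‖E' k‖ ≤ 1 ∧ (∀ m ∈ B, ‖Rt k m‖ ≤ 4) ∧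
        (∀ m x, R m (No k x) = S.ψ m t0 / S.ψ m s * Rt k m x) ∧
        (∀ x : W, ∃ x0 y0 : Ix → ℝ, ∃ v, S.PSol N (cpl β k) s x0 y0 x (E' k x) (2 * ‖x‖) v ∧
          (∀ n, No k x n = S.ψ n t0 / S.ψ n s * x0 n) ∧
          ∀ n, y0 n = S.χ n s / S.χ n t0 * Eo (No k x) n) ∧
        (∀ m ∈ B, |Rt k m (eW m) - S.ψ m s / S.ψ m (s + 1)| ≤ 20 * ‖k‖) ∧
        ∀ m ∈ B, ∀ i ∈ B', m ≠ i → |Rt k m (eW i) + ∫ r in s..s + 1, S.ker s m i r *
          (if i ∈ N m then cpl β k r m i else 0)| ≤ 100 * ‖k‖ * (‖k‖ + δ) + 10 * (C * δ) * ‖k‖ := by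
  have hδ0 : 0 ≤ δ := (Real.exp_pos _).le.trans hδ
  obtain ⟨D, hD, eD⟩ := ctl_diag (fun n => S.ψ n t0 / S.ψ n s) 1 zero_le_one fun n => by
    rw [abs_of_pos (div_pos (S.ψ_pos n t0) (S.ψ_pos n s)), div_le_one (S.ψ_pos n s)]
    exact pul_ψ_mono S n hts
  obtain ⟨D', hD', eD'⟩ := ctl_diag (fun n => S.χ n s / S.χ n t0) δ hδ0 fun n => by
    have q0 := S.χ_pos n t0
    have q1 := S.χ_pos n s
    have q2 := S.χ_hi n hts
    have q3 : Real.exp (7 / 10 * (s - t0)) ≤ Real.exp (7 / 10 * S.Λ n * (s - t0)) :=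
      Real.exp_le_exp.2 (mul_le_mul_of_nonneg_right (by linarith [S.one_le n]) (by linarith))
    rw [abs_of_pos (div_pos q1 q0)]
    refine le_trans ?_ hδ
    rw [Real.exp_neg, div_le_iff₀ q0, ← div_eq_inv_mul, le_div_iff₀ (Real.exp_pos _)]
    nlinarith
  have hE : ‖D'.comp (Eo.comp D)‖ ≤ δ := by
    refine ContinuousLinearMap.opNorm_le_bound _ hδ0 fun x => ?_
    have h1 := pul_apply_le hD' (Eo (D x))
    have h2 := pul_apply_le hG.E_le (D x)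
    have h3 := pul_apply_le hD x
    have h4 : δ * ‖Eo (D x)‖ ≤ δ * ‖x‖ := mul_le_mul_of_nonneg_left (by linarith) hδ0
    exact h1.trans h4
  obtain ⟨Np, E', cN, hN⟩ := pulse_step S N β hβ s (D'.comp (Eo.comp D)) (hE.trans hδ4)
  have hγ : C * Real.exp (-(s - t0)) ≤ C * δ :=
    mul_le_mul_of_nonneg_left ((Real.exp_le_exp.2 (by linarith)).trans hδ) hC
  have hat : ∀ m ∈ B, ∀ (x : W) (a : ℝ), 0 ≤ a → (∀ h ∉ B', |x h| ≤ a) →
      |S.ψ m s / S.ψ m t0 * R m (D x) - x m| ≤ C * δ * a := fun m hm x a ha hx =>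
    (ctl_hat S hB hgap hts hG eD hm x ha hx).trans (mul_le_mul_of_nonneg_right hγ ha)
  refine ⟨fun k m => (S.ψ m s / S.ψ m t0) • (R m).comp (D.comp (Np k)), fun k => D.comp (Np k), E',
    fun m x => ?_, fun k hk => ?_⟩
  · show ContinuousOn (fun k => S.ψ m s / S.ψ m t0 * R m (D (Np k x))) _
    exact continuousOn_const.mul ((R m).continuous.comp_continuousOn
      (D.continuous.comp_continuousOn (cN.clm_apply continuousOn_const)))
  obtain ⟨n1, n2, n3⟩ := hN k hk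
  have hk0 := norm_nonneg k
  have hoff : ∀ m ∈ B, ∀ i ∈ B', |S.ψ m s / S.ψ m t0 * R m (D (Np k (eW i))) - Np k (eW i) m| ≤
      C * δ * (10 * ‖k‖) := by
    intro m hm i hi
    refine hat m hm _ _ (by positivity) fun h hh => ?_
    have h1 := (n3 (eW i)).2.1 h
    rw [ctl_eW, if_neg (fun e : h = i => hh (e ▸ hi)), mul_zero, sub_zero] at h1
    exact h1.trans (mul_le_of_le_one_right (by positivity) (ctl_eW_norm i))
  refine ⟨n2, fun m hm => ?_, fun m x => ?_, fun x => ?_, fun m hm => ?_, fun m hm i hi hmi => ?_⟩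
  · refine ContinuousLinearMap.opNorm_le_bound _ (by norm_num) fun x => ?_
    show |S.ψ m s / S.ψ m t0 * R m (D (Np k x))| ≤ _
    have h1 := hat m hm (Np k x) _ (norm_nonneg _) fun h _ => (Np k x).norm_coe_le_norm h
    have h2 : |Np k x m| ≤ ‖Np k x‖ := (Np k x).norm_coe_le_norm m
    have h3 := pul_apply_le n1 x
    have h4 : C * δ * ‖Np k x‖ ≤ 1 * ‖Np k x‖ := mul_le_mul_of_nonneg_right hCδ (norm_nonneg _)
    have h5 := abs_sub_abs_le_abs_sub (S.ψ m s / S.ψ m t0 * R m (D (Np k x))) (Np k x m)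
    linarith
  · show R m (D (Np k x)) = _ * (S.ψ m s / S.ψ m t0 * R m (D (Np k x)))
    have p0 := S.ψ_pos m t0
    have p1 := S.ψ_pos m s
    field_simp
  · obtain ⟨v, hv⟩ := (n3 x).1
    exact ⟨_, _, v, hv, fun n => eD _ n, fun n => eD' _ n⟩
  · show |S.ψ m s / S.ψ m t0 * R m (D (Np k (eW m))) - _| ≤ _
    have h1 := hoff m hm m (hB hm)
    have h2 := (n3 (eW m)).2.1 m
    rw [ctl_eW, if_pos rfl, mul_one] at h2
    have h3 : 10 * ‖k‖ * ‖eW m‖ ≤ 10 * ‖k‖ :=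
      mul_le_of_le_one_right (by positivity) (ctl_eW_norm m)
    have h4 : C * δ * (10 * ‖k‖) ≤ 1 * (10 * ‖k‖) :=
      mul_le_mul_of_nonneg_right hCδ (by positivity)
    have h5 := abs_sub_le (S.ψ m s / S.ψ m t0 * R m (D (Np k (eW m)))) (Np k (eW m) m)
      (S.ψ m s / S.ψ m (s + 1))
    linarith
  · show |S.ψ m s / S.ψ m t0 * R m (D (Np k (eW i))) + _| ≤ _
    have h1 := hoff m hm i hi
    have h2 := (n3 (eW i)).2.2 m
    have h0 : (fun r => ∑ j ∈ N m, S.ker s m j r * cpl β k r m j * eW i j) =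
        fun r => S.ker s m i r * (if i ∈ N m then cpl β k r m i else 0) := by
      ext r
      simp only [ctl_eW, mul_ite, mul_one, mul_zero, Finset.sum_ite_eq']
    rw [ctl_eW, if_neg hmi, mul_zero, sub_zero, h0] at h2
    have h3 : 100 * ‖k‖ * (‖k‖ + ‖D'.comp (Eo.comp D)‖) * ‖eW i‖ ≤ 100 * ‖k‖ * (‖k‖ + δ) :=
      (mul_le_of_le_one_right (by positivity) (ctl_eW_norm i)).trans
        (mul_le_mul_of_nonneg_left (by linarith) (by positivity))
    have h5 := abs_add_le (S.ψ m s / S.ψ m t0 * R m (D (Np k (eW i))) - Np k (eW i) m)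
      (Np k (eW i) m + ∫ r in s..s + 1, S.ker s m i r * (if i ∈ N m then cpl β k r m i else 0))
    rw [← add_assoc, sub_add_cancel] at h5
    linarith

/-- The algebra of the new functionals. -/
theorem ctl_alg {B B' : Finset Ix} {ε a C : ℝ} {τ : Ix → Ix} {y : Ix → ℝ} (hT : Target B ε τ y)
    (hε : ε ≤ 1) (Rt : Ix → W →L[ℝ] ℝ) (hR : ∀ m ∈ B, ‖Rt m‖ ≤ 4) (ha : 0 < a)
    (hC : 8 ≤ C * a) (hd : ∀ m ∈ B, a ≤ Rt m (eW m))
    (hF : ∀ m ∈ B, ∀ i ∈ B', m ≠ i →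
      Rt m (eW i) = if i = τ m then y m * Rt (τ m) (eW (τ m)) else 0) :
    ∃ R' : Ix → W →L[ℝ] ℝ, (∀ m ∈ B, ‖R' m‖ ≤ C) ∧
      (∀ m ∈ B, ∀ i ∈ B', R' m (eW i) = if m = i then 1 else 0) ∧
      ∀ m ∈ B, ∀ x, Rt m x =
        Rt m (eW m) * R' m x + y m * (Rt (τ m) (eW (τ m)) * R' (τ m) x) := by
  refine ⟨fun m => (Rt m (eW m))⁻¹ • (Rt m - y m • Rt (τ m)), fun m hm => ?_,
    fun m hm i hi => ?_, fun m hm x => ?_⟩
  · have h1 := hd m hm
    have h2 : 0 < Rt m (eW m) := ha.trans_le h1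
    have hC0 : 0 ≤ C := by
      by_contra h
      nlinarith
    refine ContinuousLinearMap.opNorm_le_bound _ hC0 fun x => ?_
    show |(Rt m (eW m))⁻¹ * (Rt m x - y m * Rt (τ m) x)| ≤ _
    have hx := norm_nonneg x
    have h4 : |Rt m x| ≤ 4 * ‖x‖ := pul_apply_le (hR m hm) x
    have h5 : |Rt (τ m) x| ≤ 4 * ‖x‖ := pul_apply_le (hR _ (hT.mem m hm)) x
    have h6 : |y m * Rt (τ m) x| ≤ 1 * (4 * ‖x‖) := by
      rw [abs_mul]
      exact mul_le_mul ((hT.le m hm).trans hε) h5 (abs_nonneg _) zero_le_one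
    have h7 := abs_sub (Rt m x) (y m * Rt (τ m) x)
    have h8 : 8 ≤ C * Rt m (eW m) := hC.trans (mul_le_mul_of_nonneg_left h1 hC0)
    have h9 := mul_le_mul_of_nonneg_right h8 hx
    rw [abs_mul, abs_inv, abs_of_pos h2, ← div_eq_inv_mul, div_le_iff₀ h2]
    nlinarith
  · have h2 : Rt m (eW m) ≠ 0 := (ha.trans_le (hd m hm)).ne'
    show (Rt m (eW m))⁻¹ * (Rt m (eW i) - y m * Rt (τ m) (eW i)) = _
    have hm' := hT.mem m hm
    have hmul := hT.mul m hm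
    split_ifs with h
    · subst h
      have h3 : y m * Rt (τ m) (eW m) = 0 := by
        by_cases h4 : τ m = m
        · rw [h4, mul_self_eq_zero] at hmul
          rw [hmul, zero_mul]
        · rw [hF _ hm' m hi h4, if_pos (hT.inv m hm).symm, ← mul_assoc, hmul, zero_mul]
      rw [h3, sub_zero, inv_mul_cancel₀ h2]
    · rw [hF m hm i hi h]
      split_ifs with h4
      · rw [h4, sub_self, mul_zero]
      · rw [hF _ hm' i hi (Ne.symm h4), hT.inv m hm, if_neg (Ne.symm h)]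
        simp
  · have h2 : Rt m (eW m) ≠ 0 := (ha.trans_le (hd m hm)).ne'
    have h3 : Rt (τ m) (eW (τ m)) ≠ 0 := (ha.trans_le (hd _ (hT.mem m hm))).ne'
    show _ = Rt m (eW m) * ((Rt m (eW m))⁻¹ * (Rt m x - y m * Rt (τ m) x)) +
      y m * (Rt (τ m) (eW (τ m)) * ((Rt (τ m) (eW (τ m)))⁻¹ *
        (Rt (τ m) x - y (τ m) * Rt (τ (τ m)) x)))
    rw [mul_inv_cancel_left₀ h2, mul_inv_cancel_left₀ h3, mul_sub, ← mul_assoc, hT.mul m hm]
    ring

end Vale.Agent.P225
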