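import Mathlib
import Vale.Agent.Lib.Brouwer
import Vale.Agent.P225.Pulse
import Vale.Agent.P225.ControlA

/-! Exact control by one pulse. -/

open scoped ContDiff Matrix Topology BoundedContinuousFunction
open Filter Set

noncomputable section

namespace Vale.Agent.P225

theorem ctl_brouwer {ι : Type} [Fintype ι] {ρ : ℝ} (hρ : 0 ≤ ρ) (Ψ : (ι → ℝ) → ι → ℝ)
    (hc : ContinuousOn Ψ (Metric.closedBall 0 ρ)) (hb : ∀ p, ‖p‖ ≤ ρ → ‖Ψ p‖ ≤ ρ) :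
    ∃ p, ‖p‖ ≤ ρ ∧ Ψ p = p := by
  let cl : (ι → ℝ) → ι → ℝ := fun p z => max (-ρ) (min (p z) ρ)
  have h1 : Continuous cl := by
    refine continuous_pi fun z => ?_
    exact continuous_const.max ((continuous_apply z).min continuous_const)
  have h2 : ∀ p, ‖cl p‖ ≤ ρ := fun p => (pi_norm_le_iff_of_nonneg hρ).2 fun z =>
    abs_le.2 ⟨le_max_left _ _, max_le (by linarith) (min_le_right _ _)⟩
  have h3 : Continuous fun p => Ψ (cl p) :=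
    hc.comp_continuous h1 fun p => by simpa using h2 p
  obtain ⟨p, hp⟩ := Vale.Agent.Lib.Brouwer.exists_fixed _ h3 ρ fun p => hb _ (h2 p)
  have h4 : ‖p‖ ≤ ρ := hp ▸ hb _ (h2 p)
  have h5 : cl p = p := by
    ext z
    have h6 := abs_le.1 ((pi_norm_le_iff_of_nonneg hρ).1 h4 z)
    show max (-ρ) (min (p z) ρ) = p z
    rw [min_eq_left h6.2, max_eq_right h6.1]
  exact ⟨p, h4, by rwa [h5] at hp⟩

theorem ctl_mem {S : Type} [Fintype S] [DecidableEq S] {B B' : S → Finset Ix} {σ : S}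
    {m i : Ix} : (σ, m, i) ∈ prs B B' ↔ m ∈ B σ ∧ i ∈ B' σ ∧ m ≠ i := by
  simp only [prs, Finset.mem_biUnion, Finset.mem_univ, true_and, Finset.mem_image,
    Finset.mem_filter, Finset.mem_product, Prod.mk.injEq]
  constructor
  · rintro ⟨σ', z, ⟨⟨h1, h2⟩, h3⟩, rfl, rfl⟩
    exact ⟨h1, h2, h3⟩
  · rintro ⟨h1, h2, h3⟩
    exact ⟨σ, (m, i), ⟨⟨h1, h2⟩, h3⟩, rfl, rfl⟩

theorem ctl_num1 {K e u : ℝ} (hK : 1 ≤ K) (he : 1 ≤ e) (hu : 2000 * (K * (16 * e)) ≤ u) :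
    ∃ δ : ℝ, 0 < δ ∧ Real.exp (-(7 / 10 * u)) ≤ δ ∧ K * (16 * e * δ) ≤ 1 / 1400 ∧
      16 * e * δ ≤ 1 ∧ K * δ ≤ 1 / 1400 ∧ δ ≤ 1 / 4 := by
  obtain ⟨δ, hδ⟩ : ∃ δ : ℝ, δ = 1 / (1400 * (K * (16 * e))) := ⟨_, rfl⟩
  have hδ0 : 0 < δ := by rw [hδ]; positivity
  have hδ1 : δ * (1400 * (K * (16 * e))) = 1 := by rw [hδ]; field_simp
  have hδ2 : Real.exp (-(7 / 10 * u)) ≤ δ := by
    rw [hδ, Real.exp_neg, one_div]
    refine inv_anti₀ (by positivity) ?_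
    linarith [Real.add_one_le_exp (7 / 10 * u)]
  have hδ3 : K * (16 * e * δ) ≤ 1 / 1400 := by linarith
  have h1 : 1 * (16 * e * δ) ≤ K * (16 * e * δ) := mul_le_mul_of_nonneg_right hK (by positivity)
  have h2 : 1 * (K * δ) ≤ e * (K * δ) := mul_le_mul_of_nonneg_right he (by positivity)
  have h3 : 1 * δ ≤ K * δ := mul_le_mul_of_nonneg_right hK hδ0.le
  have h4 : 0 ≤ e * (K * δ) := by positivity
  exact ⟨δ, hδ0, hδ2, hδ3, by linarith, by linarith, by linarith⟩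

theorem ctl_num2 {K e ε : ℝ} (hK : 1 ≤ K) (he : 1 ≤ e) (hε0 : 0 ≤ ε)
    (hε : ε ≤ 1 / (5000 * K ^ 2 * e)) :
    K * e * ε ≤ 1 / 5000 ∧ K * (K * ε) ≤ 1 / 5000 ∧ K * ε ≤ 1 / 5000 ∧ ε ≤ 1 := by
  rw [le_div_iff₀ (by positivity)] at hε
  have h1 : 1 * (K * e * ε) ≤ K * (K * e * ε) := mul_le_mul_of_nonneg_right hK (by positivity)
  have h2 : 1 * (K * (K * ε)) ≤ e * (K * (K * ε)) := mul_le_mul_of_nonneg_right he (by positivity)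
  have h3 : 1 * (K * ε) ≤ K * (K * ε) := mul_le_mul_of_nonneg_right hK (by positivity)
  have h4 : 1 * ε ≤ K * ε := mul_le_mul_of_nonneg_right hK hε0
  exact ⟨by linarith, by linarith, by linarith, by linarith⟩

theorem ctl_num3 {K e δ ε a b x F I Y : ℝ} (hK : 1 ≤ K) (he : 1 ≤ e) (hδ : 0 < δ) (_hε0 : 0 ≤ ε)
    (h1 : K * (16 * e * δ) ≤ 1 / 1400) (h2 : K * δ ≤ 1 / 1400) (h3 : K * (K * ε) ≤ 1 / 5000)
    (ha : 0 ≤ a) (ha' : a ≤ 4 * ε) (hb : 0 ≤ b) (hba : b ≤ K * a) (hx : |x + I| ≤ a / 4)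
    (hF : |F + I| ≤ 100 * b * (b + δ) + 10 * (16 * e * δ) * b) (hY : |Y| ≤ ε * 2) :
    |x - F + Y| ≤ 4 * ε := by
  have h7 : K * a ≤ K * (4 * ε) := mul_le_mul_of_nonneg_left ha' (by linarith)
  have h8 : b * (100 * (b + δ) + 10 * (16 * e * δ)) ≤
      K * a * (100 * (4 * (K * ε) + δ) + 10 * (16 * e * δ)) :=
    mul_le_mul hba (by linarith) (by positivity) (by positivity)
  have h9 : a * (K * (100 * (4 * (K * ε) + δ) + 10 * (16 * e * δ))) ≤ a * (1 / 4) :=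
    mul_le_mul_of_nonneg_left (by linarith) ha
  rw [abs_le] at *
  constructor <;> linarith [hx.1, hx.2, hF.1, hF.2, hY.1, hY.2]

theorem ctl_num4 {e u a b d : ℝ} (he : 0 < e) (h1 : u * e ≤ 1 / 5000) (hb : b ≤ 4 * u)
    (ha : 1 / e ≤ a) (ha' : a ≤ 1) (hd : |d - a| ≤ 20 * b) :
    a ≤ 2 * d ∧ d ≤ 2 * a ∧ 1 / (2 * e) ≤ d ∧ |d| ≤ 2 := by
  have h6 : u ≤ 1 / 5000 * (1 / e) := by
    rw [mul_one_div, le_div_iff₀ he]; linarith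
  have h7 : 0 < 1 / e := by positivity
  have h5 : 1 / (2 * e) = 1 / e / 2 := by field_simp
  have h8 := abs_le.1 hd
  exact ⟨by linarith, by linarith, by linarith, abs_le.2 ⟨by linarith, by linarith⟩⟩

theorem ctl_ratio (S : Sys Ix) (m : Ix) (s : ℝ) {L : ℝ} (hL : S.Λ m ≤ L) :
    1 / Real.exp (11 / 10 * L) ≤ S.ψ m s / S.ψ m (s + 1) ∧ S.ψ m s / S.ψ m (s + 1) ≤ 1 := by
  have p0 := S.ψ_pos m s
  have p1 := S.ψ_pos m (s + 1)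
  refine ⟨?_, (div_le_one p1).2 (pul_ψ_mono _ m (by linarith))⟩
  rw [div_le_div_iff₀ (Real.exp_pos _) p1]
  have h4 := S.ψ_hi m (show s ≤ s + 1 by linarith)
  have h5 : Real.exp (11 / 10 * S.Λ m * (s + 1 - s)) ≤ Real.exp (11 / 10 * L) :=
    Real.exp_le_exp.2 (by linarith)
  nlinarith

theorem control_step {S : Type} [Fintype S] [DecidableEq S] (B B' : S → Finset Ix)
    (hB : ∀ σ, B σ ⊆ B' σ) (N : Ix → Finset Ix) {T : Type} [Fintype T]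
    (β : S → T → Ix → Ix → ℝ) (hβ : ∀ σ n, ∑ a, ∑ m ∈ N n, |β σ a n m| ≤ 1) (L K : ℝ) :
    ∃ ε₀ > (0 : ℝ), ∃ T₀ C : ℝ, 1 ≤ C ∧ ∀ (Sy : S → Sys Ix), (∀ σ, ∀ m ∈ B σ, (Sy σ).Λ m ≤ L) →
      (∀ σ, ∀ m ∈ B σ, ∀ h ∉ B' σ, 11 / 10 * (Sy σ).Λ m + 1 ≤ 9 / 10 * (Sy σ).Λ h) →
      ∀ (ε t0 t1 : ℝ), 0 ≤ ε → ε ≤ ε₀ → t0 + T₀ ≤ t1 →
      ∀ k : (prs B B' → ℝ) → ℝ →ᵇ (T → ℝ), ContinuousOn k (Metric.closedBall 0 (4 * ε)) →
      (∀ p, ‖p‖ ≤ 4 * ε → ‖k p‖ ≤ K * ‖p‖ ∧ ∀ z : prs B B',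
        |p z + ∫ r in t1 - 1..t1, (Sy z.1.1).ker (t1 - 1) z.1.2.1 z.1.2.2 r *
          (if z.1.2.2 ∈ N z.1.2.1 then cpl (β z.1.1) (k p) r z.1.2.1 z.1.2.2 else 0)| ≤ ‖p‖ / 4) →
      ∀ (Eo : S → W →L[ℝ] W) (R : S → Ix → W →L[ℝ] ℝ), (∀ σ, Good (B σ) (B' σ) C (Eo σ) (R σ)) →
      ∀ (τ : S → Ix → Ix) (y : S → Ix → ℝ), (∀ σ, Target (B σ) ε (τ σ) (y σ)) →
      ∃ p, ‖p‖ ≤ 4 * ε ∧ ∀ σ, ∃ E' R' No d, Good (B σ) (B' σ) C E' R' ∧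
        Step (Sy σ) N (cpl (β σ) (k p)) (B σ) t0 t1 (Eo σ) (R σ) E' R' No (τ σ) (y σ) d := by
  obtain ⟨K', hK1, hKK⟩ : ∃ K' : ℝ, 1 ≤ K' ∧ K ≤ K' := ⟨max K 1, le_max_right _ _, le_max_left _ _⟩
  obtain ⟨L', hL0, hLL⟩ : ∃ L' : ℝ, 0 ≤ L' ∧ L ≤ L' := ⟨max L 0, le_max_right _ _, le_max_left _ _⟩
  obtain ⟨e, he⟩ : ∃ e : ℝ, e = Real.exp (11 / 10 * L') := ⟨_, rfl⟩
  have he1 : 1 ≤ e := he ▸ Real.one_le_exp (by positivity)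
  have he0 : 0 < e := by linarith
  have hK0 : 0 < K' := by linarith
  refine ⟨1 / (5000 * K' ^ 2 * e), by positivity, 1 + 2000 * (K' * (16 * e)), 16 * e, by linarith,
    fun Sy hL hgap ε t0 t1 hε0 hε hT k ck hk Eo R hG τ y hy => ?_⟩
  obtain ⟨s, rfl⟩ : ∃ s, t1 = s + 1 := ⟨t1 - 1, by ring⟩
  simp only [add_sub_cancel_right] at hk
  have hKe : 0 ≤ K' * (16 * e) := by positivity
  obtain ⟨δ, hδ0, hδ2, hδ3, hδ4, hδ5, hδ6⟩ := ctl_num1 (u := s - t0) hK1 he1 (by linarith)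
  obtain ⟨hε2, hε3, hε4, hε5⟩ := ctl_num2 hK1 he1 hε0 hε
  choose Rt No E' cR hS using fun σ => ctl_sector (Sy σ) N (β σ) (hβ σ) (hB σ) (hgap σ)
    (t0 := t0) (s := s) (by linarith) (hG σ) (by positivity) hδ2 hδ6 hδ4
  have hkp : ∀ p, ‖p‖ ≤ 4 * ε → ‖k p‖ ≤ K' * ‖p‖ := fun p hp =>
    (hk p hp).1.trans (mul_le_mul_of_nonneg_right hKK (norm_nonneg _))
  have hkε : ∀ p, ‖p‖ ≤ 4 * ε → ‖k p‖ ≤ 4 * (K' * ε) := fun p hp => by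
    have h1 := hkp p hp
    have h2 := mul_le_mul_of_nonneg_left hp hK0.le
    linarith
  have hk1 : ∀ p, ‖p‖ ≤ 4 * ε → ‖k p‖ ≤ 1 / 100 := fun p hp => by linarith [hkε p hp]
  have hd : ∀ p, ‖p‖ ≤ 4 * ε → ∀ σ, ∀ m ∈ B σ,
      (Sy σ).ψ m s / (Sy σ).ψ m (s + 1) ≤ 2 * Rt σ (k p) m (eW m) ∧
      Rt σ (k p) m (eW m) ≤ 2 * ((Sy σ).ψ m s / (Sy σ).ψ m (s + 1)) ∧
      1 / (2 * e) ≤ Rt σ (k p) m (eW m) ∧ |Rt σ (k p) m (eW m)| ≤ 2 := by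
    intro p hp σ m hm
    have h2 := ctl_ratio (Sy σ) m s ((hL σ m hm).trans hLL)
    rw [← he] at h2
    exact ctl_num4 he0 (by linarith) (hkε p hp) h2.1 h2.2
      ((hS σ (k p) (hk1 p hp)).2.2.2.2.1 m hm)
  have cR' : ∀ σ m x, ContinuousOn (fun p => Rt σ (k p) m x) (Metric.closedBall 0 (4 * ε)) :=
    fun σ m x => (cR σ m x).comp ck fun p hp => by
      simpa using hk1 p (by simpa using hp)
  obtain ⟨p, hp, hfix⟩ := ctl_brouwer (ρ := 4 * ε) (by positivity)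
    (fun (p : prs B B' → ℝ) z => p z - Rt z.1.1 (k p) z.1.2.1 (eW z.1.2.2) +
      (if z.1.2.2 = τ z.1.1 z.1.2.1 then y z.1.1 z.1.2.1 else 0) *
        Rt z.1.1 (k p) (τ z.1.1 z.1.2.1) (eW (τ z.1.1 z.1.2.1)))
    (continuousOn_pi.2 fun z => (((continuous_apply z).continuousOn.sub (cR' _ _ _)).add
      (continuousOn_const.mul (cR' _ _ _)))) (fun p hp => by
      refine (pi_norm_le_iff_of_nonneg (by positivity)).2 fun z => ?_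
      obtain ⟨⟨σ, m, i⟩, hz⟩ := z
      obtain ⟨hm, hi, hmi⟩ := ctl_mem.1 hz
      have h1 := (hk p hp).2 ⟨(σ, m, i), hz⟩
      have h2 := (hS σ (k p) (hk1 p hp)).2.2.2.2.2 m hm i hi hmi
      have h3 := (hd p hp σ _ ((hy σ).mem m hm)).2.2.2
      have h4 : |(if i = τ σ m then y σ m else 0)| ≤ ε := by
        split_ifs
        · exact (hy σ).le m hm
        · simpa using hε0
      have h5 : |(if i = τ σ m then y σ m else 0) * Rt σ (k p) (τ σ m) (eW (τ σ m))| ≤ ε * 2 := by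
        rw [abs_mul]
        exact mul_le_mul h4 h3 (abs_nonneg _) hε0
      exact ctl_num3 hK1 he1 hδ0 hε0 hδ3 hδ5 hε3 (norm_nonneg p) hp (norm_nonneg (k p)) (hkp p hp)
        h1 h2 h5)
  refine ⟨p, hp, fun σ => ?_⟩
  obtain ⟨s1, s2, s3, s4, -, -⟩ := hS σ (k p) (hk1 p hp)
  obtain ⟨R', r1, r2, r3⟩ := ctl_alg (B' := B' σ) (C := 16 * e) (hy σ) hε5 (Rt σ (k p)) s2
    (a := 1 / (2 * e)) (by positivity) (le_of_eq (by field_simp; norm_num))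
    (fun m hm => (hd p hp σ m hm).2.2.1) (fun m hm i hi hmi => by
      have h1 := congrFun hfix ⟨(σ, m, i), ctl_mem.2 ⟨hm, hi, hmi⟩⟩
      dsimp only at h1
      split_ifs at h1 ⊢ <;> linarith)
  refine ⟨E' σ (k p), R', No σ (k p), fun m => Rt σ (k p) m (eW m), ⟨s1, r1, r2⟩,
    fun m hm => ?_, fun m hm => ?_, fun m hm x => ?_, fun x => ?_⟩
  · rw [add_sub_cancel_right]; exact (hd p hp σ m hm).1
  · rw [add_sub_cancel_right]; exact (hd p hp σ m hm).2.1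
  · rw [add_sub_cancel_right, s3, ← r3 m hm x]
  · rw [add_sub_cancel_right]; exact s4 x

end Vale.Agent.P225
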