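import Mathlib

/-! Gluing of smooth pieces with disjoint supports, ramps. -/

open scoped ContDiff Topology
open Filter Set

noncomputable section

namespace Vale.Agent.P225

variable {F : Type} [NormedAddCommGroup F] [NormedSpace ℝ F]

theorem glue_dz_le {g : ℝ → F} (hg : Differentiable ℝ g) {a : ℝ} {k : F}
    (h : ∀ r ≤ a, g r = k) : ∀ r ≤ a, deriv g r = 0 := fun r hr =>
  (uniqueDiffOn_Iic a r hr).eq_deriv _ (hg r).hasDerivAt.hasDerivWithinAt
    ((hasDerivWithinAt_const r (Iic a) k).congr (fun x hx => h x hx) (h r hr))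

theorem glue_dz_ge {g : ℝ → F} (hg : Differentiable ℝ g) {a : ℝ} {k : F}
    (h : ∀ r ≥ a, g r = k) : ∀ r ≥ a, deriv g r = 0 := fun r hr =>
  (uniqueDiffOn_Ici a r hr).eq_deriv _ (hg r).hasDerivAt.hasDerivWithinAt
    ((hasDerivWithinAt_const r (Ici a) k).congr (fun x hx => h x hx) (h r hr))

theorem glue_diff {g : ℝ → F} (hg : ContDiff ℝ ∞ g) : Differentiable ℝ g :=
  (contDiff_infty_iff_deriv.1 hg).1

theorem glue_cd {g : ℝ → F} (hg : ContDiff ℝ ∞ g) : ContDiff ℝ ∞ (deriv g) :=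
  (contDiff_infty_iff_deriv.1 hg).2

omit [NormedSpace ℝ F] in
theorem glue_bdd {g : ℝ → F} (hg : Continuous g) (h0 : ∀ r ≤ 0, g r = 0) (h1 : ∀ r ≥ 1, g r = 0) :
    ∃ C : ℝ, 0 ≤ C ∧ ∀ r, ‖g r‖ ≤ C := by
  obtain ⟨C, hC⟩ := (isCompact_Icc (a := (0 : ℝ)) (b := 1)).exists_bound_of_continuousOn
    hg.continuousOn
  have h2 : 0 ≤ C := (norm_nonneg _).trans (hC 0 ⟨le_rfl, zero_le_one⟩)
  refine ⟨C, h2, fun r => ?_⟩
  rcases le_total r 0 with a | a
  · rwa [h0 r a, norm_zero]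
  rcases le_total r 1 with b | b
  · exact hC r ⟨a, b⟩
  · rwa [h1 r b, norm_zero]

section

variable {t : ℕ → ℝ} (ht : ∀ j, t j + 1 ≤ t (j + 1))
include ht

theorem glue_mono : Monotone t := monotone_nat_of_le_succ fun j => by linarith [ht j]

theorem glue_big (r : ℝ) : ∃ N, r < t N := by
  have h : ∀ N : ℕ, t 0 + N ≤ t N := fun N => by
    induction N with
    | zero => simp
    | succ N ih =>
      push_cast
      linarith [ht N]
  obtain ⟨N, hN⟩ := exists_nat_gt (r - t 0)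
  exact ⟨N, by linarith [h N]⟩

theorem glue_cover {r : ℝ} (h : t 0 ≤ r) : ∃ j, r ∈ Icc (t j) (t (j + 1)) := by
  classical
  have h1 := glue_big ht r
  have h2 := Nat.find_spec h1
  obtain ⟨j, hj⟩ : ∃ j, Nat.find h1 = j + 1 :=
    Nat.exists_eq_succ_of_ne_zero fun h0 => by
      rw [h0] at h2
      linarith
  rw [hj] at h2
  exact ⟨j, not_lt.1 (Nat.find_min h1 (by omega)), h2.le⟩

omit [NormedSpace ℝ F] in
theorem glue_fin {g : ℕ → ℝ → F} (h0 : ∀ j, ∀ r ≤ t j, g j r = 0) {N : ℕ} {r : ℝ}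
    (hr : r < t N) : ∑' j, g j r = ∑ j ∈ Finset.range N, g j r :=
  tsum_eq_sum fun j hj => h0 j r
    (hr.le.trans (glue_mono ht (not_lt.1 fun h => hj (Finset.mem_range.2 h))))

omit [NormedSpace ℝ F] in
theorem glue_ev {g : ℕ → ℝ → F} (h0 : ∀ j, ∀ r ≤ t j, g j r = 0) {N : ℕ} {r : ℝ}
    (hr : r < t N) : (fun r => ∑' j, g j r) =ᶠ[𝓝 r] fun r => ∑ j ∈ Finset.range N, g j r :=
  (eventually_lt_nhds hr).mono fun _ h => glue_fin ht h0 h

omit [NormedSpace ℝ F] in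
theorem glue_eq {g : ℕ → ℝ → F} (h0 : ∀ j, ∀ r ≤ t j, g j r = 0)
    (h1 : ∀ j, ∀ r ≥ t (j + 1), g j r = 0) {j : ℕ} {r : ℝ} (hr : r ∈ Icc (t j) (t (j + 1))) :
    ∑' i, g i r = g j r :=
  tsum_eq_single j fun i hi => by
    rcases lt_or_gt_of_ne hi with a | a
    · exact h1 i r ((glue_mono ht a).trans hr.1)
    · exact h0 i r (hr.2.trans (glue_mono ht a))

omit [NormedSpace ℝ F] in
theorem glue_zero {g : ℕ → ℝ → F} (h0 : ∀ j, ∀ r ≤ t j, g j r = 0) {r : ℝ} (hr : r ≤ t 0) :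
    ∑' i, g i r = 0 := by
  rw [tsum_congr fun i => h0 i r (hr.trans (glue_mono ht (Nat.zero_le i))), tsum_zero]

omit [NormedSpace ℝ F] in
theorem glue_cont {g : ℕ → ℝ → F} (hg : ∀ j, Continuous (g j))
    (h0 : ∀ j, ∀ r ≤ t j, g j r = 0) : Continuous fun r => ∑' j, g j r :=
  continuous_iff_continuousAt.2 fun r => by
    obtain ⟨N, hN⟩ := glue_big ht r
    exact (continuous_finset_sum _ fun j _ => hg j).continuousAt.congr (glue_ev ht h0 hN).symm

theorem glue_smooth {g : ℕ → ℝ → F} (hg : ∀ j, ContDiff ℝ ∞ (g j))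
    (h0 : ∀ j, ∀ r ≤ t j, g j r = 0) : ContDiff ℝ ∞ fun r => ∑' j, g j r :=
  contDiff_iff_contDiffAt.2 fun r => by
    obtain ⟨N, hN⟩ := glue_big ht r
    exact (ContDiff.sum fun j _ => hg j).contDiffAt.congr_of_eventuallyEq (glue_ev ht h0 hN)

theorem glue_deriv {g : ℕ → ℝ → F} (hg : ∀ j, ContDiff ℝ ∞ (g j))
    (h0 : ∀ j, ∀ r ≤ t j, g j r = 0) :
    deriv (fun r => ∑' j, g j r) = fun r => ∑' j, deriv (g j) r := by
  funext r
  obtain ⟨N, hN⟩ := glue_big ht r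
  rw [(glue_ev ht h0 hN).deriv_eq,
    glue_fin ht (fun j => glue_dz_le (glue_diff (hg j)) (h0 j)) hN,
    deriv_fun_sum fun j _ => glue_diff (hg j) r]

theorem glue_all {g : ℕ → ℝ → F} (hg : ∀ j, ContDiff ℝ ∞ (g j))
    (h0 : ∀ j, ∀ r ≤ t j, g j r = 0) (h1 : ∀ j, ∀ r ≥ t (j + 1), g j r = 0) :
    ∃ P : ℝ → F, ContDiff ℝ ∞ P ∧
      (∀ r ≤ t 0, P r = 0 ∧ deriv P r = 0 ∧ deriv (deriv P) r = 0) ∧
      ∀ j, ∀ r ∈ Icc (t j) (t (j + 1)), P r = g j r ∧ deriv P r = deriv (g j) r ∧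
        deriv (deriv P) r = deriv (deriv (g j)) r := by
  have a0 := fun j => glue_dz_le (glue_diff (hg j)) (h0 j)
  have a1 := fun j => glue_dz_ge (glue_diff (hg j)) (h1 j)
  have b0 := fun j => glue_dz_le (glue_diff (glue_cd (hg j))) (a0 j)
  have b1 := fun j => glue_dz_ge (glue_diff (glue_cd (hg j))) (a1 j)
  refine ⟨fun r => ∑' j, g j r, glue_smooth ht hg h0, fun r hr => ?_, fun j r hr => ?_⟩
  · rw [glue_deriv ht hg h0, glue_deriv ht (fun j => glue_cd (hg j)) a0]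
    exact ⟨glue_zero ht h0 hr, glue_zero ht a0 hr, glue_zero ht b0 hr⟩
  · rw [glue_deriv ht hg h0, glue_deriv ht (fun j => glue_cd (hg j)) a0]
    exact ⟨glue_eq ht h0 h1 hr, glue_eq ht a0 a1 hr, glue_eq ht b0 b1 hr⟩

end

/-- A smooth ramp from `0` to `1` on `[a, a + T]`. -/
def ramp (a T r : ℝ) : ℝ := Real.smoothTransition ((r - a) / T)

theorem ramp_smooth (a T : ℝ) : ContDiff ℝ ∞ (ramp a T) :=
  Real.smoothTransition.contDiff.comp ((contDiff_id.sub contDiff_const).div_const T)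

theorem ramp_zero {a T r : ℝ} (hT : 0 < T) (h : r ≤ a) : ramp a T r = 0 :=
  Real.smoothTransition.zero_of_nonpos (div_nonpos_of_nonpos_of_nonneg (by linarith) hT.le)

theorem ramp_one {a T r : ℝ} (hT : 0 < T) (h : a + T ≤ r) : ramp a T r = 1 :=
  Real.smoothTransition.one_of_one_le ((one_le_div hT).2 (by linarith))

theorem ramp_nonneg (a T r : ℝ) : 0 ≤ ramp a T r := Real.smoothTransition.nonneg _

theorem ramp_le_one (a T r : ℝ) : ramp a T r ≤ 1 := Real.smoothTransition.le_one _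

theorem ramp_anti {a a' T : ℝ} (hT : 0 < T) (h : a ≤ a') (r : ℝ) : ramp a' T r ≤ ramp a T r :=
  Real.smoothTransition.monotone (div_le_div_of_nonneg_right (by linarith) hT.le)

theorem ramp_mono (a : ℝ) {T : ℝ} (hT : 0 < T) : Monotone (ramp a T) := fun _ _ h =>
  Real.smoothTransition.monotone (div_le_div_of_nonneg_right (by linarith) hT.le)

theorem ramp_bd : ∃ C : ℝ, 0 ≤ C ∧ ∀ a T r : ℝ, 1 ≤ T →
    |deriv (ramp a T) r| ≤ C / T ∧ |deriv (deriv (ramp a T)) r| ≤ C / T := by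
  have hs : ContDiff ℝ ∞ Real.smoothTransition := Real.smoothTransition.contDiff
  have a0 := glue_dz_le (glue_diff hs) fun r (h : r ≤ 0) => Real.smoothTransition.zero_of_nonpos h
  have a1 := glue_dz_ge (glue_diff hs) fun r (h : r ≥ 1) => Real.smoothTransition.one_of_one_le h
  obtain ⟨C1, c1, h1⟩ := glue_bdd (glue_cd hs).continuous a0 a1
  obtain ⟨C2, c2, h2⟩ := glue_bdd (glue_cd (glue_cd hs)).continuous
    (glue_dz_le (glue_diff (glue_cd hs)) a0) (glue_dz_ge (glue_diff (glue_cd hs)) a1)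
  refine ⟨C1 + C2, by positivity, fun a T r hT => ?_⟩
  have hT0 : 0 < T := by linarith
  have d0 : ∀ r : ℝ, HasDerivAt (fun r => (r - a) / T) (1 / T) r := fun r =>
    ((hasDerivAt_id r).sub_const a).div_const T
  have d1 : deriv (ramp a T) = fun r => deriv Real.smoothTransition ((r - a) / T) * (1 / T) :=
    funext fun r => ((glue_diff hs _).hasDerivAt.comp r (d0 r)).deriv
  have d2 : deriv (deriv (ramp a T)) r =
      deriv (deriv Real.smoothTransition) ((r - a) / T) * (1 / T) * (1 / T) := by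
    rw [d1]
    exact (((glue_diff (glue_cd hs) _).hasDerivAt.comp r (d0 r)).mul_const _).deriv
  have e0 : 0 < 1 / T := by positivity
  have e1 : 1 / T ≤ 1 := (div_le_one hT0).2 hT
  have e2 : (C1 + C2) / T = (C1 + C2) * (1 / T) := by ring
  rw [d2, d1, e2, abs_mul, abs_mul, abs_mul, abs_of_pos e0]
  refine ⟨mul_le_mul_of_nonneg_right ((h1 _).trans (by linarith)) e0.le,
    mul_le_mul_of_nonneg_right ?_ e0.le⟩
  exact (mul_le_mul (h2 _) e1 e0.le c2).trans (by linarith)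

end Vale.Agent.P225
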