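import Mathlib
import Vale.Agent.P225.Scalar
import Vale.Agent.P225.KappaA

/-! The global solution of the coupled system. -/

open scoped ContDiff Matrix Topology BoundedContinuousFunction
open Filter Set

noncomputable section

namespace Vale.Agent.P225

theorem Step.congr {S : Sys Ix} {N : Ix → Finset Ix} {c c' : ℝ → Ix → Ix → ℝ} {B : Finset Ix}
    {t0 t1 : ℝ} {Eo E' No : W →L[ℝ] W} {R R' : Ix → W →L[ℝ] ℝ} {σ : Ix → Ix} {y d : Ix → ℝ}
    (h : Step S N c B t0 t1 Eo R E' R' No σ y d) (hc : ∀ r ∈ Icc (t1 - 1) t1, c' r = c r) :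
    Step S N c' B t0 t1 Eo R E' R' No σ y d := by
  refine ⟨h.d_lo, h.d_hi, h.rel, fun x => ?_⟩
  obtain ⟨x0, y0, v, h1, h2⟩ := h.sol x
  have a0 : ∀ n, ∀ r ∈ Icc (t1 - 1) (t1 - 1 + 1), S.src N c' v n r = S.src N c v n r :=
    fun n r hr => by
      unfold Sys.src
      rw [hc r (by rwa [sub_add_cancel] at hr)]
  have a1 : ∀ (z : Ix → ℝ) n, ∀ r ∈ Icc (t1 - 1) (t1 - 1 + 1),
      S.al N c' (t1 - 1) z v n r = S.al N c (t1 - 1) z v n r := fun z n r hr => by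
    unfold Sys.al
    rw [intervalIntegral.integral_congr fun u hu => ?_]
    rw [uIcc_of_le hr.2] at hu
    simp only [a0 n u ⟨hr.1.trans hu.1, hu.2⟩]
  have a2 : ∀ (z : Ix → ℝ) n, ∀ r ∈ Icc (t1 - 1) (t1 - 1 + 1),
      S.be N c' (t1 - 1) z v n r = S.be N c (t1 - 1) z v n r := fun z n r hr => by
    unfold Sys.be
    rw [intervalIntegral.integral_congr fun u hu => ?_]
    rw [uIcc_of_le hr.1] at hu
    simp only [a0 n u ⟨hu.1, hu.2.trans hr.2⟩]
  have a3 : t1 - 1 ≤ t1 - 1 + 1 := by linarith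
  refine ⟨x0, y0, v, ⟨h1.cont, fun n r hr => ?_, fun n => ?_, fun n => ?_, fun n r hr => ?_,
    fun n r hr => ?_⟩, h2⟩
  · rw [a1 _ n r hr, a2 _ n r hr, h1.eq n r hr]
  · rw [a1 _ n _ ⟨le_rfl, a3⟩, h1.left]
  · rw [a2 _ n _ ⟨a3, le_rfl⟩, h1.right]
  · rw [a1 _ n r hr]
    exact h1.al_le n r hr
  · rw [a2 _ n r hr]
    exact h1.be_le n r hr

theorem glob_ψ_cont {I : Type} (S : Sys I) (n : I) : Continuous (S.ψ n) :=
  continuous_iff_continuousAt.2 fun r => (S.ψ_deriv n r).continuousAt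

theorem glob_χ_cont {I : Type} (S : Sys I) (n : I) : Continuous (S.χ n) :=
  continuous_iff_continuousAt.2 fun r => (S.χ_deriv n r).continuousAt

theorem glob_ψ_mono {I : Type} (S : Sys I) (n : I) {s t : ℝ} (h : s ≤ t) : S.ψ n s ≤ S.ψ n t :=
  le_trans (le_mul_of_one_le_left (S.ψ_pos n s).le (Real.one_le_exp
    (mul_nonneg (by linarith [S.one_le n]) (by linarith)))) (S.ψ_lo n h)

theorem glob_χ_anti {I : Type} (S : Sys I) (n : I) {s t : ℝ} (h : s ≤ t) : S.χ n t ≤ S.χ n s :=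
  le_trans (le_mul_of_one_le_left (S.χ_pos n t).le (Real.one_le_exp
    (mul_nonneg (by linarith [S.one_le n]) (by linarith)))) (S.χ_hi n h)

/-- variation of constants -/
theorem glob_ode {I : Type} (S : Sys I) (n : I) {a b : ℝ → ℝ} {f r : ℝ}
    (ha : HasDerivAt a (S.χ n r * f) r) (hb : HasDerivAt b (-(S.ψ n r * f)) r) :
    HasDerivAt (fun r => S.ψ n r * a r + S.χ n r * b r)
      (S.ρ n r * (S.ψ n r * a r) + (S.ρ n r - (S.g n r)⁻¹) * (S.χ n r * b r)) r ∧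
    HasDerivAt (fun r => S.ρ n r * (S.ψ n r * a r) + (S.ρ n r - (S.g n r)⁻¹) * (S.χ n r * b r))
      (S.q n r * (S.ψ n r * a r + S.χ n r * b r) + f) r := by
  have h1 := (S.ψ_deriv n r).mul ha
  have h2 := (S.χ_deriv n r).mul hb
  have g0 := (S.g_pos n r).ne'
  have p0 := (S.ψ_pos n r).ne'
  refine ⟨(h1.add h2).congr_deriv (by ring), (((S.ρ_deriv n r).mul h1).add
    (((S.ρ_deriv n r).sub ((S.g_deriv n r).inv g0)).mul h2)).congr_deriv ?_⟩
  simp only [Pi.mul_apply, Pi.sub_apply, Pi.inv_apply, Sys.χ]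
  field_simp
  ring

theorem glob_abs {p q z B : ℝ} (hp : 0 < p) (hq : p ≤ q) (hz : |z| ≤ B) : |p * (z / q)| ≤ B := by
  rw [← mul_div_assoc, mul_div_right_comm, abs_mul, abs_of_pos (div_pos hp (hp.trans_le hq))]
  exact (mul_le_of_le_one_left (abs_nonneg z) ((div_le_one (hp.trans_le hq)).2 hq)).trans hz

/-- one step of the matching -/
theorem glob_step {S : Sys Ix} {N : Ix → Finset Ix} {c : ℝ → Ix → Ix → ℝ} {t0 s C : ℝ}
    {x0 y0 x1 y1 : Ix → ℝ} {v : Ix → ℝ → ℝ} (h : S.PSol N c s x0 y0 x1 y1 C v) (hs : t0 ≤ s)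
    {n : Ix} {f a b : ℝ → ℝ} (hf : Continuous f) (f0 : ∀ r ∈ Icc t0 s, f r = 0)
    (f1 : ∀ r ∈ Icc s (s + 1), f r = S.src N c v n r)
    (ha : ∀ r r', a r' = a r + ∫ u in r..r', S.χ n u * f u)
    (hb : ∀ r r', b r' = b r - ∫ u in r..r', S.ψ n u * f u)
    (a0 : a t0 = x0 n / S.ψ n s) (b0 : b t0 = y0 n / S.χ n s) :
    (∀ r ∈ Icc t0 s, a r = a t0 ∧ b r = b t0) ∧
      (∀ r ∈ Icc s (s + 1), S.ψ n r * a r = S.al N c s x1 v n r ∧
        S.χ n r * b r = S.be N c s y0 v n r) ∧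
      a (s + 1) = x1 n / S.ψ n (s + 1) ∧ b (s + 1) = y1 n / S.χ n (s + 1) := by
  have z : ∀ (w : ℝ → ℝ), ∀ r ∈ Icc t0 s, ∫ u in t0..r, w u * f u = 0 := fun w r hr => by
    rw [intervalIntegral.integral_congr (g := fun _ => 0) fun u hu => ?_]
    · simp
    · rw [uIcc_of_le hr.1] at hu
      simp only [f0 u ⟨hu.1, hu.2.trans hr.2⟩, mul_zero]
  have h1 : ∀ r ∈ Icc t0 s, a r = a t0 ∧ b r = b t0 := fun r hr =>
    ⟨by rw [ha t0 r, z _ r hr, add_zero], by rw [hb t0 r, z _ r hr, sub_zero]⟩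
  have e : ∀ (w : ℝ → ℝ), ∀ r ∈ Icc s (s + 1), ∀ r' ∈ Icc s (s + 1), r ≤ r' →
      ∫ u in r..r', w u * f u = ∫ u in r..r', w u * S.src N c v n u := fun w r hr r' hr' hle =>
    intervalIntegral.integral_congr fun u hu => by
      rw [uIcc_of_le hle] at hu
      simp only [f1 u ⟨hr.1.trans hu.1, hu.2.trans hr'.2⟩]
  have l0 : s ∈ Icc s (s + 1) := ⟨le_rfl, by linarith⟩
  have l1 : s + 1 ∈ Icc s (s + 1) := ⟨by linarith, le_rfl⟩
  have h2 : a (s + 1) = x1 n / S.ψ n (s + 1) := by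
    rw [ha s (s + 1), (h1 s ⟨hs, le_rfl⟩).1, a0, h.left n, e _ s l0 _ l1 l0.2]
    unfold Sys.al
    rw [mul_div_cancel_left₀ _ (S.ψ_pos n s).ne', sub_add_cancel]
  have h3 : ∀ r ∈ Icc s (s + 1), S.ψ n r * a r = S.al N c s x1 v n r ∧
      S.χ n r * b r = S.be N c s y0 v n r := fun r hr => by
    unfold Sys.al Sys.be
    rw [← h2, ha r (s + 1), e _ r hr _ l1 hr.2, add_sub_cancel_right, hb s r,
      (h1 s ⟨hs, le_rfl⟩).2, b0, e _ s l0 r hr hr.1]
    exact ⟨rfl, rfl⟩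
  refine ⟨h1, h3, h2, ?_⟩
  rw [h.right n, ← (h3 _ l1).2, mul_div_cancel_left₀ _ (S.χ_pos n _).ne']

theorem global_sol (S : Sys Ix) (N : Ix → Finset Ix) (c : ℝ → Ix → Ix → ℝ)
    (hc : ∀ n m, Continuous fun r => c r n m) (B : Finset Ix) (t : ℕ → ℝ) (ht0 : 0 ≤ t 0)
    (ht : ∀ j, t j + 1 ≤ t (j + 1)) (hc0 : ∀ r ≤ t 0, c r = 0)
    (hc1 : ∀ j, ∀ r ∈ Icc (t j) (t (j + 1) - 1), c r = 0) (Eo No : ℕ → W →L[ℝ] W)
    (R : ℕ → Ix → W →L[ℝ] ℝ) (τ : ℕ → Ix → Ix) (y d : ℕ → Ix → ℝ) (hE0 : Eo 0 = 0)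
    (hE : ∀ j, ‖Eo j‖ ≤ 1)
    (hS : ∀ j, Step S N c B (t j) (t (j + 1)) (Eo j) (R j) (Eo (j + 1)) (R (j + 1)) (No j) (τ j)
      (y j) (d j))
    (x : ℕ → W) (hx : ∀ j, x j = No j (x (j + 1))) {θ C : ℝ} (hθ : 0 ≤ θ)
    (hb : ∀ j, ‖x (j + 1)‖ ≤ C * Real.exp (θ * t j)) :
    ∃ v v' : Ix → ℝ → ℝ, (∀ n r, HasDerivAt (v n) (v' n r) r) ∧
      (∀ n r, HasDerivAt (v' n) (S.q n r * v n r + S.src N c v n r) r) ∧
      (∀ n, ∀ r ≤ 0, v n r = x 0 n / S.ψ n (t 0) * Real.exp (S.Λ n * r)) ∧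
      ∃ C' : ℝ, ∀ n r, |v n r| ≤ C' * Real.exp (θ * max r 0) ∧
        |v' n r| ≤ C' * S.Λ n * Real.exp (θ * max r 0) := by
  choose x0 y0 w hw h1 h2 using fun j => (hS j).sol (x (j + 1))
  simp only [← hx] at h1 h2
  have hs : ∀ j, t j ≤ t (j + 1) - 1 := fun j => by linarith [ht j]
  have hs1 : ∀ j, t (j + 1) - 1 + 1 = t (j + 1) := fun j => sub_add_cancel _ _
  have z : ∀ (u : Ix → ℝ → ℝ) n r, c r = 0 → S.src N c u n r = 0 := fun u n r h => by
    simp [Sys.src, h]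
  let g : Ix → ℕ → ℝ → ℝ := fun n j r =>
    S.src N c (w j) n (max (t (j + 1) - 1) (min r (t (j + 1))))
  have g0 : ∀ n j, ∀ r ≤ t (j + 1) - 1, g n j r = 0 := fun n j r hr => z _ _ _ (by
    rw [max_eq_left ((min_le_left _ _).trans hr)]
    exact hc1 j _ ⟨hs j, le_rfl⟩)
  have g0' : ∀ n j, ∀ r ≤ t j, g n j r = 0 := fun n j r hr => g0 n j r (hr.trans (hs j))
  have g1 : ∀ n j, ∀ r ≥ t (j + 1), g n j r = 0 := fun n j r hr => z _ _ _ (by
    rw [min_eq_right hr, max_eq_right (by linarith)]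
    exact hc1 (j + 1) _ ⟨le_rfl, hs (j + 1)⟩)
  have g2 : ∀ n j, Continuous (g n j) := fun n j =>
    (continuous_const.mul (continuous_finset_sum _ fun m _ => (hc n m).mul ((hw j).cont m))).comp
      (continuous_const.max (continuous_id.min continuous_const))
  let f : Ix → ℝ → ℝ := fun n r => ∑' j, g n j r
  have fc : ∀ n, Continuous (f n) := fun n => glue_cont ht (g2 n) (g0' n)
  have f0 : ∀ n, ∀ r ≤ t 0, f n r = 0 := fun n r hr => glue_zero ht (g0' n) hr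
  have f1 : ∀ n j, ∀ r ∈ Icc (t j) (t (j + 1) - 1), f n r = 0 := fun n j r hr =>
    (glue_eq ht (g0' n) (g1 n) ⟨hr.1, by linarith [hr.2]⟩).trans (g0 n j r hr.2)
  have f2 : ∀ n j, ∀ r ∈ Icc (t (j + 1) - 1) (t (j + 1) - 1 + 1),
      f n r = S.src N c (w j) n r := fun n j r hr => by
    rw [hs1] at hr
    refine (glue_eq ht (g0' n) (g1 n) ⟨(hs j).trans hr.1, hr.2⟩).trans ?_
    simp only [g, min_eq_left hr.2, max_eq_right hr.1]
  have c1 : ∀ n, Continuous fun u => S.χ n u * f n u := fun n => (glob_χ_cont S n).mul (fc n)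
  have c2 : ∀ n, Continuous fun u => S.ψ n u * f n u := fun n => (glob_ψ_cont S n).mul (fc n)
  let a : Ix → ℝ → ℝ := fun n r => x 0 n / S.ψ n (t 0) + ∫ u in t 0..r, S.χ n u * f n u
  let b : Ix → ℝ → ℝ := fun n r => -∫ u in t 0..r, S.ψ n u * f n u
  have ha : ∀ n r r', a n r' = a n r + ∫ u in r..r', S.χ n u * f n u := fun n r r' => by
    simp only [a]
    rw [add_assoc, intervalIntegral.integral_add_adjacent_intervals
      ((c1 n).intervalIntegrable _ _) ((c1 n).intervalIntegrable _ _)]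
  have hb' : ∀ n r r', b n r' = b n r - ∫ u in r..r', S.ψ n u * f n u := fun n r r' => by
    simp only [b]
    rw [← intervalIntegral.integral_add_adjacent_intervals (b := r)
      ((c2 n).intervalIntegrable _ _) ((c2 n).intervalIntegrable _ _)]
    ring
  have ini : ∀ n, ∀ r ≤ t 0, a n r = x 0 n / S.ψ n (t 0) ∧ b n r = 0 := fun n r hr => by
    have e : ∀ (p : ℝ → ℝ), ∫ u in t 0..r, p u * f n u = 0 := fun p => by
      rw [intervalIntegral.integral_congr (g := fun _ => 0) fun u hu => ?_]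
      · simp
      · rw [uIcc_of_ge hr] at hu
        simp only [f0 n u hu.2, mul_zero]
    simp only [a, b, e, add_zero, neg_zero, and_self]
  have e1 : ∀ n j, x j n / S.ψ n (t j) = x0 j n / S.ψ n (t (j + 1) - 1) := fun n j => by
    have := (S.ψ_pos n (t j)).ne'
    rw [h1]
    field_simp
  have e2 : ∀ n j, Eo j (x j) n / S.χ n (t j) = y0 j n / S.χ n (t (j + 1) - 1) := fun n j => by
    have := (S.χ_pos n (t (j + 1) - 1)).ne'
    rw [h2]
    field_simp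
  have ind : ∀ n j, a n (t j) = x j n / S.ψ n (t j) ∧ b n (t j) = Eo j (x j) n / S.χ n (t j) := by
    intro n j
    induction j with
    | zero => exact ⟨(ini n _ le_rfl).1, by simp [(ini n _ le_rfl).2, hE0]⟩
    | succ j ih =>
      have := (glob_step (hw j) (hs j) (fc n) (f1 n j) (f2 n j) (ha n) (hb' n)
        (ih.1.trans (e1 n j)) (ih.2.trans (e2 n j))).2.2
      rwa [hs1] at this
  have st := fun n j => glob_step (hw j) (hs j) (fc n) (f1 n j) (f2 n j) (ha n) (hb' n)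
    ((ind n j).1.trans (e1 n j)) ((ind n j).2.trans (e2 n j))
  have hC : 0 ≤ C := nonneg_of_mul_nonneg_left ((norm_nonneg _).trans (hb 0)) (Real.exp_pos _)
  have hsrc : ∀ n r,
      f n r = S.src N c (fun n r => S.ψ n r * a n r + S.χ n r * b n r) n r := fun n r => by
    rcases le_total r (t 0) with h | h
    · rw [f0 n r h, z _ _ _ (hc0 r h)]
    obtain ⟨j, hj⟩ := glue_cover ht h
    rcases le_total r (t (j + 1) - 1) with h' | h'
    · rw [f1 n j r ⟨hj.1, h'⟩, z _ _ _ (hc1 j r ⟨hj.1, h'⟩)]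
    · have m : r ∈ Icc (t (j + 1) - 1) (t (j + 1) - 1 + 1) := ⟨h', by linarith [hj.2]⟩
      rw [f2 n j r m]
      unfold Sys.src
      congr 1
      refine Finset.sum_congr rfl fun m' _ => ?_
      simp only [((st m' j).2.1 r m).1, ((st m' j).2.1 r m).2, (hw j).eq m' r m]
  have bd : ∀ n r, |S.ψ n r * a n r| ≤ (‖x 0‖ + 2 * C) * Real.exp (θ * max r 0) ∧
      |S.χ n r * b n r| ≤ (‖x 0‖ + 2 * C) * Real.exp (θ * max r 0) := fun n r => by
    have x1 : 1 ≤ Real.exp (θ * max r 0) := Real.one_le_exp (mul_nonneg hθ (le_max_right _ _))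
    have x2 := mul_le_mul_of_nonneg_left x1 (norm_nonneg (x 0))
    have x3 := mul_nonneg hC (Real.exp_pos (θ * max r 0)).le
    have x4 : ∀ j, t j ≤ r → ‖x (j + 1)‖ ≤ C * Real.exp (θ * max r 0) := fun j h =>
      (hb j).trans (mul_le_mul_of_nonneg_left (Real.exp_le_exp.2
        (mul_le_mul_of_nonneg_left (h.trans (le_max_left _ _)) hθ)) hC)
    have x5 := norm_nonneg (x 0)
    rcases le_total r (t 0) with h | h
    · rw [(ini n r h).1, (ini n r h).2, mul_zero, abs_zero]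
      refine ⟨glob_abs (S.ψ_pos n r) (glob_ψ_mono S n h) (((x 0).norm_coe_le_norm n).trans ?_), ?_⟩
      · linarith
      · linarith
    obtain ⟨j, hj⟩ := glue_cover ht h
    have x6 := x4 j hj.1
    rcases le_total r (t (j + 1) - 1) with h' | h'
    · obtain ⟨k1, k2⟩ := (st n j).1 r ⟨hj.1, h'⟩
      rw [k1, k2, (ind n j).1, (ind n j).2, e1]
      refine ⟨glob_abs (S.ψ_pos n r) (glob_ψ_mono S n h') ?_,
        glob_abs (S.χ_pos n r) (glob_χ_anti S n hj.1) ?_⟩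
      · rw [(hw j).left]
        refine ((hw j).al_le n _ ⟨le_rfl, by linarith⟩).trans ?_
        linarith
      · refine ((Eo j (x j)).norm_coe_le_norm n).trans
          (((Eo j).le_of_opNorm_le (hE j) _).trans ?_)
        cases j with
        | zero => linarith
        | succ j => linarith [x4 j (by linarith [ht j, hj.1])]
    · have m : r ∈ Icc (t (j + 1) - 1) (t (j + 1) - 1 + 1) := ⟨h', by linarith [hj.2]⟩
      rw [((st n j).2.1 r m).1, ((st n j).2.1 r m).2]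
      exact ⟨((hw j).al_le n r m).trans (by linarith), ((hw j).be_le n r m).trans (by linarith)⟩
  have od := fun n r => glob_ode S n (a := a n) (b := b n) (f := f n r) (r := r)
    (((c1 n).integral_hasStrictDerivAt (t 0) r).hasDerivAt.const_add _)
    ((c2 n).integral_hasStrictDerivAt (t 0) r).hasDerivAt.neg
  refine ⟨fun n r => S.ψ n r * a n r + S.χ n r * b n r,
    fun n r => S.ρ n r * (S.ψ n r * a n r) + (S.ρ n r - (S.g n r)⁻¹) * (S.χ n r * b n r),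
    fun n r => (od n r).1, fun n r => ?_, fun n r hr => ?_, 3 * (‖x 0‖ + 2 * C), fun n r => ?_⟩
  · rw [← hsrc]
    exact (od n r).2
  · simp only [(ini n r (hr.trans ht0)).1, (ini n r (hr.trans ht0)).2, S.ψ_init n r hr]
    ring
  · obtain ⟨k1, k2⟩ := bd n r
    have k0 := (abs_nonneg _).trans k1
    refine ⟨(abs_add_le _ _).trans (by linarith), (abs_add_le _ _).trans ?_⟩
    have l0 := S.one_le n
    have l1 : |S.ρ n r| ≤ 3 / 2 * S.Λ n :=
      abs_le.2 ⟨by linarith [S.ρ_lo n r], by linarith [S.ρ_hi n r]⟩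
    have l2 : |S.ρ n r - (S.g n r)⁻¹| ≤ 3 / 2 * S.Λ n :=
      abs_le.2 ⟨by linarith [(S.nu_bd n r).2], by linarith [(S.nu_bd n r).1]⟩
    rw [abs_mul (S.ρ n r), abs_mul (S.ρ n r - _)]
    have l3 := mul_le_mul l1 k1 (abs_nonneg _) (by linarith)
    have l4 := mul_le_mul l2 k2 (abs_nonneg _) (by linarith)
    linarith

end Vale.Agent.P225
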