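import Mathlib
import Vale.Agent.P225.Scalar

/-! The swap of two modes by three pulses. -/

open scoped ContDiff Matrix Topology BoundedContinuousFunction
open Filter Set

noncomputable section

namespace Vale.Agent.P225

variable (S : Sys Ix) (B : Finset Ix) (t ε : ℕ → ℝ) (τ : ℕ → Ix → Ix) (up : Ix → Prop)
  [DecidablePred up]

theorem lan_Dw_pos (j : ℕ) (m : Ix) : 0 < S.Dw t j m := div_pos (S.ψ_pos _ _) (S.ψ_pos _ _)

theorem lan_range {j : ℕ} {d : Ix → ℝ} (h : S.DR B t j d) {m : Ix} (hm : m ∈ B) : 0 < d m ∧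
    S.ψ m (t (j + 1) - 1) / S.ψ m (t (j + 2) - 1) ≤ 2 * (d m * S.Dw t (j + 1) m) ∧
    d m * S.Dw t (j + 1) m ≤ 2 * (S.ψ m (t (j + 1) - 1) / S.ψ m (t (j + 2) - 1)) := by
  obtain ⟨h1, h2⟩ := h m hm
  have h3 := lan_Dw_pos S t (j + 1) m
  have e : S.ψ m (t (j + 1) - 1) / S.ψ m (t (j + 2) - 1) =
      S.ψ m (t (j + 1) - 1) / S.ψ m (t (j + 1)) * S.Dw t (j + 1) m := by
    have := (S.ψ_pos m (t (j + 1))).ne'
    simp only [Sys.Dw]
    field_simp
  have h4 := div_pos (S.ψ_pos m (t (j + 1) - 1)) (S.ψ_pos m (t (j + 1)))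
  rw [e]
  exact ⟨by linarith, by nlinarith, by nlinarith⟩

theorem lan_mul {a b c : ℝ} (hb : 0 < b) : a / b * (b / c) = a / c := by
  rw [div_mul_div_cancel₀ hb.ne']

theorem lan_bound {u w X ε k : ℝ} (hX : 0 < X) (hk : 1 ≤ 8 * X * k) {Z : ℝ}
    (hu : |u| ≤ 2 / ε * Z) (hw : w = u / k) : |w| ≤ 16 / ε * X * Z := by
  have h0 : 0 < k := by by_contra h; nlinarith
  have h1 : 0 ≤ 2 / ε * Z := (abs_nonneg _).trans hu
  rw [hw, abs_div, abs_of_pos h0, div_le_iff₀ h0]
  calc |u| ≤ 2 / ε * Z * 1 := by linarith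
    _ ≤ 2 / ε * Z * (8 * X * k) := mul_le_mul_of_nonneg_left hk h1
    _ = _ := by ring

theorem strat_target (hε : ∀ i, 0 < ε i) (hτ : ∀ i, Match B up (τ i))
    (hD : ∀ i, ∀ a ∈ B, τ i a ≠ a → up a → S.Dom t ε i a (τ i a)) (j : ℕ) (d0 d1 : Ix → ℝ)
    (h1 : 1 ≤ j → S.DR B t (j - 1) d1) (h0 : 2 ≤ j → S.DR B t (j - 2) d0) :
    Target B (ε (j / 3)) (τ (j / 3))
      (strat (τ (j / 3)) up (ε (j / 3)) j (S.Dw t (j - 1)) (S.Dw t j) d0 d1) := by
  obtain ⟨i, hj⟩ : ∃ i, j / 3 = i := ⟨_, rfl⟩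
  rw [hj]
  have hM := hτ i
  refine ⟨hM.mem, hM.inv, fun m hm => ?_, fun m hm => ?_⟩
  · have e0 : |(0 : ℝ)| ≤ ε i := by simpa using (hε i).le
    unfold strat
    split_ifs with c1 c2 c3 c4 c5 c6
    · exact e0
    · exact (abs_of_pos (hε i)).le
    · exact e0
    · exact e0
    · obtain rfl : j = 3 * i + 1 := by omega
      have hu : up (τ i m) := by
        have := hM.up (τ i m) (hM.mem m hm) (by rw [hM.inv m hm]; exact Ne.symm c1)
        rw [hM.inv m hm] at this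
        exact this.mpr c5
      have h2 := (hD i (τ i m) (hM.mem m hm) (by rw [hM.inv m hm]; exact Ne.symm c1) hu).1
      rw [hM.inv m hm] at h2
      obtain ⟨a1, a2, -⟩ := lan_range S B t (h1 (by omega)) hm
      obtain ⟨b1, -, b3⟩ := lan_range S B t (h1 (by omega)) (hM.mem m hm)
      simp only [Nat.add_sub_cancel] at a2 b3
      have a4 := mul_pos a1 (lan_Dw_pos S t (3 * i + 1) m)
      have b4 := mul_pos b1 (lan_Dw_pos S t (3 * i + 1) (τ i m))
      have e := hε i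
      rw [neg_div, abs_neg, abs_of_pos (by positivity), div_le_iff₀ (by positivity)]
      nlinarith [mul_le_mul_of_nonneg_left a2 (sq_nonneg (ε i))]
    · obtain rfl : j = 3 * i + 2 := by omega
      have h2 := (hD i m hm c1 c6).2
      obtain ⟨a1, a2, -⟩ := lan_range S B t (h0 (by omega)) hm
      obtain ⟨b1, -, b3⟩ := lan_range S B t (h0 (by omega)) (hM.mem m hm)
      obtain ⟨f1, f2, -⟩ := lan_range S B t (h1 (by omega)) hm
      obtain ⟨g1, -, g3⟩ := lan_range S B t (h1 (by omega)) (hM.mem m hm)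
      have e1 : 3 * i + 2 - 1 = 3 * i + 1 := rfl
      simp only [Nat.add_sub_cancel, e1] at a2 b3 f2 g3 ⊢
      have a4 := mul_pos a1 (lan_Dw_pos S t (3 * i + 1) m)
      have b4 := mul_pos b1 (lan_Dw_pos S t (3 * i + 1) (τ i m))
      have f4 := mul_pos f1 (lan_Dw_pos S t (3 * i + 2) m)
      have g4 := mul_pos g1 (lan_Dw_pos S t (3 * i + 2) (τ i m))
      have k1 := mul_le_mul a2 f2 (div_pos (S.ψ_pos _ _) (S.ψ_pos _ _)).le (by positivity)
      have k2 := mul_le_mul b3 g3 g4.le (by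
        have := div_pos (S.ψ_pos (τ i m) (t (3 * i + 1) - 1)) (S.ψ_pos (τ i m) (t (3 * i + 2) - 1))
        positivity)
      rw [lan_mul (S.ψ_pos _ _)] at k1
      rw [mul_mul_mul_comm 2, lan_mul (S.ψ_pos _ _)] at k2
      simp only [add_assoc, Nat.reduceAdd] at k1 k2
      have e := hε i
      rw [abs_of_pos (by positivity), div_le_iff₀ (by positivity), mul_assoc]
      exact mul_le_mul_of_nonneg_left (by linarith) e.le
    · exact e0
  · by_cases c1 : τ i m = m
    · simp [strat, c1]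
    have h2 := hM.up m hm c1
    by_cases c2 : up m
    · have c3 := h2.mp c2
      simp only [strat, c2, c3, if_true, if_false]
      split_ifs <;> simp
    · have c3 : up (τ i m) := by tauto
      simp only [strat, c2, c3, if_true, if_false]
      split_ifs <;> simp

theorem lanes (hε : ∀ i, 0 < ε i) (hε1 : ∀ i, ε i ≤ 1) (hτ : ∀ i, Match B up (τ i))
    (ht : ∀ j, t j + 1 ≤ t (j + 1)) {L : ℝ} (hL : ∀ m ∈ B, S.Λ m ≤ L) (d : ℕ → Ix → ℝ)
    (hd : ∀ j, S.DR B t j (d j)) {n : Ix} (hn : n ∈ B) :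
    ∃ z : ℕ → Ix → ℝ, (∀ m, z 0 m = if m = n then 1 else 0) ∧
      (∀ j, ∀ m ∈ B, z j m = S.Dw t j m * (d j m * z (j + 1) m +
        strat (τ (j / 3)) up (ε (j / 3)) j (S.Dw t (j - 1)) (S.Dw t j) (d (j - 2)) (d (j - 1)) m *
          (d j (τ (j / 3) m) * z (j + 1) (τ (j / 3) m)))) ∧
      ∀ j, ∀ m ∈ B, |z j m| ≤ ∏ i ∈ Finset.range (j / 3 + 1), S.Gf t ε L (lane τ n i) i := by
  set y : ℕ → Ix → ℝ := fun j => strat (τ (j / 3)) up (ε (j / 3)) j (S.Dw t (j - 1)) (S.Dw t j)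
    (d (j - 2)) (d (j - 1)) with hy
  let z : ℕ → Ix → ℝ := fun j => Nat.rec (fun m => if m = n then 1 else 0)
    (fun j z m => (z m / S.Dw t j m - y j m * (z (τ (j / 3) m) / S.Dw t j (τ (j / 3) m))) / d j m) j
  have hz : ∀ j m, z (j + 1) m =
      (z j m / S.Dw t j m - y j m * (z j (τ (j / 3) m) / S.Dw t j (τ (j / 3) m))) / d j m :=
    fun j m => rfl
  have hd0 : ∀ j, ∀ m ∈ B, 0 < d j m := fun j m hm => (lan_range S B t (hd j) hm).1
  have hD := lan_Dw_pos S t
  have hmul : ∀ j, ∀ m ∈ B, y j m * y j (τ (j / 3) m) = 0 := by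
    intro j m hm
    have hM := hτ (j / 3)
    by_cases c1 : τ (j / 3) m = m
    · simp [hy, strat, c1]
    have h2 := hM.up m hm c1
    by_cases c2 : up m
    · have c3 := h2.mp c2
      simp only [hy, strat, c2, c3, if_true, if_false]
      split_ifs <;> simp
    · have c3 : up (τ (j / 3) m) := by tauto
      simp only [hy, strat, c2, c3, if_true, if_false]
      split_ifs <;> simp
  have hG : ∀ i m, 1 ≤ S.Gf t ε L m i := fun i m => by
    have h1 := S.ψ_lo m (show t (3 * i) ≤ t (3 * i + 1) - 1 by linarith [ht (3 * i)])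
    have h2 : 1 ≤ S.ψ m (t (3 * i + 1) - 1) / S.ψ m (t (3 * i)) := by
      rw [one_le_div (S.ψ_pos _ _)]
      refine le_trans (le_mul_of_one_le_left (S.ψ_pos _ _).le (Real.one_le_exp ?_)) h1
      exact mul_nonneg (by linarith [S.one_le m]) (by linarith [ht (3 * i)])
    have h3 : 1 ≤ 16 / ε i := by rw [one_le_div (hε i)]; linarith [hε1 i]
    refine one_le_mul_of_one_le_of_one_le (one_le_mul_of_one_le_of_one_le h3
      (Real.one_le_exp (mul_nonneg ?_ ?_))) h2
    · linarith [hL n hn, S.one_le n]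
    · linarith [ht (3 * i + 1), ht (3 * i + 2)]
  have stage : ∀ i (k : Ix) (Z : ℝ), (∀ m ∈ B, m ≠ k → z (3 * i) m = 0) → |z (3 * i) k| ≤ Z →
      (∀ m ∈ B, m ≠ τ i k → z (3 * i + 3) m = 0) ∧ ∀ m ∈ B, |z (3 * i + 1) m| ≤ Z * S.Gf t ε L k i ∧
        |z (3 * i + 2) m| ≤ Z * S.Gf t ε L k i ∧ |z (3 * i + 3) m| ≤ Z * S.Gf t ε L k i := by
    intro i k Z h0 hZ
    have hM := hτ i
    have e := hε i
    have e0 : 3 * i / 3 = i := by omega
    have e1 : (3 * i + 1) / 3 = i := by omega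
    have e2 : (3 * i + 2) / 3 = i := by omega
    have f0 : 3 * i % 3 = 0 := by omega
    have f1 : (3 * i + 1) % 3 = 1 := by omega
    have f2 : (3 * i + 2) % 3 = 2 := by omega
    have g1 : 3 * i + 2 - 1 = 3 * i + 1 := rfl
    set w : Ix → ℝ := fun m => z (3 * i) m / S.Dw t (3 * i) m with hw
    have form : ∀ m ∈ B, ∃ u1 u2 u3 : ℝ, z (3 * i + 1) m = u1 / d (3 * i) m ∧
        z (3 * i + 2) m = u2 / (d (3 * i) m * S.Dw t (3 * i + 1) m * d (3 * i + 1) m) ∧
        z (3 * i + 3) m = u3 / (d (3 * i) m * S.Dw t (3 * i + 1) m *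
          (d (3 * i + 1) m * S.Dw t (3 * i + 2) m) * d (3 * i + 2) m) ∧
        (u1 = w m ∨ u1 = w m - ε i * w (τ i m)) ∧
        (u2 = w m ∨ u2 = w m - ε i * w (τ i m) ∨ u2 = w (τ i m) / ε i) ∧
        (u3 = -ε i * w (τ i m) ∨ u3 = w (τ i m) / ε i ∨ u3 = w (τ i m)) := by
      intro m hm
      have hm' := hM.mem m hm
      have a1 := (hd0 (3 * i) m hm).ne'
      have a2 := (hd0 (3 * i + 1) m hm).ne'
      have a3 := (hd0 (3 * i + 2) m hm).ne'
      have a4 := (hD (3 * i + 1) m).ne'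
      have a5 := (hD (3 * i + 2) m).ne'
      have b1 := (hd0 (3 * i) _ hm').ne'
      have b2 := (hd0 (3 * i + 1) _ hm').ne'
      have b4 := (hD (3 * i + 1) (τ i m)).ne'
      have b5 := (hD (3 * i + 2) (τ i m)).ne'
      have b6 := e.ne'
      by_cases c1 : τ i m = m
      · refine ⟨w m, w m, w m, ?_, ?_, ?_, Or.inl rfl, Or.inl rfl, Or.inr (Or.inr (by rw [c1]))⟩ <;>
        simp only [hz, hy, strat, e0, e1, e2, c1, if_true, zero_mul, sub_zero, hw] <;> field_simp
      have c1' : ¬m = τ i m := Ne.symm c1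
      have h2 := hM.up m hm c1
      by_cases c2 : up m
      · have c3 := h2.mp c2
        refine ⟨_, _, _, ?_, ?_, ?_, Or.inr rfl, Or.inr (Or.inl rfl), Or.inl rfl⟩ <;>
        simp only [hz, hy, strat, e0, e1, e2, f0, f1, f2, g1, c1, c1', c2, c3, hM.inv m hm, if_true,
          if_false, zero_mul, sub_zero, hw, Nat.add_sub_cancel, one_ne_zero, OfNat.ofNat_ne_zero,
          OfNat.ofNat_ne_one]
        · field_simp
        · field_simp
          ring
      · have c3 : up (τ i m) := by tauto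
        refine ⟨_, _, _, ?_, ?_, ?_, Or.inl rfl, Or.inr (Or.inr rfl), Or.inr (Or.inl rfl)⟩ <;>
        simp only [hz, hy, strat, e0, e1, e2, f0, f1, f2, g1, c1, c1', c2, c3, hM.inv m hm, if_true,
          if_false, zero_mul, sub_zero, hw, Nat.add_sub_cancel, one_ne_zero, OfNat.ofNat_ne_zero,
          OfNat.ofNat_ne_one]
        · field_simp
          ring
        · field_simp
          ring
    refine ⟨fun m hm hne => ?_, fun m hm => ?_⟩
    · obtain ⟨u1, u2, u3, -, -, h3, -, -, h6⟩ := form m hm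
      have : w (τ i m) = 0 := by
        simp only [hw]
        rw [h0 _ (hM.mem m hm) fun h => hne (by rw [← h, hM.inv m hm]), zero_div]
      rw [h3]
      rcases h6 with h | h | h <;> simp [h, this]
    obtain ⟨u1, u2, u3, h1, h2, h3, h4, h5, h6⟩ := form m hm
    set Y := Z * (S.ψ k (t (3 * i + 1) - 1) / S.ψ k (t (3 * i))) with hY
    have hZ0 : 0 ≤ Z := (abs_nonneg _).trans hZ
    have hY0 : 0 ≤ Y := mul_nonneg hZ0 (div_pos (S.ψ_pos _ _) (S.ψ_pos _ _)).le
    have hwY : ∀ m ∈ B, |w m| ≤ Y := fun m hm => by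
      by_cases c : m = k
      · subst c
        simp only [hw]
        rw [abs_div, abs_of_pos (hD _ _), Sys.Dw, div_div_eq_mul_div, mul_div_assoc]
        exact mul_le_mul_of_nonneg_right hZ (div_pos (S.ψ_pos _ _) (S.ψ_pos _ _)).le
      · simp only [hw]
        rw [h0 m hm c, zero_div, abs_zero]
        exact hY0
    have w1 := hwY m hm
    have w2 := hwY _ (hM.mem m hm)
    have w3 : |ε i * w (τ i m)| ≤ Y := by
      rw [abs_mul, abs_of_pos e]
      exact (mul_le_of_le_one_left (abs_nonneg _) (hε1 i)).trans w2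
    have w4 : 2 * Y ≤ 2 / ε i * Y :=
      mul_le_mul_of_nonneg_right (by rw [le_div_iff₀ e]; linarith [hε1 i]) hY0
    have w5 : |w (τ i m) / ε i| ≤ 2 / ε i * Y := by
      rw [abs_div, abs_of_pos e, div_mul_eq_mul_div]
      exact div_le_div_of_nonneg_right (by linarith) e.le
    have w6 : |w m - ε i * w (τ i m)| ≤ 2 / ε i * Y := (abs_sub _ _).trans (by linarith)
    set X := Real.exp (11 / 10 * L * (t (3 * i + 3) - (t (3 * i + 1) - 1))) with hX
    have hX1 : ∀ r, t (3 * i + 1) - 1 ≤ r → r ≤ t (3 * i + 3) →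
        1 ≤ X * (S.ψ m (t (3 * i + 1) - 1) / S.ψ m r) := fun r h1 h2 => by
      rw [← mul_div_assoc, one_le_div (S.ψ_pos _ _)]
      refine (S.ψ_hi m h1).trans (mul_le_mul_of_nonneg_right (Real.exp_le_exp.mpr ?_)
        (S.ψ_pos _ _).le)
      exact mul_le_mul (by linarith [hL m hm]) (by linarith) (by linarith)
        (by linarith [hL m hm, S.one_le m])
    have hX0 : 0 < X := Real.exp_pos _
    have eG : Z * S.Gf t ε L k i = 16 / ε i * X * Y := by simp only [Sys.Gf, hY, hX]; ring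
    have t1 := ht (3 * i + 1)
    have t2 := ht (3 * i + 2)
    have r0 := (hd (3 * i) m hm).1
    have r1 := (hd (3 * i + 1) m hm).1
    have r2 := (hd (3 * i + 2) m hm).1
    have s0 := (lan_range S B t (hd (3 * i)) hm).2.1
    have s1 := (lan_range S B t (hd (3 * i + 1)) hm).2.1
    have n0 : ∀ a b, 0 ≤ S.ψ m a / S.ψ m b := fun a b => (div_pos (S.ψ_pos _ _) (S.ψ_pos _ _)).le
    have k1 := mul_le_mul s0 r1 (n0 _ _) ((n0 _ _).trans s0)
    have k2 := mul_le_mul s0 s1 (n0 _ _) ((n0 _ _).trans s0)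
    rw [lan_mul (S.ψ_pos _ _)] at k1 k2
    have k3 := mul_le_mul k2 r2 (n0 _ _) ((n0 _ _).trans k2)
    rw [lan_mul (S.ψ_pos _ _)] at k3
    rw [eG]
    refine ⟨lan_bound hX0 ?_ ?_ h1, lan_bound hX0 ?_ ?_ h2, lan_bound hX0 ?_ ?_ h3⟩
    · have := (hX1 _ (by linarith) (by linarith)).trans (mul_le_mul_of_nonneg_left r0 hX0.le)
      linarith
    · rcases h4 with h | h <;> rw [h] <;> linarith
    · have := (hX1 _ (by linarith) (by linarith)).trans (mul_le_mul_of_nonneg_left k1 hX0.le)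
      linarith
    · rcases h5 with h | h | h <;> rw [h] <;> linarith
    · have := (hX1 _ (by linarith) le_rfl).trans (mul_le_mul_of_nonneg_left k3 hX0.le)
      linarith
    · rcases h6 with h | h | h <;> rw [h]
      · rw [neg_mul, abs_neg]; linarith
      · exact w5
      · linarith
  have main : ∀ i, lane τ n i ∈ B ∧ (∀ m ∈ B, m ≠ lane τ n i → z (3 * i) m = 0) ∧
      |z (3 * i) (lane τ n i)| ≤ ∏ l ∈ Finset.range i, S.Gf t ε L (lane τ n l) l := by
    intro i
    induction i with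
    | zero => exact ⟨hn, fun m _ h => if_neg h, by simp [z, lane]⟩
    | succ i ih =>
      obtain ⟨a1, a2⟩ := stage i _ _ ih.2.1 ih.2.2
      have a3 := (hτ i).mem _ ih.1
      exact ⟨a3, a1, by rw [Finset.prod_range_succ]; exact (a2 _ a3).2.2⟩
  refine ⟨z, fun m => rfl, fun j m hm => ?_, fun j m hm => ?_⟩
  · have a1 := (hd0 j m hm).ne'
    have a2 := (hd0 j _ ((hτ (j / 3)).mem m hm)).ne'
    have a3 := (hD j m).ne'
    change _ = _ * (_ + y j m * _)
    rw [hz, hz, (hτ _).inv m hm, mul_div_cancel₀ _ a1, mul_div_cancel₀ _ a2, mul_sub (y j m),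
      ← mul_assoc (y j m), hmul j m hm]
    field_simp
    ring
  · obtain ⟨i, hi⟩ : ∃ i, j / 3 = i := ⟨_, rfl⟩
    obtain ⟨a1, a2, a3⟩ := main i
    obtain ⟨b1, b2, -⟩ := (stage i _ _ a2 a3).2 m hm
    rw [hi, Finset.prod_range_succ]
    obtain rfl | rfl | rfl : j = 3 * i ∨ j = 3 * i + 1 ∨ j = 3 * i + 2 := by omega
    · have a4 := (abs_nonneg _).trans a3
      refine le_trans ?_ (le_mul_of_one_le_right a4 (hG _ _))
      by_cases c : m = lane τ n i
      · rwa [c]
      · rwa [a2 m hm c, abs_zero]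
    · exact b1
    · exact b2

end Vale.Agent.P225
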