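import Mathlib
import Vale.Agent.P225.Defs

/-! Jacobi polynomials. -/

open scoped ContDiff Matrix Topology BoundedContinuousFunction
open Filter Set

noncomputable section

namespace Vale.Agent.P225

open Polynomial

theorem jac_coeff (α c j i : ℕ) : (jac α c j).coeff i = if i ≤ j then
    (-1) ^ i * ((j + c + α + i).choose i : ℝ) * ((c + j).choose (j - i) : ℝ) else 0 := by
  simp only [jac, finsetSum_coeff, coeff_monomial, Finset.sum_ite_eq', Finset.mem_range,
    Nat.lt_succ_iff]

theorem jac_rec (α c j i : ℕ) : ((i : ℝ) + 1) * (i + c + 1) * (jac α c j).coeff (i + 1) =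
    ((i : ℝ) - j) * (i + j + c + α + 1) * (jac α c j).coeff i := by
  rw [jac_coeff, jac_coeff]
  rcases lt_trichotomy i j with h | h | h
  · obtain ⟨k, rfl⟩ := Nat.exists_eq_add_of_lt h
    rw [if_pos (by omega), if_pos (by omega), show i + k + 1 - (i + 1) = k by omega,
      show i + k + 1 - i = k + 1 by omega, ← add_assoc _ i 1]
    have h1 := congrArg (Nat.cast : ℕ → ℝ) (Nat.add_one_mul_choose_eq (i + k + 1 + c + α + i) i)
    have h2 := Nat.choose_succ_right_eq (c + (i + k + 1)) k
    rw [show c + (i + k + 1) - k = i + c + 1 by omega] at h2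
    have h3 := congrArg (Nat.cast : ℕ → ℝ) h2
    push_cast at h1 h3 ⊢
    linear_combination (-1) ^ i * ((i : ℝ) + c + 1) * ((c + (i + k + 1)).choose k : ℝ) * h1 +
      (-1) ^ i * ((i : ℝ) + k + 1 + c + α + i + 1) * ((i + k + 1 + c + α + i).choose i : ℝ) * h3
  · subst h
    simp
  · rw [if_neg (by omega), if_neg (by omega)]
    simp

theorem jac_top (α c j : ℕ) : (jac α c j).coeff j ≠ 0 := by
  rw [jac_coeff, if_pos le_rfl, Nat.sub_self, Nat.choose_zero_right]
  have := Nat.choose_pos (show j ≤ j + c + α + j by omega)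
  positivity

theorem jac_high (α c j : ℕ) {i : ℕ} (h : j < i) : (jac α c j).coeff i = 0 := by
  rw [jac_coeff, if_neg (by omega)]

/-- The weighted integral. -/
def jI (α c : ℕ) : ℝ[X] →ₗ[ℝ] ℝ where
  toFun f := ∫ x in (0 : ℝ)..1, x ^ c * (1 - x) ^ α * f.eval x
  map_add' f g := by
    rw [← intervalIntegral.integral_add (Continuous.intervalIntegrable (by fun_prop) _ _)
      (Continuous.intervalIntegrable (by fun_prop) _ _)]
    simp only [eval_add, mul_add]
  map_smul' a f := by
    rw [RingHom.id_apply, smul_eq_mul, ← intervalIntegral.integral_const_mul]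
    simp only [eval_smul, smul_eq_mul, mul_left_comm]

theorem jI_mul (α c : ℕ) (f g : ℝ[X]) :
    ∫ x in (0 : ℝ)..1, x ^ c * (1 - x) ^ α * (f.eval x * g.eval x) = jI α c (f * g) := by
  simp only [jI, LinearMap.coe_mk, AddHom.coe_mk, eval_mul]

/-- The Jacobi operator. -/
def jL (α c : ℕ) (f : ℝ[X]) : ℝ[X] :=
  derivative (X * derivative f) + C (c : ℝ) * derivative f - X * derivative (X * derivative f) -
    C ((c : ℝ) + α + 1) * (X * derivative f)

theorem jL_euler (f : ℝ[X]) (i : ℕ) : (X * derivative f).coeff i = i * f.coeff i := by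
  cases i with
  | zero => simp
  | succ i =>
    rw [coeff_X_mul, coeff_derivative]
    push_cast
    ring

theorem jL_jac (α c j : ℕ) : jL α c (jac α c j) = (-((j : ℝ) * (j + c + α + 1))) • jac α c j := by
  ext i
  simp only [jL, coeff_sub, coeff_add, coeff_C_mul, jL_euler, coeff_smul, smul_eq_mul]
  rw [coeff_derivative, coeff_derivative, jL_euler]
  push_cast
  linear_combination jac_rec α c j i

theorem jL_symm (α c : ℕ) (f g : ℝ[X]) : jI α c (jL α c f * g) = jI α c (f * jL α c g) := by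
  rw [← sub_eq_zero, ← map_sub]
  have h := intervalIntegral.integral_eq_sub_of_hasDerivAt (a := 0) (b := 1) (fun x _ =>
    (X ^ (c + 1) * (1 - X) ^ (α + 1) * (derivative f * g - f * derivative g) : ℝ[X]).hasDerivAt x)
    (Continuous.intervalIntegrable (by fun_prop) _ _)
  have e : derivative (X ^ (c + 1) * (1 - X) ^ (α + 1) * (derivative f * g - f * derivative g) :
      ℝ[X]) = X ^ c * (1 - X) ^ α * (jL α c f * g - f * jL α c g) := by
    simp only [jL, derivative_mul, derivative_sub, derivative_pow, derivative_X, derivative_one,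
      Nat.add_sub_cancel, map_add, map_one, Nat.cast_add, Nat.cast_one]
    ring
  rw [e] at h
  simpa [jI] using h

theorem jac_orth (α c : ℕ) {j j' : ℕ} (h : j ≠ j') : jI α c (jac α c j * jac α c j') = 0 := by
  have h1 := jL_symm α c (jac α c j) (jac α c j')
  rw [jL_jac, jL_jac, smul_mul_assoc, mul_smul_comm, map_smul, map_smul, smul_eq_mul,
    smul_eq_mul] at h1
  have h2 : ((j' : ℝ) - j) * (j + j' + c + α + 1) ≠ 0 :=
    mul_ne_zero (sub_ne_zero.2 (Nat.cast_injective.ne h.symm)) (by positivity)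
  refine (mul_eq_zero.1 ?_).resolve_left h2
  linear_combination h1

theorem jac_norm_pos (α c j : ℕ) : 0 < jI α c (jac α c j * jac α c j) := by
  rw [← jI_mul]
  have h0 : jac α c j ≠ 0 := fun e => jac_top α c j (by rw [e, coeff_zero])
  obtain ⟨x, hx, hx'⟩ := (Ioo_infinite (zero_lt_one' ℝ)).exists_notMem_finset
    (jac α c j).roots.toFinset
  rw [Multiset.mem_toFinset, mem_roots h0] at hx'
  refine intervalIntegral.integral_pos zero_lt_one (by fun_prop) (fun y hy => ?_)
    ⟨x, Ioo_subset_Icc_self hx, ?_⟩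
  · exact mul_nonneg (mul_nonneg (pow_nonneg hy.1.le _) (pow_nonneg (sub_nonneg.2 hy.2) _))
      (mul_self_nonneg _)
  · exact mul_pos (mul_pos (pow_pos hx.1 _) (pow_pos (sub_pos.2 hx.2) _)) (mul_self_pos.2 hx')

theorem pn_eq (α c j : ℕ) :
    pn α c j = (√(jI α c (jac α c j * jac α c j)))⁻¹ • jac α c j := by
  rw [← jI_mul, smul_eq_C_mul]
  simp only [pn, pow_two]

theorem pn_top (α c j : ℕ) : (pn α c j).coeff j ≠ 0 := by
  rw [pn_eq, coeff_smul]
  exact smul_ne_zero (inv_ne_zero (Real.sqrt_pos.2 (jac_norm_pos α c j)).ne') (jac_top α c j)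

theorem pn_high (α c j : ℕ) {i : ℕ} (h : j < i) : (pn α c j).coeff i = 0 := by
  rw [pn_eq, coeff_smul, jac_high α c j h, smul_zero]

theorem pn_natDegree (α c j : ℕ) : (pn α c j).natDegree = j :=
  natDegree_eq_of_le_of_coeff_ne_zero
    (natDegree_le_iff_coeff_eq_zero.2 fun _ h => pn_high α c j h) (pn_top α c j)

theorem pn_zero_pos (α c j : ℕ) : 0 < (pn α c j).eval 0 := by
  rw [← coeff_zero_eq_eval_zero, pn_eq, coeff_smul, jac_coeff, if_pos (Nat.zero_le _)]
  have h1 := Real.sqrt_pos.2 (jac_norm_pos α c j)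
  have h2 := Nat.choose_pos (show j - 0 ≤ c + j by omega)
  rw [Nat.choose_zero_right, smul_eq_mul]
  positivity

theorem pn_rec (α c j i : ℕ) : ((i : ℝ) + 1) * (i + c + 1) * (pn α c j).coeff (i + 1) =
    ((i : ℝ) - j) * (i + j + c + α + 1) * (pn α c j).coeff i := by
  rw [pn_eq, coeff_smul, coeff_smul, smul_eq_mul, smul_eq_mul]
  linear_combination (√(jI α c (jac α c j * jac α c j)))⁻¹ * jac_rec α c j i

theorem pn_jI (α c j j' : ℕ) : jI α c (pn α c j * pn α c j') = if j = j' then 1 else 0 := by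
  rw [pn_eq, pn_eq, smul_mul_assoc, mul_smul_comm, map_smul, map_smul, smul_eq_mul, smul_eq_mul]
  split_ifs with h
  · subst h
    have h1 := jac_norm_pos α c j
    rw [← mul_assoc, ← mul_inv, Real.mul_self_sqrt h1.le, inv_mul_cancel₀ h1.ne']
  · rw [jac_orth α c h, mul_zero, mul_zero]

theorem pn_orth (α c j j' : ℕ) :
    ∫ x in (0 : ℝ)..1, x ^ c * (1 - x) ^ α * ((pn α c j).eval x * (pn α c j').eval x) =
      if j = j' then 1 else 0 := by
  rw [jI_mul, pn_jI]

theorem pn_span (α c N : ℕ) : ∀ f : ℝ[X], (∀ i, N ≤ i → f.coeff i = 0) →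
    ∃ a : ℕ → ℝ, f = ∑ j ∈ Finset.range N, a j • pn α c j := by
  induction N with
  | zero => exact fun f h => ⟨0, by ext i; simp [h i]⟩
  | succ N ih =>
    intro f h
    obtain ⟨a, ha⟩ := ih (f - (f.coeff N / (pn α c N).coeff N) • pn α c N) fun i hi => by
      rw [coeff_sub, coeff_smul, smul_eq_mul]
      rcases hi.eq_or_lt with e | e
      · rw [← e, div_mul_cancel₀ _ (pn_top α c N), sub_self]
      · rw [h i e, pn_high α c N e, mul_zero, sub_zero]
    refine ⟨fun j => if j = N then f.coeff N / (pn α c N).coeff N else a j, ?_⟩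
    beta_reduce
    rw [Finset.sum_range_succ, if_pos rfl, ← sub_eq_iff_eq_add, ha]
    exact Finset.sum_congr rfl fun j hj => by rw [if_neg (Finset.mem_range.1 hj).ne]

theorem pn_coef (α c N k : ℕ) (a : ℕ → ℝ) :
    jI α c ((∑ j ∈ Finset.range N, a j • pn α c j) * pn α c k) = if k < N then a k else 0 := by
  simp only [Finset.sum_mul, map_sum, smul_mul_assoc, map_smul, pn_jI, smul_eq_mul, mul_ite,
    mul_one, mul_zero, Finset.sum_ite_eq', Finset.mem_range]

theorem pn_orth_low (α c j : ℕ) {f : ℝ[X]} (hf : f.natDegree < j) :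
    ∫ x in (0 : ℝ)..1, x ^ c * (1 - x) ^ α * (f.eval x * (pn α c j).eval x) = 0 := by
  obtain ⟨a, ha⟩ := pn_span α c j f fun i hi => coeff_eq_zero_of_natDegree_lt (hf.trans_le hi)
  rw [jI_mul, ha, pn_coef, if_neg (lt_irrefl j)]

theorem pn_expand (α c N : ℕ) {f : ℝ[X]} (hf : f.natDegree ≤ N) (t : ℝ) :
    f.eval t = ∑ j ∈ Finset.range (N + 1), (∫ x in (0 : ℝ)..1,
      x ^ c * (1 - x) ^ α * (f.eval x * (pn α c j).eval x)) * (pn α c j).eval t := by
  obtain ⟨a, ha⟩ := pn_span α c (N + 1) f fun i hi =>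
    coeff_eq_zero_of_natDegree_lt (hf.trans_lt hi)
  have h : ∀ j ∈ Finset.range (N + 1), jI α c (f * pn α c j) = a j := fun j hj => by
    rw [ha, pn_coef, if_pos (Finset.mem_range.1 hj)]
  simp only [jI_mul]
  rw [Finset.sum_congr rfl fun j hj => by rw [h j hj]]
  conv_lhs => rw [ha]
  simp only [eval_finsetSum, eval_smul, smul_eq_mul]

end Vale.Agent.P225
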