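import Mathlib
import Vale.Agent.P225.Defs
import Vale.Agent.P225.Jacobi

/-! Exponential bounds for the coefficients of the normalized Jacobi polynomials. -/

open scoped ContDiff Matrix Topology BoundedContinuousFunction
open Filter Set

noncomputable section

namespace Vale.Agent.P225

open Polynomial

theorem jb_int {p : ℝ[X]} (hp : p ∈ lifts (Int.castRingHom ℝ)) {n : ℕ} (hn : p.natDegree < n) :
    ∃ z : ℤ, (Nat.lcmUpto n : ℝ) * ∫ x in (0 : ℝ)..1, p.eval x = z := by
  choose z hz using (lifts_iff_coeff_lifts p).1 hp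
  refine ⟨∑ i ∈ Finset.range n, z i * (Nat.lcmUpto n / (i + 1) : ℕ), ?_⟩
  simp only [eval_eq_sum_range' hn]
  rw [intervalIntegral.integral_finsetSum fun i _ =>
    Continuous.intervalIntegrable (by fun_prop) _ _, Finset.mul_sum, Int.cast_sum]
  refine Finset.sum_congr rfl fun i hi => ?_
  have h1 : i + 1 ∣ Nat.lcmUpto n := Finset.dvd_lcm (f := id)
    (Finset.mem_Icc.2 ⟨by omega, Finset.mem_range.1 hi⟩)
  rw [intervalIntegral.integral_const_mul, integral_pow, ← hz i, Int.cast_mul, Int.cast_natCast,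
    Nat.cast_div h1 (by positivity)]
  simp only [eq_intCast, one_pow, ne_eq, Nat.add_eq_zero_iff, one_ne_zero, and_false,
    not_false_eq_true, zero_pow, sub_zero, Nat.cast_add, Nat.cast_one]
  ring

theorem jb_norm (α c j : ℕ) :
    1 ≤ (Nat.lcmUpto (α + c + 2 * j + 1) : ℝ) * jI α c (jac α c j * jac α c j) := by
  have h1 : jac α c j ∈ liftsRing (Int.castRingHom ℝ) := by
    rw [← lifts_iff_liftsRing, lifts_iff_coeff_lifts]
    intro i
    rw [jac_coeff]
    split_ifs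
    · exact ⟨(-1) ^ i * ((j + c + α + i).choose i : ℤ) * ((c + j).choose (j - i) : ℤ), by simp⟩
    · exact ⟨0, by simp⟩
  have hX : (X : ℝ[X]) ∈ liftsRing (Int.castRingHom ℝ) :=
    (lifts_iff_liftsRing _ _).1 (X_mem_lifts _)
  have h2 := mul_mem (mul_mem (pow_mem hX c) (pow_mem (sub_mem (one_mem _) hX) α)) (mul_mem h1 h1)
  have h3 : (jac α c j).natDegree ≤ j :=
    natDegree_le_iff_coeff_eq_zero.2 fun _ h => jac_high α c j h
  have h4 : (1 - X : ℝ[X]).natDegree ≤ 1 := by compute_degree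
  have h5 : (X ^ c * (1 - X) ^ α * (jac α c j * jac α c j) : ℝ[X]).natDegree ≤
      c + α * 1 + (j + j) :=
    natDegree_mul_le_of_le (natDegree_mul_le_of_le (natDegree_X_pow_le c)
      (natDegree_pow_le_of_le α h4)) (natDegree_mul_le_of_le h3 h3)
  obtain ⟨z, hz⟩ := jb_int ((lifts_iff_liftsRing _ _).2 h2) (n := α + c + 2 * j + 1) (by omega)
  have h6 : ∫ x in (0 : ℝ)..1, (X ^ c * (1 - X) ^ α * (jac α c j * jac α c j) : ℝ[X]).eval x =
      jI α c (jac α c j * jac α c j) := by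
    rw [← jI_mul]
    simp
  rw [h6] at hz
  have h7 : (0 : ℝ) < z := by
    rw [← hz]
    exact mul_pos (Nat.cast_pos.2 (Nat.lcmUpto_pos _)) (jac_norm_pos α c j)
  rw [hz]
  exact_mod_cast h7

theorem jb_sum (α c j : ℕ) :
    ∑ i ∈ Finset.range (j + 1), |(jac α c j).coeff i| ≤ 4 ^ (α + c + 2 * j + 1) := by
  have h1 : ∀ i ∈ Finset.range (j + 1), |(jac α c j).coeff i| ≤
      2 ^ (j + c + α + j) * 2 ^ (c + j) := by
    intro i hi
    have hi' : i ≤ j := Nat.lt_succ_iff.1 (Finset.mem_range.1 hi)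
    rw [jac_coeff, if_pos hi', abs_mul, abs_mul, abs_pow, abs_neg, abs_one, one_pow, one_mul,
      Nat.abs_cast, Nat.abs_cast]
    exact_mod_cast Nat.mul_le_mul ((Nat.choose_le_two_pow _ _).trans
      (Nat.pow_le_pow_right two_pos (by omega))) (Nat.choose_le_two_pow _ _)
  refine (Finset.sum_le_card_nsmul _ _ _ h1).trans ?_
  rw [Finset.card_range, nsmul_eq_mul]
  have h2 : (j + 1) * (2 ^ (j + c + α + j) * 2 ^ (c + j)) ≤ 4 ^ (α + c + 2 * j + 1) := by
    refine (Nat.mul_le_mul_right _ (Nat.lt_two_pow_self (n := j))).trans ?_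
    rw [← pow_add, ← pow_add, show 4 = 2 ^ 2 by rfl, ← pow_mul]
    exact Nat.pow_le_pow_right two_pos (by omega)
  exact_mod_cast h2

theorem pn_coeff_le : ∃ M : ℝ, 1 ≤ M ∧ ∀ α c j : ℕ,
    ∑ i ∈ Finset.range (j + 1), |(pn α c j).coeff i| ≤ M ^ (α + c + 2 * j + 1) := by
  have h0 : 1 ≤ Real.exp (Real.log 4 + 4) := Real.one_le_exp (by positivity)
  refine ⟨Real.exp (Real.log 4 + 4) * 4, by linarith, fun α c j => ?_⟩
  have h1 := jb_norm α c j
  have h2 := jac_norm_pos α c j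
  have h3 := jb_sum α c j
  have h4 : (1 : ℝ) ≤ Nat.lcmUpto (α + c + 2 * j + 1) := by exact_mod_cast Nat.lcmUpto_pos _
  have h5 : (Nat.lcmUpto (α + c + 2 * j + 1) : ℝ) ≤
      Real.exp (Real.log 4 + 4) ^ (α + c + 2 * j + 1) := by
    rw [← Real.exp_nat_mul, ← Real.log_le_iff_le_exp (by linarith),
      ← Chebyshev.psi_eq_log_lcmUpto, mul_comm _ (_ + 4)]
    exact Chebyshev.psi_le_const_mul_self (Nat.cast_nonneg _)
  simp only [pn_eq, coeff_smul, smul_eq_mul, abs_mul]
  rw [← Finset.mul_sum, mul_pow]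
  refine mul_le_mul (le_trans ?_ h5) h3 (Finset.sum_nonneg fun _ _ => abs_nonneg _) (by positivity)
  generalize jI α c (jac α c j * jac α c j) = N at h1 h2
  generalize (Nat.lcmUpto (α + c + 2 * j + 1) : ℝ) = L at h1 h4
  rw [abs_of_nonneg (by positivity), inv_le_iff_one_le_mul₀ (Real.sqrt_pos.2 h2),
    ← Real.sqrt_sq (show 0 ≤ L by linarith), ← Real.sqrt_mul (by positivity)]
  exact Real.one_le_sqrt.2 (by nlinarith)

end Vale.Agent.P225
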