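import Mathlib
import Vale.Agent.P225.Bd
import Vale.Agent.P225.JacBd

/-! Exponential bounds for the modes. -/

open scoped ContDiff Matrix Topology BoundedContinuousFunction
open Filter Set

noncomputable section

namespace Vale.Agent.P225

theorem mb_const (k : ℂ) (x : E) : Bd2 (fun _ => k) x ‖k‖ := by
  refine ⟨contDiffAt_const, le_rfl, by simp, ?_⟩
  simp only [fderiv_fun_const, fderiv_zero, Pi.zero_apply]
  exact ContinuousLinearMap.opNorm_zero.trans_le (norm_nonneg k)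

theorem mb_id {x : E} (hx : ‖x‖ ≤ 1) : Bd2 (fun y => y) x 1 := by
  refine ⟨contDiffAt_id, hx, ?_, ?_⟩
  · rw [fderiv_fun_id]
    exact ContinuousLinearMap.norm_id_le
  · have : (fderiv ℝ fun y : E => y) = fun _ => ContinuousLinearMap.id ℝ E :=
      funext fun _ => fderiv_fun_id
    rw [this, fderiv_fun_const, Pi.zero_apply]
    exact ContinuousLinearMap.opNorm_zero.trans_le zero_le_one

theorem mb_coord {φ : E → E} {x : E} {C : ℝ} (h : Bd2 φ x C) (i : Fin 4) :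
    Bd2 (fun y => ((φ y i : ℝ) : ℂ)) x C := by
  have hC : 0 ≤ C := (norm_nonneg _).trans h.2.1
  refine (h.clm (Complex.ofRealCLM.comp (ContinuousLinearMap.proj i))).mono
    (mul_le_of_le_one_left hC (ContinuousLinearMap.opNorm_le_bound _ zero_le_one fun y => ?_))
  simpa using norm_le_pi_norm y i

theorem mb_lin {φ : E → E} {x : E} {C : ℝ} (h : Bd2 φ x C) (i j : Fin 4) {k : ℂ} (hk : ‖k‖ = 1) :
    Bd2 (fun y => ((φ y i : ℝ) : ℂ) + ((φ y j : ℝ) : ℂ) * k) x (5 * C) := by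
  refine ((mb_coord h i).add ((mb_coord h j).mul (mb_const k x))).mono ?_
  rw [hk]
  linarith

theorem mb_mode {M : ℝ} (hM : 1 ≤ M) (hM' : ∀ α c j : ℕ,
      ∑ i ∈ Finset.range (j + 1), |(pn α c j).coeff i| ≤ M ^ (α + c + 2 * j + 1))
    {φ : E → E} {x : E} {C : ℝ} (hC : 1 ≤ C) (h : Bd2 φ x C) (m : ℤ) (c j : ℕ) :
    Bd2 (fun y => mode m c j (φ y)) x ((1024 * (20 * C) * M) ^ (lev m c j + 1)) := by
  have h0 := mb_lin h 0 1 Complex.norm_I
  have h1 := mb_lin h 0 1 (k := -Complex.I) (by simp)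
  have h2 := mb_lin h 2 3 Complex.norm_I
  have q : ∀ i, Bd2 (fun y => ((φ y i : ℝ) : ℂ) * ((φ y i : ℝ) : ℂ)) x (4 * C * C) := fun i =>
    (mb_coord h i).mul (mb_coord h i)
  have hx : Bd2 (fun y => ((xx (φ y) : ℝ) : ℂ)) x (100 * C ^ 2) := by
    refine (((q 2).add (q 3)).congr (Eventually.of_forall fun y => ?_)).mono (by nlinarith)
    simp [xx, pow_two]
  have hr : Bd2 (fun y => ((φ y ⬝ᵥ φ y : ℝ) : ℂ)) x (100 * C ^ 2) := by
    refine (((((q 0).add (q 1)).add (q 2)).add (q 3)).congr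
      (Eventually.of_forall fun y => ?_)).mono (by nlinarith)
    simp [base_dot]
  have hs := Bd2.sum (Finset.range (j + 1)) fun i _ =>
    ((mb_const (((pn m.natAbs c j).coeff i : ℝ) : ℂ) x).mul (hx.pow i)).mul (hr.pow (j - i))
  have hs' : ∑ i ∈ Finset.range (j + 1), 4 * (4 * ‖(((pn m.natAbs c j).coeff i : ℝ) : ℂ)‖ *
      (4 * (100 * C ^ 2)) ^ i) * (4 * (100 * C ^ 2)) ^ (j - i) ≤
      16 * (20 * C) ^ (2 * j) * M ^ (lev m c j + 1) := by
    refine le_trans (le_of_eq ?_) (mul_le_mul_of_nonneg_left (hM' m.natAbs c j) (by positivity))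
    rw [Finset.mul_sum]
    refine Finset.sum_congr rfl fun i hi => ?_
    have e : (4 * (100 * C ^ 2)) ^ i * (4 * (100 * C ^ 2)) ^ (j - i) = (20 * C) ^ (2 * j) := by
      rw [← pow_add, Nat.add_sub_cancel' (Nat.lt_succ_iff.1 (Finset.mem_range.1 hi)), pow_mul]
      congr 1
      ring
    rw [Complex.norm_real, Real.norm_eq_abs, ← e]
    ring
  refine (((((h0.pow m.toNat).mul (h1.pow (-m).toNat)).mul (h2.pow c)).mul (hs.mono hs')).congr
    (Eventually.of_forall fun y => ?_)).mono ?_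
  · simp [mode, ang, z0, z1]
  · have e : lev m c j = m.toNat + (-m).toNat + c + 2 * j := by
      unfold lev
      omega
    have a1 : (1024 : ℝ) ≤ 1024 ^ (lev m c j + 1) := le_self_pow₀ (by norm_num) (by omega)
    have a2 : (20 * C) ^ lev m c j ≤ (20 * C) ^ (lev m c j + 1) :=
      pow_le_pow_right₀ (by linarith) (by omega)
    rw [mul_pow (_ * _) M, mul_pow 1024]
    refine le_trans (le_of_eq ?_) (mul_le_mul_of_nonneg_right
      (mul_le_mul a1 a2 (by positivity) (by positivity)) (by positivity))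
    generalize M ^ (lev m c j + 1) = K
    rw [e, show 4 * (5 * C) = 20 * C by ring]
    generalize 20 * C = D
    ring

theorem mode_bd : ∃ M : ℝ, 1 ≤ M ∧ ∀ (m : ℤ) (c j : ℕ) (x : E),
    (‖x‖ ≤ 1 → Bd2 (mode m c j) x (M ^ (lev m c j + 1))) ∧
    (1 / 4 ≤ x ⬝ᵥ x → Bd2 (fun y => mode m c j (nrm y)) x (M ^ (lev m c j + 1))) := by
  obtain ⟨M, hM, hM'⟩ := pn_coeff_le
  obtain ⟨C, hC⟩ := bd2_nrm
  have h1 : 1 ≤ max C 1 := le_max_right _ _
  exact ⟨1024 * (20 * max C 1) * M, by nlinarith, fun m c j x =>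
    ⟨fun hx => mb_mode hM hM' h1 ((mb_id hx).mono h1) m c j,
      fun hx => mb_mode hM hM' h1 ((hC x hx).mono (le_max_left _ _)) m c j⟩⟩

theorem natAbs_le_lv {q : ℕ} {σ : ℕ × ℕ} (h1 : 1 ≤ σ.1) (h2 : σ.1 < q) (n : Ix) :
    n.1.natAbs + 2 * n.2 ≤ lv q σ n := by
  have h3 : n.1.natAbs ≤ ((σ.1 : ℤ) + q * n.1).natAbs := by
    have h4 : (1 : ℤ) ≤ σ.1 := by exact_mod_cast h1
    have h5 : (σ.1 : ℤ) + 1 ≤ q := by exact_mod_cast h2
    rcases le_or_gt 0 n.1 with h | h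
    · have : n.1 ≤ (σ.1 : ℤ) + q * n.1 := by nlinarith
      omega
    · have : (σ.1 : ℤ) + q * n.1 ≤ n.1 := by nlinarith
      omega
  unfold lv lev mm
  omega

theorem summable_lv {q : ℕ} {σ : ℕ × ℕ} (h1 : 1 ≤ σ.1) (h2 : σ.1 < q) :
    Summable fun n : Ix => ((lv q σ n : ℝ) + 1) ^ 2 * (1 / 8 : ℝ) ^ lv q σ n := by
  have h3 : Summable fun a : ℤ => (1 / 2 : ℝ) ^ a.natAbs :=
    Summable.of_nat_of_neg (by simpa using summable_geometric_two)
      (by simpa using summable_geometric_two)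
  refine Summable.of_nonneg_of_le (fun n => by positivity) (fun n => ?_)
    (h3.mul_of_nonneg summable_geometric_two (fun _ => by positivity) fun _ => by positivity)
  have h4 := natAbs_le_lv h1 h2 n
  have h5 : ((lv q σ n : ℝ) + 1) ≤ 2 ^ lv q σ n := by
    exact_mod_cast Nat.lt_two_pow_self (n := lv q σ n)
  rw [← pow_add]
  refine le_trans ?_ (pow_le_pow_of_le_one (by norm_num) (by norm_num)
    (show n.1.natAbs + n.2 ≤ lv q σ n by omega))
  refine (mul_le_mul_of_nonneg_right (pow_le_pow_left₀ (by positivity) h5 2)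
    (by positivity)).trans_eq ?_
  rw [← pow_mul, mul_comm _ 2, pow_mul, ← mul_pow]
  norm_num

end Vale.Agent.P225
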