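import Mathlib
import Vale.Agent.P225.ModeBd

/-! Chains of modes and numerical inequalities. -/

open scoped ContDiff Matrix Topology BoundedContinuousFunction
open Filter Set

noncomputable section

namespace Vale.Agent.P225

theorem mem_Bk {q : ℕ} {σ : ℕ × ℕ} (h1 : 1 ≤ σ.1) (h2 : σ.1 < q) {K : ℕ} {n : Ix} :
    n ∈ Bk q σ K ↔ lv q σ n ≤ K := by
  unfold Bk
  rw [Finset.mem_filter, Finset.mem_product, Finset.mem_Icc, Finset.mem_range]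
  refine ⟨fun h => h.2, fun h => ⟨?_, h⟩⟩
  unfold lv lev mm at h
  obtain ⟨w, hw⟩ : ∃ w : ℤ, w = q * n.1 := ⟨_, rfl⟩
  rw [← hw] at h
  have a1 : (σ.1 : ℤ) + w ≤ K := by omega
  have a2 : -(K : ℤ) ≤ σ.1 + w := by omega
  have a3 : (1 : ℤ) ≤ σ.1 := by exact_mod_cast h1
  have a4 : (σ.1 : ℤ) + 1 ≤ q := by exact_mod_cast h2
  refine ⟨⟨?_, ?_⟩, by omega⟩
  · by_contra hc
    have := mul_le_mul_of_nonneg_right (show (1 : ℤ) ≤ q by omega) (show 0 ≤ -n.1 - 1 by omega)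
    nlinarith
  · by_contra hc
    have := mul_le_mul_of_nonneg_right (show (1 : ℤ) ≤ q by omega) (show 0 ≤ n.1 by omega)
    nlinarith

theorem comb_secs {s : ℕ} {σ : ℕ × ℕ} (hσ : σ ∈ secs s) :
    1 ≤ σ.1 ∧ σ.1 ≤ 4 * s ∧ 1 ≤ σ.2 ∧ σ.2 ≤ 10 * s := by
  simpa only [secs, Finset.mem_product, Finset.mem_Icc, and_assoc] using hσ

theorem comb_lv0 {q : ℕ} {σ : ℕ × ℕ} {n : Ix} (h : n.1 = 0) (h1 : σ.2 ≤ σ.1) :
    lv q σ n = σ.1 + 2 * n.2 := by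
  unfold lv lev mm
  rw [h]
  omega

theorem comb_lv1 {q : ℕ} {σ : ℕ × ℕ} {n : Ix} (h : n.1 = -1) (h1 : σ.1 ≤ q) :
    lv q σ n + σ.1 = q + 2 * σ.2 + 2 * n.2 := by
  unfold lv lev mm
  rw [h]
  omega

theorem comb_chm_fst (s : ℕ) (σ : ℕ × ℕ) (K : ℕ) :
    ((K + σ.1) % 2 = 0 ∧ (chm s σ K).1 = 0) ∨ ((K + σ.1) % 2 = 1 ∧ (chm s σ K).1 = -1) := by
  unfold chm
  split_ifs with h
  · exact Or.inl ⟨h, rfl⟩
  · exact Or.inr ⟨by omega, rfl⟩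

theorem comb_chm {s : ℕ} {σ : ℕ × ℕ} (h0 : σ.1 ≤ 4 * s) (h1 : 3 * s + 1 ≤ σ.1) (h2 : σ.2 ≤ s)
    {K : ℕ} (h3 : 4 * s ≤ K) (h4 : K ≤ 10 * s) :
    lv (4 * s + 1) σ (chm s σ K) = K ∧ InCh s σ (chm s σ K) := by
  have a1 : lv (4 * s + 1) σ (chm s σ K) = K := by
    unfold chm
    split_ifs with h
    · rw [comb_lv0 rfl (by omega)]
      omega
    · have := comb_lv1 (q := 4 * s + 1) (σ := σ)
        (n := (-1, (K + σ.1 - (4 * s + 1) - 2 * σ.2) / 2)) rfl (by omega)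
      omega
  refine ⟨a1, h1, h2, ?_, by omega, by omega⟩
  rcases comb_chm_fst s σ K with h | h
  · exact Or.inl h.2
  · exact Or.inr h.2

theorem comb_chm_lv {s : ℕ} {σ : ℕ × ℕ} (h0 : σ.1 ≤ 4 * s) {n : Ix} (h : InCh s σ n) :
    chm s σ (lv (4 * s + 1) σ n) = n := by
  obtain ⟨h1, h2, h3 | h3, -⟩ := h
  · have a1 := comb_lv0 (q := 4 * s + 1) (σ := σ) h3 (by omega)
    unfold chm
    rw [if_pos (by omega)]
    exact Prod.ext h3.symm (by simp only; omega)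
  · have a1 := comb_lv1 (q := 4 * s + 1) (σ := σ) h3 (by omega)
    unfold chm
    rw [if_neg (by omega)]
    exact Prod.ext h3.symm (by simp only; omega)

theorem comb_trn (s : ℕ) (σ : ℕ × ℕ) (i : ℕ) (n : Ix) :
    (¬ InCh s σ n ∧ trn s σ i n = n) ∨ (InCh s σ n ∧
      (((lv (4 * s + 1) σ n + i) % 2 = 0 ∧ lv (4 * s + 1) σ n = 10 * s ∧ trn s σ i n = n) ∨
      ((lv (4 * s + 1) σ n + i) % 2 = 1 ∧ lv (4 * s + 1) σ n = 4 * s ∧ trn s σ i n = n) ∨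
      ((lv (4 * s + 1) σ n + i) % 2 = 0 ∧ lv (4 * s + 1) σ n < 10 * s ∧
        trn s σ i n = chm s σ (lv (4 * s + 1) σ n + 1)) ∨
      ((lv (4 * s + 1) σ n + i) % 2 = 1 ∧ 4 * s < lv (4 * s + 1) σ n ∧
        trn s σ i n = chm s σ (lv (4 * s + 1) σ n - 1)))) := by
  unfold trn
  split_ifs with h1 h2 h3 h4
  · exact Or.inr ⟨h1, Or.inr (Or.inr (Or.inl ⟨h2, h3, rfl⟩))⟩
  · exact Or.inr ⟨h1, Or.inl ⟨h2, le_antisymm h1.2.2.2.2 (not_lt.1 h3), rfl⟩⟩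
  · exact Or.inr ⟨h1, Or.inr (Or.inr (Or.inr ⟨by omega, h4, rfl⟩))⟩
  · exact Or.inr ⟨h1, Or.inr (Or.inl ⟨by omega, le_antisymm (not_lt.1 h4) h1.2.2.2.1, rfl⟩)⟩
  · exact Or.inl ⟨h1, rfl⟩

/-- the matching either fixes a mode or moves it by one step along the chain -/
theorem comb_trn' {s : ℕ} {σ : ℕ × ℕ} (h0 : σ.1 ≤ 4 * s) (i : ℕ) (n : Ix) :
    trn s σ i n = n ∨ (InCh s σ n ∧ InCh s σ (trn s σ i n) ∧ trn s σ i (trn s σ i n) = n ∧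
      (lv (4 * s + 1) σ (trn s σ i n) = lv (4 * s + 1) σ n + 1 ∨
        lv (4 * s + 1) σ (trn s σ i n) + 1 = lv (4 * s + 1) σ n)) := by
  rcases comb_trn s σ i n with h | ⟨h, h1 | h1 | ⟨h1, h2, h3⟩ | ⟨h1, h2, h3⟩⟩
  · exact Or.inl h.2
  · exact Or.inl h1.2.2
  · exact Or.inl h1.2.2
  · obtain ⟨a1, a2⟩ := comb_chm h0 h.1 h.2.1 (K := lv (4 * s + 1) σ n + 1)
      (by have := h.2.2.2.1; omega) h2
    rw [← h3] at a1 a2
    refine Or.inr ⟨h, a2, ?_, Or.inl a1⟩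
    have a3 := h.2.2.2.1
    rcases comb_trn s σ i (trn s σ i n) with b | ⟨_, b | b | b | b⟩
    · exact absurd a2 b.1
    · omega
    · omega
    · omega
    · rw [b.2.2, a1, Nat.add_sub_cancel, comb_chm_lv h0 h]
  · obtain ⟨a1, a2⟩ := comb_chm h0 h.1 h.2.1 (K := lv (4 * s + 1) σ n - 1) (by omega)
      (by have := h.2.2.2.2; omega)
    rw [← h3] at a1 a2
    refine Or.inr ⟨h, a2, ?_, Or.inr (by omega)⟩
    have a3 := h.2.2.2.2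
    rcases comb_trn s σ i (trn s σ i n) with b | ⟨_, b | b | b | b⟩
    · exact absurd a2 b.1
    · omega
    · omega
    · rw [b.2.2, a1, Nat.sub_add_cancel (by omega), comb_chm_lv h0 h]
    · omega

theorem comb_fst {s : ℕ} {σ : ℕ × ℕ} (h0 : σ.1 ≤ 4 * s) {n : Ix} (h : InCh s σ n) :
    ((lv (4 * s + 1) σ n + σ.1) % 2 = 0 ∧ n.1 = 0) ∨
      ((lv (4 * s + 1) σ n + σ.1) % 2 = 1 ∧ n.1 = -1) := by
  have := comb_chm_fst s σ (lv (4 * s + 1) σ n)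
  rwa [comb_chm_lv h0 h] at this

theorem trn_match {s : ℕ} {σ : ℕ × ℕ} (hσ : σ ∈ secs s) (i : ℕ) :
    Match (Bk (4 * s + 1) σ (10 * s)) (fun n => n.1 = 0) (trn s σ i) := by
  obtain ⟨h1, h2, -⟩ := comb_secs hσ
  refine ⟨fun m hm => ?_, fun m _ => ?_, fun m _ hne => ?_⟩
  · rcases comb_trn' h2 i m with h | h
    · rwa [h]
    · exact (mem_Bk h1 (by omega)).2 h.2.1.2.2.2.2
  · rcases comb_trn' h2 i m with h | h
    · rw [h, h]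
    · exact h.2.2.1
  · rcases comb_trn' h2 i m with h | ⟨a1, a2, -, a3⟩
    · exact absurd h hne
    · have b1 := comb_fst h2 a1
      have b2 := comb_fst h2 a2
      omega

theorem trn_Gd {s : ℕ} {σ : ℕ × ℕ} (hσ : σ ∈ secs s) (i : ℕ) {n : Ix} (hn : n ∈ Gd s σ) :
    trn s σ i n ∈ Gd s σ := by
  obtain ⟨h1, h2, -⟩ := comb_secs hσ
  rcases comb_trn' h2 i n with h | h
  · rwa [h]
  · exact Finset.mem_filter.2 ⟨(mem_Bk h1 (by omega)).2 h.2.1.2.2.2.2, Or.inl h.2.1⟩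

theorem comb_X {b e : ℝ} (he : 0 < e) (he1 : e ≤ 1 / 10000) (h1 : 1 - e ≤ b)
    (h2 : b ≤ 1 + 2 * e) : 1 - 4 * e ≤ (b ^ 2)⁻¹ ∧ (b ^ 2)⁻¹ ≤ 1 + 3 * e ∧
      1 - 4 * e ≤ b ^ 4 ∧ b ^ 4 ≤ 1 + 9 * e ∧ b ^ 2 ≤ 1 + 5 * e := by
  have hb : 0 < b := by linarith
  have a1 : 1 - 2 * e ≤ b ^ 2 := by nlinarith
  have a2 : b ^ 2 ≤ 1 + 4 * e + 4 * e ^ 2 := by nlinarith
  have a3 : b ^ 4 = (b ^ 2) ^ 2 := by ring
  refine ⟨?_, ?_, ?_, ?_, by nlinarith⟩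
  · rw [← one_div, le_div_iff₀ (by positivity)]
    nlinarith
  · rw [← one_div, div_le_iff₀ (by positivity)]
    nlinarith
  · rw [a3]
    nlinarith
  · rw [a3]
    have a4 : b ^ 2 ≤ 1 + 4.1 * e := by nlinarith
    have := pow_le_pow_left₀ (by positivity) a4 2
    nlinarith

theorem comb_Y {e : ℝ} (e0 : 0 < e) (e1 : e ≤ 1 / 10000) :
    1 + 2 * e ≤ ((1 - e) ^ 2)⁻¹ ∧ (1 - e) ^ 4 ≤ 1 - 3 * e := by
  constructor
  · rw [← one_div, le_div_iff₀ (pow_pos (by linarith) 2)]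
    nlinarith [mul_pos e0 e0]
  · have c1 : (1 - e) ^ 2 ≤ 1 - 1.9 * e := by nlinarith
    have c2 := pow_le_pow_left₀ (sq_nonneg _) c1 2
    nlinarith

theorem comb_l (m : ℤ) (c j : ℕ) : ((m : ℝ) + c) ^ 2 ≤ (lev m c j : ℝ) ^ 2 := by
  have h1 : |m + c| ≤ (lev m c j : ℤ) := by
    unfold lev
    rw [abs_le]
    omega
  have h2 : |(m : ℝ) + c| ≤ (lev m c j : ℝ) := by exact_mod_cast h1
  exact sq_le_sq' (abs_le.1 h2).1 (abs_le.1 h2).2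

theorem comb_sqrt {u v t : ℝ} (ht : 1 ≤ t) (hv0 : 0 ≤ v) (hv : v ≤ (11 / 10 * (10 * t + 1)) ^ 2)
    (h : v + 11 * t ≤ u) : √v + 1 / 4 ≤ √u := by
  have a1 : √v ≤ 11 / 10 * (10 * t + 1) := Real.sqrt_le_iff.2 ⟨by positivity, hv⟩
  refine Real.le_sqrt_of_sq_le ?_
  have a2 := Real.sq_sqrt hv0
  nlinarith

theorem comb_e {s : ℕ} (hs : 10000 ≤ s) : (0 : ℝ) < 1 / s ∧ (1 : ℝ) / s ≤ 1 / 10000 ∧
    (1 : ℝ) / s * s = 1 ∧ (10000 : ℝ) ≤ s ∧ ∀ a : ℝ, a / s = a * (1 / s) := by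
  have h : (10000 : ℝ) ≤ s := by exact_mod_cast hs
  exact ⟨by positivity, one_div_le_one_div_of_le (by norm_num) h, by field_simp, h,
    fun a => by ring⟩

variable {s : ℕ} (hs : 10000 ≤ s)
include hs

theorem lam_bd {b w : ℝ} (hb : b ∈ Icc (1 - 1 / s : ℝ) (1 + 2 / s)) (hw : w ∈ Icc (9 / 10 : ℝ) 1)
    (m : ℤ) {c : ℕ} (hc : 1 ≤ c) (j : ℕ) :
    (9 / 10 * ((lev m c j : ℝ) + 1)) ^ 2 ≤ lam b m c j + w ∧
      lam b m c j + w ≤ (11 / 10 * ((lev m c j : ℝ) + 1)) ^ 2 := by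
  obtain ⟨e0, e1, -, -, e4⟩ := comb_e hs
  rw [e4 2] at hb
  obtain ⟨x1, x2, x3, x4, -⟩ := comb_X e0 e1 hb.1 hb.2
  have a1 := comb_l m c j
  have a2 : (0 : ℝ) ≤ lev m c j := Nat.cast_nonneg _
  unfold lam bX bZ
  generalize (lev m c j : ℝ) = K at *
  have a3 : 0 ≤ ((m : ℝ) + c) ^ 2 := sq_nonneg _
  generalize ((m : ℝ) + c) ^ 2 = l at *
  have a4 : 0 ≤ K * (K + 2) := by positivity
  have b1 := mul_le_mul_of_nonneg_right (show 99 / 100 ≤ (b ^ 2)⁻¹ by linarith) a4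
  have b2 := mul_le_mul_of_nonneg_right (show (b ^ 2)⁻¹ ≤ 101 / 100 by linarith) a4
  have b3 := mul_le_mul_of_nonneg_right (show -(1 / 100) ≤ b ^ 4 - (b ^ 2)⁻¹ by linarith) a3
  have b4 := mul_le_mul_of_nonneg_right (show b ^ 4 - (b ^ 2)⁻¹ ≤ 1 / 100 by linarith) a3
  constructor <;> nlinarith [hw.1, hw.2]

theorem ric_margin {b k : ℝ} (hb : b ∈ Icc (1 - 1 / s : ℝ) (1 + 2 / s)) (hk0 : 0 ≤ k)
    (hk : k ≤ 1 - 9 / s) :
    k ^ 2 + 1 / s ≤ (b ^ 8)⁻¹ ∧ k ^ 2 + 1 / s ≤ 2 * (b ^ 2)⁻¹ - (b ^ 8)⁻¹ := by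
  obtain ⟨e0, e1, -, -, e4⟩ := comb_e hs
  rw [e4 2] at hb
  rw [e4 9] at hk
  obtain ⟨x1, x2, -⟩ := comb_X e0 e1 hb.1 hb.2
  have a1 : (b ^ 8)⁻¹ = (b ^ 2)⁻¹ ^ 4 := by
    rw [inv_pow, ← pow_mul]
  rw [a1]
  generalize (1 : ℝ) / s = e at *
  obtain ⟨x, hx⟩ : ∃ x : ℝ, (b ^ 2)⁻¹ = 1 + x := ⟨(b ^ 2)⁻¹ - 1, by ring⟩
  rw [hx] at x1 x2 ⊢
  have a2 : k ^ 2 + e ≤ 1 - 16 * e := by
    have := pow_le_pow_left₀ hk0 hk 2
    nlinarith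
  have a3 := one_add_mul_le_pow (show -2 ≤ x by linarith) 4
  have a4 : x ^ 2 ≤ e / 100 := by nlinarith
  have a5 : (1 + x) ^ 4 ≤ 1 + 4 * x + 7 * x ^ 2 := by
    have b1 : 0 ≤ x ^ 2 * (1 - 4 * x - x ^ 2) := mul_nonneg (sq_nonneg x) (by linarith)
    nlinarith
  push_cast at a3
  constructor <;> linarith

theorem cross {b c : ℝ} (hb : b ∈ Icc (1 + 1 / s : ℝ) (1 + 2 / s))
    (hc : c ∈ Icc (1 - 11 / s : ℝ) (1 - 10 / s)) {σ : ℕ × ℕ} (hσ : σ ∈ secs s) (i : ℕ) {a : Ix}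
    (h : trn s σ i a ≠ a) (ha : a.1 = 0) :
    mu (4 * s + 1) b c σ (trn s σ i a) + 1 / 4 ≤ mu (4 * s + 1) b c σ a ∧
      mu (4 * s + 1) (1 - 1 / s) c σ a + 1 / 4 ≤ mu (4 * s + 1) (1 - 1 / s) c σ (trn s σ i a) := by
  obtain ⟨e0, e1, e2, e3, e4⟩ := comb_e hs
  obtain ⟨h1, h2, h3, -⟩ := comb_secs hσ
  rcases comb_trn' h2 i a with h' | ⟨a1, a2, -, a3⟩
  · exact absurd h' h
  generalize trn s σ i a = a' at *
  have a4 : a'.1 = -1 := by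
    have b1 := comb_fst h2 a1
    have b2 := comb_fst h2 a2
    omega
  have hw : c ^ 2 ∈ Icc (9 / 10 : ℝ) 1 := by
    rw [e4 11, e4 10] at hc
    constructor <;> nlinarith [hc.1, hc.2]
  have hb' : b ∈ Icc (1 - 1 / s : ℝ) (1 + 2 / s) := ⟨by linarith [hb.1], hb.2⟩
  have hb'' : (1 - 1 / s : ℝ) ∈ Icc (1 - 1 / s : ℝ) (1 + 2 / s) :=
    ⟨le_rfl, by rw [e4 2]; linarith⟩
  have k1 : (lv (4 * s + 1) σ a : ℝ) ≤ 10 * s := by exact_mod_cast a1.2.2.2.2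
  have k2 : (lv (4 * s + 1) σ a' : ℝ) ≤ 10 * s := by exact_mod_cast a2.2.2.2.2
  have k3 : |(lv (4 * s + 1) σ a : ℝ) * (lv (4 * s + 1) σ a + 2) -
      lv (4 * s + 1) σ a' * (lv (4 * s + 1) σ a' + 2)| ≤ 20 * s + 3 := by
    have b1 : (0 : ℝ) ≤ lv (4 * s + 1) σ a := Nat.cast_nonneg _
    have b2 : (0 : ℝ) ≤ lv (4 * s + 1) σ a' := Nat.cast_nonneg _
    rcases a3 with b | b
    · have b3 : (lv (4 * s + 1) σ a' : ℝ) = lv (4 * s + 1) σ a + 1 := by exact_mod_cast b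
      rw [b3, abs_le]
      constructor <;> linarith
    · have b3 : (lv (4 * s + 1) σ a : ℝ) = lv (4 * s + 1) σ a' + 1 := by exact_mod_cast b.symm
      rw [b3, abs_le]
      constructor <;> linarith
  have k4 : 8 * (s : ℝ) ^ 2 ≤ ((mm (4 * s + 1) σ a : ℝ) + σ.2) ^ 2 -
      ((mm (4 * s + 1) σ a' : ℝ) + σ.2) ^ 2 := by
    unfold mm
    rw [ha, a4]
    have b1 : 3 * (s : ℝ) + 1 ≤ σ.1 := by exact_mod_cast a1.1
    push_cast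
    nlinarith
  have k5 : ∀ {b : ℝ} (_ : b ∈ Icc (1 - 1 / s : ℝ) (1 + 2 / s)) {n : Ix},
      (lv (4 * s + 1) σ n : ℝ) ≤ 10 * s → 0 ≤ lam b (mm (4 * s + 1) σ n) σ.2 n.2 + c ^ 2 ∧
      lam b (mm (4 * s + 1) σ n) σ.2 n.2 + c ^ 2 ≤ (11 / 10 * (10 * (s : ℝ) + 1)) ^ 2 := by
    intro b hb n hn
    obtain ⟨b1, b2⟩ := lam_bd hs hb hw (mm (4 * s + 1) σ n) h3 n.2
    refine ⟨(sq_nonneg _).trans b1, b2.trans (pow_le_pow_left₀ (by positivity) ?_ 2)⟩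
    unfold lv at hn
    linarith
  obtain ⟨k6, k7⟩ := abs_le.1 k3
  have k8 : 1 / (s : ℝ) * (8 * (s : ℝ) ^ 2) = 8 * s := by field_simp
  unfold mu
  constructor
  · refine comb_sqrt (t := s) (by linarith) (k5 hb' k2).1 (k5 hb' k2).2 ?_
    have b0 : 1 ≤ b := by linarith [hb.1]
    have b1 : (b ^ 2)⁻¹ ≤ 1 := inv_le_one_of_one_le₀ (one_le_pow₀ b0)
    have b2 : 0 ≤ (b ^ 2)⁻¹ := by positivity
    have b3 : 1 + 4 * (1 / s) ≤ b ^ 4 := by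
      have := one_add_mul_le_pow (show -2 ≤ (1 / s : ℝ) by linarith) 4
      exact le_trans (by exact_mod_cast this) (pow_le_pow_left₀ (by linarith) hb.1 4)
    have b4 := mul_le_mul (show 4 * (1 / s : ℝ) ≤ b ^ 4 - (b ^ 2)⁻¹ by linarith) k4
      (by positivity) (by linarith)
    have b5 := mul_le_mul_of_nonneg_left k6 b2
    have b6 := mul_le_mul_of_nonneg_right b1 (show (0 : ℝ) ≤ 20 * s + 3 by positivity)
    unfold lam bX bZ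
    unfold lv at b5
    linarith
  · refine comb_sqrt (t := s) (by linarith) (k5 hb'' k1).1 (k5 hb'' k1).2 ?_
    obtain ⟨x1, x2, -⟩ := comb_X e0 e1 (le_refl (1 - 1 / s : ℝ)) (by linarith)
    obtain ⟨b1, b3⟩ := comb_Y e0 e1
    have b4 := mul_le_mul (show 5 * (1 / s : ℝ) ≤ ((1 - 1 / s : ℝ) ^ 2)⁻¹ - (1 - 1 / s : ℝ) ^ 4 by
      linarith) k4 (by positivity) (by linarith)
    have b5 := mul_le_mul_of_nonneg_left k7 (show 0 ≤ ((1 - 1 / s : ℝ) ^ 2)⁻¹ by positivity)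
    have b6 := mul_le_mul_of_nonneg_right (show ((1 - 1 / s : ℝ) ^ 2)⁻¹ ≤ 11 / 10 by linarith)
      (show (0 : ℝ) ≤ 20 * s + 3 by positivity)
    unfold lam bX bZ
    unfold lv at b5
    linarith

theorem exists_potential {b c : ℝ} (hb : b ∈ Icc (1 + 1 / s : ℝ) (1 + 2 / s))
    (hc : c ∈ Icc (1 - 11 / s : ℝ) (1 - 10 / s)) {σ : ℕ × ℕ} (hσ : σ ∈ secs s) :
    ∃ (Φ : ℕ → Ix → ℝ) (H : ℝ), ∀ i, ∀ n ∈ Gd s σ, 0 ≤ Φ i n ∧ Φ i n ≤ H ∧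
      mu (4 * s + 1) b c σ n ≤ (8 * s + 1) * c - 4 + Φ (i + 1) (trn s σ i n) - Φ i n := by
  obtain ⟨e0, e1, e2, e3, e4⟩ := comb_e hs
  obtain ⟨h1, h2, h3, -⟩ := comb_secs hσ
  rw [e4 2] at hb
  rw [e4 11, e4 10] at hc
  have hmu : ∀ n, mu (4 * s + 1) b c σ n ≤ (1 + 5 * (1 / s)) * (lv (4 * s + 1) σ n + 1) := by
    intro n
    obtain ⟨-, -, -, -, x5⟩ := comb_X e0 e1 (by linarith [hb.1]) hb.2
    have b0 : 1 ≤ b := by linarith [hb.1]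
    have b1 : (b ^ 2)⁻¹ ≤ 1 := inv_le_one_of_one_le₀ (one_le_pow₀ b0)
    have b2 : 1 ≤ b ^ 4 := one_le_pow₀ b0
    have b3 := mul_le_mul_of_nonneg_left (comb_l (mm (4 * s + 1) σ n) σ.2 n.2)
      (show 0 ≤ b ^ 4 - (b ^ 2)⁻¹ by linarith)
    have b4 : c ^ 2 ≤ 1 := by nlinarith [hc.1, hc.2]
    refine le_trans ?_ (mul_le_mul_of_nonneg_right x5 (by positivity))
    unfold mu lam bX bZ lv
    have b5 : (0 : ℝ) ≤ lev (mm (4 * s + 1) σ n) σ.2 n.2 := Nat.cast_nonneg _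
    refine Real.sqrt_le_iff.2 ⟨by positivity, ?_⟩
    have b6 := mul_le_mul_of_nonneg_right (b1.trans b2) b5
    nlinarith
  have hr : 8 * s - 88 ≤ (8 * s + 1) * c := by
    have := mul_le_mul_of_nonneg_left hc.1 (show (0 : ℝ) ≤ 8 * s + 1 by positivity)
    nlinarith
  let f : ℕ → ℕ → ℝ := fun i K => if (K + i) % 2 = 0 then (K - 4 * s) * (K - 10 * s - 1) / 2
    else -((K - 4 * s + 1) * (K - 10 * s)) / 2
  have f0 : ∀ i K, (K + i) % 2 = 0 → f i K = (K - 4 * s) * (K - 10 * s - 1) / 2 :=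
    fun i K h => if_pos h
  have f1 : ∀ i K, (K + i) % 2 = 1 → f i K = -((K - 4 * s + 1) * (K - 10 * s)) / 2 :=
    fun i K h => if_neg (by omega)
  refine ⟨fun i n => (6 * s + 1) ^ 2 + if InCh s σ n then f i (lv (4 * s + 1) σ n) else 0,
    2 * (6 * s + 1) ^ 2, fun i n hn => ?_⟩
  have m1 := hmu n
  rcases comb_trn s σ i n with h | ⟨h, h'⟩
  · simp only [h.2, if_neg h.1]
    refine ⟨by positivity, by linarith [sq_nonneg (6 * (s : ℝ) + 1)], ?_⟩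
    have a1 : (lv (4 * s + 1) σ n : ℝ) + 141 ≤ 8 * s := by
      exact_mod_cast (Finset.mem_filter.1 hn).2.resolve_left h.1
    have a2 := mul_le_mul_of_nonneg_left a1 e0.le
    nlinarith
  have k1 : 4 * (s : ℝ) ≤ lv (4 * s + 1) σ n := by exact_mod_cast h.2.2.2.1
  have k2 : (lv (4 * s + 1) σ n : ℝ) ≤ 10 * s := by exact_mod_cast h.2.2.2.2
  have k3 : |f i (lv (4 * s + 1) σ n)| ≤ (6 * s + 1) ^ 2 := by
    rw [abs_le]
    rcases Nat.mod_two_eq_zero_or_one (lv (4 * s + 1) σ n + i) with a | a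
    · rw [f0 _ _ a]
      constructor <;> nlinarith
    · rw [f1 _ _ a]
      constructor <;> nlinarith
  have k4 : InCh s σ (trn s σ i n) ∧ f (i + 1) (lv (4 * s + 1) σ (trn s σ i n)) -
      f i (lv (4 * s + 1) σ n) = lv (4 * s + 1) σ n - 7 * s := by
    rcases h' with ⟨a1, a2, a3⟩ | ⟨a1, a2, a3⟩ | ⟨a1, a2, a3⟩ | ⟨a1, a2, a3⟩
    · rw [a3, f0 i _ a1, f1 (i + 1) _ (by omega), a2]
      exact ⟨h, by push_cast; ring⟩
    · rw [a3, f1 i _ a1, f0 (i + 1) _ (by omega), a2]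
      exact ⟨h, by push_cast; ring⟩
    · obtain ⟨b1, b2⟩ := comb_chm h2 h.1 h.2.1 (K := lv (4 * s + 1) σ n + 1)
        (by have := h.2.2.2.1; omega) a2
      rw [a3, b1, f0 i _ a1, f0 (i + 1) _ (by omega)]
      exact ⟨b2, by push_cast; ring⟩
    · obtain ⟨b1, b2⟩ := comb_chm h2 h.1 h.2.1 (K := lv (4 * s + 1) σ n - 1) (by omega)
        (by have := h.2.2.2.2; omega)
      rw [a3, b1, f1 i _ a1, f1 (i + 1) _ (by omega), Nat.cast_sub (by omega)]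
      exact ⟨b2, by push_cast; ring⟩
  simp only [if_pos h, if_pos k4.1]
  obtain ⟨k5, k6⟩ := abs_le.1 k3
  refine ⟨by linarith, by linarith, ?_⟩
  have a2 := mul_le_mul_of_nonneg_left k2 e0.le
  nlinarith [k4.2]

end Vale.Agent.P225
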