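import Mathlib
import Vale.Agent.P225.Jacobi

/-! Matrix entries of the multipliers. -/

open scoped ContDiff Matrix Topology BoundedContinuousFunction
open Filter Set

noncomputable section

namespace Vale.Agent.P225

variable {q D : ℕ}

theorem mem_nb_comm {n n' : Ix} : n' ∈ nb q D n ↔ n ∈ nb q D n' := by
  simp only [nb, Finset.mem_product, Finset.mem_Icc]
  omega

theorem card_nb_le (n : Ix) : (nb q D n).card ≤ (2 * deg D + 1) * (2 * ((q + 1) * deg D) + 1) := by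
  rw [nb, Finset.card_product, Int.card_Icc, Nat.card_Icc]
  exact Nat.mul_le_mul (by omega) (by omega)

theorem lv_le_of_mem_nb (σ : ℕ × ℕ) {n n' : Ix} (h : n' ∈ nb q D n) :
    lv q σ n' ≤ lv q σ n + (3 * q + 2) * deg D := by
  simp only [nb, Finset.mem_product, Finset.mem_Icc] at h
  have h1 : (mm q σ n' - mm q σ n).natAbs ≤ q * deg D := by
    rw [show mm q σ n' - mm q σ n = q * (n'.1 - n.1) by simp only [mm]; ring, Int.natAbs_mul,
      Int.natAbs_natCast]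
    exact Nat.mul_le_mul_left _ (by omega)
  rw [add_mul, one_mul] at h
  rw [lv, lv, lev, lev, add_mul, mul_assoc]
  omega

theorem Mult_mm (σ : ℕ × ℕ) {n' n : Ix} {a b : ℕ} (h : n'.1 = n.1 + a - b) :
    mm q σ n' = mm q σ n + (q * a : ℕ) - (q * b : ℕ) := by
  simp only [mm, h]
  push_cast
  ring

theorem Mult_par {m m' : ℤ} {a b : ℕ} (h : m' = m + a - b) : ∃ κ : ℕ,
    (m.natAbs + m'.natAbs + (a + b)) / 2 = m'.natAbs + κ ∧ κ ≤ a + b ∧
      m.natAbs ≤ m'.natAbs + 2 * κ ∧ a + m.toNat = m'.toNat + κ ∧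
      b + (-m).toNat = (-m').toNat + κ :=
  ⟨a + m.toNat - m'.toNat, by omega⟩

open Polynomial in
theorem Mult_form (c e α κ : ℕ) (p p' : ℝ[X]) :
    ∫ x in (0 : ℝ)..1, x ^ (c + e) * (1 - x) ^ (α + κ) * (p.eval x * p'.eval x) =
      ∫ x in (0 : ℝ)..1, x ^ c * (1 - x) ^ α * ((X ^ e * (1 - X) ^ κ * p).eval x * p'.eval x) := by
  simp only [eval_mul, eval_pow, eval_sub, eval_one, eval_X, pow_add]
  exact intervalIntegral.integral_congr fun x _ => by ring

open Polynomial in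
theorem Mult_deg (e κ α c j : ℕ) : (X ^ e * (1 - X) ^ κ * pn α c j).natDegree ≤ e + κ + j := by
  have h1 : (1 - X : ℝ[X]).natDegree ≤ 1 := (natDegree_sub_le _ _).trans (by simp)
  refine natDegree_mul_le.trans (add_le_add (natDegree_mul_le.trans (add_le_add (by simp) ?_))
    (pn_natDegree α c j).le)
  exact natDegree_pow_le.trans (mul_le_of_le_one_right' h1)

theorem Mult_le {μ : Fin 3 →₀ ℕ} (hμ : μ 0 + μ 1 + μ 2 ≤ deg D) :
    μ 2 + (q * μ 0 + q * μ 1) ≤ (q + 1) * deg D := by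
  have := Nat.mul_le_mul_left q (show μ 0 + μ 1 ≤ deg D by omega)
  rw [add_mul, ← mul_add]
  omega

theorem abs_Mmon_le (σ : ℕ × ℕ) (n' n : Ix) (μ : Fin 3 →₀ ℕ) : |Mmon q σ n' n μ| ≤ 1 := by
  rw [Mmon]
  split_ifs with h
  swap
  · simp
  obtain ⟨κ, h1, -, h2, -⟩ := Mult_par (Mult_mm (q := q) σ h)
  rw [mul_add, h1]
  have a1 := pn_orth (mm q σ n).natAbs σ.2 n.2 n.2
  have a2 := pn_orth (mm q σ n').natAbs σ.2 n'.2 n'.2
  rw [if_pos rfl] at a1 a2
  generalize pn (mm q σ n).natAbs σ.2 n.2 = p at *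
  generalize pn (mm q σ n').natAbs σ.2 n'.2 = p' at *
  generalize (mm q σ n).natAbs = α at *
  generalize (mm q σ n').natAbs = α' at *
  have c1 : ∀ (α : ℕ) (p : Polynomial ℝ), IntervalIntegrable
      (fun x : ℝ => x ^ σ.2 * (1 - x) ^ α * (p.eval x * p.eval x)) MeasureTheory.volume 0 1 :=
    fun α p => Continuous.intervalIntegrable (by fun_prop) _ _
  rw [← Real.norm_eq_abs]
  refine (intervalIntegral.norm_integral_le_of_norm_le zero_le_one (.of_forall fun x hx => ?_)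
    (((c1 α p).add (c1 α' p')).div_const 2)).trans ?_
  · have x0 := hx.1.le
    have x1 : 0 ≤ 1 - x := sub_nonneg.2 hx.2
    have b1 : 0 ≤ x ^ σ.2 * (1 - x) ^ α * (p.eval x * p.eval x) :=
      mul_nonneg (by positivity) (mul_self_nonneg _)
    have b2 : 0 ≤ x ^ σ.2 * (1 - x) ^ α' * (p'.eval x * p'.eval x) :=
      mul_nonneg (by positivity) (mul_self_nonneg _)
    have b3 : x ^ (σ.2 + μ 2) ≤ x ^ σ.2 := pow_le_pow_of_le_one x0 hx.2 (by omega)
    have b4 : ((1 - x) ^ (α' + κ)) ^ 2 ≤ (1 - x) ^ α * (1 - x) ^ α' := by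
      rw [← pow_mul, ← pow_add]
      exact pow_le_pow_of_le_one x1 (by linarith) (by omega)
    have b5 := mul_le_mul_of_nonneg_right (mul_le_mul (pow_le_pow_left₀ (by positivity) b3 2) b4
      (sq_nonneg _) (sq_nonneg _)) (sq_nonneg (p.eval x * p'.eval x))
    refine abs_le_of_sq_le_sq' ?_ (by positivity) |> abs_le.2
    nlinarith [sq_nonneg (x ^ σ.2 * (1 - x) ^ α * (p.eval x * p.eval x) -
      x ^ σ.2 * (1 - x) ^ α' * (p'.eval x * p'.eval x))]
  · rw [intervalIntegral.integral_div, intervalIntegral.integral_add (c1 α p) (c1 α' p'), a1, a2]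
    norm_num

theorem Mmon_eq_zero (σ : ℕ × ℕ) {n' n : Ix} (h : n' ∉ nb q D n) {μ : Fin 3 →₀ ℕ}
    (hμ : μ 0 + μ 1 + μ 2 ≤ deg D) : Mmon q σ n' n μ = 0 := by
  rw [Mmon]
  split_ifs with h0
  swap
  · rfl
  have h1 := Mult_le (q := q) hμ
  simp only [nb, Finset.mem_product, Finset.mem_Icc] at h
  rcases lt_or_ge n.2 n'.2 with h2 | h2
  · obtain ⟨κ, a1, a2, -⟩ := Mult_par (Mult_mm (q := q) σ h0)
    rw [mul_add, a1, Mult_form]
    exact pn_orth_low _ _ _ ((Mult_deg _ _ _ _ _).trans_lt (by omega))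
  · obtain ⟨κ, a1, a2, -⟩ := Mult_par (Mult_mm (q := q) σ (show n.1 = n'.1 + μ 1 - μ 0 by omega))
    rw [mul_add, add_comm (mm q σ n).natAbs, add_comm (q * μ 0), a1]
    simp only [mul_comm ((pn (mm q σ n).natAbs σ.2 n.2).eval _)]
    rw [Mult_form]
    exact pn_orth_low _ _ _ ((Mult_deg _ _ _ _ _).trans_lt (by omega))

theorem Mlin_monomial (σ : ℕ × ℕ) (n' n : Ix) (μ : Fin 3 →₀ ℕ) (a : ℝ) :
    Mlin q σ n' n (MvPolynomial.monomial μ a) = a * Mmon q σ n' n μ := by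
  have h := (MvPolynomial.basisMonomials (Fin 3) ℝ).constr_basis ℝ (Mmon q σ n' n) μ
  rw [← h, ← smul_eq_mul, ← map_smul, MvPolynomial.coe_basisMonomials, MvPolynomial.smul_monomial,
    smul_eq_mul, mul_one, Mlin]

theorem Mult_add {f g : Pol} {a b : ℕ} (h : f.totalDegree ≤ a) (h' : g.totalDegree ≤ b) :
    (f + g).totalDegree ≤ max a b := (MvPolynomial.totalDegree_add _ _).trans (max_le_max h h')

theorem Mult_mul {f g : Pol} {a b : ℕ} (h : f.totalDegree ≤ a) (h' : g.totalDegree ≤ b) :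
    (f * g).totalDegree ≤ a + b := (MvPolynomial.totalDegree_mul _ _).trans (add_le_add h h')

theorem Mult_sq {f : Pol} {a : ℕ} (h : f.totalDegree ≤ a) : (f ^ 2).totalDegree ≤ 2 * a :=
  (MvPolynomial.totalDegree_pow _ _).trans (Nat.mul_le_mul_left _ h)

theorem Mult_e {X Z x s t : Pol} {n : ℕ} (hX : X.totalDegree ≤ 0) (hZ : Z.totalDegree ≤ 0)
    (hx : x.totalDegree ≤ 1) (hs : s.totalDegree ≤ n) (ht : t.totalDegree ≤ n) (k : Fin 3) :
    (eL X Z x s t k).totalDegree ≤ 4 * n + 4 ∧ (eH X Z x s t k).totalDegree ≤ 4 * n + 4 := by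
  have h1 : (1 - x).totalDegree ≤ 1 := (MvPolynomial.totalDegree_sub _ _).trans (by simpa)
  have h2 : (2 : Pol).totalDegree ≤ 0 := (MvPolynomial.totalDegree_C (2 : ℝ)).le
  fin_cases k <;> constructor <;> simp only [eL, eH, Fin.zero_eta, Fin.mk_one, Fin.reduceFinMk,
    Matrix.cons_val] <;> apply le_trans
  all_goals first
    | omega
    | repeat' with_reducible first | assumption | apply Mult_add | apply Mult_mul | apply Mult_sq

theorem Mult_xi (P : V D) (f : Fin 2) : (xiP P f).totalDegree ≤ 2 * D := by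
  have h : ∀ (i : Fin 3) (k : Fin D), (MvPolynomial.X i ^ (k : ℕ) : Pol).totalDegree ≤ D :=
    fun i k => (MvPolynomial.totalDegree_X_pow _ _).le.trans k.2.le
  exact MvPolynomial.totalDegree_finsetSum_le fun d _ => MvPolynomial.totalDegree_finsetSum_le
    fun i _ => (MvPolynomial.totalDegree_smul_le _ _).trans
      ((Mult_mul (h 2 i) (Mult_add (h 0 d) (h 1 d))).trans (by omega))

theorem totalDegree_eP (b : ℝ) (P : V D) (k : Fin 3) : (eP b P k).totalDegree ≤ deg D := by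
  have h := Mult_e (MvPolynomial.totalDegree_C (bX b)).le (MvPolynomial.totalDegree_C (bZ b)).le
    (MvPolynomial.totalDegree_X 2).le (Mult_xi P 0) (Mult_xi P 1) k
  exact (Mult_add h.1 h.2).trans (by rw [deg]; omega)

theorem totalDegree_eLP (b : ℝ) (P : V D) (k : Fin 3) : (eLP b P k).totalDegree ≤ deg D :=
  (Mult_e (MvPolynomial.totalDegree_C (bX b)).le (MvPolynomial.totalDegree_C (bZ b)).le
    (MvPolynomial.totalDegree_X 2).le (Mult_xi P 0) (Mult_xi P 1) k).1.trans (by rw [deg]; omega)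

theorem Mult_ev (y : E) (μ : Fin 3 →₀ ℕ) : ev q y (MvPolynomial.monomial μ 1) =
    z0 y ^ (q * μ 0) * (starRingEnd ℂ) (z0 y) ^ (q * μ 1) * (xx y : ℂ) ^ μ 2 := by
  rw [ev, MvPolynomial.aeval_monomial, map_one, one_mul, Finsupp.prod_fintype _ _ fun _ => pow_zero _,
    Fin.prod_univ_three, pow_mul, pow_mul]
  rfl

theorem Mult_conj {y : E} (hy : y ⬝ᵥ y = 1) :
    z0 y * (starRingEnd ℂ) (z0 y) = ((1 - xx y : ℝ) : ℂ) := by
  rw [Complex.mul_conj, z0, Complex.normSq_add_mul_I, ← hy, xx]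
  simp only [dotProduct, Fin.sum_univ_four]
  congr 1
  ring

/-- Expansion of a monomial times a mode, on the unit sphere. -/
theorem monomial_mul_md (σ : ℕ × ℕ) (n : Ix) {μ : Fin 3 →₀ ℕ} (hμ : μ 0 + μ 1 + μ 2 ≤ deg D)
    {y : E} (hy : y ⬝ᵥ y = 1) :
    ev q y (MvPolynomial.monomial μ 1) * (ang (mm q σ n) y * z1 y ^ σ.2 *
        (((pn (mm q σ n).natAbs σ.2 n.2).eval (xx y) : ℝ) : ℂ)) =
      ∑ n' ∈ nb q D n, (Mmon q σ n' n μ : ℂ) * (ang (mm q σ n') y * z1 y ^ σ.2 *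
        (((pn (mm q σ n').natAbs σ.2 n'.2).eval (xx y) : ℝ) : ℂ)) := by
  obtain ⟨a, ha⟩ : ∃ a, a = n.1 + μ 0 - μ 1 := ⟨_, rfl⟩
  have hm : a ∈ Finset.Icc (n.1 - deg D) (n.1 + deg D) := Finset.mem_Icc.2 (by omega)
  rw [nb, Finset.sum_product, Finset.sum_eq_single_of_mem a hm fun b _ hb =>
    Finset.sum_eq_zero fun j _ => by rw [Mmon, if_neg (ha ▸ hb), Complex.ofReal_zero, zero_mul],
    Finset.sum_subset (s₂ := Finset.range (n.2 + (q + 1) * deg D + 1))
      (fun j hj => Finset.mem_range.2 (Nat.lt_succ_of_le (Finset.mem_Icc.1 hj).2)) fun j _ hj => by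
        rw [Mmon_eq_zero σ (fun h => hj (Finset.mem_product.1 h).2) hμ, Complex.ofReal_zero,
          zero_mul]]
  obtain ⟨κ, a1, a2, -, a3, a4⟩ := Mult_par (Mult_mm (q := q) σ (n' := (a, 0)) ha)
  have h1 := Mult_le (q := q) hμ
  have e := pn_expand (mm q σ (a, 0)).natAbs σ.2 (n.2 + (q + 1) * deg D)
    ((Mult_deg (μ 2) κ (mm q σ n).natAbs σ.2 n.2).trans (by omega)) (xx y)
  have e1 : ∀ j, Mmon q σ (a, j) n μ = _ := fun j => by
    rw [Mmon, if_pos ha, mul_add, show mm q σ (a, j) = mm q σ (a, 0) from rfl, a1, Mult_form]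
  have e2 : z0 y ^ (q * μ 0) * (starRingEnd ℂ) (z0 y) ^ (q * μ 1) * ang (mm q σ n) y =
      ang (mm q σ (a, 0)) y * ((1 - xx y : ℝ) : ℂ) ^ κ := by
    rw [← Mult_conj hy, ang, ang, mul_mul_mul_comm, ← pow_add, ← pow_add, a3, a4, pow_add, pow_add,
      mul_pow, mul_mul_mul_comm]
  have e3 := congrArg (fun r : ℝ => ang (mm q σ (a, 0)) y * z1 y ^ σ.2 * (r : ℂ)) e
  simp only [← e1] at e3
  simp only [Polynomial.eval_mul, Polynomial.eval_pow, Polynomial.eval_sub, Polynomial.eval_one,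
    Polynomial.eval_X, Complex.ofReal_mul, Complex.ofReal_sum, Complex.ofReal_pow,
    Finset.mul_sum] at e3
  rw [Mult_ev]
  refine Eq.trans ?_ (e3.trans (Finset.sum_congr rfl fun j _ => mul_left_comm _ _ _))
  linear_combination (xx y : ℂ) ^ μ 2 * z1 y ^ σ.2 *
    (((pn (mm q σ n).natAbs σ.2 n.2).eval (xx y) : ℝ) : ℂ) * e2

end Vale.Agent.P225
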