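import Mathlib
import Vale.Agent.P225.Mult

/-! The coupling in weighted variables. -/

open scoped ContDiff Matrix Topology BoundedContinuousFunction
open Filter Set

noncomputable section

namespace Vale.Agent.P225

/-- Coefficients are smooth and vanish to the order `j` at the origin. -/
def CplOrd {D : ℕ} (j : ℕ) (F : V D → Pol) : Prop :=
  ∀ μ, ContDiff ℝ ∞ (fun P => MvPolynomial.coeff μ (F P)) ∧
    ∃ K : ℝ, 0 ≤ K ∧ ∀ P, ‖P‖ ≤ 1 → |MvPolynomial.coeff μ (F P)| ≤ K * ‖P‖ ^ j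

theorem CplOrd.const {D : ℕ} (p : Pol) : CplOrd (D := D) 0 fun _ => p := fun μ =>
  ⟨contDiff_const, |MvPolynomial.coeff μ p|, abs_nonneg _, fun P _ => by simp⟩

theorem CplOrd.sum {D j : ℕ} {ι : Type} (s : Finset ι) {F : ι → V D → Pol}
    (h : ∀ i ∈ s, CplOrd j (F i)) : CplOrd j fun P => ∑ i ∈ s, F i P := by
  intro μ
  simp only [MvPolynomial.coeff_sum]
  refine ⟨ContDiff.sum fun i hi => (h i hi μ).1, ?_⟩
  choose! K hK0 hK using fun i hi => (h i hi μ).2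
  refine ⟨∑ i ∈ s, K i, Finset.sum_nonneg hK0, fun P hP => ?_⟩
  rw [Finset.sum_mul]
  exact (Finset.abs_sum_le_sum_abs _ _).trans (Finset.sum_le_sum fun i hi => hK i hi P hP)

theorem CplOrd.add {D j : ℕ} {F G : V D → Pol} (hF : CplOrd j F) (hG : CplOrd j G) :
    CplOrd j fun P => F P + G P := by
  intro μ
  simp only [MvPolynomial.coeff_add]
  obtain ⟨a1, K1, a2, a3⟩ := hF μ
  obtain ⟨b1, K2, b2, b3⟩ := hG μ
  refine ⟨a1.add b1, K1 + K2, add_nonneg a2 b2, fun P hP => ?_⟩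
  rw [add_mul]
  exact (abs_add_le _ _).trans (add_le_add (a3 P hP) (b3 P hP))

theorem CplOrd.mul {D i j : ℕ} {F G : V D → Pol} (hF : CplOrd i F) (hG : CplOrd j G) :
    CplOrd (i + j) fun P => F P * G P := by
  intro μ
  simp only [MvPolynomial.coeff_mul]
  refine ⟨ContDiff.sum fun x _ => (hF x.1).1.mul (hG x.2).1, ?_⟩
  choose K1 a2 a3 using fun ν => (hF ν).2
  choose K2 b2 b3 using fun ν => (hG ν).2
  refine ⟨∑ x ∈ Finset.HasAntidiagonal.antidiagonal μ, K1 x.1 * K2 x.2,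
    Finset.sum_nonneg fun x _ => mul_nonneg (a2 _) (b2 _), fun P hP => ?_⟩
  rw [Finset.sum_mul]
  refine (Finset.abs_sum_le_sum_abs _ _).trans (Finset.sum_le_sum fun x _ => ?_)
  rw [abs_mul]
  calc _ ≤ (K1 x.1 * ‖P‖ ^ i) * (K2 x.2 * ‖P‖ ^ j) :=
        mul_le_mul (a3 _ P hP) (b3 _ P hP) (abs_nonneg _) (mul_nonneg (a2 _) (by positivity))
    _ = _ := by ring

theorem CplOrd.mono {D i j : ℕ} {F : V D → Pol} (hF : CplOrd i F) (h : j ≤ i) : CplOrd j F := by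
  intro μ
  obtain ⟨a1, K, a2, a3⟩ := hF μ
  exact ⟨a1, K, a2, fun P hP => (a3 P hP).trans
    (mul_le_mul_of_nonneg_left (pow_le_pow_of_le_one (norm_nonneg _) hP h) a2)⟩

theorem CplOrd.smul {D : ℕ} (a : Fin 2 × Fin D × Fin D) (p : Pol) :
    CplOrd (D := D) 1 fun P => P a • p := by
  intro μ
  simp only [MvPolynomial.coeff_smul, smul_eq_mul]
  refine ⟨(contDiff_apply ℝ ℝ a).mul contDiff_const, |MvPolynomial.coeff μ p|, abs_nonneg _,
    fun P _ => ?_⟩
  rw [abs_mul, mul_comm, pow_one]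
  exact mul_le_mul_of_nonneg_left (norm_le_pi_norm P a) (abs_nonneg _)

theorem CplOrd.xi {D : ℕ} (f : Fin 2) : CplOrd (D := D) 1 fun P => xiP P f :=
  CplOrd.sum _ fun d _ => CplOrd.sum _ fun i _ => CplOrd.smul (f, d, i) _

theorem CplOrd.pow {D : ℕ} {F : V D → Pol} (hF : CplOrd 1 F) (k : ℕ) :
    CplOrd k fun P => F P ^ k := by
  induction k with
  | zero => simpa using CplOrd.const (D := D) 1
  | succ k ih => simpa only [pow_succ] using ih.mul hF

theorem CplOrd.mon {D : ℕ} (c : Pol) (i j : ℕ) {k : ℕ} (h : k ≤ i + j) :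
    CplOrd (D := D) k fun P => c * xiP P 0 ^ i * xiP P 1 ^ j :=
  (((CplOrd.const c).mul ((CplOrd.xi 0).pow i)).mul ((CplOrd.xi 1).pow j)).mono (by omega)

theorem CplOrd.congr {D j : ℕ} {F G : V D → Pol} (hF : CplOrd j F) (h : ∀ P, G P = F P) :
    CplOrd j G := by
  rw [funext h]
  exact hF

theorem cplOrd_eL {D : ℕ} (X Z x : Pol) (k : Fin 3) :
    CplOrd (D := D) 1 fun P => eL X Z x (xiP P 0) (xiP P 1) k := by
  fin_cases k
  · exact (CplOrd.mon (2 * Z * x) 0 1 le_rfl).congr fun P => by simp [eL]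
  · exact ((CplOrd.mon (X + Z * (1 - x)) 1 0 le_rfl).add
      (CplOrd.mon (X + Z * x) 0 1 le_rfl)).congr fun P => by simp [eL]
  · exact (CplOrd.mon (2 * Z * (1 - x)) 1 0 le_rfl).congr fun P => by simp [eL]

theorem cplOrd_eH {D : ℕ} (X Z x : Pol) (k : Fin 3) :
    CplOrd (D := D) 2 fun P => eH X Z x (xiP P 0) (xiP P 1) k := by
  fin_cases k
  · exact (CplOrd.mon (X * x + Z * x ^ 2) 0 2 le_rfl).congr fun P => by simp [eH]
  · exact ((CplOrd.mon (2 * Z * x * (1 - x)) 1 1 le_rfl).add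
      (CplOrd.mon ((X * x + Z * x ^ 2) * (1 - x)) 1 2 (by norm_num))).congr fun P => by simp [eH]
  · exact ((((CplOrd.mon (2 * (X + Z * x) * (1 - x)) 1 1 le_rfl).add
      (CplOrd.mon (X * (1 - x) + Z * (1 - x) ^ 2) 2 0 le_rfl)).add
      (CplOrd.mon (2 * Z * x * (1 - x) ^ 2) 2 1 (by norm_num))).add
      (CplOrd.mon ((X * x + Z * x ^ 2) * (1 - x) ^ 2) 2 2 (by norm_num))).congr
        fun P => by simp [eH]

theorem cplOrd_unif {D j : ℕ} {ι : Type} [Fintype ι] {F : ι → V D → Pol} (μ : ι → Fin 3 →₀ ℕ)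
    (h : ∀ a, CplOrd j (F a)) : ∃ K : ℝ, 0 ≤ K ∧ ∀ a P, ‖P‖ ≤ 1 →
      |MvPolynomial.coeff (μ a) (F a P)| ≤ K * ‖P‖ ^ j := by
  choose K h0 h1 using fun a => (h a (μ a)).2
  refine ⟨∑ a, K a, Finset.sum_nonneg fun a _ => h0 a, fun a P hP => (h1 a P hP).trans ?_⟩
  exact mul_le_mul_of_nonneg_right
    (Finset.single_le_sum (fun a _ => h0 a) (Finset.mem_univ a)) (by positivity)

/-- The exponent attached to an index. -/
def cplExp {N : ℕ} (f : Fin 3 → Fin N) : Fin 3 →₀ ℕ :=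
  Finsupp.equivFunOnFinite.symm fun j => (f j : ℕ)

theorem cpl_supp {p : Pol} {N : ℕ} (hp : p.totalDegree ≤ N) {μ : Fin 3 →₀ ℕ}
    (h : μ ∈ p.support) : μ 0 + μ 1 + μ 2 ≤ N := by
  have h1 := (MvPolynomial.le_totalDegree h).trans hp
  rwa [Finsupp.sum_fintype _ _ (fun _ => rfl), Fin.sum_univ_three] at h1

theorem cpl_Mlin (q : ℕ) (σ : ℕ × ℕ) (n m : Ix) (p : Pol) :
    Mlin q σ n m p = ∑ μ ∈ p.support, MvPolynomial.coeff μ p * Mmon q σ n m μ := by
  conv_lhs => rw [p.as_sum]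
  rw [map_sum]
  exact Finset.sum_congr rfl fun μ _ => Mlin_monomial σ n m μ _

theorem cpl_Mlin_eq (q : ℕ) (σ : ℕ × ℕ) (n m : Ix) {p : Pol} {N : ℕ} (hp : p.totalDegree ≤ N) :
    Mlin q σ n m p = ∑ f : Fin 3 → Fin (N + 1),
      MvPolynomial.coeff (cplExp f) p * Mmon q σ n m (cplExp f) := by
  classical
  have hinj : Function.Injective (cplExp (N := N + 1)) := by
    intro f g h
    have h1 := Finsupp.equivFunOnFinite.symm.injective h
    exact funext fun j => Fin.ext (congrFun h1 j)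
  rw [cpl_Mlin, ← Finset.sum_image (f := fun μ => MvPolynomial.coeff μ p * Mmon q σ n m μ)
    (s := Finset.univ) (g := cplExp) hinj.injOn]
  refine Finset.sum_subset (fun μ hμ => ?_) fun μ _ hμ => ?_
  · have h1 := cpl_supp hp hμ
    have h2 : ∀ j, μ j < N + 1 := by
      intro j
      fin_cases j <;> simp only [Fin.zero_eta, Fin.mk_one, Fin.reduceFinMk] <;> omega
    refine Finset.mem_image.2 ⟨fun j => ⟨μ j, h2 j⟩, Finset.mem_univ _, ?_⟩
    ext j
    rfl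
  · rw [MvPolynomial.notMem_support_iff.1 hμ, zero_mul]

theorem cpl_af (q : ℕ) (σ : ℕ × ℕ) {n m : Ix} {L : ℕ} (h : lv q σ m ≤ lv q σ n + L) (k : Fin 3) :
    |af q σ n m k| ≤ (L + 2) * ((lv q σ n : ℝ) + 1) ^ 2 := by
  have a1 : ∀ n : Ix, |((mm q σ n : ℤ) : ℝ)| ≤ lv q σ n := by
    intro n
    have : ((mm q σ n).natAbs : ℝ) ≤ lv q σ n := Nat.cast_le.2 (by unfold lv lev; omega)
    rwa [Nat.cast_natAbs, Int.cast_abs] at this
  have a2 : (σ.2 : ℝ) ≤ lv q σ n := Nat.cast_le.2 (by unfold lv lev; omega)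
  have a3 : (lv q σ m : ℝ) ≤ lv q σ n + L := by exact_mod_cast h
  have a4 := a1 n
  have a5 := (a1 m).trans a3
  have x0 : (0 : ℝ) ≤ lv q σ n := Nat.cast_nonneg _
  have L0 : (0 : ℝ) ≤ L := Nat.cast_nonneg _
  have s0 : (0 : ℝ) ≤ σ.2 := Nat.cast_nonneg _
  generalize (lv q σ n : ℝ) = x at *
  have b1 : 0 ≤ (L : ℝ) * x := mul_nonneg L0 x0
  have b2 : 0 ≤ (L : ℝ) * x ^ 2 := mul_nonneg L0 (sq_nonneg _)
  fin_cases k
  · change |((mm q σ m : ℤ) : ℝ) * ((mm q σ n : ℤ) : ℝ)| ≤ _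
    rw [abs_mul]
    calc _ ≤ (x + L) * x := mul_le_mul a5 a4 (abs_nonneg _) (by positivity)
      _ ≤ _ := by nlinarith
  · change |(σ.2 : ℝ) * (((mm q σ m : ℤ) : ℝ) + ((mm q σ n : ℤ) : ℝ))| ≤ _
    rw [abs_mul, abs_of_nonneg s0]
    calc _ ≤ x * ((x + L) + x) :=
          mul_le_mul a2 ((abs_add_le _ _).trans (add_le_add a5 a4)) (abs_nonneg _) x0
      _ ≤ _ := by nlinarith
  · change |(σ.2 : ℝ) ^ 2| ≤ _
    rw [abs_of_nonneg (sq_nonneg _)]
    calc _ ≤ x ^ 2 := pow_le_pow_left₀ s0 a2 2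
      _ ≤ _ := by nlinarith

theorem exists_coupling (q D : ℕ) (b : ℝ) {M : ℝ} (hM : 1 ≤ M) :
    ∃ (β : ℕ × ℕ → Tix D → Ix → Ix → ℝ) (cf : V D → Tix D → ℝ) (K : ℝ), 0 ≤ K ∧
      (∀ σ n, ∑ a, ∑ m ∈ nb q D n, |β σ a n m| ≤ 1) ∧ ContDiff ℝ ∞ cf ∧
      (∀ P, ‖P‖ ≤ 1 → ‖cf P‖ ≤ K * ‖P‖) ∧
      (∀ σ P n m, ((lv q σ n : ℝ) + 1) ^ 2 * ∑ a, cf P a * β σ a n m =
        M ^ lv q σ n / M ^ lv q σ m * Bm q σ (eP b P) n m) ∧
      ∀ σ P n m, ‖P‖ ≤ 1 → |(if m ∈ nb q D n then ∑ a, cf P a * β σ a n m else 0) -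
        M ^ lv q σ n / M ^ lv q σ m / ((lv q σ n : ℝ) + 1) ^ 2 * Bm q σ (eLP b P) n m| ≤
          K * ‖P‖ ^ 2 := by
  set L : ℕ := (3 * q + 2) * deg D with hL
  set Nn : ℕ := (2 * deg D + 1) * (2 * ((q + 1) * deg D) + 1) with hNn
  set C : ℝ := Fintype.card (Tix D) * Nn * (M ^ L * (L + 2)) + 1 with hC
  have M0 : 0 < M := by linarith
  have C0 : 0 < C := by positivity
  set β : ℕ × ℕ → Tix D → Ix → Ix → ℝ := fun σ a n m => M ^ lv q σ n / M ^ lv q σ m *
    af q σ n m a.1 * Mmon q σ n m (cplExp a.2) / (((lv q σ n : ℝ) + 1) ^ 2 * C) with hβ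
  have row : ∀ σ n, ∑ a, ∑ m ∈ nb q D n, |β σ a n m| ≤ 1 := by
    intro σ n
    have h1 : ∀ a, ∀ m ∈ nb q D n, |β σ a n m| ≤ M ^ L * (L + 2) / C := by
      intro a m hm
      have x0 : (0 : ℝ) < ((lv q σ n : ℝ) + 1) ^ 2 := by positivity
      have b1 : M ^ lv q σ n / M ^ lv q σ m ≤ M ^ L := by
        rw [div_le_iff₀ (by positivity), ← pow_add]
        have := lv_le_of_mem_nb σ (mem_nb_comm.1 hm)
        exact pow_le_pow_right₀ hM (by omega)
      have b2 := cpl_af q σ (lv_le_of_mem_nb σ hm) a.1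
      have b3 := abs_Mmon_le (q := q) σ n m (cplExp a.2)
      simp only [hβ]
      rw [abs_div, abs_mul, abs_mul, abs_of_pos (mul_pos x0 C0),
        abs_of_pos (a := M ^ lv q σ n / M ^ lv q σ m) (by positivity),
        div_le_div_iff₀ (mul_pos x0 C0) C0]
      calc _ ≤ M ^ L * ((L + 2) * ((lv q σ n : ℝ) + 1) ^ 2) * 1 * C := by gcongr
        _ = _ := by ring
    have h2 : ∀ a, ∑ m ∈ nb q D n, |β σ a n m| ≤ Nn * (M ^ L * (L + 2) / C) := by
      intro a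
      refine (Finset.sum_le_card_nsmul _ _ _ (h1 a)).trans ?_
      rw [nsmul_eq_mul]
      exact mul_le_mul_of_nonneg_right (Nat.cast_le.2 (card_nb_le n)) (by positivity)
    refine (Finset.sum_le_card_nsmul _ _ _ fun a _ => h2 a).trans ?_
    rw [nsmul_eq_mul, Finset.card_univ, ← mul_div_assoc, ← mul_div_assoc, div_le_one C0, hC]
    linarith
  have key : ∀ σ (e : Fin 3 → Pol), (∀ k, (e k).totalDegree ≤ deg D) → ∀ n m,
      ((lv q σ n : ℝ) + 1) ^ 2 * ∑ a : Tix D, C * MvPolynomial.coeff (cplExp a.2) (e a.1) *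
        β σ a n m = M ^ lv q σ n / M ^ lv q σ m * Bm q σ e n m := by
    intro σ e he n m
    have x0 : ((lv q σ n : ℝ) + 1) ^ 2 ≠ 0 := by positivity
    rw [Bm, Fintype.sum_prod_type, Finset.mul_sum, Finset.mul_sum]
    refine Finset.sum_congr rfl fun k _ => ?_
    rw [cpl_Mlin_eq q σ n m (he k), Finset.mul_sum, Finset.mul_sum, Finset.mul_sum]
    refine Finset.sum_congr rfl fun f _ => ?_
    simp only [hβ]
    field_simp
  have oH := fun k => cplOrd_eH (D := D) (MvPolynomial.C (bX b)) (MvPolynomial.C (bZ b))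
    (MvPolynomial.X 2) k
  have oP : ∀ k, CplOrd (D := D) 1 fun P => eP b P k := fun k =>
    (cplOrd_eL _ _ _ k).add ((oH k).mono (by norm_num))
  obtain ⟨K1, k1, hK1⟩ := cplOrd_unif (ι := Tix D) (fun a => cplExp a.2) fun a => oP a.1
  obtain ⟨K2, k2, hK2⟩ := cplOrd_unif (ι := Tix D) (fun a => cplExp a.2) fun a => oH a.1
  refine ⟨β, fun P a => C * MvPolynomial.coeff (cplExp a.2) (eP b P a.1), C * (K1 + K2),
    by positivity, row, contDiff_pi.2 fun a => contDiff_const.mul (oP a.1 _).1, fun P hP => ?_,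
    fun σ P => key σ _ (totalDegree_eP b P), fun σ P n m hP => ?_⟩
  · refine (pi_norm_le_iff_of_nonneg (by positivity)).2 fun a => ?_
    rw [Real.norm_eq_abs, abs_mul, abs_of_pos C0, mul_assoc]
    refine mul_le_mul_of_nonneg_left ((hK1 a P hP).trans ?_) C0.le
    rw [pow_one]
    exact mul_le_mul_of_nonneg_right (by linarith) (norm_nonneg _)
  · split_ifs with hm
    · have x0 : ((lv q σ n : ℝ) + 1) ^ 2 ≠ 0 := by positivity
      have h1 := key σ _ (totalDegree_eLP b P) n m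
      rw [div_mul_eq_mul_div, ← h1, mul_div_cancel_left₀ _ x0, ← Finset.sum_sub_distrib]
      refine (Finset.abs_sum_le_sum_abs _ _).trans ?_
      have h2 : ∑ a, |β σ a n m| ≤ 1 :=
        (Finset.sum_le_sum fun a _ => Finset.single_le_sum (f := fun m => |β σ a n m|)
          (fun _ _ => abs_nonneg _) hm).trans (row σ n)
      calc _ ≤ ∑ a, C * (K1 + K2) * ‖P‖ ^ 2 * |β σ a n m| := by
            refine Finset.sum_le_sum fun a _ => ?_
            rw [← sub_mul, ← mul_sub, abs_mul, abs_mul, abs_of_pos C0, eP, MvPolynomial.coeff_add,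
              add_sub_cancel_left, mul_assoc C (K1 + K2)]
            refine mul_le_mul_of_nonneg_right (mul_le_mul_of_nonneg_left
              ((hK2 a P hP).trans ?_) C0.le) (abs_nonneg _)
            exact mul_le_mul_of_nonneg_right (by linarith) (by positivity)
        _ ≤ _ := by
            rw [← Finset.mul_sum]
            exact mul_le_of_le_one_right (by positivity) h2
    · have h1 : Bm q σ (eLP b P) n m = 0 := by
        refine Finset.sum_eq_zero fun k _ => ?_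
        rw [cpl_Mlin, Finset.sum_eq_zero, mul_zero]
        intro μ hμ
        rw [Mmon_eq_zero σ (fun h => hm (mem_nb_comm.1 h)) (cpl_supp (totalDegree_eLP b P k) hμ),
          mul_zero]
      rw [h1, mul_zero, sub_zero, abs_zero]
      positivity

end Vale.Agent.P225
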