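import Mathlib
import Vale.Agent.P225.Defs

/-! Generic parameters and separation of the frequencies. -/

open scoped ContDiff Matrix Topology BoundedContinuousFunction
open Filter Set

noncomputable section

namespace Vale.Agent.P225

/-- The eigenvalue as a function of the key. -/
def genL (b : ℝ) (k : ℕ × ℕ) : ℝ := bX b * (k.1 * (k.1 + 2)) + bZ b * k.2 ^ 2

theorem gen_lam (q : ℕ) (b : ℝ) (σ : ℕ × ℕ) (n : Ix) :
    lam b (mm q σ n) σ.2 n.2 = genL b (key q σ n) := by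
  simp only [lam, genL, key, lv, Nat.cast_natAbs, Int.cast_abs, sq_abs, Int.cast_add,
    Int.cast_natCast]

theorem gen_nonneg {b : ℝ} (hb : 1 ≤ b) (k : ℕ × ℕ) : 0 ≤ genL b k := by
  have h1 : (b ^ 2)⁻¹ ≤ 1 := inv_le_one_of_one_le₀ (one_le_pow₀ hb)
  have h2 : 0 ≤ bZ b := sub_nonneg.2 (h1.trans (one_le_pow₀ hb))
  unfold genL bX
  positivity

theorem gen_inj {b : ℝ} (hb : 0 < b) (hi : ∀ r : ℚ, b ^ 6 ≠ r) {k k' : ℕ × ℕ}
    (h : genL b k = genL b k') : k = k' := by
  have e : ∀ k : ℕ × ℕ, b ^ 2 * genL b k = k.1 * (k.1 + 2) - k.2 ^ 2 + b ^ 6 * k.2 ^ 2 :=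
    fun k => by
      unfold genL bX bZ
      field_simp
      ring
  have h1 := e k
  rw [h, e] at h1
  have h2 : (k.2 : ℝ) ^ 2 = (k'.2 : ℝ) ^ 2 := by
    by_contra h2
    refine hi ((k'.1 * (k'.1 + 2) - k'.2 ^ 2 - (k.1 * (k.1 + 2) - k.2 ^ 2)) /
      (k.2 ^ 2 - k'.2 ^ 2)) ?_
    push_cast
    rw [eq_div_iff (sub_ne_zero.2 h2)]
    linarith
  have h3 : ((k.1 : ℝ) + 1) ^ 2 = ((k'.1 : ℝ) + 1) ^ 2 := by
    rw [h2] at h1
    linarith
  rw [pow_left_inj₀ (by positivity) (by positivity) two_ne_zero] at h2 h3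
  exact Prod.ext (by exact_mod_cast add_right_cancel h3) (by exact_mod_cast h2)

theorem gen_sq {a b c d t : ℝ} (ha : 0 ≤ a) (hb : 0 ≤ b) (hc : 0 ≤ c) (hd : 0 ≤ d) (ht : 0 ≤ t)
    (h : √(a + t) - √(b + t) = √(c + t) - √(d + t)) :
    b * c - a * d - ((a + d - b - c) / 2) ^ 2 =
      (a + d - b - c) * (t + √((a + t) * (d + t))) := by
  rw [Real.sqrt_mul (by positivity)]
  have h1 := Real.sq_sqrt (show 0 ≤ a + t by positivity)
  have h2 := Real.sq_sqrt (show 0 ≤ b + t by positivity)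
  have h3 := Real.sq_sqrt (show 0 ≤ c + t by positivity)
  have h4 := Real.sq_sqrt (show 0 ≤ d + t by positivity)
  generalize √(a + t) = x at *
  generalize √(b + t) = y at *
  generalize √(c + t) = z at *
  generalize √(d + t) = w at *
  obtain rfl : x = y + z - w := by linarith
  obtain rfl : a = (y + z - w) ^ 2 - t := by linarith
  obtain rfl : b = y ^ 2 - t := by linarith
  obtain rfl : c = z ^ 2 - t := by linarith
  obtain rfl : d = w ^ 2 - t := by linarith
  ring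

theorem gen_sub {a b c d : ℝ} (ha : 0 ≤ a) (hb : 0 ≤ b) (hc : 0 ≤ c) (hd : 0 ≤ d) (hab : b ≠ a)
    (hn : ¬(b = d ∧ a = c)) : Set.Subsingleton
      {s : ℝ | 0 < s ∧ √(a + s ^ 2) - √(b + s ^ 2) = √(c + s ^ 2) - √(d + s ^ 2)} := by
  rintro s ⟨s0, hs⟩ t ⟨t0, ht⟩
  have h1 := gen_sq ha hb hc hd (sq_nonneg s) hs
  have h2 := gen_sq ha hb hc hd (sq_nonneg t) ht
  by_cases h : a + d - b - c = 0
  · rw [h] at h1
    have h3 : (b - a) * (a - c) = 0 := by linear_combination -h1 - a * h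
    have h4 := sub_eq_zero.1 ((mul_eq_zero.1 h3).resolve_left (sub_ne_zero.2 hab))
    exact absurd ⟨by linarith, h4⟩ hn
  · have h3 := mul_left_cancel₀ h (h1.symm.trans h2)
    have key : ∀ u v : ℝ, 0 < u → u < v →
        u ^ 2 + √((a + u ^ 2) * (d + u ^ 2)) < v ^ 2 + √((a + v ^ 2) * (d + v ^ 2)) :=
      fun u v hu huv => by gcongr
    rcases lt_trichotomy s t with h4 | h4 | h4
    exacts [absurd h3 (key s t s0 h4).ne, h4, absurd h3 (key t s t0 h4).ne']

theorem gen_exp {ι : Type} [Fintype ι] (o c : ι → ℝ)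
    (h : ∀ r ∈ Ioo (0 : ℝ) 1, ∑ z, c z * Real.exp (o z * r) = 0) (a : ℝ) :
    ∑ z, (if o z = a then c z else 0) = 0 := by
  classical
  have h1 : AnalyticOnNhd ℝ (fun r => ∑ z, c z * Real.exp (o z * r)) univ := fun r _ =>
    Finset.analyticAt_fun_sum _ fun z _ => by fun_prop
  have h2 := h1.eq_of_eventuallyEq (g := fun _ => 0) analyticOnNhd_const (z₀ := 1 / 2)
    (eventually_of_mem (Ioo_mem_nhds (by norm_num) (by norm_num)) h)
  let χ : ℝ → Multiplicative ℝ →* ℝ := fun a =>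
    ⟨⟨fun r => Real.exp (a * r.toAdd), by simp⟩, fun r s => by simp [mul_add, Real.exp_add]⟩
  have h3 : Function.Injective χ := fun a b e => by
    simpa [χ] using DFunLike.congr_fun e (Multiplicative.ofAdd 1)
  refine linearIndependent_iff'.1 ((linearIndependent_monoidHom (Multiplicative ℝ) ℝ).comp χ h3)
    (insert a (Finset.univ.image o)) (fun a => ∑ z, if o z = a then c z else 0) ?_ a
    (Finset.mem_insert_self _ _)
  funext r
  refine Eq.trans ?_ (congrFun h2 r.toAdd)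
  simp only [Finset.sum_apply, Pi.smul_apply, smul_eq_mul, Finset.sum_mul]
  rw [Finset.sum_comm]
  refine Finset.sum_congr rfl fun z _ => ?_
  rw [Finset.sum_eq_single (o z) (fun b _ hb => by rw [if_neg hb.symm, zero_mul])
    fun hz => absurd (Finset.mem_insert_of_mem (Finset.mem_image_of_mem o (Finset.mem_univ z))) hz,
    if_pos rfl]
  rfl

theorem exists_generic {b1 b2 c1 c2 : ℝ} (hb1 : 1 ≤ b1) (hb : b1 < b2) (hc1 : 0 < c1)
    (hc : c1 < c2) : ∃ b ∈ Icc b1 b2, ∃ c ∈ Icc c1 c2, ∀ (q : ℕ) (σ σ' : ℕ × ℕ) (m i m' i' : Ix),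
      key q σ m ≠ key q σ i → mu q b c σ i - mu q b c σ m = mu q b c σ' i' - mu q b c σ' m' →
      key q σ m = key q σ' m' ∧ key q σ i = key q σ' i' := by
  have h1 : (⋃ r : ℚ, {b : ℝ | 0 < b ∧ b ^ 6 = r}).Countable :=
    countable_iUnion fun r => Set.Subsingleton.countable fun x hx y hy =>
      (pow_left_inj₀ hx.1.le hy.1.le (by norm_num)).1 (hx.2.trans hy.2.symm)
  obtain ⟨b, h2, h3⟩ := (h1.dense_compl ℝ).exists_between hb
  have b1 : 1 ≤ b := hb1.trans h3.1.le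
  have b0 : 0 < b := one_pos.trans_le b1
  have hi : ∀ r : ℚ, b ^ 6 ≠ r := fun r e => h2 (mem_iUnion.2 ⟨r, b0, e⟩)
  have h4 : (⋃ k : {k : (ℕ × ℕ) × (ℕ × ℕ) × (ℕ × ℕ) × ℕ × ℕ // k.2.1 ≠ k.1 ∧
      ¬(k.2.1 = k.2.2.2 ∧ k.1 = k.2.2.1)}, {s : ℝ | 0 < s ∧ √(genL b k.1.1 + s ^ 2) -
        √(genL b k.1.2.1 + s ^ 2) = √(genL b k.1.2.2.1 + s ^ 2) -
          √(genL b k.1.2.2.2 + s ^ 2)}).Countable :=
    countable_iUnion fun k => (gen_sub (gen_nonneg b1 _) (gen_nonneg b1 _) (gen_nonneg b1 _)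
      (gen_nonneg b1 _) (fun e => k.2.1 (gen_inj b0 hi e))
      fun e => k.2.2 ⟨gen_inj b0 hi e.1, gen_inj b0 hi e.2⟩).countable
  obtain ⟨c, h5, h6⟩ := (h4.dense_compl ℝ).exists_between hc
  refine ⟨b, Ioo_subset_Icc_self h3, c, Ioo_subset_Icc_self h6, fun q σ σ' m i m' i' hk e => ?_⟩
  by_contra hn
  simp only [mu, gen_lam] at e
  exact h5 (mem_iUnion.2 ⟨⟨(key q σ i, key q σ m, key q σ' i', key q σ' m'), hk, hn⟩,
    hc1.trans h6.1, e⟩)

theorem key_ne {q : ℕ} (hq : Odd q) {σ : ℕ × ℕ} (h1 : 1 ≤ σ.1) (h2 : σ.1 < q) {m i : Ix}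
    (h : m ≠ i) : key q σ m ≠ key q σ i := by
  intro e
  obtain ⟨e1, e2⟩ := Prod.mk.inj e
  have h3 : m.1 = i.1 := by
    obtain ⟨k, hk⟩ := hq
    have q0 : (0 : ℤ) < q := by omega
    rcases Int.natAbs_eq_natAbs_iff.1 e2 with e3 | e3
    · exact mul_left_cancel₀ q0.ne' (by unfold mm at e3; linarith)
    · have e4 : (q : ℤ) * -(m.1 + i.1) = 2 * σ.1 := by unfold mm at e3; linarith
      have e5 : 0 < -(m.1 + i.1) := (mul_pos_iff_of_pos_left q0).1 (by omega)
      have e6 : -(m.1 + i.1) < 2 := lt_of_mul_lt_mul_left (a := (q : ℤ)) (by omega) q0.le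
      rw [show -(m.1 + i.1) = 1 by omega] at e4
      omega
  refine h (Prod.ext h3 ?_)
  simp only [lv, lev, mm, h3] at e1
  omega

theorem time_sep {ι : Type} [Fintype ι] [DecidableEq ι] {F : Type} [NormedAddCommGroup F]
    [NormedSpace ℝ F] [FiniteDimensional ℝ F] (o : ι → ℝ) (l : ι → F →ₗ[ℝ] ℝ)
    (h : ∀ (w : ι → ℝ) (z₀ : ι), (∀ z, o z ≠ o z₀ → w z = 0) → (∀ P, ∑ z, w z * l z P = 0) →
      w z₀ = 0) :
    ∃ f : ι → ℝ → F, (∀ z, ContDiff ℝ ∞ (f z)) ∧ (∀ z, ∀ r ≤ 0, f z r = 0) ∧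
      (∀ z, ∀ r ≥ 1, f z r = 0) ∧ ∀ z z',
        ∫ r in (0 : ℝ)..1, Real.exp (o z * r) * l z (f z' r) = if z = z' then 1 else 0 := by
  have hl : ∀ z, Continuous (l z) := fun z => (l z).continuous_of_finiteDimensional
  let S : Submodule ℝ (ℝ → F) :=
    { carrier := {f | ContDiff ℝ ∞ f ∧ (∀ r ≤ 0, f r = 0) ∧ ∀ r ≥ 1, f r = 0}
      add_mem' := fun hf hg => ⟨hf.1.add hg.1, fun r hr => by simp [hf.2.1 r hr, hg.2.1 r hr],
        fun r hr => by simp [hf.2.2 r hr, hg.2.2 r hr]⟩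
      zero_mem' := ⟨contDiff_const, fun _ _ => rfl, fun _ _ => rfl⟩
      smul_mem' := fun c _ hf => ⟨hf.1.const_smul c, fun r hr => by simp [hf.2.1 r hr],
        fun r hr => by simp [hf.2.2 r hr]⟩ }
  have hi : ∀ (f : S) (z : ι) (c : ℝ), IntervalIntegrable
      (fun r => c * (Real.exp (o z * r) * l z (f.1 r))) MeasureTheory.volume 0 1 := fun f z c => by
    have := f.2.1.continuous
    have := hl z
    exact Continuous.intervalIntegrable (by fun_prop) _ _
  let T : S →ₗ[ℝ] ι → ℝ :=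
    { toFun := fun f z => ∫ r in (0 : ℝ)..1, Real.exp (o z * r) * l z (f.1 r)
      map_add' := fun f g => funext fun z => by
        have := intervalIntegral.integral_add (hi f z 1) (hi g z 1)
        simpa only [one_mul, Submodule.coe_add, Pi.add_apply, map_add, mul_add] using this
      map_smul' := fun c f => funext fun z => by
        simp only [Submodule.coe_smul, Pi.smul_apply, map_smul, smul_eq_mul, RingHom.id_apply,
          mul_left_comm _ c, intervalIntegral.integral_const_mul] }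
  have hT : LinearMap.range T = ⊤ := by
    by_contra hT
    obtain ⟨φ, h0, h1⟩ := Submodule.exists_le_ker_of_lt_top _ (lt_top_iff_ne_top.2 hT)
    obtain ⟨w, hw⟩ : ∃ w : ι → ℝ, ∀ x, φ x = ∑ z, w z * x z :=
      ⟨_, fun x => (φ.pi_apply_eq_sum_univ x).trans
        (Finset.sum_congr rfl fun z _ => mul_comm _ _)⟩
    have h2 : ∀ P, ∀ r ∈ Ioo (0 : ℝ) 1, ∑ z, w z * l z P * Real.exp (o z * r) = 0 := by
      intro P r hr
      by_contra h3
      let g : ℝ → ℝ := fun r => ∑ z, w z * l z P * Real.exp (o z * r)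
      let k : ℝ → ℝ := fun r => expNegInvGlue r * expNegInvGlue (1 - r)
      have g1 : ContDiff ℝ ∞ g := ContDiff.sum fun z _ => by fun_prop
      have k1 : ContDiff ℝ ∞ k :=
        expNegInvGlue.contDiff.mul (expNegInvGlue.contDiff.comp (by fun_prop))
      let f : S := ⟨fun r => (k r * g r) • P, (k1.mul g1).smul contDiff_const,
        fun r hr => by simp [k, expNegInvGlue.zero_of_nonpos hr],
        fun r hr => by simp [k, expNegInvGlue.zero_of_nonpos (sub_nonpos.2 hr)]⟩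
      have h4 : ∫ r in (0 : ℝ)..1, k r * g r ^ 2 = 0 := by
        refine Eq.trans ?_ ((hw (T f)).symm.trans (h1 ⟨f, rfl⟩))
        simp only [T, LinearMap.coe_mk, AddHom.coe_mk, ← intervalIntegral.integral_const_mul]
        rw [← intervalIntegral.integral_finsetSum fun z _ => hi f z (w z)]
        refine intervalIntegral.integral_congr fun r _ => ?_
        simp only [f, map_smul, smul_eq_mul]
        rw [sq, ← mul_assoc, Finset.mul_sum]
        exact Finset.sum_congr rfl fun z _ => by ring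
      refine (intervalIntegral.integral_pos one_pos
        (k1.continuous.mul (g1.continuous.pow 2)).continuousOn (fun r _ => ?_)
        ⟨r, Ioo_subset_Icc_self hr, ?_⟩).ne' h4
      · exact mul_nonneg (mul_nonneg (expNegInvGlue.nonneg _) (expNegInvGlue.nonneg _))
          (sq_nonneg _)
      · exact mul_pos (mul_pos (expNegInvGlue.pos_of_pos hr.1)
          (expNegInvGlue.pos_of_pos (sub_pos.2 hr.2))) (sq_pos_of_ne_zero h3)
    refine h0 (LinearMap.ext fun x => (hw x).trans (Finset.sum_eq_zero fun z _ => ?_))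
    have := h (fun z' => if o z' = o z then w z' else 0) z (fun z' hz => if_neg hz) fun P => by
      simpa only [ite_mul, zero_mul] using gen_exp o _ (h2 P) (o z)
    rw [if_pos rfl] at this
    rw [this, zero_mul]
  choose f hf using fun z' => LinearMap.range_eq_top.1 hT fun z => if z = z' then 1 else 0
  exact ⟨fun z => (f z).1, fun z => (f z).2.1, fun z => (f z).2.2.1, fun z => (f z).2.2.2,
    fun z z' => congrFun (hf z') z⟩

end Vale.Agent.P225
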