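import Mathlib
import Vale.Agent.P225.Defs
import Vale.Agent.P225.KappaA

/-! The radial profile. -/

open scoped ContDiff Matrix Topology BoundedContinuousFunction
open Filter Set

noncomputable section

namespace Vale.Agent.P225

theorem exists_kappa {c δ ε : ℝ} (hδ : 0 < δ) (h1 : c + δ ≤ 1) (hε : 0 < ε) :
    ∃ (κ : ℝ → ℝ) (T a : ℝ), 1 ≤ T ∧ 0 < a ∧ ContDiff ℝ ∞ κ ∧ (∀ t ≤ 0, κ t = 1) ∧
      (∀ t, c ≤ κ t ∧ κ t ≤ 1 ∧ -ε ≤ deriv κ t ∧ deriv κ t ≤ 0) ∧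
      (∀ t, T ≤ t → κ t ≤ c + δ ∧ a * t ^ (-(5 / 4) : ℝ) ≤ -deriv κ t) ∧
      Tendsto (fun t => κ t ^ 2 + deriv κ t) atTop (𝓝 (c ^ 2)) := by
  obtain ⟨C, hC, hr⟩ := ramp_bd
  obtain ⟨d, hd, d1, d2⟩ : ∃ d : ℝ, 0 < d ∧ d ≤ δ ∧ d ≤ ε :=
    ⟨min δ ε, lt_min hδ hε, min_le_left _ _, min_le_right _ _⟩
  obtain ⟨T, hT, hT1⟩ : ∃ T : ℝ, 1 ≤ T ∧ C / T * (1 - c) ≤ ε / 2 := by
    refine ⟨1 + C * (1 - c) / (ε / 2), ?_, ?_⟩
    · have : 0 ≤ 1 - c := by linarith
      have : 0 ≤ C * (1 - c) / (ε / 2) := by positivity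
      linarith
    · have : 0 ≤ 1 - c := by linarith
      rw [div_mul_eq_mul_div, div_le_iff₀ (by positivity), mul_add, mul_div_cancel₀ _ (by positivity)]
      linarith
  have hT0 : 0 < T := by linarith
  let γ : ℝ → ℝ := fun t => d * (1 + t ^ 2) ^ (-(1 / 8) : ℝ)
  have p0 : ∀ t : ℝ, 0 < 1 + t ^ 2 := fun t => by positivity
  have g0 : ∀ t, 0 < γ t := fun t => mul_pos hd (Real.rpow_pos_of_pos (p0 t) _)
  have g1 : ∀ t, γ t ≤ d := fun t => mul_le_of_le_one_right hd.le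
    (Real.rpow_le_one_of_one_le_of_nonpos (by nlinarith [sq_nonneg t]) (by norm_num))
  have g2 : ContDiff ℝ ∞ γ := contDiff_const.mul
    ((contDiff_const.add (contDiff_id.pow 2)).rpow_const_of_ne fun t => (p0 t).ne')
  have g3 : ∀ t, HasDerivAt γ (-(t / (4 * (1 + t ^ 2)) * γ t)) t := by
    intro t
    have a1 : HasDerivAt (fun t : ℝ => 1 + t ^ 2) (2 * t) t := by
      simpa using (hasDerivAt_pow 2 t).const_add 1
    refine ((a1.rpow_const (p := -(1 / 8)) (Or.inl (p0 t).ne')).const_mul d).congr_deriv ?_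
    simp only [γ]
    rw [Real.rpow_sub_one (p0 t).ne']
    have := (p0 t).ne'
    field_simp
    ring
  have g4 : ∀ t, 0 ≤ t → 0 ≤ t / (4 * (1 + t ^ 2)) * γ t ∧
      t / (4 * (1 + t ^ 2)) * γ t ≤ γ t / 4 := by
    intro t ht
    have a1 : t / (4 * (1 + t ^ 2)) ≤ 1 / 4 := by
      rw [div_le_div_iff₀ (by positivity) (by norm_num)]
      nlinarith [sq_nonneg (t - 1)]
    have := g0 t
    exact ⟨by positivity, by nlinarith⟩
  have g5 : Tendsto γ atTop (𝓝 0) := by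
    have a1 : Tendsto (fun t : ℝ => 1 + t ^ 2) atTop atTop :=
      tendsto_atTop_add_const_left _ _ (tendsto_pow_atTop two_ne_zero)
    have a2 := ((tendsto_rpow_neg_atTop (y := 1 / 8) (by norm_num)).comp a1).const_mul d
    rw [mul_zero] at a2
    exact a2
  have hs := ramp_smooth 0 T
  let κ : ℝ → ℝ := fun t => 1 - ramp 0 T t * (1 - c - γ t)
  have k1 : ∀ t, deriv κ t = -(deriv (ramp 0 T) t * (1 - c - γ t) +
      ramp 0 T t * (t / (4 * (1 + t ^ 2)) * γ t)) := by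
    intro t
    refine (((glue_diff hs t).hasDerivAt.mul ((g3 t).const_sub (1 - c))).const_sub 1).deriv.trans ?_
    ring
  have k2 : ∀ t, T ≤ t → κ t = c + γ t ∧ deriv κ t = -(t / (4 * (1 + t ^ 2)) * γ t) := by
    intro t ht
    have a1 : ramp 0 T t = 1 := ramp_one hT0 (by linarith)
    have a2 := glue_dz_ge (glue_diff hs) (a := T) (k := 1)
      (fun r h => ramp_one hT0 (by linarith)) t ht
    rw [k1, a2, a1]
    simp only [κ, a1]
    constructor <;> ring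
  refine ⟨κ, T, d / 16, hT, by positivity,
    contDiff_const.sub (hs.mul (contDiff_const.sub g2)), fun t ht => ?_, fun t => ?_,
    fun t ht => ?_, ?_⟩
  · simp only [κ, ramp_zero hT0 ht, zero_mul, sub_zero]
  · have a1 := ramp_nonneg 0 T t
    have a2 := ramp_le_one 0 T t
    have a3 : 0 ≤ 1 - c - γ t := by linarith [g1 t]
    have a4 := mul_nonneg a1 a3
    have a5 := mul_le_mul_of_nonneg_right a2 a3
    have a6 : 0 ≤ deriv (ramp 0 T) t := (ramp_mono 0 hT0).deriv_nonneg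
    have a7 := mul_nonneg a6 a3
    have a8 := mul_le_mul ((le_abs_self _).trans (hr 0 T t hT).1)
      (show 1 - c - γ t ≤ 1 - c by linarith [g0 t]) a3 (by positivity)
    have a9 : 0 ≤ ramp 0 T t * (t / (4 * (1 + t ^ 2)) * γ t) ∧
        ramp 0 T t * (t / (4 * (1 + t ^ 2)) * γ t) ≤ ε / 4 := by
      rcases le_total t 0 with b | b
      · rw [ramp_zero hT0 b, zero_mul]
        exact ⟨le_rfl, by positivity⟩
      · have b1 := mul_le_mul_of_nonneg_right a2 (g4 t b).1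
        exact ⟨mul_nonneg a1 (g4 t b).1, by linarith [(g4 t b).2, g1 t]⟩
    rw [k1]
    simp only [κ]
    exact ⟨by linarith [g0 t], by linarith, by linarith [a9.2], by linarith [a9.1]⟩
  · obtain ⟨a1, a2⟩ := k2 t ht
    have t0 : 0 < t := by linarith
    refine ⟨by linarith [g1 t], ?_⟩
    rw [a2, neg_neg]
    have b1 : 1 + t ^ 2 ≤ 2 * t ^ 2 := by nlinarith
    have b2 : 1 / (8 * t) ≤ t / (4 * (1 + t ^ 2)) := by
      rw [div_le_div_iff₀ (by positivity) (by positivity)]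
      nlinarith
    have b3 : (t ^ (1 / 4 : ℝ) * 2) ^ 8 = t ^ 2 * 256 := by
      rw [mul_pow, ← Real.rpow_natCast, ← Real.rpow_mul t0.le]
      norm_num
    have b4 : (t ^ (1 / 4 : ℝ) * 2)⁻¹ ≤ (1 + t ^ 2) ^ (-(1 / 8) : ℝ) := by
      rw [Real.rpow_neg (p0 t).le]
      refine inv_anti₀ (Real.rpow_pos_of_pos (p0 t) _) ?_
      rw [one_div (8 : ℝ)]
      refine (Real.rpow_inv_le_iff_of_pos (p0 t).le (by positivity) (by norm_num)).2 ?_
      rw [show (8 : ℝ) = ((8 : ℕ) : ℝ) by norm_num, Real.rpow_natCast, b3]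
      nlinarith
    have b5 : t ^ (-(5 / 4) : ℝ) = (t * t ^ (1 / 4 : ℝ))⁻¹ := by
      rw [Real.rpow_neg t0.le, show (5 / 4 : ℝ) = 1 + 1 / 4 by norm_num, Real.rpow_add t0,
        Real.rpow_one]
    refine le_trans (le_of_eq ?_) (mul_le_mul b2 (mul_le_mul_of_nonneg_left b4 hd.le)
      (by positivity) (by positivity))
    rw [b5]
    field_simp
    norm_num
  · have a1 : Tendsto (fun t => t / (4 * (1 + t ^ 2)) * γ t) atTop (𝓝 0) := by
      refine squeeze_zero' ((eventually_ge_atTop 0).mono fun t h => (g4 t h).1)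
        ((eventually_ge_atTop 0).mono fun t h => (g4 t h).2) ?_
      simpa using g5.div_const 4
    have a2 := ((g5.const_add c).pow 2).add a1.neg
    rw [add_zero, neg_zero, add_zero] at a2
    refine a2.congr' ((eventually_ge_atTop T).mono fun t h => ?_)
    simp only [(k2 t h).1, (k2 t h).2]

theorem exists_pulses {ι : Type} [Fintype ι] {F : Type} [NormedAddCommGroup F] [NormedSpace ℝ F]
    (f : ι → ℝ → F) (hf : ∀ z, ContDiff ℝ ∞ (f z)) (h0 : ∀ z, ∀ r ≤ 0, f z r = 0)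
    (h1 : ∀ z, ∀ r ≥ 1, f z r = 0) : ∃ C : ℝ, 0 ≤ C ∧
      (∀ (p : ι → ℝ) r, ‖∑ z, p z • f z r‖ ≤ C * ‖p‖) ∧ ∀ (t : ℕ → ℝ) (p : ℕ → ι → ℝ),
      (∀ j, t j + 1 ≤ t (j + 1)) → ∃ P : ℝ → F, ContDiff ℝ ∞ P ∧
        (∀ r ≤ t 0, P r = 0 ∧ deriv P r = 0 ∧ deriv (deriv P) r = 0) ∧
        ∀ j, ∀ r ∈ Icc (t j) (t (j + 1)), P r = ∑ z, p j z • f z (r - (t (j + 1) - 1)) ∧
          ‖deriv P r‖ ≤ C * ‖p j‖ ∧ ‖deriv (deriv P) r‖ ≤ C * ‖p j‖ := by
  have a0 := fun z => glue_dz_le (glue_diff (hf z)) (h0 z)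
  have a1 := fun z => glue_dz_ge (glue_diff (hf z)) (h1 z)
  choose C0 c0 b0 using fun z => glue_bdd (hf z).continuous (h0 z) (h1 z)
  choose C1 c1 b1 using fun z => glue_bdd (glue_cd (hf z)).continuous (a0 z) (a1 z)
  choose C2 c2 b2 using fun z => glue_bdd (glue_cd (glue_cd (hf z))).continuous
    (glue_dz_le (glue_diff (glue_cd (hf z))) (a0 z)) (glue_dz_ge (glue_diff (glue_cd (hf z))) (a1 z))
  have hb : ∀ (p : ι → ℝ) (w : ι → F), (∀ z, ‖w z‖ ≤ C0 z + C1 z + C2 z) →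
      ‖∑ z, p z • w z‖ ≤ (∑ z, (C0 z + C1 z + C2 z)) * ‖p‖ := by
    intro p w hw
    rw [Finset.sum_mul]
    refine (norm_sum_le _ _).trans (Finset.sum_le_sum fun z _ => ?_)
    rw [norm_smul, mul_comm]
    exact mul_le_mul (hw z) (norm_le_pi_norm p z) (norm_nonneg _) ((norm_nonneg _).trans (hw z))
  have hd : ∀ (g : ι → ℝ → F), (∀ z, ContDiff ℝ ∞ (g z)) → ∀ (p : ι → ℝ) (a : ℝ),
      deriv (fun r => ∑ z, p z • g z (r - a)) = fun r => ∑ z, p z • deriv (g z) (r - a) := by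
    intro g hg p a
    funext r
    exact (HasDerivAt.fun_sum fun z _ =>
      ((glue_diff (hg z) (r - a)).hasDerivAt.comp_sub_const r a).const_smul (p z)).deriv
  refine ⟨∑ z, (C0 z + C1 z + C2 z),
    Finset.sum_nonneg fun z _ => by linarith [c0 z, c1 z, c2 z],
    fun p r => hb p _ fun z => by linarith [b0 z r, c1 z, c2 z], fun t p ht => ?_⟩
  obtain ⟨P, p1, p2, p3⟩ := glue_all ht (g := fun j r => ∑ z, p j z • f z (r - (t (j + 1) - 1)))
    (fun j => ContDiff.sum fun z _ =>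
      ((hf z).comp (contDiff_id.sub contDiff_const)).const_smul (p j z))
    (fun j r hr => Finset.sum_eq_zero fun z _ => by
      rw [h0 z _ (by linarith [ht j]), smul_zero])
    (fun j r hr => Finset.sum_eq_zero fun z _ => by rw [h1 z _ (by linarith), smul_zero])
  refine ⟨P, p1, p2, fun j r hr => ?_⟩
  obtain ⟨q1, q2, q3⟩ := p3 j r hr
  rw [q2, q3, hd f hf, hd _ fun z => glue_cd (hf z)]
  exact ⟨q1, hb _ _ fun z => by linarith [b1 z (r - (t (j + 1) - 1)), c0 z, c2 z],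
    hb _ _ fun z => by linarith [b2 z (r - (t (j + 1) - 1)), c0 z, c1 z]⟩

end Vale.Agent.P225
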