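import Mathlib
import Vale.Agent.P225.Scalar

/-! The first order kernel near a constant coefficient equation. -/

open scoped ContDiff Matrix Topology BoundedContinuousFunction
open Filter Set

noncomputable section

namespace Vale.Agent.P225

theorem ker_decay1 {e a f : ℝ → ℝ} {t0 t1 δ K : ℝ} (hδ : 0 < δ) (hK : 0 ≤ K)
    (he : ∀ t ∈ Icc t0 t1, HasDerivAt e (f t - a t * e t) t) (ha : ∀ t ∈ Icc t0 t1, 1 ≤ a t)
    (hf : ∀ t ∈ Icc t0 t1, f t ≤ δ) (h0 : e t0 ≤ K) :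
    ∀ t ∈ Icc t0 t1, e t ≤ 2 * δ + K * Real.exp (t0 - t) := by
  refine image_le_of_deriv_right_lt_deriv_boundary (f' := fun t => f t - a t * e t)
    (fun t ht => (he t ht).continuousAt.continuousWithinAt)
    (fun t ht => (he t (Ico_subset_Icc_self ht)).hasDerivWithinAt)
    (B := fun t => 2 * δ + K * Real.exp (t0 - t)) (B' := fun t => K * (Real.exp (t0 - t) * (-1)))
    (by simp only [sub_self, Real.exp_zero]; linarith)
    (fun t => ((((hasDerivAt_id t).const_sub t0).exp).const_mul K).const_add _) fun t ht h => ?_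
  have h1 := ha t (Ico_subset_Icc_self ht)
  have h2 := hf t (Ico_subset_Icc_self ht)
  have h3 : 0 ≤ K * Real.exp (t0 - t) := by positivity
  have h4 : e t ≤ a t * e t := le_mul_of_one_le_left (by linarith) h1
  linarith

theorem ker_decay {e a f : ℝ → ℝ} {t0 t1 δ K : ℝ} (hδ : 0 < δ)
    (he : ∀ t ∈ Icc t0 t1, HasDerivAt e (f t - a t * e t) t) (ha : ∀ t ∈ Icc t0 t1, 1 ≤ a t)
    (hf : ∀ t ∈ Icc t0 t1, |f t| ≤ δ) (h0 : |e t0| ≤ K) :
    ∀ t ∈ Icc t0 t1, |e t| ≤ 2 * δ + K * Real.exp (t0 - t) := fun t ht => by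
  have hK := (abs_nonneg _).trans h0
  refine abs_le.2 ⟨neg_le.1 ?_, ker_decay1 hδ hK he ha (fun t ht => (le_abs_self _).trans
    (hf t ht)) ((le_abs_self _).trans h0) t ht⟩
  refine ker_decay1 (e := fun t => -e t) (f := fun t => -f t) hδ hK (fun t ht => ?_) ha
    (fun t ht => (neg_le_abs _).trans (hf t ht)) ((neg_le_abs _).trans h0) t ht
  exact (he t ht).neg.congr_deriv (by ring)

theorem ker_exp {x y : ℝ} (hx : 0 ≤ x) (hy : 0 ≤ y) : |Real.exp (-x) - Real.exp (-y)| ≤ |x - y| := by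
  have key : ∀ x y : ℝ, 0 ≤ x → Real.exp (-x) - Real.exp (-y) ≤ |x - y| := fun x y hx => by
    have h1 : Real.exp (-y) = Real.exp (-x) * Real.exp (x - y) := by
      rw [← Real.exp_add]
      ring_nf
    have h2 := Real.add_one_le_exp (x - y)
    have h3 : Real.exp (-x) ≤ 1 := Real.exp_le_one_iff.2 (by linarith)
    have h4 := Real.exp_pos (-x)
    have h5 := neg_abs_le (x - y)
    have h6 := abs_nonneg (x - y)
    nlinarith
  exact abs_sub_le_iff.2 ⟨key x y hx, by rw [abs_sub_comm]; exact key y x hy⟩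

variable {I : Type} (S : Sys I)

theorem ker_rho (n : I) {μ δ L a b : ℝ} (hδ : 0 < δ) (hL : S.Λ n ≤ L)
    (h1 : 9 / 10 * S.Λ n ≤ μ) (h2 : μ ≤ 11 / 10 * S.Λ n)
    (hq : ∀ r ∈ Icc a b, |S.q n r - μ ^ 2| ≤ δ) :
    ∀ r ∈ Icc a b, |S.ρ n r - μ| ≤ 2 * δ + L * Real.exp (a - r) := by
  have h0 := S.one_le n
  refine ker_decay (e := fun t => S.ρ n t - μ) (a := fun t => S.ρ n t + μ) hδ
    (fun t _ => ((S.ρ_deriv n t).sub_const μ).congr_deriv (by ring))
    (fun t _ => by linarith [S.ρ_lo n t]) hq (abs_le.2 ⟨?_, ?_⟩)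
  · linarith [S.ρ_lo n a]
  · linarith [S.ρ_hi n a]

theorem ker_g_le (n : I) (t : ℝ) : S.g n t ≤ 1 := by
  have h0 := S.one_le n
  have h1 := S.g_hi n t
  have h2 := S.g_pos n t
  nlinarith

theorem ker_g (n : I) {μ η a b : ℝ} (hη : 0 < η) (h1 : 9 / 10 * S.Λ n ≤ μ)
    (hρ : ∀ r ∈ Icc a b, |S.ρ n r - μ| ≤ η) :
    ∀ r ∈ Icc a b, |S.g n r - 1 / (2 * μ)| ≤ 4 * η + Real.exp (r - b) := fun r hr => by
  have h0 := S.one_le n
  have hμ : 0 < μ := by linarith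
  have h3 : 1 / (2 * μ) ≤ 1 := (div_le_one (by linarith)).2 (by linarith)
  have h4 : 0 < 1 / (2 * μ) := by positivity
  have h5 := ker_decay (e := fun t => S.g n (-t) - 1 / (2 * μ)) (a := fun t => 2 * S.ρ n (-t))
    (f := fun t => -((S.ρ n (-t) - μ) / μ)) (t0 := -b) (t1 := -a) (δ := 2 * η) (K := 1)
    (by linarith) (fun t _ => (((S.g_deriv n (-t)).comp t (hasDerivAt_neg t)).sub_const
      _).congr_deriv (by field_simp; ring)) (fun t _ => by linarith [S.ρ_lo n (-t)])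
    (fun t ht => by
      have h6 := hρ (-t) ⟨by linarith [ht.2], by linarith [ht.1]⟩
      rw [abs_neg, abs_div, abs_of_pos hμ, div_le_iff₀ hμ]
      nlinarith)
    (abs_le.2 ⟨by linarith [S.g_pos n (- -b)], by linarith [ker_g_le S n (- -b)]⟩)
    (-r) ⟨neg_le_neg hr.2, neg_le_neg hr.1⟩
  simp only [neg_neg, one_mul] at h5
  rw [show -b - -r = r - b by ring] at h5
  linarith

theorem ker_psi (n : I) {μ η a b : ℝ} (hab : a ≤ b) (hμ : 0 ≤ μ)
    (hρ : ∀ r ∈ Icc a b, |S.ρ n r - μ| ≤ η) :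
    |S.ψ n a / S.ψ n b - Real.exp (-(μ * (b - a)))| ≤ η * (b - a) ∧ S.ψ n a / S.ψ n b ≤ 1 := by
  have h0 := S.one_le n
  have h1 : S.ψ n a ≤ S.ψ n b := le_trans (le_mul_of_one_le_left (S.ψ_pos n a).le
    (Real.one_le_exp (mul_nonneg (by linarith) (by linarith)))) (S.ψ_lo n hab)
  have h2 := norm_image_sub_le_of_norm_deriv_le_segment'
    (f := fun t => Real.log (S.ψ n t) - μ * t) (f' := fun t => S.ρ n t - μ) (C := η)
    (fun t _ => (((S.ψ_deriv n t).log (S.ψ_pos n t).ne').sub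
      ((hasDerivAt_id t).const_mul μ)).hasDerivWithinAt.congr_deriv (by
        rw [mul_div_cancel_right₀ _ (S.ψ_pos n t).ne', mul_one]))
    (fun t ht => hρ t (Ico_subset_Icc_self ht)) b (right_mem_Icc.2 hab)
  have h3 : S.ψ n a / S.ψ n b = Real.exp (-(Real.log (S.ψ n b) - Real.log (S.ψ n a))) := by
    rw [neg_sub, Real.exp_sub, Real.exp_log (S.ψ_pos n a), Real.exp_log (S.ψ_pos n b)]
  refine ⟨?_, (div_le_one (S.ψ_pos n b)).2 h1⟩
  rw [h3]
  refine (ker_exp (sub_nonneg.2 (Real.log_le_log (S.ψ_pos n a) h1))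
    (mul_nonneg hμ (sub_nonneg.2 hab))).trans (le_of_eq_of_le ?_ h2)
  rw [Real.norm_eq_abs]
  congr 1
  ring

theorem ker_prod {a b c a' b' c' η : ℝ} (ha : |a - a'| ≤ η) (hb : |b - b'| ≤ η)
    (hc : |c - c'| ≤ η) (h1 : |a'| ≤ 1) (h2 : |b| ≤ 1) (h3 : |b'| ≤ 1) (h4 : |c| ≤ 1) :
    |a * b * c - a' * b' * c'| ≤ 3 * η := by
  have e : a * b * c - a' * b' * c' = (a - a') * b * c + a' * (b - b') * c + a' * b' * (c - c') := by
    ring
  have hη := (abs_nonneg _).trans ha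
  have e1 : |(a - a') * b * c| ≤ η * 1 * 1 := by
    rw [abs_mul, abs_mul]
    gcongr
  have e2 : |a' * (b - b') * c| ≤ 1 * η * 1 := by
    rw [abs_mul, abs_mul]
    gcongr
  have e3 : |a' * b' * (c - c')| ≤ 1 * 1 * η := by
    rw [abs_mul, abs_mul]
    gcongr
  rw [e]
  linarith [abs_add_three ((a - a') * b * c) (a' * (b - b') * c) (a' * b' * (c - c'))]

theorem ker_close {ε : ℝ} (hε : 0 < ε) (L : ℝ) : ∃ δ > (0 : ℝ), ∃ T : ℝ,
    ∀ (S : Sys Ix) (s : ℝ) (m i : Ix) (μ ν : ℝ), S.Λ m ≤ L → S.Λ i ≤ L →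
      9 / 10 * S.Λ m ≤ μ → μ ≤ 11 / 10 * S.Λ m → 9 / 10 * S.Λ i ≤ ν → ν ≤ 11 / 10 * S.Λ i →
      (∀ r ∈ Icc (s - T) (s + 1 + T), |S.q m r - μ ^ 2| ≤ δ ∧ |S.q i r - ν ^ 2| ≤ δ) →
      ∀ r ∈ Icc s (s + 1), |S.ker s m i r -
        S.Λ m ^ 2 / (2 * μ) * Real.exp (-ν) * Real.exp ((ν - μ) * (r - s))| ≤ ε := by
  obtain ⟨η, hη, hη'⟩ : ∃ η : ℝ, 0 < η ∧ L ^ 2 * (3 * η) ≤ ε := by
    refine ⟨ε / (3 * L ^ 2 + 1), by positivity, ?_⟩
    rw [← mul_assoc, ← mul_div_assoc, div_le_iff₀ (by positivity)]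
    nlinarith
  obtain ⟨T, hT, hT'⟩ : ∃ T : ℝ, 0 ≤ T ∧ |L| * Real.exp (-T) ≤ η / 16 := by
    refine ⟨16 * |L| / η, by positivity, ?_⟩
    have h1 := Real.add_one_le_exp (16 * |L| / η)
    rw [Real.exp_neg, ← div_eq_mul_inv, div_le_iff₀ (Real.exp_pos _)]
    have h2 : η / 16 * (16 * |L| / η) = |L| := by field_simp
    nlinarith
  refine ⟨η / 32, by positivity, T, fun S s m i μ ν hm hi h1 h2 h3 h4 hq r hr => ?_⟩
  have hΛ := S.one_le m
  have hΛ' := S.one_le i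
  rw [abs_of_pos (by linarith)] at hT'
  have hE := Real.exp_pos (-T)
  have hrho : ∀ n μ, S.Λ n ≤ L → 9 / 10 * S.Λ n ≤ μ → μ ≤ 11 / 10 * S.Λ n →
      (∀ r ∈ Icc (s - T) (s + 1 + T), |S.q n r - μ ^ 2| ≤ η / 32) →
      ∀ r ∈ Icc s (s + 1 + T), |S.ρ n r - μ| ≤ η / 8 := fun n μ e1 e2 e3 e4 r hr => by
    have e5 := ker_rho S n (by positivity) e1 e2 e3 e4 r ⟨by linarith [hr.1], hr.2⟩
    have e6 : L * Real.exp (s - T - r) ≤ L * Real.exp (-T) :=
      mul_le_mul_of_nonneg_left (Real.exp_le_exp.2 (by linarith [hr.1])) (by linarith)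
    linarith
  have hm1 := hrho m μ hm h1 h2 fun r hr => (hq r hr).1
  have hi1 := hrho i ν hi h3 h4 fun r hr => (hq r hr).2
  have e1 := ker_g S m (by positivity) h1 hm1 r ⟨hr.1, by linarith [hr.2]⟩
  have e2 : Real.exp (r - (s + 1 + T)) ≤ L * Real.exp (-T) :=
    (Real.exp_le_exp.2 (by linarith [hr.2])).trans (le_mul_of_one_le_left hE.le (by linarith))
  obtain ⟨e3, e3'⟩ := ker_psi S m hr.1 (by linarith) fun t ht =>
    hm1 t ⟨ht.1, by linarith [ht.2, hr.2]⟩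
  obtain ⟨e4, e4'⟩ := ker_psi S i hr.2 (by linarith) fun t ht =>
    hi1 t ⟨hr.1.trans ht.1, by linarith [ht.2]⟩
  have e5 := ker_prod (η := η) (e1.trans (by linarith))
    (e3.trans (by nlinarith [hr.2])) (e4.trans (by nlinarith [hr.1]))
    (by
      rw [abs_of_pos (by have : 0 < μ := by linarith
                         positivity)]
      exact (div_le_one (by linarith)).2 (by linarith))
    (by rwa [abs_of_pos (div_pos (S.ψ_pos _ _) (S.ψ_pos _ _))])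
    (by
      rw [abs_of_pos (Real.exp_pos _), Real.exp_le_one_iff, neg_nonpos]
      exact mul_nonneg (by linarith) (by linarith [hr.1]))
    (by rwa [abs_of_pos (div_pos (S.ψ_pos _ _) (S.ψ_pos _ _))])
  have e6 : S.ker s m i r - S.Λ m ^ 2 / (2 * μ) * Real.exp (-ν) * Real.exp ((ν - μ) * (r - s)) =
      S.Λ m ^ 2 * (S.g m r * (S.ψ m s / S.ψ m r) * (S.ψ i r / S.ψ i (s + 1)) -
        1 / (2 * μ) * Real.exp (-(μ * (r - s))) * Real.exp (-(ν * (s + 1 - r)))) := by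
    have e7 : Real.exp (-ν) * Real.exp ((ν - μ) * (r - s)) =
        Real.exp (-(μ * (r - s))) * Real.exp (-(ν * (s + 1 - r))) := by
      rw [← Real.exp_add, ← Real.exp_add]
      ring_nf
    rw [mul_assoc, e7, Sys.ker]
    ring
  rw [e6, abs_mul, abs_of_nonneg (sq_nonneg _)]
  exact (mul_le_mul (pow_le_pow_left₀ (by linarith) hm 2) e5 (abs_nonneg _) (sq_nonneg _)).trans hη'

end Vale.Agent.P225
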