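import Mathlib
import Vale.Agent.P225.Mult

/-! Independence of the first order functionals. -/

open scoped ContDiff Matrix Topology BoundedContinuousFunction
open Filter Set

noncomputable section

namespace Vale.Agent.P225

open MvPolynomial in
theorem spi_xi_add {D : ℕ} (P Q : V D) (f : Fin 2) : xiP (P + Q) f = xiP P f + xiP Q f := by
  simp only [xiP, Pi.add_apply, add_smul, Finset.sum_add_distrib]

theorem spi_xi_smul {D : ℕ} (a : ℝ) (P : V D) (f : Fin 2) : xiP (a • P) f = a • xiP P f := by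
  simp only [xiP, Pi.smul_apply, smul_eq_mul, mul_smul, Finset.smul_sum]

theorem spi_xi_single {D : ℕ} (f f' : Fin 2) (d i : Fin D) : xiP (Pi.single (f, d, i) 1) f' =
    if f' = f then MvPolynomial.X 2 ^ (i : ℕ) *
      (MvPolynomial.X 0 ^ (d : ℕ) + MvPolynomial.X 1 ^ (d : ℕ)) else 0 := by
  unfold xiP
  split_ifs with h
  · subst h
    rw [Finset.sum_eq_single d (fun d' _ h => Finset.sum_eq_zero fun i' _ => by simp [h]) (by simp),
      Finset.sum_eq_single i (fun i' _ h => by simp [h]) (by simp)]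
    simp
  · exact Finset.sum_eq_zero fun d' _ => Finset.sum_eq_zero fun i' _ => by simp [h]

theorem spi_eL_add {D : ℕ} (b : ℝ) (P Q : V D) (k : Fin 3) :
    eLP b (P + Q) k = eLP b P k + eLP b Q k := by
  fin_cases k <;> simp [eLP, eL, spi_xi_add] <;> ring

theorem spi_eL_smul {D : ℕ} (b a : ℝ) (P : V D) (k : Fin 3) :
    eLP b (a • P) k = a • eLP b P k := by
  fin_cases k <;> simp [eLP, eL, spi_xi_smul]

/-- The first order matrix entry as a linear functional of the control. -/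
def ell (q D : ℕ) (b : ℝ) (σ : ℕ × ℕ) (m i : Ix) : V D →ₗ[ℝ] ℝ where
  toFun P := Bm q σ (eLP b P) m i
  map_add' := by
    intro P Q
    simp only [Bm, spi_eL_add, map_add, mul_add, Finset.sum_add_distrib]
  map_smul' := by
    intro a P
    simp only [Bm, spi_eL_smul, map_smul, smul_eq_mul, RingHom.id_apply, Finset.mul_sum]
    exact Finset.sum_congr rfl fun k _ => by ring

/-- Multiplicity of the shift `d` between two modes. -/
def spiN (m i : Ix) (d : ℕ) : ℝ :=
  (if m.1 = i.1 + d then 1 else 0) + (if m.1 = i.1 - d then 1 else 0)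

/-- The common factor of the densities. -/
def spiG (q : ℕ) (σ : ℕ × ℕ) (m i : Ix) (d : ℕ) : Polynomial ℝ :=
  (1 - Polynomial.X) ^ (((mm q σ i).natAbs + (mm q σ m).natAbs + q * d) / 2) *
    (pn (mm q σ i).natAbs σ.2 i.2 * pn (mm q σ m).natAbs σ.2 m.2)

def spiI (q : ℕ) (σ : ℕ × ℕ) (m i : Ix) (d l : ℕ) : ℝ :=
  ∫ x in (0 : ℝ)..1, x ^ (σ.2 + l) * (spiG q σ m i d).eval x

theorem spi_Mlin (q : ℕ) (σ : ℕ × ℕ) (m i : Ix) (d l : ℕ) :
    Mlin q σ m i (MvPolynomial.X 2 ^ l * (MvPolynomial.X 0 ^ d + MvPolynomial.X 1 ^ d)) =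
      spiN m i d * spiI q σ m i d l := by
  simp only [MvPolynomial.X_pow_eq_monomial, mul_add, MvPolynomial.monomial_mul, map_add,
    Mlin_monomial, Mmon, spiN, spiI, spiG]
  simp [add_mul, mul_assoc]

theorem spi_Mlin' (q : ℕ) (σ : ℕ × ℕ) (m i : Ix) (d l : ℕ) (α β : ℝ) {e : Pol}
    (he : e = (MvPolynomial.C α + MvPolynomial.C β * MvPolynomial.X 2) *
      (MvPolynomial.X 2 ^ l * (MvPolynomial.X 0 ^ d + MvPolynomial.X 1 ^ d))) :
    Mlin q σ m i e = spiN m i d * (α * spiI q σ m i d l + β * spiI q σ m i d (l + 1)) := by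
  have : e = α • (MvPolynomial.X 2 ^ l * (MvPolynomial.X 0 ^ d + MvPolynomial.X 1 ^ d)) +
      β • (MvPolynomial.X 2 ^ (l + 1) * (MvPolynomial.X 0 ^ d + MvPolynomial.X 1 ^ d)) := by
    rw [he, MvPolynomial.smul_eq_C_mul, MvPolynomial.smul_eq_C_mul]; ring
  rw [this, map_add, map_smul, map_smul, spi_Mlin, spi_Mlin, smul_eq_mul, smul_eq_mul]
  ring

/-- Constant coefficient of the linear factor of the density. -/
def spiA (q : ℕ) (b : ℝ) (σ : ℕ × ℕ) (m i : Ix) : Fin 2 → ℝ :=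
  ![σ.2 * ((mm q σ i + mm q σ m) * (bX b + bZ b) + 2 * σ.2 * bZ b),
    σ.2 * (mm q σ i + mm q σ m) * bX b]

/-- Linear coefficient of the linear factor of the density. -/
def spiB (q : ℕ) (b : ℝ) (σ : ℕ × ℕ) (m i : Ix) : Fin 2 → ℝ :=
  ![-(σ.2 * (mm q σ i + mm q σ m + 2 * σ.2) * bZ b),
    (2 * mm q σ i * mm q σ m + σ.2 * (mm q σ i + mm q σ m)) * bZ b]

theorem spi_ell (q D : ℕ) (b : ℝ) (σ : ℕ × ℕ) (m i : Ix) (f : Fin 2) (d l : Fin D) :
    ell q D b σ m i (Pi.single (f, d, l) 1) = spiN m i d *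
      (spiA q b σ m i f * spiI q σ m i d l + spiB q b σ m i f * spiI q σ m i d (l + 1)) := by
  change Bm q σ (eLP b (Pi.single (f, d, l) 1)) m i = _
  rw [Bm, Fin.sum_univ_three]
  fin_cases f
  · rw [spi_Mlin' q σ m i d l 0 0 (by simp [eLP, eL, spi_xi_single]),
      spi_Mlin' q σ m i d l (bX b + bZ b) (-bZ b) (by
        simp [eLP, eL, spi_xi_single, -mul_eq_mul_right_iff]; ring),
      spi_Mlin' q σ m i d l (2 * bZ b) (-(2 * bZ b))
        (by simp [eLP, eL, spi_xi_single, map_ofNat, -mul_eq_mul_right_iff]; ring)]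
    simp [af, spiA, spiB]
    ring
  · rw [spi_Mlin' q σ m i d l 0 (2 * bZ b) (by simp [eLP, eL, spi_xi_single, map_ofNat]),
      spi_Mlin' q σ m i d l (bX b) (bZ b) (by simp [eLP, eL, spi_xi_single]),
      spi_Mlin' q σ m i d l 0 0 (by simp [eLP, eL, spi_xi_single])]
    simp [af, spiA, spiB]
    ring

theorem spi_poly_zero {Q : Polynomial ℝ} {D : ℕ} (hQ : Q.natDegree < D)
    (h : ∀ l < D, ∫ x in (0 : ℝ)..1, x ^ l * Q.eval x = 0) : Q = 0 := by
  have hc : Continuous fun x => Q.eval x := Q.continuous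
  have h1 : ∫ x in (0 : ℝ)..1, Q.eval x * Q.eval x = 0 := by
    have e : ∀ x : ℝ, Q.eval x * Q.eval x =
        ∑ l ∈ Finset.range D, Q.coeff l * (x ^ l * Q.eval x) := fun x => by
      nth_rewrite 1 [Polynomial.eval_eq_sum_range' hQ]
      simp only [Finset.sum_mul, mul_assoc]
    simp only [e]
    rw [intervalIntegral.integral_finsetSum fun l _ => by
      apply Continuous.intervalIntegrable; fun_prop]
    exact Finset.sum_eq_zero fun l hl => by
      rw [intervalIntegral.integral_const_mul, h l (Finset.mem_range.mp hl), mul_zero]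
  by_contra hne
  obtain ⟨x, hx, hx'⟩ : ∃ x ∈ Icc (0 : ℝ) 1, Q.eval x ≠ 0 := by
    by_contra hh
    push Not at hh
    exact hne (Polynomial.eq_zero_of_infinite_isRoot Q
      ((Icc_infinite zero_lt_one).mono fun x hx => hh x hx))
  have := intervalIntegral.integral_lt_integral_of_continuousOn_of_le_of_exists_lt zero_lt_one
    (f := fun _ => (0 : ℝ)) (g := fun x => Q.eval x * Q.eval x) continuousOn_const
    (hc.mul hc).continuousOn (fun x _ => mul_self_nonneg _) ⟨x, hx, mul_self_pos.mpr hx'⟩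
  simp [h1] at this

/-- The density. -/
def spiD (q : ℕ) (b : ℝ) (σ : ℕ × ℕ) (m i : Ix) (d : ℕ) (f : Fin 2) : Polynomial ℝ :=
  Polynomial.X ^ σ.2 * (spiG q σ m i d *
    (Polynomial.C (spiA q b σ m i f) + Polynomial.C (spiB q b σ m i f) * Polynomial.X))

theorem spi_int (q : ℕ) (b : ℝ) (σ : ℕ × ℕ) (m i : Ix) (d l : ℕ) (f : Fin 2) :
    ∫ x in (0 : ℝ)..1, x ^ l * (spiD q b σ m i d f).eval x =
      spiA q b σ m i f * spiI q σ m i d l + spiB q b σ m i f * spiI q σ m i d (l + 1) := by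
  have hc := (spiG q σ m i d).continuous
  rw [spiI, spiI, ← intervalIntegral.integral_const_mul, ← intervalIntegral.integral_const_mul,
    ← intervalIntegral.integral_add (by apply Continuous.intervalIntegrable; fun_prop)
      (by apply Continuous.intervalIntegrable; fun_prop)]
  refine intervalIntegral.integral_congr fun x _ => ?_
  simp [spiD]
  ring

theorem spi_N_ne {m i : Ix} {d : ℕ} (h : spiN m i d ≠ 0) : (m.1 - i.1).natAbs = d := by
  unfold spiN at h
  split_ifs at h <;> first | omega | simp at h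

theorem spi_mm_sub (q : ℕ) (σ : ℕ × ℕ) (m i : Ix) :
    (mm q σ m - mm q σ i).natAbs = q * (m.1 - i.1).natAbs := by
  rw [show mm q σ m - mm q σ i = q * (m.1 - i.1) by unfold mm; ring, Int.natAbs_mul,
    Int.natAbs_natCast]

theorem spi_deg (q : ℕ) (b : ℝ) (σ : ℕ × ℕ) (m i : Ix) {d : ℕ} (h : spiN m i d ≠ 0) (f : Fin 2) :
    (spiD q b σ m i d f).natDegree ≤ lv q σ m + lv q σ i + 1 := by
  have h1 := spi_mm_sub q σ m i
  rw [spi_N_ne h] at h1
  have h2 : (spiG q σ m i d).natDegree ≤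
      ((mm q σ i).natAbs + (mm q σ m).natAbs + q * d) / 2 + (i.2 + m.2) := by
    refine Polynomial.natDegree_mul_le.trans (add_le_add ?_ ?_)
    · refine Polynomial.natDegree_pow_le.trans ?_
      exact mul_le_of_le_one_right (Nat.zero_le _) (by compute_degree)
    · exact Polynomial.natDegree_mul_le.trans (by rw [pn_natDegree, pn_natDegree])
  have h3 : (Polynomial.C (spiA q b σ m i f) +
      Polynomial.C (spiB q b σ m i f) * Polynomial.X).natDegree ≤ 1 := by compute_degree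
  refine Polynomial.natDegree_mul_le.trans ((add_le_add (Polynomial.natDegree_X_pow_le _)
    (Polynomial.natDegree_mul_le.trans (add_le_add h2 h3))).trans ?_)
  unfold lv lev
  omega

theorem spi_coeff (q : ℕ) (b : ℝ) (σ : ℕ × ℕ) (m i : Ix) (d : ℕ) (f : Fin 2) {c : ℕ}
    (hc : c ≤ σ.2) : (spiD q b σ m i d f).coeff c =
      if σ.2 = c then (spiG q σ m i d).eval 0 * spiA q b σ m i f else 0 := by
  rw [spiD, Polynomial.coeff_X_pow_mul']
  split_ifs with h1 h2 h2
  · rw [h2, Nat.sub_self, Polynomial.coeff_zero_eq_eval_zero]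
    simp
  · omega
  · omega
  · rfl

theorem spi_ne {q : ℕ} {σ : ℕ × ℕ} (h1 : 1 ≤ σ.1) (h2 : σ.1 < q) (n : Ix) :
    ¬(q : ℤ) ∣ mm q σ n + σ.2 := by
  intro h
  rw [show mm q σ n + σ.2 = σ.1 + q * n.1 by unfold mm; ring] at h
  have := Int.le_of_dvd (by omega) ((Int.dvd_add_left (Int.dvd_mul_right _ _)).mp h)
  omega

theorem spi_eq {q : ℕ} {σ σ' : ℕ × ℕ} (h2 : σ.1 < q) (h2' : σ'.1 < q) (hc : σ.2 = σ'.2) {n n' : Ix}
    (h : mm q σ n = mm q σ' n') (hl : lv q σ n = lv q σ' n') : σ = σ' ∧ n = n' := by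
  have e : (σ.1 : ℤ) + q * n.1 = σ'.1 + q * n'.1 := by unfold mm at h; omega
  have e1 := congrArg (· % (q : ℤ)) e
  simp only [Int.add_mul_emod_self_left] at e1
  rw [Int.emod_eq_of_lt (by omega) (by omega), Int.emod_eq_of_lt (by omega) (by omega)] at e1
  have e2 : n.1 = n'.1 := by
    rw [e1, add_right_inj] at e
    exact mul_left_cancel₀ (by omega) e
  unfold lv lev at hl
  rw [h, hc] at hl
  exact ⟨Prod.ext (by omega) hc, Prod.ext e2 (by omega)⟩

theorem space_ind {q D K : ℕ} (hq : Odd q) (hD : 2 * K + 2 ≤ D) {b : ℝ} (hb : 1 < b) {ι : Type}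
    [Fintype ι] (z : ι → (ℕ × ℕ) × Ix × Ix) (hz : Function.Injective z)
    (h : ∀ a, 1 ≤ (z a).1.1 ∧ (z a).1.1 < q ∧ 1 ≤ (z a).1.2 ∧ lv q (z a).1 (z a).2.1 ≤ K ∧
      lv q (z a).1 (z a).2.2 ≤ K)
    (w : ι → ℝ) (k k' : ℕ × ℕ)
    (hk : ∀ a, w a ≠ 0 → key q (z a).1 (z a).2.1 = k ∧ key q (z a).1 (z a).2.2 = k')
    (hw : ∀ P : V D, ∑ a, w a * ell q D b (z a).1 (z a).2.1 (z a).2.2 P = 0) (a : ι) :
    w a = 0 := by
  classical
  by_contra hne
  obtain ⟨a0, ha0, hmin⟩ := (Finset.univ.filter fun a => w a ≠ 0).exists_min_image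
    (fun a => (z a).1.2) ⟨a, by simpa using hne⟩
  simp only [Finset.mem_filter, Finset.mem_univ, true_and] at ha0 hmin
  obtain ⟨p1, p2, p3, p4, p5⟩ := h a0
  set d := ((z a0).2.1.1 - (z a0).2.2.1).natAbs with hd
  have hq1 : 1 ≤ q := by omega
  have hdD : d < D := by
    have h1 := spi_mm_sub q (z a0).1 (z a0).2.1 (z a0).2.2
    have h2 : d ≤ q * d := Nat.le_mul_of_pos_left _ hq1
    rw [← hd] at h1
    unfold lv lev at p4 p5
    omega
  set c := (z a0).1.2 with hc
  let g : ι → ℝ := fun a => w a * spiN (z a).2.1 (z a).2.2 d *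
    (if (z a).1.2 = c then (spiG q (z a).1 (z a).2.1 (z a).2.2 d).eval 0 else 0)
  have E : ∀ f, ∑ a, g a * spiA q b (z a).1 (z a).2.1 (z a).2.2 f = 0 := by
    intro f
    have hQ : ∑ a, Polynomial.C (w a * spiN (z a).2.1 (z a).2.2 d) *
        spiD q b (z a).1 (z a).2.1 (z a).2.2 d f = 0 := by
      refine spi_poly_zero (D := D) (lt_of_le_of_lt (Polynomial.natDegree_sum_le_of_forall_le _ _
        (n := 2 * K + 1) fun a _ => ?_) (by omega)) fun l hl => ?_
      · by_cases h0 : spiN (z a).2.1 (z a).2.2 d = 0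
        · simp [h0]
        · refine (Polynomial.natDegree_C_mul_le _ _).trans ((spi_deg q b _ _ _ h0 f).trans ?_)
          have := h a
          omega
      · refine Eq.trans ?_ (hw (Pi.single (f, ⟨d, hdD⟩, ⟨l, hl⟩) 1))
        simp only [Polynomial.eval_finsetSum, Finset.mul_sum, Polynomial.eval_mul, Polynomial.eval_C]
        rw [intervalIntegral.integral_finsetSum fun a _ => by
          have := (spiD q b (z a).1 (z a).2.1 (z a).2.2 d f).continuous
          apply Continuous.intervalIntegrable; fun_prop]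
        refine Finset.sum_congr rfl fun a _ => ?_
        rw [spi_ell, ← spi_int, ← mul_assoc, ← intervalIntegral.integral_const_mul]
        exact intervalIntegral.integral_congr fun x _ => by simp only; ring
    have h1 := congrArg (fun Q => Polynomial.coeff Q c) hQ
    simp only [Polynomial.finsetSum_coeff, Polynomial.coeff_C_mul, Polynomial.coeff_zero] at h1
    rw [← h1]
    refine Finset.sum_congr rfl fun a _ => ?_
    by_cases h0 : w a = 0
    · simp [g, h0]
    · rw [spi_coeff q b _ _ _ d f (hmin a h0)]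
      simp only [g]
      split_ifs <;> ring
  set u : ℤ := mm q (z a0).1 (z a0).2.2 + mm q (z a0).1 (z a0).2.1 with hu
  have n1 := spi_ne p1 p2 (z a0).2.1
  have n2 := spi_ne p1 p2 (z a0).2.2
  have hA : ∀ a, a ≠ a0 → g a = 0 ∨ ((z a).1.2 = c ∧
      mm q (z a).1 (z a).2.2 + mm q (z a).1 (z a).2.1 = -u - 4 * c) := by
    intro a ha
    by_cases h0 : w a = 0
    · simp [g, h0]
    by_cases h1 : spiN (z a).2.1 (z a).2.2 d = 0
    · simp [g, h1]
    by_cases h2 : (z a).1.2 = c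
    swap
    · simp [g, h2]
    refine Or.inr ⟨h2, ?_⟩
    have k1 := (hk a h0).1.trans (hk a0 ha0).1.symm
    have k2 := (hk a h0).2.trans (hk a0 ha0).2.symm
    simp only [key, Prod.mk.injEq] at k1 k2
    have k3 := spi_mm_sub q (z a).1 (z a).2.1 (z a).2.2
    rw [spi_N_ne h1, ← spi_mm_sub q (z a0).1] at k3
    have k4 : mm q (z a0).1 (z a0).2.1 + c ≠ 0 := fun h => n1 (by rw [h]; exact dvd_zero _)
    have k5 : mm q (z a0).1 (z a0).2.2 + c ≠ 0 := fun h => n2 (by rw [h]; exact dvd_zero _)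
    by_contra k6
    have k7 : mm q (z a).1 (z a).2.1 = mm q (z a0).1 (z a0).2.1 := by omega
    have k8 : mm q (z a).1 (z a).2.2 = mm q (z a0).1 (z a0).2.2 := by omega
    obtain ⟨e1, e2⟩ := spi_eq (h a).2.1 p2 h2 k7 k1.1
    exact ha (hz (Prod.ext e1 (Prod.ext e2 (spi_eq (h a).2.1 p2 h2 k8 k2.1).2)))
  have hs : ∀ (f : Fin 2) (v : ℝ), (∀ a, (z a).1.2 = c →
      mm q (z a).1 (z a).2.2 + mm q (z a).1 (z a).2.1 = -u - 4 * c →
      spiA q b (z a).1 (z a).2.1 (z a).2.2 f = v) →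
      g a0 * spiA q b (z a0).1 (z a0).2.1 (z a0).2.2 f +
        (∑ a ∈ Finset.univ.erase a0, g a) * v = 0 := fun f v hv => by
    rw [← E f, ← Finset.add_sum_erase _ _ (Finset.mem_univ a0), Finset.sum_mul]
    congr 1
    refine Finset.sum_congr rfl fun a ha => ?_
    rcases hA a (Finset.ne_of_mem_erase ha) with h0 | h0
    · simp [h0]
    · rw [hv a h0.1 h0.2]
  have s0 := hs 0 (c * ((-u - 4 * c) * (bX b + bZ b) + 2 * c * bZ b)) fun a h1 h2 => by
    simp only [spiA, Matrix.cons_val_zero, h1]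
    rw [← Int.cast_add, h2]
    push_cast
    ring
  have s1 := hs 1 (c * (-u - 4 * c) * bX b) fun a h1 h2 => by
    simp only [spiA, Matrix.cons_val_one, Matrix.cons_val_zero, h1]
    rw [← Int.cast_add, h2]
    push_cast
    ring
  simp only [spiA, Matrix.cons_val_one, Matrix.cons_val_zero, ← hc, ← Int.cast_add, ← hu] at s0 s1
  have hX : 0 < bX b := by unfold bX; positivity
  have hZ : 0 < bZ b := by
    have h1 : 1 < b ^ 2 := by nlinarith
    have h2 : (b ^ 2)⁻¹ < 1 := inv_lt_one_of_one_lt₀ h1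
    unfold bZ
    nlinarith
  have hc0 : (c : ℝ) ≠ 0 := by exact_mod_cast (show c ≠ 0 by omega)
  have hu0 : (u : ℝ) + 2 * c ≠ 0 := by
    have : u + 2 * c ≠ 0 := by
      intro h0
      have e : 2 * (mm q (z a0).1 (z a0).2.1 + c) =
          q * ((z a0).2.1.1 - (z a0).2.2.1) := by
        unfold mm at hu ⊢
        linear_combination h0 - hu
      refine n1 (IsCoprime.dvd_of_dvd_mul_left ?_ ⟨_, e⟩)
      exact_mod_cast Nat.isCoprime_iff_coprime.mpr (Nat.coprime_two_right.mpr hq)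
    exact_mod_cast this
  set G := ∑ a ∈ Finset.univ.erase a0, g a
  have s2 : c * bZ b * (u + 2 * c) * (g a0 - G) = 0 := by linear_combination s0 - s1
  have s3 : G = g a0 := by
    have := (mul_eq_zero.mp s2).resolve_left (mul_ne_zero (mul_ne_zero hc0 hZ.ne') hu0)
    linarith
  have s4 : c * c * bX b * g a0 = 0 := by
    rw [s3] at s1
    linear_combination (-1 / 4) * s1
  have s5 := (mul_eq_zero.mp s4).resolve_left (mul_ne_zero (mul_ne_zero hc0 hc0) hX.ne')
  have s6 : spiN (z a0).2.1 (z a0).2.2 d ≠ 0 := by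
    unfold spiN
    split_ifs <;> first | omega | norm_num
  have s7 : (spiG q (z a0).1 (z a0).2.1 (z a0).2.2 d).eval 0 ≠ 0 := by
    simp [spiG, (pn_zero_pos _ _ _).ne']
  simp [g, ← hc, ha0, s6, s7] at s5

end Vale.Agent.P225
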