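import Mathlib
import Vale.Agent.P225.Kernel
import Vale.Agent.P225.Generic
import Vale.Agent.P225.SpaceInd
import Vale.Agent.P225.Coupling
import Vale.Agent.P225.Kappa
import Vale.Agent.P225.Comb

/-! The control profiles. -/

open scoped ContDiff Matrix Topology BoundedContinuousFunction
open Filter Set

noncomputable section

namespace Vale.Agent.P225

theorem lin_mem_prs {S : Type} [Fintype S] [DecidableEq S] {B B' : S → Finset Ix}
    {z : S × Ix × Ix} (h : z ∈ prs B B') : z.2.1 ∈ B z.1 ∧ z.2.2 ∈ B' z.1 ∧ z.2.1 ≠ z.2.2 := by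
  obtain ⟨σ, -, h1⟩ := Finset.mem_biUnion.1 h
  obtain ⟨y, hy, rfl⟩ := Finset.mem_image.1 h1
  obtain ⟨h2, h3⟩ := Finset.mem_filter.1 hy
  exact ⟨(Finset.mem_product.1 h2).1, (Finset.mem_product.1 h2).2, h3⟩

theorem lin_ker_cont (S : Sys Ix) (s : ℝ) (m i : Ix) : Continuous (S.ker s m i) := by
  have g1 : Continuous (S.g m) := continuous_iff_continuousAt.2 fun t => (S.g_deriv m t).continuousAt
  have p1 : ∀ n, Continuous (S.ψ n) := fun n =>
    continuous_iff_continuousAt.2 fun t => (S.ψ_deriv n t).continuousAt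
  unfold Sys.ker
  exact ((continuous_const.mul g1).mul (continuous_const.div (p1 m) fun r => (S.ψ_pos m r).ne')).mul
    ((p1 i).div_const _)

theorem lin_bound {F : Type} [NormedAddCommGroup F] {f : ℝ → F} (hf : Continuous f)
    (h0 : ∀ r ≤ 0, f r = 0) (h1 : ∀ r ≥ 1, f r = 0) : ∃ C : ℝ, 0 ≤ C ∧ ∀ r, ‖f r‖ ≤ C := by
  obtain ⟨C, hC⟩ := (isCompact_Icc (a := (0 : ℝ)) (b := 1)).exists_bound_of_continuousOn
    hf.continuousOn
  have C0 : 0 ≤ C := (norm_nonneg _).trans (hC 0 ⟨le_rfl, zero_le_one⟩)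
  refine ⟨C, C0, fun r => ?_⟩
  rcases le_total r 0 with h | h
  · rw [h0 r h, norm_zero]
    exact C0
  rcases le_total r 1 with h' | h'
  · exact hC r ⟨h, h'⟩
  · rw [h1 r h', norm_zero]
    exact C0

theorem lin_err {a a0 x y ε K0 K u : ℝ} (h1 : |a - a0| ≤ ε) (h2 : |a0| ≤ K0) (h3 : |x| ≤ K * u)
    (h4 : |x - y| ≤ K * u ^ 2) : |a * x - a0 * y| ≤ ε * (K * u) + K0 * (K * u ^ 2) := by
  have : a * x - a0 * y = (a - a0) * x + a0 * (x - y) := by ring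
  rw [this]
  refine (abs_add_le _ _).trans (add_le_add ?_ ?_) <;> rw [abs_mul]
  · exact mul_le_mul h1 h3 (abs_nonneg _) ((abs_nonneg _).trans h1)
  · exact mul_le_mul h2 h4 (abs_nonneg _) ((abs_nonneg _).trans h2)

theorem lin_mu {s : ℕ} (hs : 10000 ≤ s) {b c : ℝ}
    (hb : b ∈ Icc (1 + 1 / s : ℝ) (1 + 2 / s)) (hc : c ∈ Icc (1 - 11 / s : ℝ) (1 - 10 / s))
    (q : ℕ) {σ : ℕ × ℕ} (hσ : 1 ≤ σ.2) (n : Ix) :
    9 / 10 * ((lv q σ n : ℝ) + 1) ≤ mu q b c σ n ∧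
      mu q b c σ n ≤ 11 / 10 * ((lv q σ n : ℝ) + 1) := by
  have s0 : (10000 : ℝ) ≤ s := by exact_mod_cast hs
  have s1 : (0 : ℝ) < 1 / s := by positivity
  have s2 : (1 : ℝ) / s ≤ 1 / 10000 := one_div_le_one_div_of_le (by norm_num) s0
  have e1 : (11 : ℝ) / s = 11 * (1 / s) := by ring
  have e2 : (10 : ℝ) / s = 10 * (1 / s) := by ring
  have c1 : 99 / 100 ≤ c := by linarith [hc.1]
  have c2 : c ≤ 1 := by linarith [hc.2]
  have h := lam_bd hs (b := b) (w := c ^ 2) ⟨by linarith [hb.1], hb.2⟩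
    ⟨by nlinarith, by nlinarith⟩ (mm q σ n) hσ n.2
  exact ⟨Real.le_sqrt_of_sq_le h.1, Real.sqrt_le_iff.2 ⟨by positivity, h.2⟩⟩

theorem lin_core {ι F T : Type} [Fintype ι] [DecidableEq ι] [Fintype T] [NormedAddCommGroup F]
    [NormedSpace ℝ F] [FiniteDimensional ℝ F] {cf : F → T → ℝ} (hcf : ContDiff ℝ ∞ cf) {K : ℝ}
    (K0 : 0 ≤ K) (hcfle : ∀ P, ‖P‖ ≤ 1 → ‖cf P‖ ≤ K * ‖P‖) {f : ι → ℝ → F}
    (f1 : ∀ z, ContDiff ℝ ∞ (f z)) (f2 : ∀ z, ∀ r ≤ 0, f z r = 0) (f3 : ∀ z, ∀ r ≥ 1, f z r = 0)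
    {a a' o : ι → ℝ} (a0 : ∀ z, 0 < a z) {l : ι → F →ₗ[ℝ] ℝ}
    (f4 : ∀ z z', ∫ r in (0 : ℝ)..1, Real.exp (o z * r) * ((-(a z * a' z)) • l z) (f z' r) =
      if z = z' then 1 else 0) {β : ι → T → ℝ} {c : ι → Prop} [DecidablePred c]
    (row : ∀ z, c z → ∑ j, |β z j| ≤ 1)
    (herr : ∀ z P, ‖P‖ ≤ 1 →
      |(if c z then ∑ j, cf P j * β z j else 0) - a' z * l z P| ≤ K * ‖P‖ ^ 2) :
    ∃ K' r₀ ε : ℝ, 0 < r₀ ∧ 0 < ε ∧ ∀ (t : ℝ) (ker : ι → ℝ → ℝ), (∀ z, Continuous (ker z)) →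
      (∀ z, ∀ r ∈ Icc (t - 1) t, |ker z r - a z * Real.exp (o z * (r - (t - 1)))| ≤ ε) →
      ∃ k : (ι → ℝ) → ℝ →ᵇ (T → ℝ), Continuous k ∧ ∀ p, ‖p‖ ≤ r₀ →
        (∀ r, k p r = cf (∑ z, p z • f z (r - (t - 1)))) ∧ ‖k p‖ ≤ K' * ‖p‖ ∧
        ∀ z, |p z + ∫ r in t - 1..t, ker z r * (if c z then ∑ j, k p r j * β z j else 0)| ≤
          ‖p‖ / 4 := by
  have : ProperSpace F := FiniteDimensional.proper_real F
  choose Cz Cz0 hCz using fun z => lin_bound (f1 z).continuous (f2 z) (f3 z)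
  set Cf : ℝ := ∑ z, Cz z with hCf
  have Cf0 : 0 ≤ Cf := Finset.sum_nonneg fun z _ => Cz0 z
  have hP : ∀ (p : ι → ℝ) (r : ℝ), ‖∑ z, p z • f z r‖ ≤ Cf * ‖p‖ := by
    intro p r
    refine (norm_sum_le _ _).trans ?_
    rw [hCf, Finset.sum_mul]
    refine Finset.sum_le_sum fun z _ => ?_
    rw [norm_smul, mul_comm]
    exact mul_le_mul (hCz z r) (norm_le_pi_norm p z) (norm_nonneg _) (Cz0 z)
  set K1 : ℝ := ∑ z, a z * Real.exp |o z| with hK1
  have K10 : 0 ≤ K1 := Finset.sum_nonneg fun z _ => (mul_pos (a0 z) (Real.exp_pos _)).le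
  have hker0 : ∀ z, ∀ r ∈ Icc (0 : ℝ) 1, |a z * Real.exp (o z * r)| ≤ K1 := by
    intro z r hr
    rw [abs_of_pos (mul_pos (a0 z) (Real.exp_pos _))]
    refine le_trans ?_ (Finset.single_le_sum (f := fun z => a z * Real.exp |o z|)
      (fun z _ => (mul_pos (a0 z) (Real.exp_pos _)).le) (Finset.mem_univ z))
    refine mul_le_mul_of_nonneg_left (Real.exp_le_exp.2 ?_) (a0 z).le
    calc o z * r ≤ |o z| * r := mul_le_mul_of_nonneg_right (le_abs_self _) hr.1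
      _ ≤ |o z| := mul_le_of_le_one_right (abs_nonneg _) hr.2
  clear_value Cf K1
  obtain ⟨Lc, hLc⟩ := hcf.contDiffOn.exists_lipschitzOnWith (by simp)
    (convex_closedBall (0 : F) 1) (isCompact_closedBall _ _)
  obtain ⟨G, hG, hGeq⟩ := hLc.extend_pi
  refine ⟨K * Cf, min (1 / (Cf + 1)) (1 / (8 * (K1 * K * Cf ^ 2 + 1))), 1 / (8 * (K * Cf + 1)),
    by positivity, by positivity, fun t ker cker hkc => ?_⟩
  set Fb : ι → ℝ →ᵇ F := fun z =>
    BoundedContinuousFunction.ofNormedAddCommGroup (fun r => f z (r - (t - 1)))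
      ((f1 z).continuous.comp (continuous_id.sub continuous_const)) (Cz z) (fun r => hCz z _)
    with hF
  refine ⟨fun p => BoundedContinuousFunction.comp G hG (∑ z, p z • Fb z),
    (BoundedContinuousFunction.continuous_comp hG).comp
      (continuous_finsetSum _ fun z _ => (continuous_apply z).smul continuous_const),
    fun p hp => ?_⟩
  have p1 : Cf * ‖p‖ ≤ 1 := by
    have h1 := hp.trans (min_le_left _ _)
    rw [le_div_iff₀ (by positivity)] at h1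
    nlinarith [norm_nonneg p]
  have p2 : 8 * (K1 * K * Cf ^ 2) * ‖p‖ ≤ 1 := by
    have h1 := hp.trans (min_le_right _ _)
    rw [le_div_iff₀ (by positivity)] at h1
    nlinarith [norm_nonneg p]
  have hk : ∀ r, BoundedContinuousFunction.comp G hG (∑ z, p z • Fb z) r =
      cf (∑ z, p z • f z (r - (t - 1))) := by
    intro r
    rw [hGeq (mem_closedBall_zero_iff.2 ((hP p _).trans p1)), BoundedContinuousFunction.comp_apply,
      BoundedContinuousFunction.sum_apply]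
    rfl
  have hkb : ∀ r, ‖cf (∑ z, p z • f z r)‖ ≤ K * (Cf * ‖p‖) := fun r =>
    (hcfle _ ((hP p _).trans p1)).trans (mul_le_mul_of_nonneg_left (hP p _) K0)
  refine ⟨hk, (BoundedContinuousFunction.norm_le (by positivity)).2 fun r => ?_, fun z => ?_⟩
  · rw [hk, mul_assoc]
    exact hkb _
  have cP : Continuous fun r : ℝ => ∑ z, p z • f z (r - (t - 1)) :=
    continuous_finsetSum _ fun z _ =>
      ((f1 z).continuous.comp (continuous_id.sub continuous_const)).const_smul _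
  have cl : Continuous (l z) := (l z).continuous_of_finiteDimensional
  have hmain : ∫ r in t - 1..t, a z * Real.exp (o z * (r - (t - 1))) *
      (a' z * l z (∑ z, p z • f z (r - (t - 1)))) = -p z := by
    rw [intervalIntegral.integral_comp_sub_right
      (fun r => a z * Real.exp (o z * r) * (a' z * l z (∑ z, p z • f z r))) (t - 1), sub_self,
      sub_sub_cancel]
    have e1 : ∀ r, a z * Real.exp (o z * r) * (a' z * l z (∑ z, p z • f z r)) =
        ∑ z', -p z' * (Real.exp (o z * r) * ((-(a z * a' z)) • l z) (f z' r)) := by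
      intro r
      rw [map_sum, Finset.mul_sum, Finset.mul_sum]
      refine Finset.sum_congr rfl fun z' _ => ?_
      simp only [map_smul, LinearMap.smul_apply, smul_eq_mul]
      ring
    simp only [e1]
    rw [intervalIntegral.integral_finsetSum]
    · simp only [intervalIntegral.integral_const_mul, f4 z, mul_ite, mul_one, mul_zero,
        Finset.sum_ite_eq, Finset.mem_univ, if_true]
    · intro z' _
      refine Continuous.intervalIntegrable (continuous_const.mul (Continuous.mul (by fun_prop)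
        ((LinearMap.continuous_of_finiteDimensional _).comp (f1 z').continuous))) _ _
  set X : ℝ → ℝ := fun r => if c z then
    ∑ j, cf (∑ z, p z • f z (r - (t - 1))) j * β z j else 0 with hX
  have cX : Continuous X := by
    simp only [hX]
    split_ifs
    · exact continuous_finsetSum _ fun j _ =>
        ((continuous_apply j).comp (hcf.continuous.comp cP)).mul continuous_const
    · exact continuous_const
  have bX : ∀ r, |X r| ≤ K * (Cf * ‖p‖) := by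
    intro r
    simp only [hX]
    split_ifs with hm
    · refine (Finset.abs_sum_le_sum_abs _ _).trans ?_
      calc _ ≤ ∑ j, K * (Cf * ‖p‖) * |β z j| := by
            refine Finset.sum_le_sum fun j _ => ?_
            rw [abs_mul]
            exact mul_le_mul_of_nonneg_right ((norm_le_pi_norm (cf _) j).trans (hkb _))
              (abs_nonneg _)
        _ ≤ _ := by
            rw [← Finset.mul_sum]
            exact mul_le_of_le_one_right (by positivity) (row z hm)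
    · rw [abs_zero]
      positivity
  simp only [hk]
  change |p z + ∫ r in t - 1..t, ker z r * X r| ≤ _
  have i1 : Continuous fun r => ker z r * X r := (cker z).mul cX
  have i2 : Continuous fun r => a z * Real.exp (o z * (r - (t - 1))) *
      (a' z * l z (∑ z, p z • f z (r - (t - 1)))) :=
    Continuous.mul (by fun_prop) (continuous_const.mul (cl.comp cP))
  rw [← neg_neg (p z), ← hmain, neg_add_eq_sub, ← intervalIntegral.integral_sub
    (i1.intervalIntegrable _ _) (i2.intervalIntegrable _ _)]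
  have hle : t - 1 ≤ t := by linarith
  have hfin := intervalIntegral.norm_integral_le_of_norm_le_const (a := t - 1) (b := t)
    (C := ‖p‖ / 4) (f := fun r => ker z r * X r -
      a z * Real.exp (o z * (r - (t - 1))) * (a' z * l z (∑ z, p z • f z (r - (t - 1))))) (by
      intro r hr
      rw [uIoc_of_le hle] at hr
      have q1 := hP p (r - (t - 1))
      have q2 := (herr z _ (q1.trans p1)).trans
        (mul_le_mul_of_nonneg_left (pow_le_pow_left₀ (norm_nonneg _) q1 2) K0)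
      refine (lin_err (hkc z r ⟨hr.1.le, hr.2⟩)
        (hker0 z (r - (t - 1)) ⟨by linarith [hr.1], by linarith [hr.2]⟩) (bX r) q2).trans ?_
      have q3 : 1 / (8 * (K * Cf + 1)) * (K * (Cf * ‖p‖)) ≤ ‖p‖ / 8 := by
        rw [div_mul_eq_mul_div, div_le_div_iff₀ (by positivity) (by norm_num)]
        nlinarith [norm_nonneg p]
      have q4 := mul_le_mul_of_nonneg_right p2 (norm_nonneg p)
      have q5 : K1 * (K * (Cf * ‖p‖) ^ 2) = 8 * (K1 * K * Cf ^ 2) * ‖p‖ * ‖p‖ / 8 := by ring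
      linarith)
  rwa [sub_sub_cancel, abs_one, mul_one] at hfin

theorem exists_control {s : ℕ} (hs : 10000 ≤ s) {b c : ℝ}
    (hb : b ∈ Icc (1 + 1 / s : ℝ) (1 + 2 / s)) (hc : c ∈ Icc (1 - 11 / s : ℝ) (1 - 10 / s))
    (hg : ∀ (q : ℕ) (σ σ' : ℕ × ℕ) (m i m' i' : Ix), key q σ m ≠ key q σ i →
      mu q b c σ i - mu q b c σ m = mu q b c σ' i' - mu q b c σ' m' →
      key q σ m = key q σ' m' ∧ key q σ i = key q σ' i') {M : ℝ} (hM : 1 ≤ M) :
    ∃ (D : ℕ) (β : ℕ × ℕ → Tix D → Ix → Ix → ℝ) (cf : V D → Tix D → ℝ)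
      (f : prs (B1 s) (B2 s) → ℝ → V D) (K K' r₀ δ T : ℝ), 0 < r₀ ∧ 0 < δ ∧ 0 ≤ K' ∧
      (∀ σ n, ∑ a, ∑ m ∈ nb (4 * s + 1) D n, |β σ a n m| ≤ 1) ∧ Continuous cf ∧
      (∀ P, ‖P‖ ≤ 1 → ‖cf P‖ ≤ K' * ‖P‖) ∧
      (∀ σ P n m, ((lv (4 * s + 1) σ n : ℝ) + 1) ^ 2 * ∑ a, cf P a * β σ a n m =
        M ^ lv (4 * s + 1) σ n / M ^ lv (4 * s + 1) σ m * Bm (4 * s + 1) σ (eP b P) n m) ∧
      (∀ z, ContDiff ℝ ∞ (f z)) ∧ (∀ z, ∀ r ≤ 0, f z r = 0) ∧ (∀ z, ∀ r ≥ 1, f z r = 0) ∧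
      ∀ (Sy : Sec s → Sys Ix) (t : ℝ), (∀ σ n, (Sy σ).Λ n = lv (4 * s + 1) σ.1 n + 1) →
        (∀ σ n, ∀ r ∈ Icc (t - 1 - T) (t + T),
          |(Sy σ).q n r - mu (4 * s + 1) b c σ.1 n ^ 2| ≤ δ) →
        ∃ k : (prs (B1 s) (B2 s) → ℝ) → ℝ →ᵇ (Tix D → ℝ), Continuous k ∧ ∀ p, ‖p‖ ≤ r₀ →
          (∀ r, k p r = cf (∑ z, p z • f z (r - (t - 1)))) ∧ ‖k p‖ ≤ K * ‖p‖ ∧
          ∀ z : prs (B1 s) (B2 s),
            |p z + ∫ r in t - 1..t, (Sy z.1.1).ker (t - 1) z.1.2.1 z.1.2.2 r *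
              (if z.1.2.2 ∈ nb (4 * s + 1) D z.1.2.1 then
                cpl (β z.1.1.1) (k p) r z.1.2.1 z.1.2.2 else 0)| ≤ ‖p‖ / 4 := by
  obtain ⟨D, hD⟩ : ∃ D : ℕ, 2 * (20 * s) + 2 ≤ D := ⟨_, le_rfl⟩
  obtain ⟨β, cf, K, K0, row, hcf, hcfle, hid, herr⟩ := exists_coupling (4 * s + 1) D b hM
  have M0 : 0 < M := by linarith
  have hodd : Odd (4 * s + 1) := ⟨2 * s, by ring⟩
  have hsec : ∀ σ : Sec s, 1 ≤ σ.1.1 ∧ σ.1.1 < 4 * s + 1 ∧ 1 ≤ σ.1.2 := by
    intro σ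
    obtain ⟨h1, h2⟩ := Finset.mem_product.1 σ.2
    rw [Finset.mem_Icc] at h1 h2
    exact ⟨h1.1, by omega, h2.1⟩
  have hz : ∀ z : prs (B1 s) (B2 s), lv (4 * s + 1) z.1.1.1 z.1.2.1 ≤ 20 * s ∧
      lv (4 * s + 1) z.1.1.1 z.1.2.2 ≤ 20 * s ∧ z.1.2.1 ≠ z.1.2.2 := by
    intro z
    obtain ⟨h1, h2, h3⟩ := lin_mem_prs z.2
    obtain ⟨a1, a2, -⟩ := hsec z.1.1
    have b1 := (mem_Bk a1 a2).1 h1
    exact ⟨by omega, (mem_Bk a1 a2).1 h2, h3⟩
  have μb : ∀ (σ : Sec s) (n : Ix), 9 / 10 * ((lv (4 * s + 1) σ.1 n : ℝ) + 1) ≤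
      mu (4 * s + 1) b c σ.1 n ∧
      mu (4 * s + 1) b c σ.1 n ≤ 11 / 10 * ((lv (4 * s + 1) σ.1 n : ℝ) + 1) := fun σ n =>
    lin_mu hs hb hc _ (hsec σ).2.2 n
  have μ0 : ∀ (σ : Sec s) (n : Ix), 0 < mu (4 * s + 1) b c σ.1 n := fun σ n =>
    lt_of_lt_of_le (by positivity) (μb σ n).1
  obtain ⟨a, ha⟩ : ∃ a : prs (B1 s) (B2 s) → ℝ, ∀ z, a z =
      ((lv (4 * s + 1) z.1.1.1 z.1.2.1 : ℝ) + 1) ^ 2 / (2 * mu (4 * s + 1) b c z.1.1.1 z.1.2.1) *
        Real.exp (-mu (4 * s + 1) b c z.1.1.1 z.1.2.2) := ⟨_, fun _ => rfl⟩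
  obtain ⟨a', ha'⟩ : ∃ a' : prs (B1 s) (B2 s) → ℝ, ∀ z, a' z =
      M ^ lv (4 * s + 1) z.1.1.1 z.1.2.1 / M ^ lv (4 * s + 1) z.1.1.1 z.1.2.2 /
        ((lv (4 * s + 1) z.1.1.1 z.1.2.1 : ℝ) + 1) ^ 2 := ⟨_, fun _ => rfl⟩
  obtain ⟨o, ho⟩ : ∃ o : prs (B1 s) (B2 s) → ℝ, ∀ z, o z =
      mu (4 * s + 1) b c z.1.1.1 z.1.2.2 - mu (4 * s + 1) b c z.1.1.1 z.1.2.1 := ⟨_, fun _ => rfl⟩
  have a0 : ∀ z, 0 < a z := fun z => by
    have := μ0 z.1.1 z.1.2.1
    rw [ha]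
    positivity
  have a0' : ∀ z, 0 < a' z := fun z => by
    rw [ha']
    positivity
  obtain ⟨f, f1, f2, f3, f4⟩ := time_sep o
    (fun z => (-(a z * a' z)) • ell (4 * s + 1) D b z.1.1.1 z.1.2.1 z.1.2.2) (by
      intro w z₀ hw hw'
      have s1 : (0 : ℝ) < 1 / s := by
        have : (0 : ℝ) < s := Nat.cast_pos.2 (by omega)
        positivity
      have h := space_ind hodd hD (b := b)
        (by linarith [hb.1]) (fun z : prs (B1 s) (B2 s) => (z.1.1.1, z.1.2))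
        (fun z z' h => Subtype.ext (Prod.ext (Subtype.ext (Prod.ext_iff.1 h).1)
          (Prod.ext_iff.1 h).2))
        (fun z => ⟨(hsec z.1.1).1, (hsec z.1.1).2.1, (hsec z.1.1).2.2, (hz z).1, (hz z).2.1⟩)
        (fun z => w z * -(a z * a' z)) (key (4 * s + 1) z₀.1.1.1 z₀.1.2.1)
        (key (4 * s + 1) z₀.1.1.1 z₀.1.2.2) (by
          intro z hwz
          refine hg _ _ _ _ _ _ _ (key_ne hodd (hsec z.1.1).1 (hsec z.1.1).2.1 (hz z).2.2) ?_
          by_contra hne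
          exact hwz (by rw [hw z (by rw [ho, ho]; exact hne), zero_mul])) (by
          intro P
          rw [← hw' P]
          exact Finset.sum_congr rfl fun z _ => by
            simp only [LinearMap.smul_apply, smul_eq_mul, mul_assoc]) z₀
      rcases mul_eq_zero.1 h with h | h
      · exact h
      · linarith [mul_pos (a0 z₀) (a0' z₀)])
  obtain ⟨K', r₀, ε, hr, hε, hcore⟩ := lin_core hcf K0 hcfle f1 f2 f3 a0 f4
    (β := fun z j => β z.1.1.1 j z.1.2.1 z.1.2.2)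
    (c := fun z => z.1.2.2 ∈ nb (4 * s + 1) D z.1.2.1)
    (fun z hm => (Finset.sum_le_sum fun j _ => Finset.single_le_sum
      (f := fun m => |β z.1.1.1 j z.1.2.1 m|) (fun _ _ => abs_nonneg _) hm).trans (row _ _))
    (fun z P hP => by
      rw [ha']
      exact herr z.1.1.1 P z.1.2.1 z.1.2.2 hP)
  obtain ⟨δ, hδ, T, hT⟩ := ker_close hε (20 * s + 1)
  refine ⟨D, β, cf, f, K', K, r₀, δ, T, hr, hδ, K0, row, hcf.continuous, hcfle, hid, f1, f2, f3,
    fun Sy t hSy hq => hcore t (fun z => (Sy z.1.1).ker (t - 1) z.1.2.1 z.1.2.2)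
      (fun z => lin_ker_cont _ _ _ _) fun z => ?_⟩
  have h20 : ∀ n, lv (4 * s + 1) z.1.1.1 n ≤ 20 * s → (Sy z.1.1).Λ n ≤ 20 * s + 1 := by
    intro n hn
    have : (lv (4 * s + 1) z.1.1.1 n : ℝ) ≤ 20 * s := by exact_mod_cast hn
    rw [hSy]
    linarith
  have hkc := hT (Sy z.1.1) (t - 1) z.1.2.1 z.1.2.2 (mu (4 * s + 1) b c z.1.1.1 z.1.2.1)
    (mu (4 * s + 1) b c z.1.1.1 z.1.2.2)
    (h20 _ (hz z).1) (h20 _ (hz z).2.1) (by rw [hSy]; exact (μb _ _).1)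
    (by rw [hSy]; exact (μb _ _).2) (by rw [hSy]; exact (μb _ _).1)
    (by rw [hSy]; exact (μb _ _).2) (fun r hr => by
      rw [sub_add_cancel] at hr
      exact ⟨hq _ _ r hr, hq _ _ r hr⟩)
  rw [hSy, sub_add_cancel] at hkc
  rw [ha, ho]
  exact hkc

end Vale.Agent.P225
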