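import Mathlib
import Vale.Agent.P225.Defs
import Vale.Agent.P225.KappaA

/-! The schedule. -/

open scoped ContDiff Matrix Topology BoundedContinuousFunction
open Filter Set

noncomputable section

namespace Vale.Agent.P225

variable (c : Sch)

theorem Sch.T_ge (i : ℕ) : 400 ≤ c.T i := by
  have h1 : (20 : ℝ) ≤ c.i0 := by exact_mod_cast c.i0_ge
  have h2 : (0 : ℝ) ≤ i := Nat.cast_nonneg i
  unfold Sch.T
  nlinarith

theorem Sch.T_mono : Monotone c.T := by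
  intro i j h
  unfold Sch.T
  gcongr

theorem Sch.u_succ (i : ℕ) : c.u (i + 1) = c.u i + (c.M3 + c.M1 + 5) * c.T i := by
  unfold Sch.u
  rw [Finset.sum_range_succ]
  ring

theorem Sch.t_zero (i : ℕ) : c.t (3 * i) = c.u i := by
  unfold Sch.t
  rw [show 3 * i / 3 = i by omega, if_pos (by omega), zero_mul, add_zero]

theorem Sch.t_one (i : ℕ) : c.t (3 * i + 1) = c.u i + c.M3 * c.T i := by
  unfold Sch.t
  rw [show (3 * i + 1) / 3 = i by omega, if_neg (by omega), if_pos (by omega)]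

theorem Sch.t_two (i : ℕ) : c.t (3 * i + 2) = c.u i + (c.M3 + 1) * c.T i := by
  unfold Sch.t
  rw [show (3 * i + 2) / 3 = i by omega, if_neg (by omega), if_neg (by omega)]

theorem Sch.t_three (i : ℕ) : c.t (3 * i + 3) = c.u (i + 1) :=
  c.t_zero (i + 1)

theorem sched_cases (j : ℕ) : ∃ i, j / 3 = i ∧ (j = 3 * i ∨ j = 3 * i + 1 ∨ j = 3 * i + 2) :=
  ⟨j / 3, rfl, by omega⟩

theorem Sch.M_le (i : ℕ) : c.T i ≤ c.M3 * c.T i ∧ c.T i ≤ c.M1 * c.T i ∧ 400 ≤ c.T i :=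
  ⟨le_mul_of_one_le_left (by linarith [c.T_ge i]) c.M3_ge,
    le_mul_of_one_le_left (by linarith [c.T_ge i]) c.M1_ge, c.T_ge i⟩

theorem Sch.t_step (j : ℕ) : c.t j + c.T (j / 3) ≤ c.t (j + 1) := by
  obtain ⟨i, h, rfl | rfl | rfl⟩ := sched_cases j <;> obtain ⟨a1, a2, a3⟩ := c.M_le i
  · rw [h, c.t_zero, c.t_one]
    linarith
  · rw [h, c.t_one, c.t_two]
    linarith
  · rw [h, c.t_two, c.t_three, c.u_succ]
    linarith

theorem Sch.u_le_t (j : ℕ) : c.u (j / 3) ≤ c.t j := by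
  obtain ⟨i, h, rfl | rfl | rfl⟩ := sched_cases j <;> obtain ⟨a1, a2, a3⟩ := c.M_le i
  · rw [h, c.t_zero]
  · rw [h, c.t_one]
    linarith
  · rw [h, c.t_two]
    linarith

theorem Sch.t_le_u (j : ℕ) : c.t (j + 1) ≤ c.u (j / 3 + 1) := by
  obtain ⟨i, h, rfl | rfl | rfl⟩ := sched_cases j <;> obtain ⟨a1, a2, a3⟩ := c.M_le i
  · rw [h, c.t_one, c.u_succ]
    linarith
  · rw [h, c.t_two, c.u_succ]
    linarith
  · rw [h, c.t_three]

theorem Sch.cover {r : ℝ} (h : c.t 0 ≤ r) : ∃ j, r ∈ Icc (c.t j) (c.t (j + 1)) :=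
  glue_cover (fun j => by linarith [c.t_step j, c.T_ge (j / 3)]) h

theorem Sch.cube_le (i : ℕ) : ((i : ℝ) + c.i0) ^ 3 ≤ c.u i + (c.i0 : ℝ) ^ 3 := by
  induction i with
  | zero =>
    have h1 := c.τ_ge
    have h2 := c.T_ge 0
    simp only [Sch.u, Finset.range_zero, Finset.sum_empty, Nat.cast_zero, zero_add]
    linarith
  | succ i ih =>
    obtain ⟨a1, a2, a3⟩ := c.M_le i
    have h1 : (20 : ℝ) ≤ c.i0 := by exact_mod_cast c.i0_ge
    have h2 : (0 : ℝ) ≤ i := Nat.cast_nonneg i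
    have h3 : c.T i = ((i : ℝ) + c.i0) ^ 2 := rfl
    rw [c.u_succ]
    push_cast
    nlinarith

theorem Sch.T_small {δ : ℝ} (hδ : 0 < δ) : ∃ C : ℝ, ∀ i, c.T i ≤ δ * c.u i + C := by
  refine ⟨δ * (c.i0 : ℝ) ^ 3 + (1 / δ) ^ 2, fun i => ?_⟩
  have h1 := mul_le_mul_of_nonneg_left (c.cube_le i) hδ.le
  have h2 : 0 ≤ (i : ℝ) + c.i0 := by positivity
  unfold Sch.T
  generalize (i : ℝ) + c.i0 = x at *
  rcases le_total x (1 / δ) with a | a
  · have a1 := pow_le_pow_left₀ h2 a 2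
    have a2 : 0 ≤ δ * x ^ 3 := by positivity
    linarith
  · rw [div_le_iff₀ hδ] at a
    have a1 := mul_le_mul_of_nonneg_left a (sq_nonneg x)
    have a2 := sq_nonneg (1 / δ)
    linarith

theorem Sch.gap_small {δ : ℝ} (hδ : 0 < δ) :
    ∃ C : ℝ, ∀ j, c.t (j + 1) - c.t j ≤ δ * c.t j + C := by
  have hM : 0 < c.M3 + c.M1 + 5 := by linarith [c.M3_ge, c.M1_ge]
  obtain ⟨C, hC⟩ := c.T_small (div_pos hδ hM)
  refine ⟨(c.M3 + c.M1 + 5) * C, fun j => ?_⟩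
  have a1 := mul_le_mul_of_nonneg_left (hC (j / 3)) hM.le
  rw [mul_add (c.M3 + c.M1 + 5), ← mul_assoc, mul_div_cancel₀ _ hM.ne'] at a1
  have a2 := mul_le_mul_of_nonneg_left (c.u_le_t j) hδ.le
  linarith [c.t_le_u j, c.u_succ (j / 3), c.u_le_t j]

theorem sched_le_four {x y : ℝ} (h : x ^ 4 ≤ y ^ 4) (hy : 0 ≤ y) : x ≤ y :=
  le_of_not_gt fun hc => absurd h (not_le.2 (pow_lt_pow_left₀ hc hy (by norm_num)))

theorem sch_decay (τ M1 M3 C : ℝ) {a : ℝ} (ha : 0 < a) : ∃ i1 : ℕ, ∀ c : Sch, c.τ = τ →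
    c.M1 = M1 → c.M3 = M3 → i1 ≤ c.i0 → ∀ i, ∀ r ∈ Icc 1 (c.u (i + 1)),
      C / c.T i ^ 2 ≤ a * r ^ (-(5 / 4) : ℝ) := by
  obtain ⟨i1, hi1⟩ := exists_nat_ge ((C * (τ + 1 + (M3 + M1 + 5)) ^ 5 / a) ^ 4)
  refine ⟨i1, fun c h1 h2 h3 h4 i r hr => ?_⟩
  subst h1 h2 h3
  have hM : 1 ≤ c.M3 + c.M1 + 5 := by linarith [c.M3_ge, c.M1_ge]
  have b1 : (20 : ℝ) ≤ c.i0 := by exact_mod_cast c.i0_ge
  have b2 : (0 : ℝ) ≤ i := Nat.cast_nonneg i
  have b3 : (i1 : ℝ) ≤ c.i0 := Nat.cast_le.2 h4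
  obtain ⟨y, hy0, hy⟩ : ∃ y : ℝ, 0 < y ∧ y ^ 4 = i + c.i0 :=
    ⟨((i : ℝ) + c.i0) ^ ((4 : ℕ) : ℝ)⁻¹, by positivity,
      Real.rpow_inv_natCast_pow (by positivity) (by norm_num)⟩
  have hT : c.T i = y ^ 8 := by
    unfold Sch.T
    rw [← hy]
    ring
  have b4 : ∑ l ∈ Finset.range (i + 1), c.T l ≤ y ^ 12 := by
    have d1 := Finset.sum_le_card_nsmul (Finset.range (i + 1)) c.T (c.T i)
      fun l hl => c.T_mono (Nat.lt_succ_iff.1 (Finset.mem_range.1 hl))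
    rw [Finset.card_range, nsmul_eq_mul, hT] at d1
    push_cast at d1
    have d2 := mul_le_mul_of_nonneg_right (show (i : ℝ) + 1 ≤ y ^ 4 by linarith)
      (show 0 ≤ y ^ 8 by positivity)
    linarith
  have b5 : c.T 0 ≤ y ^ 12 := le_trans (Finset.single_le_sum
    (fun l _ => by linarith [c.T_ge l]) (Finset.mem_range.2 (Nat.succ_pos i))) b4
  have b6 : 1 ≤ y ^ 12 := by linarith [c.T_ge 0]
  obtain ⟨A, hA⟩ : ∃ A, A = c.τ + 1 + (c.M3 + c.M1 + 5) := ⟨_, rfl⟩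
  have hA1 : 1 ≤ A := by linarith [c.τ_ge]
  have b7 : r ≤ (A * y ^ 3) ^ 4 := by
    have d1 := mul_le_mul_of_nonneg_left b4 (zero_le_one.trans hM)
    have d2 := mul_le_mul_of_nonneg_left b6 (zero_le_one.trans c.τ_ge)
    have d3 : r ≤ A * y ^ 12 := by
      have := hr.2
      unfold Sch.u at this
      rw [hA]
      linarith
    have d4 := mul_le_mul_of_nonneg_right (le_self_pow₀ hA1 (show 4 ≠ 0 by norm_num))
      (show 0 ≤ y ^ 12 by positivity)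
    linarith
  have r0 : 0 < r := by linarith [hr.1]
  have b8 : r ^ (5 / 4 : ℝ) ≤ (A * y ^ 3) ^ 5 := by
    refine (Real.rpow_le_rpow r0.le b7 (by norm_num)).trans (le_of_eq ?_)
    rw [← Real.rpow_natCast, ← Real.rpow_mul (by positivity), ← Real.rpow_natCast]
    norm_num
  have b9 : C * A ^ 5 / a ≤ y := by
    rw [← hA] at hi1
    exact sched_le_four (by linarith) hy0.le
  rw [Real.rpow_neg r0.le, hT, ← div_eq_mul_inv]
  refine le_trans ?_ (div_le_div_of_nonneg_left ha.le (by positivity) b8)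
  rw [div_le_div_iff₀ (by positivity) (by positivity)]
  rw [div_le_iff₀ ha] at b9
  have := mul_le_mul_of_nonneg_right b9 (show 0 ≤ y ^ 15 by positivity)
  linarith

theorem exists_berger : ∃ C : ℝ, 0 ≤ C ∧ ∀ (c : Sch) (b0 b1 : ℝ), b1 ≤ 1 → 1 ≤ b0 → b0 - b1 ≤ 1 →
    ∃ b : ℝ → ℝ, ContDiff ℝ ∞ b ∧ (∀ r, b1 ≤ b r ∧ b r ≤ b0) ∧
      (∀ r ≤ c.τ, b r = 1 ∧ deriv b r = 0 ∧ deriv (deriv b) r = 0) ∧
      (∀ r ≤ c.u 0, |deriv b r| ≤ C / c.T 0 ∧ |deriv (deriv b) r| ≤ C / c.T 0) ∧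
      (∀ i, ∀ r ∈ Icc (c.u i) (c.u (i + 1)),
        |deriv b r| ≤ C / c.T i ∧ |deriv (deriv b) r| ≤ C / c.T i) ∧
      (∀ i, ∀ r ∈ Icc (c.u i) (c.u i + (c.M3 + 2) * c.T i), b r = b0) ∧
      (∀ i, ∀ r ∈ Icc (c.u i + (c.M3 + 3) * c.T i) (c.u i + (c.M3 + 3 + c.M1) * c.T i),
        b r = b1) ∧
      ∀ j, ∀ r ∈ Icc (c.t (j + 1) - c.T 0) (c.t (j + 1) + c.T 0), b r = b0 := by
  obtain ⟨C, hC, hr⟩ := ramp_bd
  refine ⟨2 * C, by positivity, fun c b0 b1 h1 h0 h01 => ?_⟩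
  have hT : ∀ i, 0 < c.T i := fun i => by linarith [c.T_ge i]
  have hT1 : ∀ i, 1 ≤ c.T i := fun i => by linarith [c.T_ge i]
  have hu : ∀ i, c.u i + 1 ≤ c.u (i + 1) := fun i => by
    obtain ⟨a1, a2, a3⟩ := c.M_le i
    rw [c.u_succ]
    linarith
  have hu0 : c.u 0 = c.τ + c.T 0 := by simp [Sch.u]
  let g : ℕ → ℝ → ℝ := fun i r => ramp (c.u i + (c.M3 + 2) * c.T i) (c.T i) r -
    ramp (c.u i + (c.M3 + 3 + c.M1) * c.T i) (c.T i) r
  have g0 : ∀ i, ∀ r ≤ c.u i + (c.M3 + 2) * c.T i, g i r = 0 := fun i r h => by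
    obtain ⟨a1, a2, a3⟩ := c.M_le i
    simp only [g]
    rw [ramp_zero (hT i) h, ramp_zero (hT i) (by linarith), sub_self]
  have g1 : ∀ i, ∀ r ≥ c.u (i + 1) - c.T i, g i r = 0 := fun i r h => by
    obtain ⟨a1, a2, a3⟩ := c.M_le i
    rw [c.u_succ] at h
    simp only [g]
    rw [ramp_one (hT i) (by linarith), ramp_one (hT i) (by linarith), sub_self]
  have g2 : ∀ i r, 0 ≤ g i r ∧ g i r ≤ 1 := fun i r => by
    obtain ⟨a1, a2, a3⟩ := c.M_le i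
    simp only [g]
    exact ⟨sub_nonneg.2 (ramp_anti (hT i) (by linarith) r),
      by linarith [ramp_le_one (c.u i + (c.M3 + 2) * c.T i) (c.T i) r,
        ramp_nonneg (c.u i + (c.M3 + 3 + c.M1) * c.T i) (c.T i) r]⟩
  have hd : ∀ (f1 f2 : ℝ → ℝ), ContDiff ℝ ∞ f1 → ContDiff ℝ ∞ f2 → ∀ k a1 a2 : ℝ,
      deriv (fun r => k + a1 * f1 r + a2 * f2 r) = fun r => 0 + a1 * deriv f1 r + a2 * deriv f2 r := by
    intro f1 f2 a1 a2 k k1 k2
    funext r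
    rw [zero_add]
    exact ((((glue_diff a1 r).hasDerivAt.const_mul k1).const_add k).add
      ((glue_diff a2 r).hasDerivAt.const_mul k2)).deriv
  have g3 : ∀ i r, |deriv (g i) r| ≤ 2 * C / c.T i ∧ |deriv (deriv (g i)) r| ≤ 2 * C / c.T i := by
    intro i r
    have e1 : g i = fun r => 0 + 1 * ramp (c.u i + (c.M3 + 2) * c.T i) (c.T i) r +
        (-1) * ramp (c.u i + (c.M3 + 3 + c.M1) * c.T i) (c.T i) r := by
      funext r
      simp only [g]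
      ring
    rw [e1, hd _ _ (ramp_smooth _ _) (ramp_smooth _ _),
      hd _ _ (glue_cd (ramp_smooth _ _)) (glue_cd (ramp_smooth _ _)), mul_div_assoc]
    obtain ⟨a1, a2⟩ := hr (c.u i + (c.M3 + 2) * c.T i) (c.T i) r (hT1 i)
    obtain ⟨a3, a4⟩ := hr (c.u i + (c.M3 + 3 + c.M1) * c.T i) (c.T i) r (hT1 i)
    simp only [abs_le] at a1 a2 a3 a4 ⊢
    refine ⟨⟨?_, ?_⟩, ?_, ?_⟩ <;> linarith [a1.1, a1.2, a2.1, a2.2, a3.1, a3.2, a4.1, a4.2]
  obtain ⟨P, p1, p2, p3⟩ := glue_all hu (g := g)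
    (fun i => (ramp_smooth _ _).sub (ramp_smooth _ _))
    (fun i r h => g0 i r (by linarith [c.M_le i, (c.M_le i).1, hT i]))
    (fun i r h => g1 i r (by linarith [hT i]))
  have hs := ramp_smooth c.τ (c.T 0)
  have r0 : ∀ r ≤ c.τ, ramp c.τ (c.T 0) r = 0 := fun r h => ramp_zero (hT 0) h
  have r1 : ∀ r ≥ c.u 0, ramp c.τ (c.T 0) r = 1 := fun r h => ramp_one (hT 0) (by linarith)
  have r2 := glue_dz_le (glue_diff hs) r0
  have r3 := glue_dz_ge (glue_diff hs) r1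
  have r4 := glue_dz_le (glue_diff (glue_cd hs)) r2
  have r5 := glue_dz_ge (glue_diff (glue_cd hs)) r3
  have hm : ∀ i, c.u 0 ≤ c.u i := fun i => glue_mono hu (Nat.zero_le i)
  have key : ∀ i, ∀ r ∈ Icc (c.u i) (c.u (i + 1)),
      1 + (b0 - 1) * ramp c.τ (c.T 0) r + (b1 - b0) * P r = b0 + (b1 - b0) * g i r := by
    intro i r h
    rw [r1 r ((hm i).trans h.1), (p3 i r h).1]
    ring
  have key0 : ∀ i, ∀ r ∈ Icc (c.u i) (c.u i + (c.M3 + 2) * c.T i),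
      1 + (b0 - 1) * ramp c.τ (c.T 0) r + (b1 - b0) * P r = b0 := by
    intro i r h
    obtain ⟨a1, a2, a3⟩ := c.M_le i
    rw [key i r ⟨h.1, by rw [c.u_succ]; linarith [h.2]⟩, g0 i r h.2, mul_zero, add_zero]
  have hab : ∀ k x B : ℝ, |k| ≤ 1 → |x| ≤ B → |k * x| ≤ B := fun k x B a b => by
    rw [abs_mul]
    exact (mul_le_mul a b (abs_nonneg _) zero_le_one).trans (one_mul B).le
  have k1 : |b0 - 1| ≤ 1 := abs_le.2 ⟨by linarith, by linarith⟩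
  have k2 : |b1 - b0| ≤ 1 := abs_le.2 ⟨by linarith, by linarith⟩
  refine ⟨fun r => 1 + (b0 - 1) * ramp c.τ (c.T 0) r + (b1 - b0) * P r,
    (contDiff_const.add (contDiff_const.mul hs)).add (contDiff_const.mul p1), fun r => ?_, ?_⟩
  · rcases le_total r (c.u 0) with a | a
    · simp only [(p2 r a).1]
      have a1 := mul_nonneg (sub_nonneg.2 h0) (ramp_nonneg c.τ (c.T 0) r)
      have a2 := mul_le_mul_of_nonneg_left (ramp_le_one c.τ (c.T 0) r) (sub_nonneg.2 h0)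
      constructor <;> linarith
    · obtain ⟨i, hi⟩ := glue_cover hu a
      have a1 := mul_nonneg (sub_nonneg.2 (h1.trans h0)) (g2 i r).1
      have a2 := mul_le_mul_of_nonneg_left (g2 i r).2 (sub_nonneg.2 (h1.trans h0))
      simp only [key i r hi]
      constructor <;> linarith
  rw [hd _ _ hs p1, hd _ _ (glue_cd hs) (glue_cd p1)]
  refine ⟨fun r h => ?_, fun r h => ?_, fun i r h => ?_, key0, fun i r h => ?_, fun j r h => ?_⟩
  · obtain ⟨a1, a2, a3⟩ := p2 r (by linarith [hT 0])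
    simp only [a1, a2, a3, r0 r h, r2 r h, r4 r h, mul_zero, add_zero, and_self]
  · obtain ⟨-, a2, a3⟩ := p2 r h
    obtain ⟨a4, a5⟩ := hr c.τ (c.T 0) r (hT1 0)
    have a6 : C / c.T 0 ≤ 2 * C / c.T 0 := div_le_div_of_nonneg_right (by linarith) (hT 0).le
    simp only [a2, a3, mul_zero, add_zero, zero_add]
    exact ⟨hab _ _ _ k1 (a4.trans a6), hab _ _ _ k1 (a5.trans a6)⟩
  · obtain ⟨-, a2, a3⟩ := p3 i r h
    have a4 := (hm i).trans h.1
    simp only [a2, a3, r3 r a4, r5 r a4, mul_zero, zero_add]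
    exact ⟨hab _ _ _ k2 (g3 i r).1, hab _ _ _ k2 (g3 i r).2⟩
  · obtain ⟨a1, a2, a3⟩ := c.M_le i
    simp only
    rw [key i r ⟨by linarith [h.1], by rw [c.u_succ]; linarith [h.2]⟩]
    simp only [g]
    rw [ramp_one (hT i) (by linarith [h.1]), ramp_zero (hT i) h.2]
    ring
  · obtain ⟨i, -, rfl | rfl | rfl⟩ := sched_cases j <;> obtain ⟨a1, a2, a3⟩ := c.M_le i <;>
      have a4 := c.T_mono (Nat.zero_le i)
    · rw [c.t_one] at h
      exact key0 i r ⟨by linarith [h.1], by linarith [h.2]⟩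
    · rw [c.t_two] at h
      exact key0 i r ⟨by linarith [h.1], by linarith [h.2]⟩
    · rw [c.t_three] at h
      rcases le_total r (c.u (i + 1)) with a | a
      · simp only
        rw [key i r ⟨by linarith [h.1, c.u_succ i], a⟩, g1 i r (by linarith [h.1]), mul_zero,
          add_zero]
      · have a5 := c.T_mono (Nat.zero_le (i + 1))
        exact key0 (i + 1) r ⟨a, by linarith [h.2, (c.M_le (i + 1)).1, hT (i + 1)]⟩

end Vale.Agent.P225
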