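import Mathlib
import Vale.Agent.P225.Scalar
import Vale.Agent.P225.Sched

/-! Growth rates along the schedule. -/

open scoped ContDiff Matrix Topology BoundedContinuousFunction
open Filter Set

noncomputable section

namespace Vale.Agent.P225

variable (c : Sch) (S : Sys Ix)

theorem rates_two : (2 : ℝ) ≤ Real.exp 1 := by
  linarith [Real.add_one_le_exp 1]

theorem rates_log {x y a : ℝ} (hx : 0 < x) (hy : 0 < y) (h : x ≤ Real.exp a * y) :
    Real.log x ≤ a + Real.log y := by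
  have h1 := Real.log_le_log hx h
  rwa [Real.log_mul (Real.exp_pos a).ne' hy.ne', Real.log_exp] at h1

theorem rates_hi (n : Ix) {s t μ : ℝ} (h : s ≤ t) (hμ : 1 ≤ μ)
    (hq : ∀ r ∈ Icc s t, |S.q n r - μ ^ 2| ≤ 1 / 100) :
    Real.log (S.ψ n t) ≤ 1 + (μ + 1 / 100) * (t - s) + Real.log (S.ψ n s) := by
  refine rates_log (S.ψ_pos n t) (S.ψ_pos n s) ((S.ψ_le_of_q n h (M := μ + 1 / 100) (by linarith)
    fun r hr => by nlinarith [(abs_le.1 (hq r hr)).2]).trans ?_)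
  rw [Real.exp_add]
  exact mul_le_mul_of_nonneg_right (mul_le_mul_of_nonneg_right rates_two (Real.exp_pos _).le)
    (S.ψ_pos n s).le

theorem rates_lo (n : Ix) {s t μ : ℝ} (h : s ≤ t) (hμ : 1 ≤ μ)
    (hq : ∀ r ∈ Icc s t, |S.q n r - μ ^ 2| ≤ 1 / 100) :
    (μ - 1 / 100) * (t - s) + Real.log (S.ψ n s) ≤ 1 + Real.log (S.ψ n t) := by
  have h1 := rates_log (mul_pos (Real.exp_pos _) (S.ψ_pos n s)) (S.ψ_pos n t)
    ((S.le_ψ_of_q n h (M := μ - 1 / 100) (by linarith)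
      fun r hr => by nlinarith [(abs_le.1 (hq r hr)).1]).trans
      (mul_le_mul_of_nonneg_right rates_two (S.ψ_pos n t).le))
  rwa [Real.log_mul (Real.exp_pos _).ne' (S.ψ_pos n s).ne', Real.log_exp] at h1

theorem rates_mono (n : Ix) {s t : ℝ} (h : s ≤ t) : Real.log (S.ψ n s) ≤ Real.log (S.ψ n t) :=
  Real.log_le_log (S.ψ_pos n s) (le_trans (le_mul_of_one_le_left (S.ψ_pos n s).le
    (Real.one_le_exp (mul_nonneg (by linarith [S.one_le n]) (by linarith)))) (S.ψ_lo n h))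

theorem rates_crude (n : Ix) {s t L : ℝ} (h : s ≤ t) (hL : S.Λ n ≤ L) :
    Real.log (S.ψ n t) ≤ 11 / 10 * L * (t - s) + Real.log (S.ψ n s) :=
  (rates_log (S.ψ_pos n t) (S.ψ_pos n s) (S.ψ_hi n h)).trans (by
    have : 0 ≤ t - s := by linarith
    gcongr)

theorem rates_ratio (n : Ix) (s t : ℝ) :
    S.ψ n s / S.ψ n t = Real.exp (Real.log (S.ψ n s) - Real.log (S.ψ n t)) := by
  rw [Real.exp_sub, Real.exp_log (S.ψ_pos n s), Real.exp_log (S.ψ_pos n t)]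

theorem rates_cmp {k x y d : ℝ} (hk : k ≤ Real.exp d) (h : d + x ≤ y) :
    k * Real.exp x ≤ Real.exp y :=
  (mul_le_mul_of_nonneg_right hk (Real.exp_pos x).le).trans (by
    rw [← Real.exp_add]
    exact Real.exp_le_exp.2 h)

theorem dom_of_rates {L : ℝ} (hM1 : 30 * L ≤ c.M1) (i : ℕ) {a b : Ix} (hL : S.Λ a ≤ L)
    {μa μb νa νb : ℝ} (h1 : 1 ≤ μb) (h2 : 1 ≤ νa) (hμ : μb + 1 / 4 ≤ μa) (hν : νa + 1 / 4 ≤ νb)
    (hbase : ∀ r ∈ Icc (c.u i) (c.u i + (c.M3 + 2) * c.T i),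
      |S.q a r - μa ^ 2| ≤ 1 / 100 ∧ |S.q b r - μb ^ 2| ≤ 1 / 100)
    (hfar : ∀ r ∈ Icc (c.u i + (c.M3 + 3) * c.T i) (c.u i + (c.M3 + 3 + c.M1) * c.T i),
      |S.q a r - νa ^ 2| ≤ 1 / 100 ∧ |S.q b r - νb ^ 2| ≤ 1 / 100) :
    S.Dom c.t (fun i => (c.T i)⁻¹) i a b := by
  have hT := c.T_ge i
  have hM3 := c.M3_ge
  have hM := c.M1_ge
  have hL1 : 1 ≤ L := (S.one_le a).trans hL
  have hMT : c.T i ≤ c.M3 * c.T i := le_mul_of_one_le_left (by linarith) hM3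
  have hMT' : 0 ≤ c.M1 * c.T i := by positivity
  unfold Sys.Dom
  simp only [rates_ratio, c.t_one, c.t_two, c.t_three, c.u_succ]
  constructor
  · have hsub : Icc (c.u i + c.M3 * c.T i - 1) (c.u i + (c.M3 + 1) * c.T i - 1) ⊆
        Icc (c.u i) (c.u i + (c.M3 + 2) * c.T i) := Icc_subset_Icc (by linarith) (by linarith)
    have e1 := rates_lo S a (by linarith) (by linarith) fun r hr => (hbase r (hsub hr)).1
    have e2 := rates_hi S b (by linarith) h1 fun r hr => (hbase r (hsub hr)).2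
    rw [inv_pow, ← div_eq_inv_mul, le_div_iff₀ (by positivity), mul_right_comm]
    refine rates_cmp (d := 9 / 40 * c.T i) ?_ (by nlinarith)
    refine le_trans ?_ (Real.pow_div_factorial_le_exp _ (by positivity) 4)
    have e3 : 160000 * c.T i ^ 2 ≤ c.T i ^ 2 * c.T i ^ 2 := by
      refine mul_le_mul_of_nonneg_right ?_ (sq_nonneg _)
      nlinarith
    norm_num [Nat.factorial]
    nlinarith
  · have p1 : c.u i + c.M3 * c.T i - 1 ≤ c.u i + (c.M3 + 3) * c.T i := by linarith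
    have p2 : c.u i + (c.M3 + 3) * c.T i ≤ c.u i + (c.M3 + 3 + c.M1) * c.T i := by linarith
    have p3 : c.u i + (c.M3 + 3 + c.M1) * c.T i ≤ c.u i + (c.M3 + c.M1 + 5) * c.T i - 1 := by
      linarith
    have e1 := rates_crude S a p1 hL
    have e2 := rates_hi S a p2 h2 fun r hr => (hfar r hr).1
    have e3 := rates_crude S a p3 hL
    have e4 := rates_mono S b p1
    have e5 := rates_lo S b p2 (by linarith) fun r hr => (hfar r hr).2
    have e6 := rates_mono S b p3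
    have e7 : 30 * L * c.T i ≤ c.M1 * c.T i := mul_le_mul_of_nonneg_right hM1 (by linarith)
    have e8 : (νa + 1 / 4) * (c.M1 * c.T i) ≤ νb * (c.M1 * c.T i) :=
      mul_le_mul_of_nonneg_right hν hMT'
    have e9 : c.T i ≤ L * c.T i := le_mul_of_one_le_left (by linarith) hL1
    exact rates_cmp (d := 15) (by linarith [Real.add_one_le_exp 15]) (by linarith)

theorem rates_Gf {L μ : ℝ} (hL : 1 ≤ L) (hM3 : 2 * L * (c.M1 + 6) + 32 ≤ c.M3) (n : Ix) (i : ℕ)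
    (h1 : 1 ≤ μ) (hbase : ∀ r ∈ Icc (c.u i) (c.u i + (c.M3 + 2) * c.T i),
      |S.q n r - μ ^ 2| ≤ 1 / 100) :
    S.Gf c.t (fun i => (c.T i)⁻¹) L n i ≤ Real.exp ((μ + 2) * (c.M3 * c.T i)) := by
  have hT := c.T_ge i
  have hM := c.M1_ge
  have hMT : c.T i ≤ c.M3 * c.T i := le_mul_of_one_le_left (by linarith) c.M3_ge
  have e1 := rates_hi S n (s := c.u i) (t := c.u i + c.M3 * c.T i - 1) (by linarith) h1
    fun r hr => hbase r ⟨hr.1, by linarith [hr.2]⟩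
  unfold Sys.Gf
  simp only [rates_ratio, c.t_zero, c.t_one, c.t_three, c.u_succ, div_inv_eq_mul]
  rw [mul_assoc, ← Real.exp_add]
  have e2 : (2 * L * (c.M1 + 6) + 32) * c.T i ≤ c.M3 * c.T i :=
    mul_le_mul_of_nonneg_right hM3 (by linarith)
  have e3 : L ≤ L * c.T i := le_mul_of_one_le_right (by linarith) (by linarith)
  have e4 : 0 ≤ L * c.M1 * c.T i := by positivity
  exact rates_cmp (d := 16 * c.T i) (by linarith [Real.add_one_le_exp (16 * c.T i)]) (by linarith)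

theorem prod_Gf_le {L θ H : ℝ} (hL : 1 ≤ L) (hM3 : 2 * L * (c.M1 + 6) + 32 ≤ c.M3) (hθ : 3 ≤ θ)
    (n : ℕ → Ix) (μ Φ : ℕ → ℝ) (h1 : ∀ i, 1 ≤ μ i) (hΦ : ∀ i, 0 ≤ Φ i ∧ Φ i ≤ H)
    (hμ : ∀ i, μ i ≤ θ - 3 + Φ (i + 1) - Φ i)
    (hbase : ∀ i, ∀ r ∈ Icc (c.u i) (c.u i + (c.M3 + 2) * c.T i),
      |S.q (n i) r - μ i ^ 2| ≤ 1 / 100) :
    ∃ C : ℝ, ∀ j, ∏ i ∈ Finset.range (j / 3 + 1), S.Gf c.t (fun i => (c.T i)⁻¹) L (n i) i ≤
      C * Real.exp (θ * c.t j) := by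
  have hM := c.M1_ge
  have hM' := c.M3_ge
  have hT : ∀ i, 0 ≤ c.T i := fun i => by linarith [c.T_ge i]
  have hu : ∀ i, 0 ≤ c.u i := fun i => by
    have e1 : 0 ≤ (c.M3 + c.M1 + 5) * ∑ l ∈ Finset.range i, c.T l :=
      mul_nonneg (by linarith) (Finset.sum_nonneg fun l _ => hT l)
    unfold Sch.u
    linarith [c.τ_ge, hT 0]
  have hsum : ∀ k, ∑ i ∈ Finset.range (k + 1), (θ - 1 + Φ (i + 1) - Φ i) * (c.M3 * c.T i) ≤
      (θ - 1) * c.u k + (θ - 1 + Φ (k + 1)) * (c.M3 * c.T k) := fun k => by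
    induction k with
    | zero =>
      have e1 : 0 ≤ Φ 0 * (c.M3 * c.T 0) := mul_nonneg (hΦ 0).1 (mul_nonneg (by linarith) (hT 0))
      have e2 : 0 ≤ (θ - 1) * c.u 0 := mul_nonneg (by linarith) (hu 0)
      rw [Finset.sum_range_one]
      linarith
    | succ k ih =>
      have e1 : Φ (k + 1) * (c.M3 * c.T k) ≤ Φ (k + 1) * (c.M3 * c.T (k + 1)) :=
        mul_le_mul_of_nonneg_left (mul_le_mul_of_nonneg_left (c.T_mono (Nat.le_succ k))
          (by linarith)) (hΦ _).1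
      have e2 : 0 ≤ (θ - 1) * ((c.M1 + 5) * c.T k) :=
        mul_nonneg (by linarith) (mul_nonneg (by linarith) (hT k))
      rw [Finset.sum_range_succ, c.u_succ]
      linarith
  have hH : 0 ≤ H := (hΦ 0).1.trans (hΦ 0).2
  have hA : 0 < (θ - 1 + H) * c.M3 := mul_pos (by linarith) (by linarith)
  obtain ⟨C, hC⟩ := c.T_small (inv_pos.2 hA)
  refine ⟨Real.exp ((θ - 1 + H) * c.M3 * C), fun j => ?_⟩
  rw [← Real.exp_add]
  refine (Finset.prod_le_prod (fun i _ => ?_) fun i _ => (rates_Gf c S hL hM3 (n i) i (h1 i)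
    (hbase i)).trans (Real.exp_le_exp.2 (mul_le_mul_of_nonneg_right
      (show μ i + 2 ≤ θ - 1 + Φ (i + 1) - Φ i by linarith [hμ i])
      (mul_nonneg (by linarith) (hT i))))).trans ?_
  · unfold Sys.Gf
    exact mul_nonneg (mul_nonneg (div_nonneg (by norm_num) (inv_nonneg.2 (hT i)))
      (Real.exp_pos _).le) (div_pos (S.ψ_pos _ _) (S.ψ_pos _ _)).le
  · rw [← Real.exp_sum]
    refine Real.exp_le_exp.2 ((hsum _).trans ?_)
    have e1 := mul_le_mul_of_nonneg_left (hC (j / 3)) hA.le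
    rw [mul_add, mul_inv_cancel_left₀ hA.ne'] at e1
    have e2 : Φ (j / 3 + 1) * (c.M3 * c.T (j / 3)) ≤ H * (c.M3 * c.T (j / 3)) :=
      mul_le_mul_of_nonneg_right (hΦ _).2 (mul_nonneg (by linarith) (hT _))
    have e3 : θ * c.u (j / 3) ≤ θ * c.t j := mul_le_mul_of_nonneg_left (c.u_le_t j) (by linarith)
    linarith

end Vale.Agent.P225
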