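import Mathlib
import Vale.Agent.P225.Scalar

/-! The recursive construction and the bounded solutions. -/

open scoped ContDiff Matrix Topology BoundedContinuousFunction
open Filter Set

noncomputable section

namespace Vale.Agent.P225

theorem rec_eW (i n : Ix) : eW i n = if n = i then 1 else 0 := by
  simp [eW, Pi.single_apply]

theorem rec_ext (B : Finset Ix) (c : Ix → ℝ) (n : Ix) :
    (∑ m ∈ B, c m • eW m) n = if n ∈ B then c n else 0 := by
  rw [BoundedContinuousFunction.sum_apply]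
  simp [rec_eW]

theorem rec_ext_le (B : Finset Ix) (c : Ix → ℝ) {K : ℝ} (hK : 0 ≤ K) (h : ∀ m ∈ B, |c m| ≤ K) :
    ‖∑ m ∈ B, c m • eW m‖ ≤ K := by
  refine (BoundedContinuousFunction.norm_le hK).mpr fun n => ?_
  rw [rec_ext]
  split_ifs with hn
  · exact h n hn
  · simpa using hK

theorem rec_back (P : ℕ → W → W) (K : ℝ) (h1 : ∀ j x y, ‖P j x - P j y‖ ≤ 1 / 2 * ‖x - y‖)
    (h0 : ∀ j, ‖P j 0‖ ≤ K) : ∃ h : ℕ → W, (∀ j, h j = P j (h (j + 1))) ∧
      ∃ K' : ℝ, ∀ j, ‖h j‖ ≤ K' := by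
  have hb : ∀ (H : ℕ →ᵇ W) j, ‖P j (H (j + 1))‖ ≤ 1 / 2 * ‖H‖ + K := fun H j => by
    have a1 := h1 j (H (j + 1)) 0
    have a2 := norm_add_le (P j (H (j + 1)) - P j 0) (P j 0)
    have a3 := H.norm_coe_le_norm (j + 1)
    rw [sub_zero] at a1
    rw [sub_add_cancel] at a2
    linarith [h0 j]
  let Φ : (ℕ →ᵇ W) → ℕ →ᵇ W := fun H =>
    BoundedContinuousFunction.ofNormedAddCommGroupDiscrete (fun j => P j (H (j + 1))) _ (hb H)
  have hΦ : ContractingWith (1 / 2) Φ := by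
    refine ⟨by norm_num, LipschitzWith.of_dist_le_mul fun H H' => ?_⟩
    refine (BoundedContinuousFunction.dist_le (by positivity)).mpr fun j => ?_
    have a1 := h1 j (H (j + 1)) (H' (j + 1))
    have a2 := BoundedContinuousFunction.dist_coe_le_dist (f := H) (g := H') (j + 1)
    rw [dist_eq_norm] at a2 ⊢
    push_cast
    exact a1.trans (by linarith)
  have hf := hΦ.fixedPoint_isFixedPt
  exact ⟨fun j => hΦ.fixedPoint Φ j, fun j => (congrArg (fun H : ℕ →ᵇ W => H j) hf).symm, _,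
    fun j => (hΦ.fixedPoint Φ).norm_coe_le_norm j⟩

theorem recursion {S P : Type} (Sy : S → Sys Ix) (B B' : S → Finset Ix) (N : Ix → Finset Ix)
    {C : ℝ} (hC : 1 ≤ C) (t ε : ℕ → ℝ) (τ : ℕ → S → Ix → Ix) (c : ℕ → P → S → ℝ → Ix → Ix → ℝ)
    (ok : ℕ → P → Prop) (Y : ℕ → S → (Ix → ℝ) → (Ix → ℝ) → Ix → ℝ)
    (hY0 : ∀ σ d0 d1 d0' d1', Y 0 σ d0 d1 = Y 0 σ d0' d1')
    (hY : ∀ j σ d0 d1, (1 ≤ j → (Sy σ).DR (B σ) t (j - 1) d1) →
      (2 ≤ j → (Sy σ).DR (B σ) t (j - 2) d0) → Target (B σ) (ε j) (τ j σ) (Y j σ d0 d1))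
    (hstep : ∀ j (Eo : S → W →L[ℝ] W) (R : S → Ix → W →L[ℝ] ℝ),
      (∀ σ, Good (B σ) (B' σ) C (Eo σ) (R σ)) → ∀ y : S → Ix → ℝ,
      (∀ σ, Target (B σ) (ε j) (τ j σ) (y σ)) → ∃ p, ok j p ∧ ∀ σ, ∃ E' R' No d,
        Good (B σ) (B' σ) C E' R' ∧ Step (Sy σ) N (c j p σ) (B σ) (t j) (t (j + 1)) (Eo σ) (R σ)
          E' R' No (τ j σ) (y σ) d) :
    ∃ p : ℕ → P, (∀ j, ok j (p j)) ∧ ∀ σ, ∃ (Eo No : ℕ → W →L[ℝ] W) (R : ℕ → Ix → W →L[ℝ] ℝ)
      (d : ℕ → Ix → ℝ), Eo 0 = 0 ∧ (∀ m x, R 0 m x = x m) ∧ ∀ j,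
        Good (B σ) (B' σ) C (Eo j) (R j) ∧ Step (Sy σ) N (c j (p j) σ) (B σ) (t j) (t (j + 1))
          (Eo j) (R j) (Eo (j + 1)) (R (j + 1)) (No j) (τ j σ)
          (Y j σ (d (j - 2)) (d (j - 1))) (d j) := by
  let St := (S → W →L[ℝ] W) × (S → Ix → W →L[ℝ] ℝ) × (S → Ix → ℝ) × (S → Ix → ℝ)
  let Inv : ℕ → St → Prop := fun j st => ∀ σ, Good (B σ) (B' σ) C (st.1 σ) (st.2.1 σ) ∧
    (1 ≤ j → (Sy σ).DR (B σ) t (j - 1) (st.2.2.2 σ)) ∧
    (2 ≤ j → (Sy σ).DR (B σ) t (j - 2) (st.2.2.1 σ))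
  have H : ∀ j (st : St), Inv j st → ∃ p, ok j p ∧ ∀ σ, ∃ E' R' No d,
      Good (B σ) (B' σ) C E' R' ∧ Step (Sy σ) N (c j p σ) (B σ) (t j) (t (j + 1)) (st.1 σ)
        (st.2.1 σ) E' R' No (τ j σ) (Y j σ (st.2.2.1 σ) (st.2.2.2 σ)) d := fun j st h =>
    hstep j st.1 st.2.1 (fun σ => (h σ).1) _ fun σ => hY j σ _ _ (h σ).2.1 (h σ).2.2
  choose fp hok fE fR fN fd hG hS using H
  have h0 : Inv 0 (fun _ => 0, fun _ m => BoundedContinuousFunction.evalCLM ℝ m, 0, 0) := by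
    refine fun σ => ⟨⟨ContinuousLinearMap.opNorm_zero.le.trans zero_le_one, fun m _ => le_trans ?_ hC, fun m _ i _ => rec_eW i m⟩,
      by simp, by simp⟩
    exact ContinuousLinearMap.opNorm_le_bound _ zero_le_one fun x => by
      rw [one_mul]; exact x.norm_coe_le_norm m
  have h1 : ∀ j st (h : Inv j st), Inv (j + 1)
      (fE j st h, fR j st h, if j = 0 then fd j st h else st.2.2.2, fd j st h) := by
    refine fun j st h σ => ⟨hG j st h σ, fun _ m hm =>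
      ⟨(hS j st h σ).d_lo m hm, (hS j st h σ).d_hi m hm⟩, fun hj => ?_⟩
    have e : j ≠ 0 := by omega
    simp only [if_neg e]
    exact (show j - 1 = j + 1 - 2 by omega) ▸ (h σ).2.1 (by omega)
  let sq : (j : ℕ) → {st // Inv j st} := fun j =>
    Nat.rec ⟨_, h0⟩ (fun j st => ⟨_, h1 j st.1 st.2⟩) j
  refine ⟨fun j => fp j (sq j).1 (sq j).2, fun j => hok j _ _, fun σ => ⟨fun j => (sq j).1.1 σ,
    fun j => fN j (sq j).1 (sq j).2 σ, fun j => (sq j).1.2.1 σ, fun j => fd j (sq j).1 (sq j).2 σ,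
    rfl, fun m x => rfl, fun j => ⟨((sq j).2 σ).1, ?_⟩⟩⟩
  have e : Y j σ (fd (j - 2) (sq (j - 2)).1 (sq (j - 2)).2 σ)
      (fd (j - 1) (sq (j - 1)).1 (sq (j - 1)).2 σ) =
      Y j σ ((sq j).1.2.2.1 σ) ((sq j).1.2.2.2 σ) := by
    match j with
    | 0 => exact hY0 _ _ _ _ _
    | 1 => rfl
    | j + 2 => rfl
  rw [e]
  exact hS j (sq j).1 (sq j).2 σ

theorem primal (C θ : ℝ) : ∃ T : ℝ, ∀ (S : Sys Ix) (N : Ix → Finset Ix)
    (c : ℕ → ℝ → Ix → Ix → ℝ) (B B' : Finset Ix) (t : ℕ → ℝ) (Eo No : ℕ → W →L[ℝ] W)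
    (R : ℕ → Ix → W →L[ℝ] ℝ) (τ : ℕ → Ix → Ix) (y d z : ℕ → Ix → ℝ) (K : ℝ), B ⊆ B' →
    (∀ j, t j + T ≤ t (j + 1)) → (∀ n ∉ B, θ + 2 ≤ 9 / 10 * S.Λ n) → (∀ m x, R 0 m x = x m) →
    (∀ j, Good B B' C (Eo j) (R j)) →
    (∀ j, Step S N (c j) B (t j) (t (j + 1)) (Eo j) (R j) (Eo (j + 1)) (R (j + 1)) (No j) (τ j)
      (y j) (d j)) → (∀ j, ∀ m ∈ B, τ j m ∈ B) →
    (∀ j, ∀ m ∈ B, z j m = S.Dw t j m *
      (d j m * z (j + 1) m + y j m * (d j (τ j m) * z (j + 1) (τ j m)))) →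
    (∀ j, ∀ m ∈ B, |z j m| ≤ K * Real.exp (θ * t j)) →
    ∃ x : ℕ → W, (∀ j, x j = No j (x (j + 1))) ∧ (∀ m ∈ B, x 0 m = z 0 m) ∧
      ∃ K' : ℝ, ∀ j, ‖x j‖ ≤ K' * Real.exp (θ * t j) := by
  obtain ⟨T, hT1, hT⟩ : ∃ T : ℝ, 1 ≤ T ∧
      2 * (1 + |C|) * Real.exp (θ + 2) * Real.exp (-2 * T) ≤ 1 / 2 := by
    refine ⟨max 1 (2 * (1 + |C|) * Real.exp (θ + 2)), le_max_left _ _, ?_⟩
    set a := 2 * (1 + |C|) * Real.exp (θ + 2)
    have h1 := Real.add_one_le_exp (2 * max 1 a)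
    have h2 := le_max_right 1 a
    rw [neg_mul, Real.exp_neg, ← div_eq_mul_inv, div_le_iff₀ (Real.exp_pos _)]
    linarith
  refine ⟨T, fun S N c B B' t Eo No R τ y d z K hB ht hΛ hR0 hG hS hτ hz hK => ?_⟩
  let PH : W → W := fun x => x - ∑ m ∈ B, x m • eW m
  have hPH : ∀ x n, PH x n = if n ∈ B then 0 else x n := fun x n => by
    simp only [PH, BoundedContinuousFunction.sub_apply, rec_ext]
    split_ifs <;> simp
  have hRe : ∀ j, ∀ m ∈ B, ∀ a : Ix → ℝ, R j m (∑ i ∈ B, a i • eW i) = a m := fun j m hm a => by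
    rw [map_sum, Finset.sum_congr rfl fun i hi => by
      rw [map_smul, (hG j).R_eq m hm i (hB hi)]]
    simp [hm]
  let X : ℕ → W → W := fun j h => h + ∑ m ∈ B, (z j m - R j m h) • eW m
  have hX1 : ∀ j h, ∀ m ∈ B, R j m (X j h) = z j m := fun j h m hm => by
    simp only [X, map_add]
    rw [hRe j m hm fun m => z j m - R j m h]
    ring
  have hRle : ∀ j, ∀ m ∈ B, ∀ h, |R j m h| ≤ |C| * ‖h‖ := fun j m hm h =>
    ((R j m).le_opNorm h).trans
      (mul_le_mul_of_nonneg_right (((hG j).R_le m hm).trans (le_abs_self C)) (norm_nonneg _))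
  have hX2 : ∀ j h h', ‖X j h - X j h'‖ ≤ (1 + |C|) * ‖h - h'‖ := fun j h h' => by
    have e : X j h - X j h' = (h - h') + ∑ m ∈ B, (-R j m (h - h')) • eW m := by
      ext n
      simp only [X, BoundedContinuousFunction.sub_apply, BoundedContinuousFunction.add_apply,
        rec_ext, map_sub]
      split_ifs <;> ring
    rw [e, add_mul, one_mul]
    exact (norm_add_le _ _).trans (add_le_add le_rfl (rec_ext_le B _ (by positivity)
      fun m hm => by rw [abs_neg]; exact hRle j m hm _))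
  have hX0 : ∀ j, ‖X j 0‖ ≤ |K| * Real.exp (θ * t j) := fun j => by
    simp only [X, zero_add, map_zero, sub_zero]
    exact rec_ext_le B _ (by positivity) fun m hm =>
      (hK j m hm).trans (mul_le_mul_of_nonneg_right (le_abs_self K) (Real.exp_pos _).le)
  have hN : ∀ j x, ‖PH (No j x)‖ ≤
      2 * Real.exp (θ + 2) * Real.exp (-(θ + 2) * (t (j + 1) - t j)) * ‖x‖ := fun j x => by
    refine (BoundedContinuousFunction.norm_le (by positivity)).mpr fun n => ?_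
    rw [hPH]
    split_ifs with hn
    · rw [norm_zero]; positivity
    obtain ⟨x0, y0, v, h1, h2, -⟩ := (hS j).sol x
    have h3 : |x0 n| ≤ 2 * ‖x‖ := by
      rw [h1.left n]; exact h1.al_le n _ ⟨le_rfl, by linarith⟩
    have h4 := S.ψ_lo n (show t j ≤ t (j + 1) - 1 by linarith [ht j])
    have h5 : S.ψ n (t j) / S.ψ n (t (j + 1) - 1) ≤
        Real.exp (θ + 2) * Real.exp (-(θ + 2) * (t (j + 1) - t j)) := by
      rw [div_le_iff₀ (S.ψ_pos _ _), ← Real.exp_add]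
      refine le_trans ?_ (mul_le_mul_of_nonneg_left h4 (Real.exp_pos _).le)
      rw [← mul_assoc, ← Real.exp_add]
      refine le_mul_of_one_le_left (S.ψ_pos _ _).le (Real.one_le_exp ?_)
      nlinarith [hΛ n hn, ht j]
    rw [h2 n, Real.norm_eq_abs, abs_mul, abs_of_pos (div_pos (S.ψ_pos _ _) (S.ψ_pos _ _))]
    exact (mul_le_mul h5 h3 (abs_nonneg _) (by positivity)).trans (le_of_eq (by ring))
  have hPs : ∀ x x', PH x - PH x' = PH (x - x') := fun x x' => by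
    ext n
    simp only [BoundedContinuousFunction.sub_apply, hPH]
    split_ifs <;> simp
  have hf : ∀ j, Real.exp (-θ * t j) * (2 * Real.exp (θ + 2) *
      Real.exp (-(θ + 2) * (t (j + 1) - t j))) * Real.exp (θ * t (j + 1)) * (1 + |C|) ≤ 1 / 2 := by
    intro j
    have e : Real.exp (-θ * t j) * Real.exp (-(θ + 2) * (t (j + 1) - t j)) *
        Real.exp (θ * t (j + 1)) ≤ Real.exp (-2 * T) := by
      rw [← Real.exp_add, ← Real.exp_add]
      exact Real.exp_le_exp.mpr (by linarith [ht j])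
    refine le_trans ?_ ((mul_le_mul_of_nonneg_left e (by positivity)).trans hT)
    exact le_of_eq (by ring)
  have ss : ∀ (a : ℝ) (u w : W), a • u - a • w = a • (u - w) := fun a u w => by
    ext n; simp [mul_sub]
  obtain ⟨h, hh, K', hK'⟩ := rec_back
    (fun j H => Real.exp (-θ * t j) • PH (No j (X (j + 1) (Real.exp (θ * t (j + 1)) • H)))) |K|
    (fun j H H' => by
      rw [ss, hPs, ← map_sub, norm_smul, Real.norm_of_nonneg (Real.exp_pos _).le]
      refine (mul_le_mul_of_nonneg_left ((hN j _).trans (mul_le_mul_of_nonneg_left (hX2 _ _ _)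
        (by positivity))) (Real.exp_pos _).le).trans ?_
      rw [ss, norm_smul, Real.norm_of_nonneg (Real.exp_pos _).le]
      exact le_trans (le_of_eq (by ring)) (mul_le_mul_of_nonneg_right (hf j) (norm_nonneg _)))
    (fun j => by
      rw [smul_zero, norm_smul, Real.norm_of_nonneg (Real.exp_pos _).le]
      refine (mul_le_mul_of_nonneg_left ((hN j _).trans (mul_le_mul_of_nonneg_left (hX0 _)
        (by positivity))) (Real.exp_pos _).le).trans ?_
      have a1 := hf j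
      set u := Real.exp (-θ * t j) * (2 * Real.exp (θ + 2) *
        Real.exp (-(θ + 2) * (t (j + 1) - t j))) * Real.exp (θ * t (j + 1)) with hu
      have a2 : 0 ≤ u := by positivity
      have a3 : u ≤ 1 := by nlinarith [abs_nonneg C]
      exact le_trans (le_of_eq (by rw [hu]; ring)) (mul_le_of_le_one_left (abs_nonneg K) a3))
  let x : ℕ → W := fun j => X j (Real.exp (θ * t j) • h j)
  have hx : ∀ j, Real.exp (θ * t j) • h j = PH (No j (x (j + 1))) := fun j => by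
    rw [hh j, smul_smul, ← Real.exp_add]
    simp [x]
  refine ⟨x, fun j => ?_, fun m hm => by rw [← hR0, hX1 0 _ m hm], (1 + |C|) * K' + |K|,
    fun j => ?_⟩
  · have e : ∀ m ∈ B, z j m - R j m (PH (No j (x (j + 1)))) = No j (x (j + 1)) m := by
      intro m hm
      simp only [PH, map_sub]
      rw [hRe j m hm, (hS j).rel m hm, hX1 _ _ m hm, hX1 _ _ _ (hτ j m hm), hz j m hm, Sys.Dw]
      ring
    change X j _ = _
    rw [hx j]
    simp only [X]
    rw [Finset.sum_congr rfl fun m hm => by rw [e m hm]]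
    exact sub_add_cancel _ _
  · have a1 := hX2 j (Real.exp (θ * t j) • h j) 0
    have a2 := norm_add_le (x j - X j 0) (X j 0)
    rw [sub_add_cancel] at a2
    rw [sub_zero, norm_smul, Real.norm_of_nonneg (Real.exp_pos _).le] at a1
    have a3 := mul_le_mul_of_nonneg_left (mul_le_mul_of_nonneg_left (hK' j)
      (Real.exp_pos (θ * t j)).le) (show 0 ≤ 1 + |C| by positivity)
    have a4 := hX0 j
    change ‖x j - X j 0‖ ≤ _ at a1
    linarith

end Vale.Agent.P225
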