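import Mathlib
import Vale.Agent.P225.Defs

/-! Coordinate derivatives, covariant derivatives of vector fields and the Ricci identity. -/

open scoped ContDiff Matrix Topology BoundedContinuousFunction
open Filter Set

noncomputable section

namespace Vale.Agent.P225

theorem frA_diff {f : E → ℝ} {x : E} (hf : ContDiffAt ℝ ∞ f x) : DifferentiableAt ℝ f x :=
  hf.differentiableAt (by simp)

theorem frA_pd_congr {f g : E → ℝ} {x : E} (h : f =ᶠ[𝓝 x] g) (i : Fin 4) : pd i f x = pd i g x := by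
  rw [pd, pd, h.fderiv_eq]

theorem frA_pd_smooth {f : E → ℝ} {x : E} (hf : ContDiffAt ℝ ∞ f x) (i : Fin 4) :
    ContDiffAt ℝ ∞ (pd i f) x :=
  (hf.fderiv_right (m := ∞) le_rfl).clm_apply contDiffAt_const

theorem frA_pd_add {f g : E → ℝ} {x : E} (hf : ContDiffAt ℝ ∞ f x) (hg : ContDiffAt ℝ ∞ g x)
    (i : Fin 4) : pd i (fun y => f y + g y) x = pd i f x + pd i g x := by
  simp only [pd]
  rw [fderiv_fun_add (frA_diff hf) (frA_diff hg)]; rfl

theorem frA_pd_mul {f g : E → ℝ} {x : E} (hf : ContDiffAt ℝ ∞ f x) (hg : ContDiffAt ℝ ∞ g x)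
    (i : Fin 4) : pd i (fun y => f y * g y) x = pd i f x * g x + f x * pd i g x := by
  simp only [pd]
  rw [fderiv_fun_mul (frA_diff hf) (frA_diff hg)]
  simp only [ContinuousLinearMap.add_apply, ContinuousLinearMap.smul_apply, smul_eq_mul]
  ring

theorem frA_pd_sum {f : Fin 4 → E → ℝ} {x : E} (hf : ∀ a, ContDiffAt ℝ ∞ (f a) x)
    (i : Fin 4) : pd i (fun y => ∑ a, f a y) x = ∑ a, pd i (f a) x := by
  simp only [pd]
  rw [fderiv_fun_sum fun a _ => frA_diff (hf a)]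
  simp

theorem frA_pd_const (c : ℝ) (x : E) (i : Fin 4) : pd i (fun _ => c) x = 0 := by
  simp [pd]

theorem frA_pd_comm {f : E → ℝ} {x : E} (hf : ContDiffAt ℝ ∞ f x) (i j : Fin 4) :
    pd i (pd j f) x = pd j (pd i f) x := by
  have h1 : DifferentiableAt ℝ (fderiv ℝ f) x :=
    (hf.fderiv_right (m := ∞) le_rfl).differentiableAt (by simp)
  have h2 : ∀ i j : Fin 4, pd i (pd j f) x =
      fderiv ℝ (fderiv ℝ f) x (Pi.single i 1) (Pi.single j 1) := by
    intro i j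
    change fderiv ℝ (fun y => fderiv ℝ f y (Pi.single j 1)) x (Pi.single i 1) = _
    rw [fderiv_clm_apply h1 (differentiableAt_const _)]
    simp
  rw [h2, h2]
  exact (hf.isSymmSndFDerivAt (by simp; exact WithTop.coe_le_coe.2 le_top)).eq _ _

theorem frA_fderiv (f : E → ℝ) (x v : E) : fderiv ℝ f x v = ∑ j, v j * pd j f x := by
  conv_lhs => rw [pi_eq_sum_univ' v]
  simp [pd]

theorem frA_vD (W : E → E) (f : E → ℝ) (x : E) : vD W f x = ∑ j, W x j * pd j f x :=
  frA_fderiv f x (W x)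

theorem frA_comp {W : E → E} {x : E} (hW : ContDiffAt ℝ ∞ W x) (i : Fin 4) :
    ContDiffAt ℝ ∞ (fun y => W y i) x :=
  (contDiff_apply ℝ ℝ i).contDiffAt.comp x hW

theorem frA_fderiv_vec {W : E → E} {x : E} (hW : ContDiffAt ℝ ∞ W x) (v : E) (k : Fin 4) :
    fderiv ℝ W x v k = ∑ j, v j * pd j (fun y => W y k) x := by
  rw [← frA_fderiv, fderiv_apply (hW.differentiableAt (by simp)) k]
  rfl

/-- Covariant derivative of a vector field for the connection `Γ`. -/
def frN (Γ : E → Fin 4 → Fin 4 → Fin 4 → ℝ) (W : E → E) (x : E) : Mat :=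
  Matrix.of fun i j => pd j (fun y => W y i) x + ∑ k, Γ x i j k * W x k

theorem frN_apply (Γ : E → Fin 4 → Fin 4 → Fin 4 → ℝ) (W : E → E) (x : E) (i j : Fin 4) :
    frN Γ W x i j = pd j (fun y => W y i) x + ∑ k, Γ x i j k * W x k := rfl

theorem frN_smooth {Γ : E → Fin 4 → Fin 4 → Fin 4 → ℝ} {W : E → E} {x : E}
    (hΓ : ∀ i j k, ContDiffAt ℝ ∞ (fun y => Γ y i j k) x) (hW : ContDiffAt ℝ ∞ W x) (i j : Fin 4) :
    ContDiffAt ℝ ∞ (fun y => frN Γ W y i j) x :=
  (frA_pd_smooth (frA_comp hW i) j).add (ContDiffAt.sum fun k _ => (hΓ i j k).mul (frA_comp hW k))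

theorem frN_pd {Γ : E → Fin 4 → Fin 4 → Fin 4 → ℝ} {W : E → E} {x : E}
    (hΓ : ∀ i j k, ContDiffAt ℝ ∞ (fun y => Γ y i j k) x) (hW : ContDiffAt ℝ ∞ W x)
    (m i j : Fin 4) : pd m (fun y => frN Γ W y i j) x = pd m (pd j fun y => W y i) x +
      ∑ k, (pd m (fun y => Γ y i j k) x * W x k + Γ x i j k * pd m (fun y => W y k) x) := by
  simp only [frN_apply]
  rw [frA_pd_add (frA_pd_smooth (frA_comp hW i) j)
    (ContDiffAt.sum fun k _ => (hΓ i j k).mul (frA_comp hW k)),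
    frA_pd_sum fun k => (hΓ i j k).mul (frA_comp hW k)]
  congr 1
  exact Finset.sum_congr rfl fun k _ => frA_pd_mul (hΓ i j k) (frA_comp hW k) m

theorem frA_alg (V W : Fin 4 → ℝ) (dV dW : Fin 4 → Fin 4 → ℝ) (ddW Γ : Fin 4 → Fin 4 → Fin 4 → ℝ)
    (dΓ : Fin 4 → Fin 4 → Fin 4 → Fin 4 → ℝ) (h1 : ∀ i j k, ddW i j k = ddW j i k)
    (h2 : ∀ i j k, Γ i j k = Γ i k j) :
    ∑ i, (∑ j, (dV i j * (dW j i + ∑ k, Γ i j k * W k) +
          V j * (ddW i j i + ∑ k, (dΓ i i j k * W k + Γ i j k * dW i k))) +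
        ∑ k, Γ i i k * ∑ j, V j * (dW j k + ∑ l, Γ k j l * W l)) -
      ∑ j, V j * ∑ i, (ddW j i i + ∑ k, (dΓ j i i k * W k + Γ i i k * dW j k)) -
      ∑ j, ∑ i, (dV i j + ∑ k, Γ j i k * V k) * (dW j i + ∑ k, Γ i j k * W k) =
    ∑ j, ∑ k, (∑ i, (dΓ i i j k - dΓ j i i k +
      ∑ l, (Γ i i l * Γ l j k - Γ i j l * Γ l i k))) * V j * W k := by
  simp only [Fin.sum_univ_four, h1 1 0, h1 2 0, h1 3 0, h1 2 1, h1 3 1, h1 3 2,
    h2 _ 1 0, h2 _ 2 0, h2 _ 3 0, h2 _ 2 1, h2 _ 3 1, h2 _ 3 2]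
  ring

/-- The Ricci identity, traced. -/
theorem frA_ricci {G : E → Mat} {V W : E → E} {x : E}
    (hΓ : ∀ i j k, ContDiffAt ℝ ∞ (fun y => chr G y i j k) x)
    (hs : ∀ i j k, chr G x i j k = chr G x i k j)
    (hV : ContDiffAt ℝ ∞ V x) (hW : ContDiffAt ℝ ∞ W x) :
    (frN (chr G) (fun y => frN (chr G) W y *ᵥ V y) x).trace -
      vD V (fun y => (frN (chr G) W y).trace) x -
      (frN (chr G) V x * frN (chr G) W x).trace = ∑ j, ∑ k, ric G x j k * V x j * W x k := by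
  have key := frA_alg (V x) (W x) (fun i j => pd i (fun y => V y j) x)
    (fun i j => pd i (fun y => W y j) x) (fun i j k => pd i (pd j fun y => W y k) x) (chr G x)
    (fun m i j k => pd m (fun y => chr G y i j k) x)
    (fun i j k => frA_pd_comm (frA_comp hW k) i j) hs
  refine Eq.trans ?_ key
  congr 1
  congr 1
  · refine Finset.sum_congr rfl fun i _ => ?_
    rw [Matrix.diag_apply, frN_apply]
    congr 1
    · have h : (fun y => (frN (chr G) W y *ᵥ V y) i) =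
          fun y => ∑ j, V y j * frN (chr G) W y i j := by
        funext y; simp [Matrix.mulVec, dotProduct, mul_comm]
      rw [h, frA_pd_sum fun j => (frA_comp hV j).mul (frN_smooth hΓ hW i j)]
      refine Finset.sum_congr rfl fun j _ => ?_
      rw [frA_pd_mul (frA_comp hV j) (frN_smooth hΓ hW i j), frN_pd hΓ hW, frN_apply]
    · refine Finset.sum_congr rfl fun k _ => ?_
      simp [Matrix.mulVec, dotProduct, mul_comm, frN_apply]
  · rw [frA_vD]
    refine Finset.sum_congr rfl fun j _ => ?_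
    congr 1
    simp only [Matrix.trace, Matrix.diag_apply]
    rw [frA_pd_sum fun i => frN_smooth hΓ hW i i]
    exact Finset.sum_congr rfl fun i _ => frN_pd hΓ hW j i i

/-- Divergence of a combination of vector fields. -/
theorem frA_div_sum {Γ : E → Fin 4 → Fin 4 → Fin 4 → ℝ} {f : Fin 4 → E → ℝ} {W : Fin 4 → E → E}
    {Y : E → E} {x : E} (hf : ∀ d, ContDiffAt ℝ ∞ (f d) x) (hW : ∀ d, ContDiffAt ℝ ∞ (W d) x)
    (hY : ∀ᶠ y in 𝓝 x, Y y = ∑ d, f d y • W d y) :
    (frN Γ Y x).trace = ∑ d, (vD (W d) (f d) x + f d x * (frN Γ (W d) x).trace) := by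
  have h1 : ∀ i, pd i (fun y => Y y i) x =
      ∑ d, (pd i (f d) x * W d x i + f d x * pd i (fun y => W d y i) x) := by
    intro i
    rw [frA_pd_congr (g := fun y => ∑ d, f d y * W d y i) ?_,
      frA_pd_sum fun d => (hf d).mul (frA_comp (hW d) i)]
    · exact Finset.sum_congr rfl fun d _ => frA_pd_mul (hf d) (frA_comp (hW d) i) i
    · filter_upwards [hY] with y hy
      simp [hy, Finset.sum_apply]
  simp only [Matrix.trace, Matrix.diag_apply, frN_apply, h1, frA_vD, hY.self_of_nhds,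
    Finset.sum_apply, Pi.smul_apply, smul_eq_mul, Fin.sum_univ_four, Pi.add_apply]
  ring

end Vale.Agent.P225
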