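import Mathlib
import Vale.Agent.P225.FrameA

/-! The Ricci tensor in an orthonormal frame. -/

open scoped ContDiff Matrix Topology BoundedContinuousFunction
open Filter Set

noncomputable section

namespace Vale.Agent.P225

theorem frB_alg (a b d : Fin 4 → ℝ) (G db dd : Fin 4 → Fin 4 → ℝ)
    (Γ dG : Fin 4 → Fin 4 → Fin 4 → ℝ) (hG : ∀ i j, G i j = G j i)
    (hL : ∀ j l m, dG j l m = ∑ k, G m k * Γ k j l + ∑ k, G l k * Γ k j m)
    (h : ∀ j, ∑ l, (db j l * ∑ m, G l m * d m +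
      b l * ∑ m, (dG j l m * d m + G l m * dd j m)) = 0) :
    ∑ m, d m * ∑ k, G m k * ∑ j, (db j k + ∑ l, Γ k j l * b l) * a j +
      ∑ m, b m * ∑ k, G m k * ∑ j, (dd j k + ∑ l, Γ k j l * d l) * a j = 0 := by
  have h0 := h 0
  have h1 := h 1
  have h2 := h 2
  have h3 := h 3
  simp only [hL, Fin.sum_univ_four, hG 1 0, hG 2 0, hG 3 0, hG 2 1, hG 3 1, hG 3 2]
    at h0 h1 h2 h3 ⊢
  linear_combination a 0 * h0 + a 1 * h1 + a 2 * h2 + a 3 * h3

theorem ric_frame {U : Set E} (hU : IsOpen U) {G : E → Mat}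
    (hG : ∀ i j, ContDiffOn ℝ ∞ (fun x => G x i j) U) (hs : ∀ x ∈ U, (G x).IsSymm)
    {Ev : Fin 4 → E → E} (hE : ∀ a, ContDiffOn ℝ ∞ (Ev a) U)
    (horth : ∀ x ∈ U, ∀ a b, Ev a x ⬝ᵥ G x *ᵥ Ev b x = if a = b then 1 else 0)
    {c : Fin 4 → Fin 4 → Fin 4 → E → ℝ}
    (hc : ∀ x ∈ U, ∀ a b, brk (Ev a) (Ev b) x = ∑ d, c a b d x • Ev d x)
    {w : Fin 4 → Fin 4 → Fin 4 → E → ℝ}
    (hw : ∀ x ∈ U, ∀ a b d, w a b d x = (c a b d x - c b d a x + c d a b x) / 2)
    {x : E} (hx : x ∈ U) (b e : Fin 4) :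
    ∑ j, ∑ k, ric G x j k * Ev b x j * Ev e x k =
      ∑ d, (vD (Ev d) (w b e d) x + w b e d x * ∑ a, w a d a x) -
        vD (Ev b) (fun y => ∑ a, w a e a y) x - ∑ a, ∑ d, w a b d x * w d e a x := by
  have hGa : ∀ y ∈ U, ∀ i j, ContDiffAt ℝ ∞ (fun x => G x i j) y := fun y hy i j =>
    (hG i j).contDiffAt (hU.mem_nhds hy)
  have hEa : ∀ y ∈ U, ∀ a, ContDiffAt ℝ ∞ (Ev a) y := fun y hy a =>
    (hE a).contDiffAt (hU.mem_nhds hy)
  have hGs : ∀ y ∈ U, ∀ i j, G y i j = G y j i := fun y hy i j => (hs y hy).apply j i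
  let Em : E → Mat := fun y => Matrix.of fun a i => Ev a y i
  have h1 : ∀ y ∈ U, Em y * G y * (Em y)ᵀ = 1 := by
    intro y hy
    ext a b
    rw [Matrix.one_apply, ← horth y hy a b, Matrix.dotProduct_mulVec]
    rfl
  have h2 : ∀ y ∈ U, (Em y)ᵀ * Em y * G y = 1 := fun y hy => by
    rw [Matrix.mul_assoc]; exact mul_eq_one_comm.1 (h1 y hy)
  have h3 : ∀ y ∈ U, (G y)⁻¹ = (Em y)ᵀ * Em y := fun y hy => Matrix.inv_eq_left_inv (h2 y hy)
  have h4 : ∀ y ∈ U, G y * (G y)⁻¹ = 1 := fun y hy => by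
    rw [h3 y hy]; exact mul_eq_one_comm.1 (h2 y hy)
  have hinv : ∀ y ∈ U, ∀ i j, ContDiffAt ℝ ∞ (fun x => (G x)⁻¹ i j) y := by
    intro y hy i j
    refine (ContDiffAt.sum (s := Finset.univ) fun a _ =>
      (frA_comp (hEa y hy a) i).mul (frA_comp (hEa y hy a) j)).congr_of_eventuallyEq ?_
    filter_upwards [hU.mem_nhds hy] with z hz
    rw [h3 z hz]; rfl
  have hΓ : ∀ y ∈ U, ∀ i j k, ContDiffAt ℝ ∞ (fun x => chr G x i j k) y := by
    intro y hy i j k
    unfold chr
    exact ContDiffAt.sum fun l _ => ((hinv y hy i l).mul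
      (((frA_pd_smooth (hGa y hy k l) j).add (frA_pd_smooth (hGa y hy j l) k)).sub
        (frA_pd_smooth (hGa y hy j k) l))).div_const 2
  have hdG : ∀ y ∈ U, ∀ l i j, pd l (fun x => G x i j) y = pd l (fun x => G x j i) y := by
    intro y hy l i j
    refine frA_pd_congr ?_ l
    filter_upwards [hU.mem_nhds hy] with z hz using hGs z hz i j
  have hsym : ∀ y ∈ U, ∀ k i j, chr G y k i j = chr G y k j i := by
    intro y hy k i j
    refine Finset.sum_congr rfl fun l _ => ?_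
    rw [hdG y hy l i j]; ring
  have hlow : ∀ y ∈ U, ∀ m i j, ∑ k, G y m k * chr G y k i j =
      (pd i (fun x => G x j m) y + pd j (fun x => G x i m) y - pd m (fun x => G x i j) y) / 2 := by
    intro y hy m i j
    have h : ∀ u : E, G y *ᵥ ((G y)⁻¹ *ᵥ u) = u := fun u => by
      rw [Matrix.mulVec_mulVec, h4 y hy, Matrix.one_mulVec]
    have h' := congrFun (h fun l =>
      (pd i (fun x => G x j l) y + pd j (fun x => G x i l) y - pd l (fun x => G x i j) y) / 2) m
    rw [← h']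
    simp only [Matrix.mulVec, dotProduct, chr, mul_div_assoc]
  have hexp : ∀ y ∈ U, ∀ v : E, v = ∑ d, (Ev d y ⬝ᵥ G y *ᵥ v) • Ev d y := by
    intro y hy v
    conv_lhs => rw [← Matrix.one_mulVec v, ← h2 y hy, ← Matrix.mulVec_mulVec,
      ← Matrix.mulVec_mulVec]
    funext i
    simp only [Finset.sum_apply, Pi.smul_apply, smul_eq_mul]
    change ∑ d, Ev d y i * (Ev d y ⬝ᵥ G y *ᵥ v) = _
    exact Finset.sum_congr rfl fun d _ => mul_comm _ _
  let om : Fin 4 → Fin 4 → Fin 4 → E → ℝ := fun a b d y =>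
    Ev d y ⬝ᵥ G y *ᵥ (frN (chr G) (Ev b) y *ᵥ Ev a y)
  have htor : ∀ y ∈ U, ∀ a b d, om a b d y - om b a d y = c a b d y := by
    intro y hy a b d
    have h : frN (chr G) (Ev b) y *ᵥ Ev a y - frN (chr G) (Ev a) y *ᵥ Ev b y =
        brk (Ev a) (Ev b) y := by
      funext k
      have hk := hsym y hy k
      simp only [brk, Pi.sub_apply, frA_fderiv_vec (hEa y hy _), Matrix.mulVec, dotProduct,
        frN_apply, Fin.sum_univ_four, hk 1 0, hk 2 0, hk 3 0, hk 2 1, hk 3 1, hk 3 2]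
      ring
    simp only [om]
    rw [← dotProduct_sub, ← Matrix.mulVec_sub, h, hc y hy, Matrix.mulVec_sum, dotProduct_sum]
    simp [Matrix.mulVec_smul, horth y hy]
  have hcomp : ∀ y ∈ U, ∀ a b d, om a b d y + om a d b y = 0 := by
    intro y hy a b d
    refine frB_alg (Ev a y) (Ev b y) (Ev d y) (G y) (fun j l => pd j (fun x => Ev b x l) y)
      (fun j l => pd j (fun x => Ev d x l) y) (chr G y) (fun j l m => pd j (fun x => G x l m) y)
      (hGs y hy) (fun j l m => ?_) fun j => ?_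
    · rw [hlow y hy, hlow y hy, hdG y hy j m l]; ring
    · have h : pd j (fun x => ∑ l, Ev b x l * ∑ m, G x l m * Ev d x m) y = 0 := by
        rw [← frA_pd_const (if b = d then 1 else 0) y j]
        refine frA_pd_congr ?_ j
        filter_upwards [hU.mem_nhds hy] with z hz using horth z hz b d
      have hm : ∀ l, ContDiffAt ℝ ∞ (fun x => ∑ m, G x l m * Ev d x m) y := fun l =>
        ContDiffAt.sum fun m _ => (hGa y hy l m).mul (frA_comp (hEa y hy d) m)
      rw [frA_pd_sum fun l => (frA_comp (hEa y hy b) l).mul (hm l)] at h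
      rw [← h]
      refine Finset.sum_congr rfl fun l _ => ?_
      rw [frA_pd_mul (frA_comp (hEa y hy b) l) (hm l),
        frA_pd_sum fun m => (hGa y hy l m).mul (frA_comp (hEa y hy d) m)]
      congr 2
      exact Finset.sum_congr rfl fun m _ =>
        (frA_pd_mul (hGa y hy l m) (frA_comp (hEa y hy d) m) j).symm
  have hwo : ∀ y ∈ U, ∀ a b d, w a b d y = om a b d y := by
    intro y hy a b d
    rw [hw y hy, ← htor y hy, ← htor y hy, ← htor y hy]
    linear_combination (-1 / 2) * hcomp y hy b a d + (1 / 2) * hcomp y hy d b a -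
      (1 / 2) * hcomp y hy a b d
  have hN : ∀ y ∈ U, ∀ a b, frN (chr G) (Ev b) y *ᵥ Ev a y = ∑ d, w a b d y • Ev d y := by
    intro y hy a b
    rw [hexp y hy (frN (chr G) (Ev b) y *ᵥ Ev a y)]
    exact Finset.sum_congr rfl fun d _ => by rw [hwo y hy]
  have hws : ∀ a b d, ContDiffAt ℝ ∞ (w a b d) x := by
    intro a b d
    have h : ContDiffAt ℝ ∞ (om a b d) x := by
      simp only [om, Matrix.mulVec, dotProduct]
      exact ContDiffAt.sum fun m _ => (frA_comp (hEa x hx d) m).mul (ContDiffAt.sum fun k _ =>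
        (hGa x hx m k).mul (ContDiffAt.sum fun j _ =>
          (frN_smooth (hΓ x hx) (hEa x hx b) k j).mul (frA_comp (hEa x hx a) j)))
    refine h.congr_of_eventuallyEq ?_
    filter_upwards [hU.mem_nhds hx] with z hz using hwo z hz a b d
  let Wm : Fin 4 → E → Mat := fun b y => Matrix.of fun a d => w a b d y
  have hE1 : ∀ y ∈ U, Em y * (G y * (Em y)ᵀ) = 1 := fun y hy => by
    rw [← Matrix.mul_assoc, h1 y hy]
  have hNT : ∀ y ∈ U, ∀ b, (frN (chr G) (Ev b) y)ᵀ = G y * (Em y)ᵀ * (Wm b y * Em y) := by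
    intro y hy b
    have h : Em y * (frN (chr G) (Ev b) y)ᵀ = Wm b y * Em y := by
      ext a k
      have := congrFun (hN y hy a b) k
      simp only [Matrix.mulVec, dotProduct, Finset.sum_apply, Pi.smul_apply, smul_eq_mul] at this
      simp only [Matrix.mul_apply, Matrix.transpose_apply, Em, Wm, Matrix.of_apply, ← this]
      exact Finset.sum_congr rfl fun j _ => mul_comm _ _
    rw [← h, ← Matrix.mul_assoc, mul_eq_one_comm.1 (hE1 y hy), Matrix.one_mul]
  have htr : ∀ y ∈ U, ∀ b, (frN (chr G) (Ev b) y).trace = ∑ a, w a b a y := by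
    intro y hy b
    rw [← Matrix.trace_transpose, hNT y hy, Matrix.trace_mul_comm, Matrix.mul_assoc, hE1 y hy,
      Matrix.mul_one]
    rfl
  have htr2 : (frN (chr G) (Ev b) x * frN (chr G) (Ev e) x).trace =
      ∑ a, ∑ d, w a b d x * w d e a x := by
    rw [← Matrix.trace_transpose, Matrix.transpose_mul, Matrix.trace_mul_comm, hNT x hx, hNT x hx,
      Matrix.mul_assoc, Matrix.trace_mul_comm]
    simp only [Matrix.mul_assoc]
    rw [← Matrix.mul_assoc (G x) (Em x)ᵀ, ← Matrix.mul_assoc (Em x) (G x * (Em x)ᵀ), hE1 x hx,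
      Matrix.one_mul, Matrix.mul_one]
    rfl
  rw [← frA_ricci (hΓ x hx) (hsym x hx) (hEa x hx b) (hEa x hx e), htr2,
    frA_div_sum (f := fun d => w b e d) (W := Ev) (fun d => hws b e d) (hEa x hx) ?_]
  · congr 2
    · exact Finset.sum_congr rfl fun d _ => by rw [htr x hx]
    · simp only [vD]
      rw [Filter.EventuallyEq.fderiv_eq]
      filter_upwards [hU.mem_nhds hx] with z hz using htr z hz e
  · filter_upwards [hU.mem_nhds hx] with z hz using hN z hz b e

end Vale.Agent.P225
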