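import Mathlib
import Vale.Agent.P225.Base

/-! The shear matrices. -/

open scoped ContDiff Matrix Topology BoundedContinuousFunction
open Filter Set

noncomputable section

namespace Vale.Agent.P225

variable {q D : ℕ}

theorem shear_ev_X2 (y : E) : ev q y (MvPolynomial.X 2) = (xx y : ℂ) := by
  simp [ev]

theorem shear_ev_C (y : E) (r : ℝ) : ev q y (MvPolynomial.C r) = (r : ℂ) := by
  simp [ev]

theorem shear_ev_xiP (P : V D) (f : Fin 2) (y : E) :
    ev q y (xiP P f) = ((∑ d : Fin D, ∑ i : Fin D,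
      P (f, d, i) * (xx y ^ (i : ℕ) * (2 * ((z0 y ^ q) ^ (d : ℕ)).re)) : ℝ) : ℂ) := by
  simp only [xiP, map_sum, map_smul, map_mul, map_add, map_pow, Complex.ofReal_sum]
  refine Finset.sum_congr rfl fun d _ => Finset.sum_congr rfl fun i _ => ?_
  have h0 : ev q y (MvPolynomial.X 0) = z0 y ^ q := by simp [ev]
  have h1 : ev q y (MvPolynomial.X 1) = (starRingEnd ℂ) (z0 y ^ q) := by simp [ev]
  rw [h0, h1, shear_ev_X2, ← map_pow, Complex.add_conj, Complex.real_smul]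
  push_cast
  ring

theorem shear_xi_eq (P : V D) (f : Fin 2) (y : E) :
    xi q P f y = ∑ d : Fin D, ∑ i : Fin D,
      P (f, d, i) * (xx y ^ (i : ℕ) * (2 * ((z0 y ^ q) ^ (d : ℕ)).re)) := by
  rw [xi, shear_ev_xiP, Complex.ofReal_re]

theorem xi_coe (P : V D) (f : Fin 2) (y : E) : (xi q P f y : ℂ) = ev q y (xiP P f) := by
  rw [shear_xi_eq, shear_ev_xiP]

theorem xi_zero (f : Fin 2) (y : E) : xi q (0 : V D) f y = 0 := by
  simp [shear_xi_eq]

theorem eR_coe (π : ℝ × V D) (k : Fin 3) (y : E) :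
    (eR q π k y : ℂ) = ev q y (eP π.1 π.2 k) := by
  fin_cases k <;>
    simp [eR, eP, eLP, eL, eH, xi_coe, shear_ev_X2, shear_ev_C, map_ofNat]

theorem eP_zero (b : ℝ) (k : Fin 3) : eP b (0 : V D) k = 0 := by
  fin_cases k <;> simp [eP, eLP, eL, eH, xiP]

theorem shear_contDiff_z0 : ContDiff ℝ ∞ z0 := by
  unfold z0
  exact (Complex.ofRealCLM.contDiff.comp (contDiff_apply ℝ ℝ 0)).add
    ((Complex.ofRealCLM.contDiff.comp (contDiff_apply ℝ ℝ 1)).mul contDiff_const)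

theorem shear_contDiff_xx : ContDiff ℝ ∞ xx := by
  unfold xx; fun_prop

theorem contDiff_xi (f : Fin 2) : ContDiff ℝ ∞ fun z : V D × E => xi q z.1 f z.2 := by
  simp only [shear_xi_eq]
  refine ContDiff.sum fun d _ => ContDiff.sum fun i _ => ?_
  refine ContDiff.mul (by fun_prop) (ContDiff.mul ?_ (contDiff_const.mul ?_))
  · exact (shear_contDiff_xx.comp contDiff_snd).pow _
  · exact Complex.reCLM.contDiff.comp (((shear_contDiff_z0.comp contDiff_snd).pow _).pow _)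

theorem shear_contDiff_xi (f : Fin 2) :
    ContDiff ℝ ∞ fun z : (ℝ × V D) × E => xi q z.1.2 f z.2 :=
  (contDiff_xi (q := q) f).comp (f := fun z : (ℝ × V D) × E => (z.1.2, z.2)) (by fun_prop)

theorem contDiffAt_eR (k : Fin 3) {z : (ℝ × V D) × E} (hz : z.1.1 ≠ 0) :
    ContDiffAt ℝ ∞ (fun z : (ℝ × V D) × E => eR q z.1 k z.2) z := by
  have hX : ContDiffAt ℝ ∞ (fun z : (ℝ × V D) × E => bX z.1.1) z :=
    ContDiffAt.inv (by fun_prop) (pow_ne_zero 2 hz)
  have hZ : ContDiffAt ℝ ∞ (fun z : (ℝ × V D) × E => bZ z.1.1) z :=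
    ContDiffAt.sub (by fun_prop) hX
  have hx : ContDiffAt ℝ ∞ (fun z : (ℝ × V D) × E => xx z.2) z :=
    (shear_contDiff_xx.comp contDiff_snd).contDiffAt
  have hs := (shear_contDiff_xi (q := q) (D := D) 0).contDiffAt (x := z)
  have ht := (shear_contDiff_xi (q := q) (D := D) 1).contDiffAt (x := z)
  have key : ∀ k : Fin 3, ContDiff ℝ ∞ fun w : ℝ × ℝ × ℝ × ℝ × ℝ =>
      eL w.1 w.2.1 w.2.2.1 w.2.2.2.1 w.2.2.2.2 k + eH w.1 w.2.1 w.2.2.1 w.2.2.2.1 w.2.2.2.2 k := by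
    intro k
    fin_cases k <;> simp only [eL, eH] <;> simp <;> fun_prop
  exact (key k).contDiffAt.comp z (hX.prodMk (hZ.prodMk (hx.prodMk (hs.prodMk ht))))

theorem shear_contDiff_thv (i : Fin 4) : ContDiff ℝ ∞ fun y => thv y i := by
  fin_cases i <;> simp [thv] <;> fun_prop

theorem shear_contDiff_psv (i : Fin 4) : ContDiff ℝ ∞ fun y => psv y i := by
  fin_cases i <;> simp [psv] <;> fun_prop

theorem shear_mul {X : Type} [NormedAddCommGroup X] [NormedSpace ℝ X] {M N : X → Mat} {z : X}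
    (hM : ∀ a b, ContDiffAt ℝ ∞ (fun z => M z a b) z)
    (hN : ∀ a b, ContDiffAt ℝ ∞ (fun z => N z a b) z) (a b : Fin 4) :
    ContDiffAt ℝ ∞ (fun z => (M z * N z) a b) z := by
  simp only [Matrix.mul_apply]
  exact ContDiffAt.sum fun c _ => (hM a c).mul (hN c b)

theorem shear_diag {X : Type} [NormedAddCommGroup X] [NormedSpace ℝ X] {d : X → Fin 4 → ℝ} {z : X}
    (hd : ∀ a, ContDiffAt ℝ ∞ (fun z => d z a) z) (a b : Fin 4) :
    ContDiffAt ℝ ∞ (fun z => Matrix.diagonal (d z) a b) z := by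
  by_cases h : a = b
  · subst h; simpa using hd a
  · simpa [Matrix.diagonal_apply_ne _ h] using contDiffAt_const

theorem shear_rk {u v : E → E} (hu : ∀ i, ContDiff ℝ ∞ fun y => u y i)
    (hv : ∀ i, ContDiff ℝ ∞ fun y => v y i) (f : Fin 2) (a b : Fin 4) :
    ContDiff ℝ ∞ fun z : (ℝ × V D) × E =>
      (xi q z.1.2 f z.2 • Matrix.vecMulVec (u z.2) (v z.2)) a b := by
  simp only [Matrix.smul_apply, Matrix.vecMulVec_apply, smul_eq_mul]
  exact (shear_contDiff_xi f).mul (((hu a).comp contDiff_snd).mul ((hv b).comp contDiff_snd))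

theorem contDiffAt_Sm (a b : Fin 4) {z : (ℝ × V D) × E} (hz : z.1.1 ≠ 0) :
    ContDiffAt ℝ ∞ (fun z : (ℝ × V D) × E => Sm q z.1 z.2 a b) z := by
  unfold Sm
  refine shear_mul (shear_mul (shear_diag fun a => ?_) fun a b => ?_) (fun a b => ?_) a b
  · have h : ContDiffAt ℝ ∞ (fun z : (ℝ × V D) × E => z.1.1⁻¹) z :=
      ContDiffAt.inv (by fun_prop) hz
    fin_cases a
    · simpa using contDiffAt_const
    · simpa using h
    · simpa using h
    · simp; fun_prop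
  · simp only [Matrix.add_apply]
    exact contDiffAt_const.add (shear_rk shear_contDiff_psv shear_contDiff_thv 1 a b).contDiffAt
  · simp only [Matrix.add_apply]
    exact contDiffAt_const.add (shear_rk shear_contDiff_thv shear_contDiff_psv 0 a b).contDiffAt

theorem contDiffAt_Si (a b : Fin 4) {z : (ℝ × V D) × E} (hz : z.1.1 ≠ 0) :
    ContDiffAt ℝ ∞ (fun z : (ℝ × V D) × E => Si q z.1 z.2 a b) z := by
  unfold Si
  refine shear_mul (shear_mul (fun a b => ?_) fun a b => ?_) (shear_diag fun a => ?_) a b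
  · simp only [Matrix.sub_apply]
    exact contDiffAt_const.sub (shear_rk shear_contDiff_thv shear_contDiff_psv 0 a b).contDiffAt
  · simp only [Matrix.sub_apply]
    exact contDiffAt_const.sub (shear_rk shear_contDiff_psv shear_contDiff_thv 1 a b).contDiffAt
  · have h : ContDiffAt ℝ ∞ (fun z : (ℝ × V D) × E => (z.1.1 ^ 2)⁻¹) z :=
      ContDiffAt.inv (by fun_prop) (pow_ne_zero 2 hz)
    fin_cases a
    · simpa using contDiffAt_const
    · simp; fun_prop
    · simp; fun_prop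
    · simpa using h

theorem shear_unip {u v : E} (h : v ⬝ᵥ u = 0) (s : ℝ) :
    (1 + s • Matrix.vecMulVec u v) * (1 - s • Matrix.vecMulVec u v) = 1 := by
  have h2 : Matrix.vecMulVec u v * Matrix.vecMulVec u v = 0 := by
    rw [Matrix.vecMulVec_mul_vecMulVec, h]; simp
  simp [add_mul, mul_sub, h2]

theorem psv_dot_thv' (y : E) : psv y ⬝ᵥ thv y = 0 := by
  rw [dotProduct_comm, thv_dot_psv]

theorem Sm_mul_Si {π : ℝ × V D} (h : π.1 ≠ 0) (y : E) : Sm q π y * Si q π y = 1 := by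
  have h1 := shear_unip (psv_dot_thv' y) (xi q π.2 0 y)
  have h2 := shear_unip (thv_dot_psv y) (xi q π.2 1 y)
  unfold Sm Si
  simp only [Matrix.mul_assoc]
  rw [← Matrix.mul_assoc (1 + xi q π.2 0 y • _), h1, Matrix.one_mul,
    ← Matrix.mul_assoc (1 + xi q π.2 1 y • _), h2, Matrix.one_mul, Matrix.diagonal_mul_diagonal,
    ← Matrix.diagonal_one]
  congr 1
  funext a
  fin_cases a <;> simp [h]

theorem Si_mul_Sm {π : ℝ × V D} (h : π.1 ≠ 0) (y : E) : Si q π y * Sm q π y = 1 :=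
  mul_eq_one_comm.1 (Sm_mul_Si h y)

theorem shear_det {u v : E} (h : v ⬝ᵥ u = 0) (s : ℝ) :
    (1 + s • Matrix.vecMulVec u v).det = 1 := by
  rw [← Matrix.smul_vecMulVec, Matrix.vecMulVec_eq Unit,
    Matrix.det_one_add_replicateCol_mul_replicateRow, dotProduct_smul, h]
  simp

theorem det_Sm {π : ℝ × V D} (h : π.1 ≠ 0) (y : E) : (Sm q π y).det = 1 := by
  unfold Sm
  rw [Matrix.det_mul, Matrix.det_mul, shear_det (psv_dot_thv' y), shear_det (thv_dot_psv y),
    Matrix.det_diagonal]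
  simp [Fin.prod_univ_four]
  field_simp

theorem Sm_row (π : ℝ × V D) (y : E) (μ : Fin 4) : Sm q π y 0 μ = if μ = 0 then 1 else 0 := by
  fin_cases μ <;>
    simp [Sm, Matrix.mul_apply, Fin.sum_univ_four, Matrix.vecMulVec_apply, thv, psv,
      Matrix.diagonal_apply, Matrix.one_apply]

theorem Sm_col (π : ℝ × V D) (y : E) (a : Fin 4) : Sm q π y a 0 = if a = 0 then 1 else 0 := by
  fin_cases a <;>
    simp [Sm, Matrix.mul_apply, Fin.sum_univ_four, Matrix.vecMulVec_apply, thv, psv,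
      Matrix.diagonal_apply, Matrix.one_apply]

theorem Si_row (π : ℝ × V D) (y : E) (μ : Fin 4) : Si q π y 0 μ = if μ = 0 then 1 else 0 := by
  fin_cases μ <;>
    simp [Si, Matrix.mul_apply, Fin.sum_univ_four, Matrix.vecMulVec_apply, thv, psv,
      Matrix.diagonal_apply, Matrix.one_apply]

theorem Si_col (π : ℝ × V D) (y : E) (a : Fin 4) : Si q π y a 0 = if a = 0 then 1 else 0 := by
  fin_cases a <;>
    simp [Si, Matrix.mul_apply, Fin.sum_univ_four, Matrix.vecMulVec_apply, thv, psv,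
      Matrix.diagonal_apply, Matrix.one_apply]

theorem Sm_static (b : ℝ) (y : E) :
    Sm q (b, (0 : V D)) y = Matrix.diagonal ![1, b⁻¹, b⁻¹, b ^ 2] := by
  simp [Sm, xi_zero]

theorem Si_static (b : ℝ) (y : E) :
    Si q (b, (0 : V D)) y = Matrix.diagonal ![1, b, b, (b ^ 2)⁻¹] := by
  simp [Si, xi_zero]

theorem shear_abs (G : Mat) (θ ψ : E) (X Z x s t : ℝ) (h1 : θ ⬝ᵥ θ = 1 - x) (h2 : ψ ⬝ᵥ ψ = x)
    (h3 : θ ⬝ᵥ ψ = 0) (hθ : G *ᵥ θ = (X + Z * (1 - x)) • θ + (Z * (1 - x)) • ψ)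
    (hψ : G *ᵥ ψ = (Z * x) • θ + (X + Z * x) • ψ) (hG : Gᵀ = G) :
    ((1 + t • Matrix.vecMulVec ψ θ) * (1 + s • Matrix.vecMulVec θ ψ))ᵀ *
      (G * ((1 + t • Matrix.vecMulVec ψ θ) * (1 + s • Matrix.vecMulVec θ ψ))) =
      G + (eL X Z x s t 0 + eH X Z x s t 0) • Matrix.vecMulVec θ θ +
      (eL X Z x s t 1 + eH X Z x s t 1) • (Matrix.vecMulVec θ ψ + Matrix.vecMulVec ψ θ) +
      (eL X Z x s t 2 + eH X Z x s t 2) • Matrix.vecMulVec ψ ψ := by
  have h4 : ψ ⬝ᵥ θ = 0 := by rw [dotProduct_comm, h3]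
  have hm : ∀ a b c d : E, Matrix.vecMulVec a b * Matrix.vecMulVec c d =
      (b ⬝ᵥ c) • Matrix.vecMulVec a d := by
    intro a b c d
    rw [Matrix.vecMulVec_mul_vecMulVec, Matrix.vecMulVec_smul]
  have hl1 : ∀ b : E, G * Matrix.vecMulVec θ b =
      (X + Z * (1 - x)) • Matrix.vecMulVec θ b + (Z * (1 - x)) • Matrix.vecMulVec ψ b := by
    intro b
    rw [Matrix.mul_vecMulVec, hθ, Matrix.add_vecMulVec, Matrix.smul_vecMulVec,
      Matrix.smul_vecMulVec]
  have hl2 : ∀ b : E, G * Matrix.vecMulVec ψ b =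
      (Z * x) • Matrix.vecMulVec θ b + (X + Z * x) • Matrix.vecMulVec ψ b := by
    intro b
    rw [Matrix.mul_vecMulVec, hψ, Matrix.add_vecMulVec, Matrix.smul_vecMulVec,
      Matrix.smul_vecMulVec]
  have hv : ∀ b : E, b ᵥ* G = G *ᵥ b := by
    intro b; rw [← Matrix.mulVec_transpose, hG]
  have hr1 : ∀ b : E, Matrix.vecMulVec b θ * G =
      (X + Z * (1 - x)) • Matrix.vecMulVec b θ + (Z * (1 - x)) • Matrix.vecMulVec b ψ := by
    intro b
    rw [Matrix.vecMulVec_mul, hv, hθ, Matrix.vecMulVec_add, Matrix.vecMulVec_smul,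
      Matrix.vecMulVec_smul]
  have hr2 : ∀ b : E, Matrix.vecMulVec b ψ * G =
      (Z * x) • Matrix.vecMulVec b θ + (X + Z * x) • Matrix.vecMulVec b ψ := by
    intro b
    rw [Matrix.vecMulVec_mul, hv, hψ, Matrix.vecMulVec_add, Matrix.vecMulVec_smul,
      Matrix.vecMulVec_smul]
  have hU : (1 + t • Matrix.vecMulVec ψ θ) * (1 + s • Matrix.vecMulVec θ ψ) =
      1 + t • Matrix.vecMulVec ψ θ + s • Matrix.vecMulVec θ ψ +
        (t * s * (1 - x)) • Matrix.vecMulVec ψ ψ := by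
    simp only [add_mul, mul_add, one_mul, mul_one, Matrix.smul_mul, Matrix.mul_smul, hm, h1]
    module
  rw [hU]
  simp only [Matrix.transpose_add, Matrix.transpose_smul, Matrix.transpose_one,
    Matrix.transpose_vecMulVec, add_mul, mul_add, one_mul, mul_one, Matrix.smul_mul,
    Matrix.mul_smul, hl1, hl2, hr1, hr2, hm, h1, h2, h3, h4, eL, eH, Matrix.cons_val_zero,
    Matrix.cons_val_one, Matrix.cons_val_two, Matrix.head_cons, Matrix.tail_cons]
  module

/-- The co-metric in the frame `A μ y`. -/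
theorem Sm_gram {π : ℝ × V D} {y : E} (hy : y ⬝ᵥ y = 1) :
    (Sm q π y)ᵀ * Sm q π y = Matrix.diagonal ![1, bX π.1, bX π.1, bX π.1 + bZ π.1] +
      eR q π 0 y • Matrix.vecMulVec (thv y) (thv y) +
      eR q π 1 y • (Matrix.vecMulVec (thv y) (psv y) + Matrix.vecMulVec (psv y) (thv y)) +
      eR q π 2 y • Matrix.vecMulVec (psv y) (psv y) := by
  rw [base_dot] at hy
  have hD : (Matrix.diagonal ![1, π.1⁻¹, π.1⁻¹, π.1 ^ 2] : Mat)ᵀ *
      Matrix.diagonal ![1, π.1⁻¹, π.1⁻¹, π.1 ^ 2] =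
      Matrix.diagonal ![1, bX π.1, bX π.1, bX π.1 + bZ π.1] := by
    rw [Matrix.diagonal_transpose, Matrix.diagonal_mul_diagonal]
    congr 1
    funext a
    fin_cases a <;> simp [bX, bZ] <;> ring
  have hx : y 0 ^ 2 + y 1 ^ 2 = 1 - xx y := by unfold xx; linear_combination hy
  have key := shear_abs (Matrix.diagonal ![1, bX π.1, bX π.1, bX π.1 + bZ π.1]) (thv y) (psv y)
    (bX π.1) (bZ π.1) (xx y) (xi q π.2 0 y) (xi q π.2 1 y)
    (by
      rw [← hx]; simp only [base_dot, thv]; simp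
      linear_combination (y 0 ^ 2 + y 1 ^ 2) * hy)
    (by
      simp only [base_dot, psv, xx]; simp
      linear_combination (y 2 ^ 2 + y 3 ^ 2) * hy)
    (thv_dot_psv y)
    (by
      ext i
      fin_cases i <;> simp [Matrix.mulVec_diagonal, thv, psv, hx]
      · ring
      · ring
      · unfold xx; ring)
    (by
      ext i
      fin_cases i <;> simp [Matrix.mulVec_diagonal, thv, psv, hx]
      · ring
      · ring
      · unfold xx; ring)
    (Matrix.diagonal_transpose _)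
  unfold Sm eR
  rw [← key, ← hD, Matrix.mul_assoc (Matrix.diagonal _), Matrix.transpose_mul (Matrix.diagonal _)]
  simp only [Matrix.mul_assoc]

theorem contDiffAt_ZS (μ a ν : Fin 4) {ζ : St D} (h : ζ.2.1.1 ≠ 0) :
    ContDiffAt ℝ ∞ (fun ζ : St D => ZS q ζ μ a ν) ζ := by
  unfold ZS
  have h1 : ContDiffAt ℝ ∞ (fderiv ℝ fun z : (ℝ × V D) × E => Sm q z.1 z.2 a ν)
      (ζ.2.1, ζ.2.2.2) :=
    (contDiffAt_Sm (q := q) a ν (z := (ζ.2.1, ζ.2.2.2)) h).fderiv_right (m := ∞) le_rfl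
  have h2 : ContDiffAt ℝ ∞ (fun ζ : St D => fderiv ℝ (fun z : (ℝ × V D) × E => Sm q z.1 z.2 a ν)
      (ζ.2.1, ζ.2.2.2)) ζ :=
    h1.comp ζ (f := fun ζ : St D => (ζ.2.1, ζ.2.2.2)) (by fun_prop)
  refine h2.clm_apply ?_
  by_cases hμ : μ = 0
  · simp only [hμ, if_true]; fun_prop
  · simp only [hμ, if_false]
    refine contDiffAt_const.prodMk ?_
    exact ((A μ).mulVecLin.toContinuousLinearMap.contDiff.comp
      (f := fun ζ : St D => ζ.2.2.2) (by fun_prop)).contDiffAt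

theorem contDiffAt_ct (a b c : Fin 4) {ζ : St D} (h : ζ.2.1.1 ≠ 0) :
    ContDiffAt ℝ ∞ (ct q a b c) ζ := by
  have hm : ∀ a b, ContDiffAt ℝ ∞ (fun ζ : St D => Sm q ζ.2.1 ζ.2.2.2 a b) ζ := fun a b =>
    (contDiffAt_Sm (q := q) a b (z := (ζ.2.1, ζ.2.2.2)) h).comp ζ
      (f := fun ζ : St D => (ζ.2.1, ζ.2.2.2)) (by fun_prop)
  have hi : ∀ a b, ContDiffAt ℝ ∞ (fun ζ : St D => Si q ζ.2.1 ζ.2.2.2 a b) ζ := fun a b =>
    (contDiffAt_Si (q := q) a b (z := (ζ.2.1, ζ.2.2.2)) h).comp ζ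
      (f := fun ζ : St D => (ζ.2.1, ζ.2.2.2)) (by fun_prop)
  have hz := fun μ a ν => contDiffAt_ZS (q := q) μ a ν h
  unfold ct
  refine ContDiffAt.sub (ContDiffAt.sum fun ν _ => ContDiffAt.mul (ContDiffAt.add
    (ContDiffAt.sum fun μ _ => ((hm a μ).mul (hz μ b ν)).sub ((hm b μ).mul (hz μ a ν)))
    (ContDiffAt.sum fun μ _ => ContDiffAt.sum fun l _ =>
      ((hm a μ).mul (hm b l)).mul contDiffAt_const)) (hi ν c)) ?_
  exact contDiffAt_fst.mul contDiffAt_const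

end Vale.Agent.P225
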