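import Mathlib
import Vale.Agent.P225.Shear

/-! The metric: smoothness, inverse, determinant, lower bound. -/

open scoped ContDiff Matrix Topology BoundedContinuousFunction
open Filter Set

noncomputable section

namespace Vale.Agent.P225

variable {q D : ℕ}

theorem met_b_ne (p : Prof D) (t : ℝ) : (p.π t).1 ≠ 0 := by
  have := p.b_lo t
  intro h; rw [h] at this; norm_num at this

theorem met_Zm_smul (c : ℝ) (y : E) : Zm (c • y) = c • Zm y := by
  ext μ i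
  simp [Zm, Matrix.mulVec_smul]

theorem met_Zm_eq {x : E} (hx : x ≠ 0) : Zm x = √(x ⬝ᵥ x) • Zm (nrm x) := by
  rw [← met_Zm_smul, ← exp_tau hx, exp_tau_smul hx]

theorem met_Zn_mul {x : E} (hx : x ≠ 0) : Zm (nrm x) * (Zm (nrm x))ᵀ = 1 := by
  rw [Zm_mul, nrm_dot hx, one_smul]

theorem met_Zn_mul' {x : E} (hx : x ≠ 0) : (Zm (nrm x))ᵀ * Zm (nrm x) = 1 := by
  rw [Zm_mul', nrm_dot hx, one_smul]

theorem met_of_ne (p : Prof D) {x : E} (hx : x ≠ 0) : met q p x =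
    (p.F (tau x) ^ 2 / (x ⬝ᵥ x)) • ((Zm (nrm x))ᵀ * Si q (p.π (tau x)) (nrm x) *
      (Si q (p.π (tau x)) (nrm x))ᵀ * Zm (nrm x)) := by
  rw [met, if_neg hx]

theorem met_ratio_init (p : Prof D) {x : E} (hx0 : x ≠ 0) (hx : x ⬝ᵥ x ≤ 1) :
    p.F (tau x) ^ 2 / (x ⬝ᵥ x) = 1 := by
  have h := dot_self_pos hx0
  rw [p.F_init (tau_nonpos hx), exp_tau hx0, Real.sq_sqrt h.le, div_self h.ne']

theorem met_init (p : Prof D) {x : E} (hx : x ⬝ᵥ x ≤ 1) : met q p x = 1 := by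
  by_cases hx0 : x = 0
  · rw [met, if_pos hx0]
  have hd : (Matrix.diagonal ![1, 1, 1, ((1 : ℝ) ^ 2)⁻¹] : Mat) = 1 := by
    rw [← Matrix.diagonal_one]; congr 1; funext a; fin_cases a <;> simp
  rw [met_of_ne p hx0, met_ratio_init p hx0 hx, p.π_init _ (tau_nonpos hx), Si_static, hd]
  simp [met_Zn_mul' hx0]

/-- The matrix with rows the frame vectors. -/
def metE (q : ℕ) {D : ℕ} (p : Prof D) (x : E) : Mat :=
  (p.F (tau x))⁻¹ • (Sm q (p.π (tau x)) (nrm x) * Zm x)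

theorem metE_row (p : Prof D) (x : E) (a : Fin 4) : frame q p a x = metE q p x a := by
  funext i
  simp [frame, metE, Matrix.mul_apply, Zm, Finset.sum_apply]

theorem metE_mul (p : Prof D) {x : E} (hx : x ≠ 0) :
    metE q p x * met q p x * (metE q p x)ᵀ = 1 := by
  have h := dot_self_pos hx
  have hF := (p.F_pos (tau x)).ne'
  have h1 := Sm_mul_Si (q := q) (met_b_ne p (tau x)) (nrm x)
  have h2 : (Si q (p.π (tau x)) (nrm x))ᵀ * (Sm q (p.π (tau x)) (nrm x))ᵀ = 1 := by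
    rw [← Matrix.transpose_mul, h1, Matrix.transpose_one]
  have h3 := met_Zn_mul hx
  rw [metE, met_of_ne p hx, met_Zm_eq hx]
  simp only [Matrix.transpose_smul, Matrix.transpose_mul, Matrix.smul_mul, Matrix.mul_smul,
    smul_smul, Matrix.mul_assoc]
  rw [← Matrix.mul_assoc (Zm (nrm x)) (Zm (nrm x))ᵀ, h3, Matrix.one_mul,
    ← Matrix.mul_assoc (Zm (nrm x)) (Zm (nrm x))ᵀ, h3, Matrix.one_mul, h2, Matrix.mul_one, h1]
  have h4 : √(x ⬝ᵥ x) * √(x ⬝ᵥ x) = x ⬝ᵥ x := Real.mul_self_sqrt h.le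
  have hs : √(x ⬝ᵥ x) ≠ 0 := (Real.sqrt_pos.2 h).ne'
  generalize √(x ⬝ᵥ x) = r at h4 hs ⊢
  rw [← h4]
  refine (congrArg (· • (1 : Mat)) ?_).trans (one_smul ℝ _)
  field_simp

theorem met_contDiffAt_par (p : Prof D) {x : E} (hx : x ≠ 0) :
    ContDiffAt ℝ ∞ (fun y => (p.π (tau y), nrm y)) x :=
  (p.π_smooth.contDiffAt.comp x (contDiffAt_tau hx)).prodMk (contDiffAt_nrm hx)

theorem met_contDiffAt_Sm (p : Prof D) {x : E} (hx : x ≠ 0) (a b : Fin 4) :
    ContDiffAt ℝ ∞ (fun y => Sm q (p.π (tau y)) (nrm y) a b) x :=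
  (contDiffAt_Sm (q := q) a b (z := (p.π (tau x), nrm x)) (met_b_ne p _)).comp x
    (f := fun y => (p.π (tau y), nrm y)) (met_contDiffAt_par p hx)

theorem met_contDiffAt_Si (p : Prof D) {x : E} (hx : x ≠ 0) (a b : Fin 4) :
    ContDiffAt ℝ ∞ (fun y => Si q (p.π (tau y)) (nrm y) a b) x :=
  (contDiffAt_Si (q := q) a b (z := (p.π (tau x), nrm x)) (met_b_ne p _)).comp x
    (f := fun y => (p.π (tau y), nrm y)) (met_contDiffAt_par p hx)

theorem met_contDiffAt_F (p : Prof D) {x : E} (hx : x ≠ 0) :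
    ContDiffAt ℝ ∞ (fun y => p.F (tau y)) x :=
  p.F_smooth.contDiffAt.comp x (contDiffAt_tau hx)

theorem met_contDiff_A (M : Mat) : ContDiff ℝ ∞ fun y : E => M *ᵥ y :=
  M.mulVecLin.toContinuousLinearMap.contDiff

theorem met_quad (p : Prof D) {x : E} (hx : x ≠ 0) (v : E) : v ⬝ᵥ met q p x *ᵥ v =
    p.F (tau x) ^ 2 / (x ⬝ᵥ x) * (((Si q (p.π (tau x)) (nrm x))ᵀ *ᵥ (Zm (nrm x) *ᵥ v)) ⬝ᵥ
      ((Si q (p.π (tau x)) (nrm x))ᵀ *ᵥ (Zm (nrm x) *ᵥ v))) := by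
  rw [met_of_ne p hx, Matrix.smul_mulVec, dotProduct_smul, smul_eq_mul]
  congr 1
  simp only [Matrix.mul_assoc, ← Matrix.mulVec_mulVec]
  rw [Matrix.dotProduct_mulVec v, Matrix.vecMul_transpose,
    Matrix.dotProduct_mulVec (Zm (nrm x) *ᵥ v), ← Matrix.mulVec_transpose]

theorem met_back (p : Prof D) (x u : E) :
    (Sm q (p.π (tau x)) (nrm x))ᵀ *ᵥ ((Si q (p.π (tau x)) (nrm x))ᵀ *ᵥ u) = u := by
  rw [Matrix.mulVec_mulVec, ← Matrix.transpose_mul, Si_mul_Sm (met_b_ne p _),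
    Matrix.transpose_one, Matrix.one_mulVec]

theorem met_Zn_dot {x : E} (hx : x ≠ 0) (v : E) :
    (Zm (nrm x) *ᵥ v) ⬝ᵥ (Zm (nrm x) *ᵥ v) = v ⬝ᵥ v := by
  rw [Matrix.dotProduct_mulVec, ← Matrix.mulVec_transpose, Matrix.mulVec_mulVec, met_Zn_mul' hx,
    Matrix.one_mulVec]

theorem met_isMetric (p : Prof D) : IsMetric (met q p) := by
  refine ⟨fun i j => contDiff_iff_contDiffAt.2 fun x => ?_, fun x => ?_⟩
  · by_cases hx : x = 0
    · have h : ∀ᶠ y in 𝓝 x, y ⬝ᵥ y < 1 :=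
        base_contDiff_dot.continuous.continuousAt.eventually_lt continuousAt_const
          (by simp [hx])
      refine (contDiffAt_const (c := (1 : Mat) i j)).congr_of_eventuallyEq ?_
      filter_upwards [h] with y hy
      rw [met_init p hy.le]
    · have hZ : ∀ a b, ContDiffAt ℝ ∞ (fun y => Zm (nrm y) a b) x := fun a b =>
        (contDiff_apply ℝ ℝ b).contDiffAt.comp x
          ((met_contDiff_A (A a)).contDiffAt.comp x (contDiffAt_nrm hx))
      have h1 := (((met_contDiffAt_F p hx).pow 2).div base_contDiff_dot.contDiffAt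
        (dot_self_pos hx).ne').mul
        (shear_mul (shear_mul (shear_mul (M := fun y => (Zm (nrm y))ᵀ) (fun a b => hZ b a)
          (met_contDiffAt_Si (q := q) p hx))
          (N := fun y => (Si q (p.π (tau y)) (nrm y))ᵀ)
          (fun a b => met_contDiffAt_Si (q := q) p hx b a)) hZ i j)
      refine h1.congr_of_eventuallyEq ?_
      filter_upwards [isOpen_ne.mem_nhds hx] with y hy
      rw [met_of_ne p hy]; rfl
  · by_cases hx : x = 0
    · rw [met, if_pos hx]; exact Matrix.PosDef.one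
    refine Matrix.PosDef.of_dotProduct_mulVec_pos ?_ fun v hv => ?_
    · rw [Matrix.IsHermitian, Matrix.conjTranspose_eq_transpose_of_trivial, met_of_ne p hx]
      simp [Matrix.transpose_mul, Matrix.mul_assoc]
    · rw [star_trivial, met_quad p hx]
      refine mul_pos (div_pos (pow_pos (p.F_pos _) 2) (dot_self_pos hx)) (dot_self_pos fun h => ?_)
      have h1 := met_back (q := q) p x (Zm (nrm x) *ᵥ v)
      rw [h, Matrix.mulVec_zero] at h1
      have h2 := met_Zn_dot hx v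
      rw [← h1] at h2
      exact (dot_self_pos hv).ne' (by simpa using h2.symm)

theorem contDiffAt_frame (p : Prof D) (a : Fin 4) {x : E} (hx : x ≠ 0) :
    ContDiffAt ℝ ∞ (frame q p a) x := by
  unfold frame
  exact ((met_contDiffAt_F p hx).inv (p.F_pos _).ne').smul (ContDiffAt.sum fun μ _ =>
    (met_contDiffAt_Sm p hx a μ).smul (met_contDiff_A (A μ)).contDiffAt)

theorem frame_orth (p : Prof D) {x : E} (hx : x ≠ 0) (a b : Fin 4) :
    frame q p a x ⬝ᵥ met q p x *ᵥ frame q p b x = if a = b then 1 else 0 := by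
  have h := congrFun (congrFun (metE_mul (q := q) p hx) a) b
  rw [Matrix.one_apply] at h
  rw [← h, metE_row, metE_row, Matrix.dotProduct_mulVec]
  rfl

theorem frame_span (p : Prof D) {x : E} (hx : x ≠ 0) (v : E) :
    ∃ w : Fin 4 → ℝ, v = ∑ a, w a • frame q p a x := by
  have h := mul_eq_one_comm.1 (metE_mul (q := q) p hx)
  refine ⟨(metE q p x * met q p x) *ᵥ v, ?_⟩
  conv_lhs => rw [← Matrix.one_mulVec v, ← h, ← Matrix.mulVec_mulVec]
  funext i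
  simp [metE_row, Matrix.mulVec, dotProduct, Finset.sum_apply, mul_comm]

theorem met_inv (p : Prof D) {x : E} (hx : x ≠ 0) :
    (met q p x)⁻¹ = (p.F (tau x) ^ 2)⁻¹ • ((Zm x)ᵀ *
      ((Sm q (p.π (tau x)) (nrm x))ᵀ * Sm q (p.π (tau x)) (nrm x)) * Zm x) := by
  have h := mul_eq_one_comm.1 (metE_mul (q := q) p hx)
  rw [← Matrix.mul_assoc] at h
  rw [Matrix.inv_eq_left_inv h, metE]
  simp only [Matrix.transpose_smul, Matrix.transpose_mul, Matrix.smul_mul, Matrix.mul_smul,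
    smul_smul, Matrix.mul_assoc]
  congr 1
  ring

theorem met_det (p : Prof D) {x : E} (hx : x ≠ 0) :
    √(met q p x).det = (p.F (tau x) ^ 2 / (x ⬝ᵥ x)) ^ 2 := by
  have h1 : (Si q (p.π (tau x)) (nrm x)).det = 1 := by
    have := congrArg Matrix.det (Sm_mul_Si (q := q) (met_b_ne p (tau x)) (nrm x))
    rwa [Matrix.det_mul, det_Sm (met_b_ne p _), one_mul, Matrix.det_one] at this
  have h2 : (Zm (nrm x)).det * (Zm (nrm x)).det = 1 := by
    have := congrArg Matrix.det (met_Zn_mul hx)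
    rwa [Matrix.det_mul, Matrix.det_transpose, Matrix.det_one] at this
  rw [met_of_ne p hx, Matrix.det_smul]
  simp only [Matrix.det_mul, Matrix.det_transpose, h1, mul_one, h2, Fintype.card_fin]
  generalize p.F (tau x) ^ 2 / (x ⬝ᵥ x) = r
  rw [show r ^ 4 = (r ^ 2) ^ 2 by ring, Real.sqrt_sq (sq_nonneg _)]

theorem met_ratio (p : Prof D) {c : ℝ} (hc1 : c ≤ 1) (hc : ∀ t, c ≤ p.κ t) {x : E} (hx : x ≠ 0) :
    (1 + x ⬝ᵥ x) ^ (c - 1) ≤ p.F (tau x) ^ 2 / (x ⬝ᵥ x) := by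
  have h := dot_self_pos hx
  rcases le_total (x ⬝ᵥ x) 1 with h1 | h1
  · rw [met_ratio_init p hx h1]
    exact Real.rpow_le_one_of_one_le_of_nonpos (by linarith) (by linarith)
  · have ht : 0 ≤ tau x := div_nonneg (Real.log_nonneg h1) zero_le_two
    have h2 := p.F_lower hc ht
    have h3 : Real.exp (c * tau x) ^ 2 = (x ⬝ᵥ x) ^ c := by
      rw [← Real.exp_nat_mul, Real.rpow_def_of_pos h, tau]; congr 1; push_cast; ring
    calc (1 + x ⬝ᵥ x) ^ (c - 1) ≤ (x ⬝ᵥ x) ^ (c - 1) :=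
          Real.rpow_le_rpow_of_nonpos h (by linarith) (by linarith)
      _ = Real.exp (c * tau x) ^ 2 / (x ⬝ᵥ x) := by rw [h3, Real.rpow_sub_one h.ne']
      _ ≤ _ := by gcongr

theorem met_Sm_bound : ∃ C ≥ 1, ∀ (p : Prof D) (t : ℝ) (y : E), ‖y‖ ≤ 1 →
    ∑ i, ∑ a, Sm q (p.π t) y a i ^ 2 ≤ C := by
  have hK : IsCompact ((Icc (1 / 2 : ℝ) 2 ×ˢ Metric.closedBall (0 : V D) 1) ×ˢ
      Metric.closedBall (0 : E) 1) :=
    (isCompact_Icc.prod (isCompact_closedBall _ _)).prod (isCompact_closedBall _ _)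
  have hc : ContinuousOn (fun z : (ℝ × V D) × E => ∑ i, ∑ a, Sm q z.1 z.2 a i ^ 2)
      ((Icc (1 / 2 : ℝ) 2 ×ˢ Metric.closedBall (0 : V D) 1) ×ˢ Metric.closedBall (0 : E) 1) := by
    intro z hz
    have hz0 : z.1.1 ≠ 0 := by
      have := hz.1.1.1
      intro h; rw [h] at this; norm_num at this
    exact (ContDiffAt.sum fun i _ => ContDiffAt.sum fun a _ =>
      (contDiffAt_Sm (q := q) a i hz0).pow 2).continuousAt.continuousWithinAt
  obtain ⟨C, hC⟩ := hK.bddAbove_image hc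
  refine ⟨max C 1, le_max_right _ _, fun p t y hy => le_trans ?_ (le_max_left _ _)⟩
  exact hC ⟨(p.π t, y), ⟨⟨⟨p.b_lo t, p.b_hi t⟩, by simpa using p.P_le t⟩, by simpa using hy⟩, rfl⟩

theorem met_lower (p : Prof D) {c : ℝ} (hc1 : c ≤ 1) (hc : ∀ t, c ≤ p.κ t) :
    ∃ l > 0, ∀ x v : E, l * (1 + x ⬝ᵥ x) ^ (c - 1) * (v ⬝ᵥ v) ≤ v ⬝ᵥ met q p x *ᵥ v := by
  obtain ⟨C, hC1, hC⟩ := met_Sm_bound (q := q) (D := D)
  have hC0 : 0 < C := by linarith
  refine ⟨C⁻¹, inv_pos.2 hC0, fun x v => ?_⟩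
  have hv : 0 ≤ v ⬝ᵥ v := Finset.sum_nonneg fun i _ => mul_self_nonneg (v i)
  by_cases hx : x = 0
  · rw [met, if_pos hx, hx]
    simp only [dotProduct_zero, add_zero, Real.one_rpow, mul_one, Matrix.one_mulVec]
    exact mul_le_of_le_one_left hv (inv_le_one_of_one_le₀ hC1)
  rw [met_quad p hx]
  have h1 := met_back (q := q) p x (Zm (nrm x) *ᵥ v)
  have h2 := met_Zn_dot hx v
  set w := (Si q (p.π (tau x)) (nrm x))ᵀ *ᵥ (Zm (nrm x) *ᵥ v)
  have hw : 0 ≤ w ⬝ᵥ w := Finset.sum_nonneg fun i _ => mul_self_nonneg (w i)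
  have h3 : v ⬝ᵥ v ≤ C * (w ⬝ᵥ w) := by
    rw [← h2, ← h1]
    refine le_trans ?_ (mul_le_mul_of_nonneg_right
      (hC p (tau x) (nrm x) (norm_le_of_dot (nrm_dot hx).le)) hw)
    rw [Finset.sum_mul]
    refine Finset.sum_le_sum fun i _ => ?_
    have := Finset.sum_mul_sq_le_sq_mul_sq Finset.univ
      (fun a => Sm q (p.π (tau x)) (nrm x) a i) w
    simpa [Matrix.mulVec, dotProduct, sq] using this
  have h4 : C⁻¹ * (v ⬝ᵥ v) ≤ w ⬝ᵥ w := by
    rw [inv_mul_le_iff₀ hC0]; exact h3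
  have h5 := met_ratio p hc1 hc hx
  have h6 : 0 ≤ (1 + x ⬝ᵥ x) ^ (c - 1) := Real.rpow_nonneg (by linarith [dot_self_pos hx]) _
  calc C⁻¹ * (1 + x ⬝ᵥ x) ^ (c - 1) * (v ⬝ᵥ v) = (1 + x ⬝ᵥ x) ^ (c - 1) * (C⁻¹ * (v ⬝ᵥ v)) := by
        ring
    _ ≤ _ := mul_le_mul h5 h4 (by positivity) (h6.trans h5)

end Vale.Agent.P225
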