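import Mathlib
import Vale.Agent.P225.Met
import Vale.Agent.P225.Frame

/-! The Ricci tensor of the metric as a function of the jet. -/

open scoped ContDiff Matrix Topology BoundedContinuousFunction
open Filter Set

noncomputable section

namespace Vale.Agent.P225

variable {q D : ℕ}

theorem str_tau {x : E} (hx : x ≠ 0) (μ : Fin 4) :
    fderiv ℝ tau x (A μ *ᵥ x) = if μ = 0 then 1 else 0 := by
  split_ifs with h
  · rw [h, A_zero, Matrix.one_mulVec, fderiv_tau_self hx]
  · exact fderiv_tau_anti (A_antisymm h) hx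

theorem str_nrm {x : E} (hx : x ≠ 0) (μ : Fin 4) :
    fderiv ℝ nrm x (A μ *ᵥ x) = if μ = 0 then 0 else A μ *ᵥ nrm x := by
  split_ifs with h
  · rw [h, A_zero, Matrix.one_mulVec, fderiv_nrm_self hx]
  · exact fderiv_nrm_anti (A_antisymm h) hx

theorem str_rad {F : Type} [NormedAddCommGroup F] [NormedSpace ℝ F] {g : ℝ → F} {g' : F} {x : E}
    (hx : x ≠ 0) (hg : HasDerivAt g g' (tau x)) :
    HasFDerivAt (fun y => g (tau y)) ((fderiv ℝ tau x).smulRight g') x := by
  have h := hg.hasFDerivAt.comp x ((contDiffAt_tau hx).differentiableAt (by simp)).hasFDerivAt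
  refine h.congr_fderiv ?_
  ext1 v
  simp

theorem str_dπ (p : Prof D) : ContDiff ℝ ∞ (deriv p.π) := (contDiff_infty_iff_deriv.1 p.π_smooth).2

theorem str_hasnrm {x : E} (hx : x ≠ 0) : HasFDerivAt nrm (fderiv ℝ nrm x) x :=
  ((contDiffAt_nrm hx).differentiableAt (by simp)).hasFDerivAt

theorem str_jet (p : Prof D) {x : E} (hx : x ≠ 0) :
    ∃ L : E →L[ℝ] St D, HasFDerivAt p.jet L x ∧ ∀ μ, L (A μ *ᵥ x) =
      if μ = 0 then (deriv p.κ (tau x), deriv p.π (tau x), deriv (deriv p.π) (tau x), 0)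
      else (0, 0, 0, A μ *ᵥ nrm x) := by
  have h1 := str_rad hx (p.κ_smooth.differentiable (by simp) (tau x)).hasDerivAt
  have h2 := str_rad hx (p.π_smooth.differentiable (by simp) (tau x)).hasDerivAt
  have h3 := str_rad hx ((str_dπ p).differentiable (by simp) (tau x)).hasDerivAt
  refine ⟨_, h1.prodMk (h2.prodMk (h3.prodMk (str_hasnrm hx))), fun μ => ?_⟩
  simp only [ContinuousLinearMap.prod_apply, ContinuousLinearMap.smulRight_apply, str_tau hx,
    str_nrm hx]
  split_ifs <;> simp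

theorem str_Sm (p : Prof D) {x : E} (hx : x ≠ 0) (μ a ν : Fin 4) :
    fderiv ℝ (fun y => Sm q (p.π (tau y)) (nrm y) a ν) x (A μ *ᵥ x) = ZS q (p.jet x) μ a ν := by
  have h2 := str_rad hx (p.π_smooth.differentiable (by simp) (tau x)).hasDerivAt
  have h := ((contDiffAt_Sm (q := q) a ν (z := (p.π (tau x), nrm x))
    (met_b_ne p _)).differentiableAt (by simp)).hasFDerivAt.comp x
    (f := fun y => (p.π (tau y), nrm y)) (h2.prodMk (str_hasnrm hx))
  rw [show (fun y => Sm q (p.π (tau y)) (nrm y) a ν) =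
    (fun z : (ℝ × V D) × E => Sm q z.1 z.2 a ν) ∘ fun y => (p.π (tau y), nrm y) from rfl,
    h.fderiv]
  simp only [ZS, Prof.jet, ContinuousLinearMap.comp_apply, ContinuousLinearMap.prod_apply,
    ContinuousLinearMap.smulRight_apply, str_tau hx, str_nrm hx]
  split_ifs <;> simp

theorem str_Finv (p : Prof D) {x : E} (hx : x ≠ 0) :
    HasFDerivAt (fun y => (p.F (tau y))⁻¹)
      ((fderiv ℝ tau x).smulRight (-(p.κ (tau x) * (p.F (tau x))⁻¹))) x := by
  have hF := (p.F_pos (tau x)).ne'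
  refine str_rad (g := fun t => (p.F t)⁻¹) hx (((p.F_deriv (tau x)).inv hF).congr_deriv ?_)
  field_simp

theorem str_frame_tau (p : Prof D) {x : E} (hx : x ≠ 0) (a : Fin 4) :
    fderiv ℝ tau x (frame q p a x) = (p.F (tau x))⁻¹ * if a = 0 then 1 else 0 := by
  simp [frame, map_sum, str_tau hx, Sm_col]

theorem str_dframe (p : Prof D) {x : E} (hx : x ≠ 0) (a b : Fin 4) :
    fderiv ℝ (frame q p b) x (frame q p a x) =
      (-(p.κ (tau x) * (p.F (tau x))⁻¹) * if a = 0 then 1 else 0) • frame q p b x +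
      ((p.F (tau x))⁻¹ * (p.F (tau x))⁻¹) •
        (∑ ν, (∑ μ, Sm q (p.π (tau x)) (nrm x) a μ * ZS q (p.jet x) μ b ν) • (A ν *ᵥ x) +
          ∑ ν, ∑ μ, (Sm q (p.π (tau x)) (nrm x) a μ * Sm q (p.π (tau x)) (nrm x) b ν) •
            ((A ν * A μ) *ᵥ x)) := by
  have hS : ∀ ν, HasFDerivAt (fun y => Sm q (p.π (tau y)) (nrm y) b ν)
      (fderiv ℝ (fun y => Sm q (p.π (tau y)) (nrm y) b ν) x) x := fun ν =>
    ((met_contDiffAt_Sm p hx b ν).differentiableAt (by simp)).hasFDerivAt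
  have hA : ∀ ν, HasFDerivAt (fun y : E => A ν *ᵥ y) (A ν).mulVecLin.toContinuousLinearMap x :=
    fun ν => (A ν).mulVecLin.toContinuousLinearMap.hasFDerivAt
  have h := (str_Finv p hx).fun_smul (HasFDerivAt.fun_sum (u := Finset.univ) fun ν _ =>
    (hS ν).fun_smul (hA ν))
  have h1 : ∀ ν, fderiv ℝ (fun y => Sm q (p.π (tau y)) (nrm y) b ν) x (frame q p a x) =
      (p.F (tau x))⁻¹ * ∑ μ, Sm q (p.π (tau x)) (nrm x) a μ * ZS q (p.jet x) μ b ν := by
    intro ν
    simp [frame, map_sum, str_Sm p hx]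
  have h2 : ∀ ν, A ν *ᵥ frame q p a x =
      (p.F (tau x))⁻¹ • ∑ μ, Sm q (p.π (tau x)) (nrm x) a μ • ((A ν * A μ) *ᵥ x) := by
    intro ν
    simp [frame, Matrix.mulVec_smul, Matrix.mulVec_sum]
  rw [show fderiv ℝ (frame q p b) x = _ from h.fderiv]
  simp only [ContinuousLinearMap.add_apply, ContinuousLinearMap.smul_apply,
    ContinuousLinearMap.sum_apply, ContinuousLinearMap.smulRight_apply,
    LinearMap.coe_toContinuousLinearMap', Matrix.mulVecLin_apply, h1, h2, str_frame_tau p hx]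
  simp only [frame, Fin.sum_univ_four]
  module

theorem brk_frame (p : Prof D) {x : E} (hx : x ≠ 0) (a b : Fin 4) :
    brk (frame q p a) (frame q p b) x =
      ∑ d, ((p.F (tau x))⁻¹ * ct q a b d (p.jet x)) • frame q p d x := by
  have hI := Si_mul_Sm (q := q) (met_b_ne p (tau x)) (nrm x)
  have h1 : ∀ T : Fin 4 → ℝ, ∑ d, (∑ ν, T ν * Si q (p.π (tau x)) (nrm x) ν d) • frame q p d x =
      (p.F (tau x))⁻¹ • ∑ ν, T ν • (A ν *ᵥ x) := by
    intro T
    have h : ∀ μ, T μ = ∑ d, (∑ ν, T ν * Si q (p.π (tau x)) (nrm x) ν d) *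
        Sm q (p.π (tau x)) (nrm x) d μ := by
      intro μ
      have := congrFun (Matrix.vecMul_vecMul T (Si q (p.π (tau x)) (nrm x))
        (Sm q (p.π (tau x)) (nrm x))) μ
      rw [hI, Matrix.vecMul_one] at this
      exact this.symm
    generalize (fun d => ∑ ν, T ν * Si q (p.π (tau x)) (nrm x) ν d) = u at h
    conv_rhs => enter [2, 2, ν]; rw [h ν]
    simp only [frame, Fin.sum_univ_four]
    module
  have h2 : ∀ a b : Fin 4, ∑ d, (if a = 0 ∧ b = d then (1 : ℝ) else 0) • frame q p d x =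
      (if a = 0 then (1 : ℝ) else 0) • frame q p b x := by
    intro a b
    by_cases h : a = 0 <;> simp [h]
  have h3 : ∀ μ l, (A l * A μ) *ᵥ x = (A μ * A l) *ᵥ x + ∑ ν, Cst μ l ν • (A ν *ᵥ x) := by
    intro μ l
    have := congrArg (· *ᵥ x) (A_comm μ l)
    simp only [Matrix.sub_mulVec, Matrix.sum_mulVec, Matrix.smul_mulVec] at this
    rw [← this]; abel
  have h4 : ∑ ν, ∑ μ, (Sm q (p.π (tau x)) (nrm x) a μ * Sm q (p.π (tau x)) (nrm x) b ν) •
      ((A ν * A μ) *ᵥ x) = ∑ ν, ∑ μ, (Sm q (p.π (tau x)) (nrm x) a μ *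
        Sm q (p.π (tau x)) (nrm x) b ν) • ((A μ * A ν) *ᵥ x + ∑ l, Cst μ ν l • (A l *ᵥ x)) :=
    Finset.sum_congr rfl fun ν _ => Finset.sum_congr rfl fun μ _ => by rw [h3 μ ν]
  rw [brk, str_dframe p hx, str_dframe p hx, h4]
  simp only [ct, mul_smul, ← Finset.smul_sum, sub_smul, Finset.sum_sub_distrib, h2]
  erw [h1]
  simp only [Prof.jet, Fin.sum_univ_four]
  module

theorem str_vD (p : Prof D) {x : E} (hx : x ≠ 0) {φ : St D → ℝ}
    (hφ : ContDiffAt ℝ ∞ φ (p.jet x)) (d : Fin 4) :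
    vD (frame q p d) (fun y => (p.F (tau y))⁻¹ * φ (p.jet y)) x = (p.F (tau x) ^ 2)⁻¹ *
      (Dz q φ (p.jet x) (deriv p.κ (tau x)) (deriv (deriv p.π) (tau x)) d -
        (if d = 0 then p.κ (tau x) * φ (p.jet x) else 0)) := by
  obtain ⟨L, hL, hL'⟩ := str_jet p hx
  have h := (str_Finv p hx).fun_mul ((hφ.differentiableAt (by simp)).hasFDerivAt.comp x hL)
  have h1 : fderiv ℝ φ (p.jet x) (L (frame q p d x)) = (p.F (tau x))⁻¹ *
      Dz q φ (p.jet x) (deriv p.κ (tau x)) (deriv (deriv p.π) (tau x)) d := by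
    simp only [frame, map_smul, map_sum, hL', smul_eq_mul]
    rfl
  rw [vD, show fderiv ℝ (fun y => (p.F (tau y))⁻¹ * φ (p.jet y)) x = _ from h.fderiv]
  simp only [ContinuousLinearMap.add_apply, ContinuousLinearMap.smul_apply,
    ContinuousLinearMap.smulRight_apply, ContinuousLinearMap.comp_apply, h1, str_frame_tau p hx,
    smul_eq_mul, Function.comp_apply]
  split_ifs <;> ring

theorem ric_phi (p : Prof D) {x : E} (hx : x ≠ 0) (b e : Fin 4) :
    ∑ j, ∑ k, ric (met q p) x j k * frame q p b x j * frame q p e x k =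
      (p.F (tau x) ^ 2)⁻¹ *
        Phi q (p.jet x) (deriv p.κ (tau x)) (deriv (deriv p.π) (tau x)) b e := by
  have hom : ∀ a b c, ContDiffAt ℝ ∞ (om q a b c) (p.jet x) := fun a b c =>
    (((contDiffAt_ct a b c (met_b_ne p _)).sub (contDiffAt_ct b c a (met_b_ne p _))).add
      (contDiffAt_ct c a b (met_b_ne p _))).div_const 2
  have hdv : ContDiffAt ℝ ∞ (dv q e) (p.jet x) := ContDiffAt.sum fun a _ => hom a e a
  rw [ric_frame (U := {y | y ≠ 0}) isOpen_ne (G := met q p)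
    (fun i j => ((met_isMetric p).1 i j).contDiffOn)
    (fun y _ => by
      have := ((met_isMetric (q := q) p).2 y).isHermitian
      rwa [Matrix.IsHermitian, Matrix.conjTranspose_eq_transpose_of_trivial] at this)
    (Ev := frame q p) (fun a y hy => (contDiffAt_frame p a hy).contDiffWithinAt)
    (fun y hy => frame_orth p hy)
    (c := fun a b d y => (p.F (tau y))⁻¹ * ct q a b d (p.jet y)) (fun y hy => brk_frame p hy)
    (w := fun a b d y => (p.F (tau y))⁻¹ * om q a b d (p.jet y))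
    (fun y _ a b d => by simp only [om]; ring) hx b e]
  have h : (fun y => ∑ a, (p.F (tau y))⁻¹ * om q a e a (p.jet y)) =
      fun y => (p.F (tau y))⁻¹ * dv q e (p.jet y) := by
    funext y; rw [dv, Finset.mul_sum]
  rw [h, str_vD p hx hdv]
  simp only [str_vD p hx (hom _ _ _)]
  have hj : (p.jet x).1 = p.κ (tau x) := rfl
  simp only [Phi, dv, hj, Fin.sum_univ_four]
  simp only [if_true, show (1 : Fin 4) ≠ 0 by decide, show (2 : Fin 4) ≠ 0 by decide,
    show (3 : Fin 4) ≠ 0 by decide, if_false]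
  ring

end Vale.Agent.P225
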