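import Mathlib
import Vale.Agent.P225.Struct
import Vale.Agent.P225.RicModel

/-! Nonnegative Ricci curvature. -/

open scoped ContDiff Matrix Topology BoundedContinuousFunction
open Filter Set

noncomputable section

namespace Vale.Agent.P225

variable {q D : ℕ}

theorem rc_lip {X : Type} [NormedAddCommGroup X] [NormedSpace ℝ X] {K : Set X} (hK : IsCompact K)
    (hc : Convex ℝ K) {f : Fin 4 → Fin 4 → X → ℝ} (hf : ∀ i j, ∀ x ∈ K, ContDiffAt ℝ ∞ (f i j) x) :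
    ∃ L : ℝ, 0 ≤ L ∧ ∀ i j, ∀ x ∈ K, ∀ y ∈ K, |f i j x - f i j y| ≤ L * ‖x - y‖ := by
  have h1 : ∀ i j, ∃ L, LipschitzOnWith L (f i j) K := fun i j =>
    ContDiffOn.exists_lipschitzOnWith (n := ∞) (fun x hx => (hf i j x hx).contDiffWithinAt)
      (by simp) hc hK
  choose L hL using h1
  refine ⟨∑ i, ∑ j, (L i j : ℝ), by positivity, fun i j x hx y hy => ?_⟩
  have h2 := (hL i j).dist_le_mul x hx y hy
  rw [Real.dist_eq, dist_eq_norm] at h2
  refine h2.trans (mul_le_mul_of_nonneg_right ?_ (norm_nonneg _))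
  calc (L i j : ℝ) ≤ ∑ j, (L i j : ℝ) :=
        Finset.single_le_sum (f := fun j => (L i j : ℝ)) (fun _ _ => by positivity)
          (Finset.mem_univ j)
    _ ≤ _ := Finset.single_le_sum (f := fun i => ∑ j, (L i j : ℝ)) (fun _ _ => by positivity)
          (Finset.mem_univ i)

/-- Second order jets. -/
abbrev St2 (D : ℕ) := St D × ℝ × (ℝ × V D)

theorem rc_Sm {z : St2 D} (h : z.1.2.1.1 ≠ 0) (a b : Fin 4) :
    ContDiffAt ℝ ∞ (fun z : St2 D => Sm q z.1.2.1 z.1.2.2.2 a b) z :=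
  (contDiffAt_Sm (q := q) a b (z := (z.1.2.1, z.1.2.2.2)) h).comp z
    (f := fun z : St2 D => (z.1.2.1, z.1.2.2.2)) (by fun_prop)

theorem rc_Si {z : St2 D} (h : z.1.2.1.1 ≠ 0) (a b : Fin 4) :
    ContDiffAt ℝ ∞ (fun z : St2 D => Si q z.1.2.1 z.1.2.2.2 a b) z :=
  (contDiffAt_Si (q := q) a b (z := (z.1.2.1, z.1.2.2.2)) h).comp z
    (f := fun z : St2 D => (z.1.2.1, z.1.2.2.2)) (by fun_prop)

theorem rc_fst {f : St D → ℝ} {z : St2 D} (hf : ContDiffAt ℝ ∞ f z.1) :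
    ContDiffAt ℝ ∞ (fun z : St2 D => f z.1) z :=
  hf.comp z (f := fun z : St2 D => z.1) contDiffAt_fst

theorem rc_Dz {f : St D → ℝ} {z : St2 D} (h : z.1.2.1.1 ≠ 0) (hf : ContDiffAt ℝ ∞ f z.1)
    (d : Fin 4) : ContDiffAt ℝ ∞ (fun z : St2 D => Dz q f z.1 z.2.1 z.2.2 d) z := by
  unfold Dz
  refine ContDiffAt.sum fun μ _ => (rc_Sm h d μ).mul (ContDiffAt.clm_apply ?_ ?_)
  · exact (hf.fderiv_right (m := ∞) le_rfl).comp z (f := fun z : St2 D => z.1) contDiffAt_fst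
  · by_cases hμ : μ = 0
    · simp only [hμ, if_true]; fun_prop
    · simp only [hμ, if_false]
      refine contDiffAt_const.prodMk (contDiffAt_const.prodMk (contDiffAt_const.prodMk ?_))
      exact ((A μ).mulVecLin.toContinuousLinearMap.contDiff.comp
        (f := fun z : St2 D => z.1.2.2.2) (by fun_prop)).contDiffAt

theorem rc_Phi {z : St2 D} (h : z.1.2.1.1 ≠ 0) (i j : Fin 4) :
    ContDiffAt ℝ ∞ (fun z : St2 D => Phi q z.1 z.2.1 z.2.2 i j) z := by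
  have ho := fun a b c => rm_contDiffAt_om (q := q) a b c h
  have hd := fun a => rm_contDiffAt_dv (q := q) a h
  have hk : ContDiffAt ℝ ∞ (fun z : St2 D => z.1.1) z := by fun_prop
  unfold Phi
  refine ContDiffAt.sub (ContDiffAt.add (ContDiffAt.sub (ContDiffAt.sub
    (ContDiffAt.sum fun d _ => (rc_Dz h (ho _ _ _) d).add
      ((rc_fst (ho _ _ _)).mul (rc_fst (hd _)))) (hk.mul (rc_fst (ho _ _ _))))
      (rc_Dz h (hd _) _)) ?_) (ContDiffAt.sum fun a _ => ContDiffAt.sum fun d _ =>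
        (rc_fst (ho _ _ _)).mul (rc_fst (ho _ _ _)))
  split_ifs
  · exact hk.mul (rc_fst (hd _))
  · exact contDiffAt_const

theorem rc_bet {z : St2 D} (h : z.1.2.1.1 ≠ 0) (i j : Fin 4) :
    ContDiffAt ℝ ∞ (fun z : St2 D => bet q i j z.1) z := by
  unfold bet
  exact ContDiffAt.sum fun ν _ => (rc_fst (contDiffAt_ZS (q := q) 0 i ν h)).mul (rc_Si h ν j)

/-- The compact box of jets. -/
def rcBox (D : ℕ) : Set (St2 D) :=
  (Icc 0 1 ×ˢ (Icc (1 / 2) 2 ×ˢ Metric.closedBall 0 1) ×ˢ Metric.closedBall 0 1 ×ˢ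
    Metric.closedBall 0 1) ×ˢ Icc (-1) 0 ×ˢ Metric.closedBall 0 1

theorem rcBox_compact : IsCompact (rcBox D) :=
  (isCompact_Icc.prod ((isCompact_Icc.prod (isCompact_closedBall _ _)).prod
    ((isCompact_closedBall _ _).prod (isCompact_closedBall _ _)))).prod
    (isCompact_Icc.prod (isCompact_closedBall _ _))

theorem rcBox_convex : Convex ℝ (rcBox D) :=
  ((convex_Icc _ _).prod (((convex_Icc _ _).prod (convex_closedBall _ _)).prod
    ((convex_closedBall _ _).prod (convex_closedBall _ _)))).prod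
    ((convex_Icc _ _).prod (convex_closedBall _ _))

theorem rcBox_ne {z : St2 D} (hz : z ∈ rcBox D) : z.1.2.1.1 ≠ 0 := by
  have h : 1 / 2 ≤ z.1.2.1.1 := hz.1.2.1.1.1
  intro h0
  rw [h0] at h
  norm_num at h

theorem phi_lip (q D : ℕ) : ∃ L : ℝ, 0 ≤ L ∧ ∀ (k k' b : ℝ) (P : V D) (π' π'' : ℝ × V D) (y : E),
    k ∈ Icc (0 : ℝ) 1 → k' ∈ Icc (-1 : ℝ) 0 → b ∈ Icc (1 / 2 : ℝ) 2 → ‖P‖ ≤ 1 → ‖π'‖ ≤ 1 →
    ‖π''‖ ≤ 1 → ‖y‖ ≤ 1 →
    (∀ i j, |Phi q ((k, (b, P), π', y) : St D) k' π'' i j -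
      Phi q ((k, (b, 0), 0, y) : St D) k' 0 i j| ≤ L * (‖P‖ + ‖π'‖ + ‖π''‖)) ∧
    -3 * k' - L * (‖P‖ + ‖π'‖ + ‖π''‖) ^ 2 ≤ Phi q ((k, (b, P), π', y) : St D) k' π'' 0 0 := by
  obtain ⟨L1, hL1, h1⟩ := rc_lip (rcBox_compact (D := D)) rcBox_convex
    (f := fun i j z => Phi q z.1 z.2.1 z.2.2 i j) fun i j z hz => rc_Phi (rcBox_ne hz) i j
  obtain ⟨L2, hL2, h2⟩ := rc_lip (rcBox_compact (D := D)) rcBox_convex
    (f := fun i j z => bet q i j z.1) fun i j z hz => rc_bet (rcBox_ne hz) i j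
  refine ⟨L1 + 16 * L2 ^ 2, by positivity, fun k k' b P π' π'' y hk hk' hb hP hπ' hπ'' hy => ?_⟩
  have hz1 : (((k, (b, P), π', y), k', π'') : St2 D) ∈ rcBox D :=
    ⟨⟨hk, ⟨hb, mem_closedBall_zero_iff.2 hP⟩, mem_closedBall_zero_iff.2 hπ',
      mem_closedBall_zero_iff.2 hy⟩, hk', mem_closedBall_zero_iff.2 hπ''⟩
  have hz2 : (((k, (b, 0), 0, y), k', 0) : St2 D) ∈ rcBox D :=
    ⟨⟨hk, ⟨hb, Metric.mem_closedBall_self zero_le_one⟩, Metric.mem_closedBall_self zero_le_one,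
      mem_closedBall_zero_iff.2 hy⟩, hk', Metric.mem_closedBall_self zero_le_one⟩
  have n1 := norm_nonneg P
  have n2 := norm_nonneg π'
  have n3 := norm_nonneg π''
  set η := ‖P‖ + ‖π'‖ + ‖π''‖ with hη
  have hη0 : 0 ≤ η := by positivity
  have hn : ‖(((k, (b, P), π', y), k', π'') : St2 D) - ((k, (b, 0), 0, y), k', 0)‖ ≤ η := by
    simp only [Prod.mk_sub_mk, sub_self, sub_zero, Prod.norm_mk, norm_zero, max_le_iff]
    refine ⟨⟨hη0, ⟨hη0, ?_⟩, ?_, hη0⟩, hη0, ?_⟩ <;> linarith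
  refine ⟨fun i j => (h1 i j _ hz1 _ hz2).trans ?_, ?_⟩
  · have : 0 ≤ 16 * L2 ^ 2 * η := by positivity
    nlinarith [mul_le_mul_of_nonneg_left hn hL1]
  · have h3 : ∀ a c, |bet q a c ((k, (b, P), π', y) : St D)| ≤ L2 * η := fun a c => by
      have h4 := h2 a c _ hz1 _ hz2
      simp only [bet_static, sub_zero] at h4
      exact h4.trans (mul_le_mul_of_nonneg_left hn hL2)
    have h4 : ∀ a c, ((bet q a c ((k, (b, P), π', y) : St D) +
        bet q c a ((k, (b, P), π', y) : St D)) / 2) ^ 2 ≤ (L2 * η) ^ 2 := fun a c => by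
      have h5 := abs_le.1 (h3 a c)
      have h6 := abs_le.1 (h3 c a)
      exact sq_le_sq' (by linarith) (by linarith)
    have h5 := Finset.sum_le_sum (s := Finset.univ) fun a _ =>
      Finset.sum_le_sum (s := Finset.univ) fun c _ => h4 a c
    rw [phi_radial (rcBox_ne hz1)]
    simp only [Finset.sum_const, Finset.card_univ, Fintype.card_fin, nsmul_eq_mul,
      Nat.cast_ofNat] at h5
    have : 0 ≤ L1 * η ^ 2 := by positivity
    nlinarith

theorem rc_pair {a b c e : ℝ} (ha : 0 ≤ a) (hb : 0 ≤ b) (h : e ^ 2 ≤ a * b) (hc : |c| ≤ 2 * e)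
    (x y : ℝ) : 0 ≤ a * x ^ 2 + c * (x * y) + b * y ^ 2 := by
  have h1 : c ^ 2 ≤ 4 * (a * b) := by
    have := abs_le.1 hc
    nlinarith
  have h2 : (c * (x * y)) ^ 2 ≤ (a * x ^ 2 + b * y ^ 2) ^ 2 := by
    have h3 := mul_le_mul_of_nonneg_right h1 (sq_nonneg (x * y))
    nlinarith [sq_nonneg (a * x ^ 2 - b * y ^ 2)]
  have h3 := (abs_le_of_sq_le_sq' h2 (by positivity)).1
  linarith

theorem rc_quad (Φ : Fin 4 → Fin 4 → ℝ) (w : Fin 4 → ℝ) {e δ a : ℝ} (he : 0 ≤ e)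
    (h3 : 3 * e ≤ δ) (ha : 0 ≤ a) (h0 : 3 * a ≤ Φ 0 0) (hA : e ^ 2 ≤ a * δ)
    (hoff : ∀ i j, i ≠ j → |Φ i j| ≤ e) (hd : ∀ i, i ≠ 0 → 2 * δ - e ≤ Φ i i) :
    0 ≤ ∑ i, ∑ j, w i * w j * Φ i j := by
  have hδ : 0 ≤ δ := by linarith
  have hc : ∀ i j, i ≠ j → |Φ i j + Φ j i| ≤ 2 * e := fun i j h =>
    (abs_add_le _ _).trans (by linarith [hoff i j h, hoff j i h.symm])
  have p1 := rc_pair ha hδ hA (hc 0 1 (by decide)) (w 0) (w 1)
  have p2 := rc_pair ha hδ hA (hc 0 2 (by decide)) (w 0) (w 2)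
  have p3 := rc_pair ha hδ hA (hc 0 3 (by decide)) (w 0) (w 3)
  have p4 := rc_pair he he (sq e).le (hc 1 2 (by decide)) (w 1) (w 2)
  have p5 := rc_pair he he (sq e).le (hc 1 3 (by decide)) (w 1) (w 3)
  have p6 := rc_pair he he (sq e).le (hc 2 3 (by decide)) (w 2) (w 3)
  have q0 := mul_nonneg (sub_nonneg.2 h0) (sq_nonneg (w 0))
  have q1 := mul_nonneg (show 0 ≤ Φ 1 1 - δ - 2 * e by linarith [hd 1 (by decide)])
    (sq_nonneg (w 1))
  have q2 := mul_nonneg (show 0 ≤ Φ 2 2 - δ - 2 * e by linarith [hd 2 (by decide)])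
    (sq_nonneg (w 2))
  have q3 := mul_nonneg (show 0 ≤ Φ 3 3 - δ - 2 * e by linarith [hd 3 (by decide)])
    (sq_nonneg (w 3))
  simp only [Fin.sum_univ_four]
  linarith

theorem rc_ric_flat {G : E → Mat} {x : E} (h : ∀ᶠ y in 𝓝 x, G y = 1) (j k : Fin 4) :
    ric G x j k = 0 := by
  have h1 : ∀ᶠ y in 𝓝 x, ∀ a b c, chr G y a b c = 0 := by
    filter_upwards [h.eventually_nhds] with y hy a b c
    have h2 : ∀ i a b, pd i (fun z => G z a b) y = 0 := fun i a b => by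
      have h3 : (fun z => G z a b) =ᶠ[𝓝 y] fun _ => (1 : Mat) a b := by
        filter_upwards [hy] with z hz using by rw [hz]
      simp [pd, h3.fderiv_eq]
    simp [chr, h2]
  have h2 : ∀ i a b c, pd i (fun z => chr G z a b c) x = 0 := fun i a b c => by
    have h3 : (fun z => chr G z a b c) =ᶠ[𝓝 x] fun _ => 0 := by
      filter_upwards [h1] with z hz using hz a b c
    simp [pd, h3.fderiv_eq]
  simp [ric, h2, h1.self_of_nhds]

theorem rc_expand (R : Mat) (f : Fin 4 → E) (w : Fin 4 → ℝ) :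
    ∑ j, ∑ k, R j k * (∑ a, w a • f a) j * (∑ a, w a • f a) k =
      ∑ a, ∑ b, w a * w b * ∑ j, ∑ k, R j k * f a j * f b k := by
  simp only [Fin.sum_univ_four, Pi.add_apply, Pi.smul_apply, smul_eq_mul]
  ring

theorem ric_nonneg (q D : ℕ) {δ : ℝ} (hδ : 0 < δ) : ∃ η > (0 : ℝ), ∃ C : ℝ, ∀ p : Prof D,
    (∀ t, 0 ≤ p.κ t ∧ p.κ t ≤ 1 ∧ -1 ≤ deriv p.κ t ∧ deriv p.κ t ≤ 0 ∧ p.eta t ≤ η ∧
      C * p.eta t ^ 2 ≤ -deriv p.κ t ∧ ((p.eta t = 0 ∧ (p.π t).1 = 1) ∨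
        (p.κ t ^ 2 + δ ≤ ((p.π t).1 ^ 8)⁻¹ ∧
          p.κ t ^ 2 + δ ≤ 2 * ((p.π t).1 ^ 2)⁻¹ - ((p.π t).1 ^ 8)⁻¹))) →
    RicNonneg (met q p) := by
  obtain ⟨L, hL, hlip⟩ := phi_lip q D
  refine ⟨min 1 (δ / (3 * L + 1)), by positivity, L + L ^ 2 / δ, fun p hp x v => ?_⟩
  by_cases hx : x = 0
  · have h : ∀ᶠ y in 𝓝 x, y ⬝ᵥ y < 1 :=
      base_contDiff_dot.continuous.continuousAt.eventually_lt continuousAt_const (by simp [hx])
    have h2 : ∀ᶠ y in 𝓝 x, met q p y = 1 := by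
      filter_upwards [h] with y hy using met_init p hy.le
    simp [rc_ric_flat h2]
  obtain ⟨w, rfl⟩ := frame_span (q := q) p hx v
  have hexp := rc_expand (Matrix.of (ric (met q p) x)) (fun a => frame q p a x) w
  simp only [Matrix.of_apply] at hexp
  rw [hexp]
  simp only [ric_phi p hx, mul_left_comm _ (p.F (tau x) ^ 2)⁻¹, ← Finset.mul_sum]
  refine mul_nonneg (by positivity) ?_
  obtain ⟨k0, k1, k2, k3, he, hC, hcase⟩ := hp (tau x)
  have he1 : p.eta (tau x) ≤ 1 := he.trans (min_le_left _ _)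
  have he2 : p.eta (tau x) ≤ δ / (3 * L + 1) := he.trans (min_le_right _ _)
  rw [le_div_iff₀ (by positivity)] at he2
  have n1 := norm_nonneg (p.π (tau x)).2
  have n2 := norm_nonneg (deriv p.π (tau x))
  have n3 := norm_nonneg (deriv (deriv p.π) (tau x))
  have hη : p.eta (tau x) =
      ‖(p.π (tau x)).2‖ + ‖deriv p.π (tau x)‖ + ‖deriv (deriv p.π) (tau x)‖ := rfl
  obtain ⟨h1, h2⟩ := hlip (p.κ (tau x)) (deriv p.κ (tau x)) (p.π (tau x)).1 (p.π (tau x)).2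
    (deriv p.π (tau x)) (deriv (deriv p.π) (tau x)) (nrm x) ⟨k0, k1⟩ ⟨k2, k3⟩
    ⟨p.b_lo _, p.b_hi _⟩ (p.P_le _) (by linarith) (by linarith) (norm_le_of_dot (nrm_dot hx).le)
  simp only [phi_model _ _ (met_b_ne p (tau x)), ← hη] at h1 h2
  change ∀ i j, |Phi q (p.jet x) _ _ i j - _| ≤ _ at h1
  change _ ≤ Phi q (p.jet x) _ _ 0 0 at h2
  set Φ := Phi q (p.jet x) (deriv p.κ (tau x)) (deriv (deriv p.π) (tau x)) with hΦ
  set η := p.eta (tau x)
  have hη0 : 0 ≤ η := by rw [hη]; positivity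
  have hoff : ∀ i j, i ≠ j → |Φ i j| ≤ L * η := fun i j h => by
    simpa [Matrix.diagonal_apply_ne _ h] using h1 i j
  have d1 := (abs_le.1 (h1 1 1)).1
  have d2 := (abs_le.1 (h1 2 2)).1
  have d3 := (abs_le.1 (h1 3 3)).1
  simp only [Matrix.diagonal_apply_eq, Matrix.cons_val_one, Matrix.cons_val_zero,
    Matrix.cons_val] at d1 d2 d3
  rcases hcase with ⟨h0, hb⟩ | ⟨c1, c2⟩
  · rw [h0] at hoff d1 d2 d3 h2
    rw [hb] at d1 d2 d3
    have hk : p.κ (tau x) ^ 2 ≤ 1 := by nlinarith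
    refine rc_quad Φ w (e := 0) (δ := 0) (a := 0) le_rfl (by simp) le_rfl (by linarith) (by simp)
      (by simpa using hoff) fun i hi => ?_
    norm_num at d1 d2 d3
    fin_cases i
    · exact absurd rfl hi
    all_goals simp; linarith
  · refine rc_quad Φ w (e := L * η) (δ := δ) (a := L ^ 2 / δ * η ^ 2) (by positivity)
      (by nlinarith) (by positivity) ?_ (le_of_eq (by field_simp)) hoff fun i hi => ?_
    · have : 0 ≤ L * η ^ 2 := by positivity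
      nlinarith
    · fin_cases i
      · exact absurd rfl hi
      all_goals simp; linarith

end Vale.Agent.P225
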