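import Mathlib
import Vale.Agent.P225.Lin
import Vale.Agent.P225.Control
import Vale.Agent.P225.Recur
import Vale.Agent.P225.Lanes
import Vale.Agent.P225.Global
import Vale.Agent.P225.Rates
import Vale.Agent.P225.Ric

/-! Steps of the construction: scalar systems, domination, lanes. -/

open scoped ContDiff Matrix Topology BoundedContinuousFunction
open Filter Set

noncomputable section

namespace Vale.Agent.P225

theorem bld_deriv_zero {f : ℝ → ℝ} (hf : Differentiable ℝ f) {a : ℝ} (h : ∀ t ≤ 0, f t = a)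
    {t : ℝ} (ht : t ≤ 0) : deriv f t = 0 := by
  have h1 : HasDerivWithinAt f 0 (Iic t) t :=
    (hasDerivWithinAt_const t (Iic t) a).congr (fun y hy => h y (le_trans hy ht)) (h t ht)
  exact (uniqueDiffWithinAt_Iic t).eq_deriv _ (hf t).hasDerivAt.hasDerivWithinAt h1

theorem bld_sec {s : ℕ} (σ : Sec s) : 1 ≤ σ.1.1 ∧ σ.1.1 < 4 * s + 1 ∧ 1 ≤ σ.1.2 := by
  have := σ.2
  simp only [secs, Finset.mem_product, Finset.mem_Icc] at this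
  omega

variable {s : ℕ} (hs : 10000 ≤ s)
include hs

theorem bld_inv : 0 < 1 / (s : ℝ) ∧ 1 / (s : ℝ) ≤ 1 / 10000 := by
  have : (10000 : ℝ) ≤ s := by exact_mod_cast hs
  exact ⟨by positivity, one_div_le_one_div_of_le (by norm_num) this⟩

theorem bld_c {c : ℝ} (hc : c ∈ Icc (1 - 11 / s : ℝ) (1 - 10 / s)) :
    99 / 100 ≤ c ∧ c ≤ 1 ∧ c ^ 2 ∈ Icc (9 / 10 : ℝ) 1 := by
  obtain ⟨h1, h2⟩ := bld_inv hs
  have e1 : (11 : ℝ) / s = 11 * (1 / s) := by ring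
  have e2 : (10 : ℝ) / s = 10 * (1 / s) := by ring
  obtain ⟨h3, h4⟩ := hc
  have h5 : 99 / 100 ≤ c := by linarith
  have h6 : c ≤ 1 := by linarith
  exact ⟨h5, h6, by nlinarith, by nlinarith⟩

theorem bld_mu {b c : ℝ} (hb : b ∈ Icc (1 - 1 / s : ℝ) (1 + 2 / s))
    (hc : c ∈ Icc (1 - 11 / s : ℝ) (1 - 10 / s)) (σ : Sec s) (n : Ix) :
    1 ≤ mu (4 * s + 1) b c σ.1 n ∧
      mu (4 * s + 1) b c σ.1 n ^ 2 = lam b (mm (4 * s + 1) σ.1 n) σ.1.2 n.2 + c ^ 2 := by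
  have h := (lam_bd hs hb (bld_c hs hc).2.2 (mm (4 * s + 1) σ.1 n) (bld_sec σ).2.2 n.2).1
  have h1 : (1 : ℝ) ≤ lev (mm (4 * s + 1) σ.1 n) σ.1.2 n.2 := by
    have := (bld_sec σ).2.2
    exact_mod_cast (show 1 ≤ lev (mm (4 * s + 1) σ.1 n) σ.1.2 n.2 by unfold lev; omega)
  have h2 : 1 ≤ lam b (mm (4 * s + 1) σ.1 n) σ.1.2 n.2 + c ^ 2 := by nlinarith
  exact ⟨Real.one_le_sqrt.mpr h2, Real.sq_sqrt (by linarith)⟩

theorem bld_sys {b κ : ℝ → ℝ} (hb : Continuous b) (hκ : ContDiff ℝ ∞ κ)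
    (hb1 : ∀ t, b t ∈ Icc (1 - 1 / s : ℝ) (1 + 2 / s)) (hb0 : ∀ t ≤ 0, b t = 1)
    (hκ0 : ∀ t ≤ 0, κ t = 1) (hκ1 : ∀ t, κ t ^ 2 + deriv κ t ∈ Icc (9 / 10 : ℝ) 1) :
    ∃ Sy : Sec s → Sys Ix, ∀ σ n, (Sy σ).Λ n = lv (4 * s + 1) σ.1 n + 1 ∧ ∀ t, (Sy σ).q n t =
      lam (b t) (mm (4 * s + 1) σ.1 n) σ.1.2 n.2 + (κ t ^ 2 + deriv κ t) := by
  have hne : ∀ t, b t ^ 2 ≠ 0 := fun t => by
    have := (hb1 t).1
    have := (bld_inv hs).2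
    exact pow_ne_zero _ (by linarith)
  have H : ∀ σ : Sec s, ∃ S : Sys Ix, S.Λ = (fun n => (lv (4 * s + 1) σ.1 n : ℝ) + 1) ∧
      S.q = fun n t => lam (b t) (mm (4 * s + 1) σ.1 n) σ.1.2 n.2 + (κ t ^ 2 + deriv κ t) := by
    intro σ
    refine exists_sys _ _ (fun n => by linarith [Nat.cast_nonneg (α := ℝ) (lv (4 * s + 1) σ.1 n)])
      (fun n => ?_) (fun n t => (lam_bd hs (hb1 t) (hκ1 t) _ (bld_sec σ).2.2 n.2).1)
      (fun n t => (lam_bd hs (hb1 t) (hκ1 t) _ (bld_sec σ).2.2 n.2).2) fun n t ht => ?_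
    · have h1 : Continuous (deriv κ) := hκ.continuous_deriv (by simp)
      have h2 : Continuous κ := hκ.continuous
      have h3 : Continuous fun t => (b t ^ 2)⁻¹ := (hb.pow 2).inv₀ hne
      unfold lam bX bZ
      fun_prop
    · rw [hb0 t ht, hκ0 t ht, bld_deriv_zero (hκ.differentiable (by simp)) hκ0 ht]
      simp only [lam, bX, bZ, lv]
      ring
  choose Sy h1 h2 using H
  exact ⟨Sy, fun σ n => ⟨by rw [h1], fun t => by rw [h2]⟩⟩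

theorem bld_dom {b0 c : ℝ} (hb : b0 ∈ Icc (1 + 1 / s : ℝ) (1 + 2 / s))
    (hc : c ∈ Icc (1 - 11 / s : ℝ) (1 - 10 / s)) (sc : Sch) (hM1 : 30 * (10 * (s : ℝ) + 1) ≤ sc.M1)
    (σ : Sec s) (S : Sys Ix) (hΛ : ∀ n, S.Λ n = lv (4 * s + 1) σ.1 n + 1)
    (hbase : ∀ n i, ∀ r ∈ Icc (sc.u i) (sc.u i + (sc.M3 + 2) * sc.T i),
      |S.q n r - mu (4 * s + 1) b0 c σ.1 n ^ 2| ≤ 1 / 100)
    (hfar : ∀ n i, ∀ r ∈ Icc (sc.u i + (sc.M3 + 3) * sc.T i) (sc.u i + (sc.M3 + 3 + sc.M1) * sc.T i),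
      |S.q n r - mu (4 * s + 1) (1 - 1 / s) c σ.1 n ^ 2| ≤ 1 / 100) (i : ℕ) :
    ∀ a ∈ B1 s σ, trn s σ.1 i a ≠ a → a.1 = 0 →
      S.Dom sc.t (fun i => (sc.T i)⁻¹) i a (trn s σ.1 i a) := by
  intro a ha hne h0
  obtain ⟨h1, h2⟩ := bld_inv hs
  have e2 : (2 : ℝ) / s = 2 * (1 / s) := by ring
  obtain ⟨h3, h4⟩ := cross hs hb hc σ.2 i hne h0
  have hL : S.Λ a ≤ 10 * (s : ℝ) + 1 := by
    rw [hΛ]
    have : (lv (4 * s + 1) σ.1 a : ℝ) ≤ (10 * s : ℕ) := by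
      exact_mod_cast (mem_Bk (bld_sec σ).1 (bld_sec σ).2.1).mp ha
    push_cast at this
    linarith
  exact dom_of_rates sc S hM1 i hL (bld_mu hs ⟨by linarith [hb.1], hb.2⟩ hc σ _).1
    (bld_mu hs ⟨le_rfl, by linarith⟩ hc σ _).1 h3 h4
    (fun r hr => ⟨hbase _ i r hr, hbase _ i r hr⟩) fun r hr => ⟨hfar _ i r hr, hfar _ i r hr⟩

theorem bld_prod {b0 c : ℝ} (hb : b0 ∈ Icc (1 + 1 / s : ℝ) (1 + 2 / s))
    (hc : c ∈ Icc (1 - 11 / s : ℝ) (1 - 10 / s)) (sc : Sch)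
    (hM3 : 2 * (10 * (s : ℝ) + 1) * (sc.M1 + 6) + 32 ≤ sc.M3) (σ : Sec s) (S : Sys Ix)
    (hbase : ∀ n i, ∀ r ∈ Icc (sc.u i) (sc.u i + (sc.M3 + 2) * sc.T i),
      |S.q n r - mu (4 * s + 1) b0 c σ.1 n ^ 2| ≤ 1 / 100) {n : Ix} (hn : n ∈ Gd s σ.1) :
    ∃ C : ℝ, ∀ j, ∏ i ∈ Finset.range (j / 3 + 1),
      S.Gf sc.t (fun i => (sc.T i)⁻¹) (10 * s + 1) (lane (trn s σ.1) n i) i ≤
        C * Real.exp (((8 * s + 1) * c - 1) * sc.t j) := by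
  obtain ⟨h1, h2⟩ := bld_inv hs
  have hsR : (10000 : ℝ) ≤ s := by exact_mod_cast hs
  obtain ⟨Φ, H, hΦ⟩ := exists_potential hs hb hc σ.2
  have hl : ∀ i, lane (trn s σ.1) n i ∈ Gd s σ.1 := by
    intro i
    induction i with
    | zero => exact hn
    | succ i ih => exact trn_Gd σ.2 i ih
  refine prod_Gf_le sc S (H := H) (by linarith) hM3 (by nlinarith [(bld_c hs hc).1])
    (lane (trn s σ.1) n) (fun i => mu (4 * s + 1) b0 c σ.1 (lane (trn s σ.1) n i))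
    (fun i => Φ i (lane (trn s σ.1) n i))
    (fun i => (bld_mu hs ⟨by linarith [hb.1], hb.2⟩ hc σ _).1)
    (fun i => ⟨(hΦ i _ (hl i)).1, (hΦ i _ (hl i)).2.1⟩) (fun i => ?_) fun i r hr => hbase _ i r hr
  have := (hΦ i _ (hl i)).2.2
  simp only [lane]
  linarith

end Vale.Agent.P225
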