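import Mathlib
import Vale.Agent.P225.BuildA

/-! Steps of the construction: the radial solutions. -/

open scoped ContDiff Matrix Topology BoundedContinuousFunction
open Filter Set

noncomputable section

namespace Vale.Agent.P225

theorem bld_row {T : Type} [Fintype T] {N : Ix → Finset Ix} {β : T → Ix → Ix → ℝ}
    (hβ : ∀ n, ∑ a, ∑ m ∈ N n, |β a n m| ≤ 1) (k : ℝ → T → ℝ) (t : ℝ) (n : Ix) :
    ∑ m ∈ N n, |cpl β k t n m| ≤ ‖k t‖ := by
  calc ∑ m ∈ N n, |cpl β k t n m| ≤ ∑ m ∈ N n, ∑ a, ‖k t‖ * |β a n m| := by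
        refine Finset.sum_le_sum fun m _ => (Finset.abs_sum_le_sum_abs _ _).trans
          (Finset.sum_le_sum fun a _ => ?_)
        rw [abs_mul]
        exact mul_le_mul_of_nonneg_right (norm_le_pi_norm (k t) a) (abs_nonneg _)
    _ = ‖k t‖ * ∑ a, ∑ m ∈ N n, |β a n m| := by
        rw [Finset.sum_comm, Finset.mul_sum]
        simp only [Finset.mul_sum]
    _ ≤ ‖k t‖ := mul_le_of_le_one_right (norm_nonneg _) (hβ n)

/-- From the recursive data of one sector to a global solution. -/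
theorem bld_sol {C θ : ℝ} (hθ : 1 ≤ θ) : ∃ T : ℝ, ∀ (sc : Sch) (S : Sys Ix) (N : Ix → Finset Ix)
    (c : ℝ → Ix → Ix → ℝ) (B B' : Finset Ix) (τ : ℕ → Ix → Ix) (L : ℝ) (Eo No : ℕ → W →L[ℝ] W)
    (R : ℕ → Ix → W →L[ℝ] ℝ) (d : ℕ → Ix → ℝ) (n : Ix), T ≤ sc.T 0 → B ⊆ B' →
    (∀ n m, Continuous fun r => c r n m) → (∀ r ≤ sc.t 0, c r = 0) →
    (∀ j, ∀ r ∈ Icc (sc.t j) (sc.t (j + 1) - 1), c r = 0) → (∀ m ∈ B, S.Λ m ≤ L) →
    (∀ m ∉ B, θ + 2 ≤ 9 / 10 * S.Λ m) → (∀ i, Match B (fun m => m.1 = 0) (τ i)) → Eo 0 = 0 →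
    (∀ m x, R 0 m x = x m) → (∀ j, Good B B' C (Eo j) (R j) ∧
      Step S N c B (sc.t j) (sc.t (j + 1)) (Eo j) (R j) (Eo (j + 1)) (R (j + 1)) (No j) (τ (j / 3))
        (strat (τ (j / 3)) (fun m => m.1 = 0) (sc.T (j / 3))⁻¹ j (S.Dw sc.t (j - 1)) (S.Dw sc.t j)
          (d (j - 2)) (d (j - 1))) (d j)) → n ∈ B →
    (∃ K : ℝ, ∀ j, ∏ i ∈ Finset.range (j / 3 + 1),
      S.Gf sc.t (fun i => (sc.T i)⁻¹) L (lane τ n i) i ≤ K * Real.exp (θ * sc.t j)) →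
    ∃ (a : Ix → ℝ) (v v' : Ix → ℝ → ℝ), a n ≠ 0 ∧ (∀ m ∈ B, m ≠ n → a m = 0) ∧
      (∀ n r, HasDerivAt (v n) (v' n r) r) ∧
      (∀ n r, HasDerivAt (v' n) (S.q n r * v n r + S.src N c v n r) r) ∧
      (∀ n, ∀ r ≤ 0, v n r = a n * Real.exp (S.Λ n * r)) ∧
      ∃ C' : ℝ, ∀ n r, |v n r| ≤ C' * Real.exp ((θ + 1) * max r 0) ∧
        |v' n r| ≤ C' * S.Λ n * Real.exp ((θ + 1) * max r 0) := by
  obtain ⟨T, hT⟩ := primal C θ
  refine ⟨T, fun sc S N c B B' τ L Eo No R d n hT0 hBB hc hc0 hc1 hL hH hτ hE0 hR0 hS hn hK => ?_⟩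
  obtain ⟨K, hK⟩ := hK
  have hTi : ∀ i, 400 ≤ sc.T i := sc.T_ge
  have ht : ∀ j, sc.t j + 1 ≤ sc.t (j + 1) := fun j => by linarith [sc.t_step j, hTi (j / 3)]
  have ht0 : 0 ≤ sc.t 0 := by
    have := sc.t_zero 0
    simp only [Sch.u, Finset.range_zero, Finset.sum_empty, mul_zero, add_zero] at this
    linarith [sc.τ_ge, hTi 0]
  obtain ⟨z, hz0, hz1, hz2⟩ := lanes S B sc.t (fun i => (sc.T i)⁻¹) τ (fun m => m.1 = 0)
    (fun i => inv_pos.mpr (by linarith [hTi i]))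
    (fun i => inv_le_one_of_one_le₀ (by linarith [hTi i])) hτ ht hL d
    (fun j m hm => ⟨(hS j).2.d_lo m hm, (hS j).2.d_hi m hm⟩) hn
  obtain ⟨x, hx, hx0, K', hK'⟩ := hT S N (fun _ => c) B B' sc.t Eo No R (fun j => τ (j / 3)) _ d z K
    hBB (fun j => by linarith [sc.t_step j, sc.T_mono (Nat.zero_le (j / 3))]) hH hR0
    (fun j => (hS j).1) (fun j => (hS j).2) (fun j => (hτ _).mem) hz1
    fun j m hm => (hz2 j m hm).trans (hK j)
  obtain ⟨C0, hC0⟩ := sc.gap_small (δ := 1 / θ) (by positivity)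
  obtain ⟨v, v', h1, h2, h3, h4⟩ := global_sol S N c hc B sc.t ht0 ht hc0 hc1 Eo No R _ _ d hE0
    (fun j => (hS j).1.E_le) (fun j => (hS j).2) x hx (θ := θ + 1)
    (C := |K'| * Real.exp (θ * C0)) (by linarith) (fun j => by
      refine (hK' (j + 1)).trans ?_
      rw [mul_assoc, ← Real.exp_add]
      refine mul_le_mul (le_abs_self _) (Real.exp_le_exp.mpr ?_) (Real.exp_pos _).le (abs_nonneg _)
      have h5 := mul_le_mul_of_nonneg_left (hC0 j) (show 0 ≤ θ by linarith)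
      have h6 : θ * (1 / θ * sc.t j + C0) = sc.t j + θ * C0 := by field_simp
      nlinarith)
  refine ⟨fun m => x 0 m / S.ψ m (sc.t 0), v, v', ?_, fun m hm hne => ?_, h1, h2, h3, h4⟩
  · simp only [hx0 n hn, hz0, if_true]
    exact div_ne_zero one_ne_zero (S.ψ_pos _ _).ne'
  · simp only [hx0 m hm, hz0, if_neg hne, zero_div]

/-- The size of the deviation from a static cone. -/
theorem bld_eta {D : ℕ} (p : Prof D) {b : ℝ → ℝ} {P : ℝ → V D} (hb : ContDiff ℝ ∞ b)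
    (hP : ContDiff ℝ ∞ P) (h : p.π = fun t => (b t, P t)) (t : ℝ) :
    p.eta t ≤ ‖P t‖ + (|deriv b t| + ‖deriv P t‖) +
      (|deriv (deriv b) t| + ‖deriv (deriv P) t‖) := by
  have e : ∀ {b : ℝ → ℝ} {P : ℝ → V D}, Differentiable ℝ b → Differentiable ℝ P →
      deriv (fun t => (b t, P t)) = fun t => (deriv b t, deriv P t) := fun hb hP =>
    funext fun t => ((hb t).hasDerivAt.prodMk (hP t).hasDerivAt).deriv
  have hb' : Differentiable ℝ (deriv b) := ((contDiff_infty_iff_deriv.mp hb).2).differentiable (by simp)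
  have hP' : Differentiable ℝ (deriv P) := ((contDiff_infty_iff_deriv.mp hP).2).differentiable (by simp)
  have n : ∀ (u : ℝ) (w : V D), ‖(u, w)‖ ≤ |u| + ‖w‖ := fun u w => by
    rw [Prod.norm_def]
    exact max_le (by simp) (by simp)
  unfold Prof.eta
  rw [h, e (hb.differentiable (by simp)) (hP.differentiable (by simp)), e hb' hP']
  exact add_le_add (add_le_add le_rfl (n _ _)) (n _ _)

end Vale.Agent.P225
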