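import Mathlib
import Vale.Agent.P225.BuildB

/-! Steps of the construction: the controls. -/

open scoped ContDiff Matrix Topology BoundedContinuousFunction
open Filter Set

noncomputable section

namespace Vale.Agent.P225

/-- The pulses, for a given schedule and given scalar systems. -/
theorem bld_ctrl {s : ℕ} (hs : 10000 ≤ s) {b0 c : ℝ} (hb : b0 ∈ Icc (1 + 1 / s : ℝ) (1 + 2 / s))
    (hc : c ∈ Icc (1 - 11 / s : ℝ) (1 - 10 / s)) (N : Ix → Finset Ix) {T : Type} [Fintype T]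
    (β : ℕ × ℕ → T → Ix → Ix → ℝ) (hβ : ∀ σ n, ∑ a, ∑ m ∈ N n, |β σ a n m| ≤ 1) (K : ℝ) {r₀ : ℝ}
    (hr : 0 < r₀) : ∃ T₀ C : ℝ, ∀ (sc : Sch) (Sy : Sec s → Sys Ix)
      (k : ℕ → (prs (B1 s) (B2 s) → ℝ) → ℝ →ᵇ (T → ℝ)), T₀ ≤ sc.T 0 →
      30 * (10 * (s : ℝ) + 1) ≤ sc.M1 → (∀ σ n, (Sy σ).Λ n = lv (4 * s + 1) σ.1 n + 1) →
      (∀ σ n i, ∀ r ∈ Icc (sc.u i) (sc.u i + (sc.M3 + 2) * sc.T i),
        |(Sy σ).q n r - mu (4 * s + 1) b0 c σ.1 n ^ 2| ≤ 1 / 100) →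
      (∀ σ n i,
        ∀ r ∈ Icc (sc.u i + (sc.M3 + 3) * sc.T i) (sc.u i + (sc.M3 + 3 + sc.M1) * sc.T i),
        |(Sy σ).q n r - mu (4 * s + 1) (1 - 1 / s) c σ.1 n ^ 2| ≤ 1 / 100) →
      (∀ j, Continuous (k j) ∧ ∀ p, ‖p‖ ≤ r₀ → ‖k j p‖ ≤ K * ‖p‖ ∧ ∀ z : prs (B1 s) (B2 s),
        |p z + ∫ r in sc.t (j + 1) - 1..sc.t (j + 1),
          (Sy z.1.1).ker (sc.t (j + 1) - 1) z.1.2.1 z.1.2.2 r * (if z.1.2.2 ∈ N z.1.2.1 then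
            cpl (β z.1.1.1) (k j p) r z.1.2.1 z.1.2.2 else 0)| ≤ ‖p‖ / 4) →
      ∃ p : ℕ → prs (B1 s) (B2 s) → ℝ, (∀ j, ‖p j‖ ≤ r₀ ∧ ‖p j‖ ≤ 4 * (sc.T (j / 3))⁻¹) ∧
        ∀ σ : Sec s, ∃ (Eo No : ℕ → W →L[ℝ] W) (R : ℕ → Ix → W →L[ℝ] ℝ) (d : ℕ → Ix → ℝ),
          Eo 0 = 0 ∧ (∀ m x, R 0 m x = x m) ∧ ∀ j, Good (B1 s σ) (B2 s σ) C (Eo j) (R j) ∧
            Step (Sy σ) N (cpl (β σ.1) (k j (p j))) (B1 s σ) (sc.t j) (sc.t (j + 1)) (Eo j) (R j)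
              (Eo (j + 1)) (R (j + 1)) (No j) (trn s σ.1 (j / 3))
              (strat (trn s σ.1 (j / 3)) (fun m => m.1 = 0) (sc.T (j / 3))⁻¹ j
                ((Sy σ).Dw sc.t (j - 1)) ((Sy σ).Dw sc.t j) (d (j - 2)) (d (j - 1))) (d j) := by
  have hBB : ∀ σ, B1 s σ ⊆ B2 s σ := fun σ n hn =>
    (mem_Bk (bld_sec σ).1 (bld_sec σ).2.1).mpr
      (((mem_Bk (bld_sec σ).1 (bld_sec σ).2.1).mp hn).trans (by omega))
  obtain ⟨ε₀, hε₀, T₀, C, hC, H⟩ := control_step (B1 s) (B2 s) hBB N (fun σ => β σ.1)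
    (fun σ => hβ σ.1) (10 * s + 1) K
  refine ⟨max T₀ (max ε₀⁻¹ (4 / r₀)), C, fun sc Sy k hT hM1 hΛ hbase hfar hk => ?_⟩
  have hTi : ∀ i, 400 ≤ sc.T i := sc.T_ge
  have hT0 : ∀ i, sc.T 0 ≤ sc.T i := fun i => sc.T_mono (Nat.zero_le i)
  have hpos : ∀ i, 0 < (sc.T i)⁻¹ := fun i => inv_pos.mpr (by linarith [hTi i])
  have hr4 : ∀ i, 4 * (sc.T i)⁻¹ ≤ r₀ := fun i => by
    have h1 : 4 / r₀ ≤ sc.T i :=
      ((le_max_right _ _).trans (le_max_right _ _)).trans (hT.trans (hT0 i))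
    rw [div_le_iff₀ hr] at h1
    rw [← div_eq_mul_inv, div_le_iff₀ (by linarith [hTi i])]
    linarith
  have hsR : (10000 : ℝ) ≤ s := by exact_mod_cast hs
  have hL : ∀ σ, ∀ m ∈ B1 s σ, (Sy σ).Λ m ≤ 10 * (s : ℝ) + 1 := fun σ m hm => by
    rw [hΛ]
    have : (lv (4 * s + 1) σ.1 m : ℝ) ≤ (10 * s : ℕ) := by
      exact_mod_cast (mem_Bk (bld_sec σ).1 (bld_sec σ).2.1).mp hm
    push_cast at this
    linarith
  obtain ⟨p, hp, h⟩ := recursion Sy (B1 s) (B2 s) N hC sc.t (fun j => (sc.T (j / 3))⁻¹)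
    (fun j σ => trn s σ.1 (j / 3)) (fun j p σ => cpl (β σ.1) (k j p))
    (fun j p => ‖p‖ ≤ 4 * (sc.T (j / 3))⁻¹)
    (fun j σ d0 d1 => strat (trn s σ.1 (j / 3)) (fun m => m.1 = 0) (sc.T (j / 3))⁻¹ j
      ((Sy σ).Dw sc.t (j - 1)) ((Sy σ).Dw sc.t j) d0 d1)
    (fun σ d0 d1 d0' d1' => by funext m; simp [strat])
    (fun j σ d0 d1 h1 h0 => strat_target (Sy σ) (B1 s σ) sc.t (fun i => (sc.T i)⁻¹) (trn s σ.1)
      (fun m => m.1 = 0) hpos (fun i => trn_match σ.2 i)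
      (bld_dom hs hb hc sc hM1 σ (Sy σ) (hΛ σ) (hbase σ) (hfar σ)) j d0 d1 h1 h0)
    (fun j Eo R hG y hy => H Sy hL (fun σ m hm h hh => by
        have h1 := hL σ m hm
        have h2 : ((20 * s + 1 : ℕ) : ℝ) ≤ lv (4 * s + 1) σ.1 h := by
          exact_mod_cast Nat.succ_le_of_lt (not_le.mp fun h' =>
            hh ((mem_Bk (bld_sec σ).1 (bld_sec σ).2.1).mpr h'))
        push_cast at h2
        rw [hΛ σ h]
        linarith) _ _ _ (hpos _).le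
      (inv_le_of_inv_le₀ hε₀ (((le_max_left _ _).trans (le_max_right _ _)).trans
        (hT.trans (hT0 _))))
      (by linarith [sc.t_step j, hT0 (j / 3), le_max_left T₀ (max ε₀⁻¹ (4 / r₀))]) (k j)
      (hk j).1.continuousOn (fun p hp => (hk j).2 p (hp.trans (hr4 _))) Eo R hG _ y hy)
  exact ⟨p, fun j => ⟨(hp j).trans (hr4 _), hp j⟩, h⟩

end Vale.Agent.P225
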