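import Mathlib
import Vale.Agent.P225.BuildB

/-! Steps of the construction: the curvature condition. -/

open scoped ContDiff Matrix Topology BoundedContinuousFunction
open Filter Set

noncomputable section

namespace Vale.Agent.P225

theorem bld_ric {s : ℕ} (hs : 10000 ≤ s) {D : ℕ} {η CR : ℝ} (p : Prof D) (sc : Sch) {b : ℝ → ℝ}
    {P : ℝ → V D} (hb : ContDiff ℝ ∞ b) (hP : ContDiff ℝ ∞ P) (h : p.π = fun t => (b t, P t))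
    {c a Cb CP : ℝ} (hc : c ∈ Icc (1 - 11 / s : ℝ) (1 - 10 / s)) (hη : 0 < η) (hCb : 0 ≤ Cb)
    (hCP : 0 ≤ CP)
    (hκ : ∀ t, c ≤ p.κ t ∧ p.κ t ≤ 1 ∧ -(1 / 20) ≤ deriv p.κ t ∧ deriv p.κ t ≤ 0)
    (hκ' : ∀ t, sc.τ ≤ t → p.κ t ≤ c + 1 / s ∧ a * t ^ (-(5 / 4) : ℝ) ≤ -deriv p.κ t)
    (hb1 : ∀ t, b t ∈ Icc (1 - 1 / s : ℝ) (1 + 2 / s))
    (hb2 : ∀ r ≤ sc.τ, b r = 1 ∧ deriv b r = 0 ∧ deriv (deriv b) r = 0)
    (hb3 : ∀ r ≤ sc.u 0, |deriv b r| ≤ Cb / sc.T 0 ∧ |deriv (deriv b) r| ≤ Cb / sc.T 0)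
    (hb4 : ∀ i, ∀ r ∈ Icc (sc.u i) (sc.u (i + 1)),
      |deriv b r| ≤ Cb / sc.T i ∧ |deriv (deriv b) r| ≤ Cb / sc.T i)
    (hP1 : ∀ r ≤ sc.t 0, P r = 0 ∧ deriv P r = 0 ∧ deriv (deriv P) r = 0)
    (hP2 : ∀ j, ∀ r ∈ Icc (sc.t j) (sc.t (j + 1)), ‖P r‖ ≤ CP / sc.T (j / 3) ∧
      ‖deriv P r‖ ≤ CP / sc.T (j / 3) ∧ ‖deriv (deriv P) r‖ ≤ CP / sc.T (j / 3))
    (hT : (3 * CP + 2 * Cb) / η ≤ sc.T 0)
    (hd : ∀ i, ∀ r ∈ Icc 1 (sc.u (i + 1)),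
      |CR| * (3 * CP + 2 * Cb) ^ 2 / sc.T i ^ 2 ≤ a * r ^ (-(5 / 4) : ℝ)) (t : ℝ) :
    0 ≤ p.κ t ∧ p.κ t ≤ 1 ∧ -1 ≤ deriv p.κ t ∧ deriv p.κ t ≤ 0 ∧ p.eta t ≤ η ∧
      CR * p.eta t ^ 2 ≤ -deriv p.κ t ∧ ((p.eta t = 0 ∧ (p.π t).1 = 1) ∨
        (p.κ t ^ 2 + 1 / s ≤ ((p.π t).1 ^ 8)⁻¹ ∧
          p.κ t ^ 2 + 1 / s ≤ 2 * ((p.π t).1 ^ 2)⁻¹ - ((p.π t).1 ^ 8)⁻¹)) := by
  obtain ⟨k1, k2, k3, k4⟩ := hκ t
  have hc0 := (bld_c hs hc).1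
  have hTi : ∀ i, 400 ≤ sc.T i := sc.T_ge
  have he := bld_eta p hb hP h t
  have he0 : 0 ≤ p.eta t := by unfold Prof.eta; positivity
  have hu0 : sc.t 0 = sc.u 0 := sc.t_zero 0
  have hu1 : sc.τ ≤ sc.u 0 := by
    simp only [Sch.u, Finset.range_zero, Finset.sum_empty, mul_zero, add_zero]
    linarith [hTi 0]
  refine ⟨by linarith, k2, by linarith, k4, ?_⟩
  rcases le_total t sc.τ with ht | ht
  · obtain ⟨a1, a2, a3⟩ := hb2 t ht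
    obtain ⟨a4, a5, a6⟩ := hP1 t (by linarith)
    rw [a2, a3, a4, a5, a6] at he
    have h0 : p.eta t = 0 := le_antisymm (by simpa using he) he0
    rw [h0]
    exact ⟨hη.le, by linarith, Or.inl ⟨rfl, by rw [h]; exact a1⟩⟩
  · obtain ⟨i, hi, hle⟩ : ∃ i, t ≤ sc.u (i + 1) ∧ p.eta t ≤ (3 * CP + 2 * Cb) / sc.T i := by
      rcases le_total t (sc.t 0) with h0 | h0
      · obtain ⟨a4, a5, a6⟩ := hP1 t h0
        obtain ⟨a1, a2⟩ := hb3 t (by linarith)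
        have h1 := sc.u_succ 0
        have h2 : 0 ≤ (sc.M3 + sc.M1 + 5) * sc.T 0 :=
          mul_nonneg (by linarith [sc.M1_ge, sc.M3_ge]) (by linarith [hTi 0])
        refine ⟨0, by linarith, ?_⟩
        rw [a4, a5, a6, norm_zero] at he
        have h3 : 0 ≤ CP / sc.T 0 := div_nonneg hCP (by linarith [hTi 0])
        have e : (3 * CP + 2 * Cb) / sc.T 0 = 3 * (CP / sc.T 0) + 2 * (Cb / sc.T 0) := by ring
        linarith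
      · obtain ⟨j, hj⟩ := sc.cover h0
        obtain ⟨a4, a5, a6⟩ := hP2 j t hj
        have h1 := hj.2.trans (sc.t_le_u j)
        obtain ⟨a1, a2⟩ := hb4 (j / 3) t ⟨(sc.u_le_t j).trans hj.1, h1⟩
        refine ⟨j / 3, h1, ?_⟩
        have e : (3 * CP + 2 * Cb) / sc.T (j / 3) =
          3 * (CP / sc.T (j / 3)) + 2 * (Cb / sc.T (j / 3)) := by ring
        linarith
    obtain ⟨k5, k6⟩ := hκ' t ht
    have hT' : (3 * CP + 2 * Cb) / η ≤ sc.T i := hT.trans (sc.T_mono (Nat.zero_le i))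
    refine ⟨hle.trans ?_, ?_, Or.inr ?_⟩
    · rw [div_le_iff₀ hη] at hT'
      rw [div_le_iff₀ (by linarith [hTi i])]
      linarith
    · refine le_trans ?_ ((hd i t ⟨sc.τ_ge.trans ht, hi⟩).trans k6)
      rw [mul_div_assoc, ← div_pow]
      exact mul_le_mul (le_abs_self _) (pow_le_pow_left₀ he0 hle 2) (by positivity) (abs_nonneg _)
    · rw [h]
      have e1 : (9 : ℝ) / s = 10 / s - 1 / s := by ring
      exact ric_margin hs (hb1 t) (by linarith) (by linarith [hc.2])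

end Vale.Agent.P225
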