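import Mathlib
import Vale.Agent.P225.BuildB

/-! Steps of the construction: the pulses and the radial system. -/

open scoped ContDiff Matrix Topology BoundedContinuousFunction
open Filter Set

noncomputable section

namespace Vale.Agent.P225

theorem bld_pulses {ι : Type} [Fintype ι] {D : ℕ} (f : ι → ℝ → V D) (hf : ∀ z, ContDiff ℝ ∞ (f z))
    (hf0 : ∀ z, ∀ r ≤ 0, f z r = 0) (hf1 : ∀ z, ∀ r ≥ 1, f z r = 0) {K : ℝ} (hK : 0 ≤ K) :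
    ∃ C : ℝ, 0 ≤ C ∧ ∀ (sc : Sch) (p : ℕ → ι → ℝ), (∀ j, ‖p j‖ ≤ 4 * (sc.T (j / 3))⁻¹) →
      C * (1 + K) ≤ sc.T 0 → ∃ P : ℝ → V D, ContDiff ℝ ∞ P ∧
        (∀ r ≤ sc.t 0, P r = 0 ∧ deriv P r = 0 ∧ deriv (deriv P) r = 0) ∧
        (∀ j, ∀ r ∈ Icc (sc.t (j + 1) - 1) (sc.t (j + 1)),
          P r = ∑ z, p j z • f z (r - (sc.t (j + 1) - 1))) ∧
        (∀ j, ∀ r ∈ Icc (sc.t j) (sc.t (j + 1)), ‖P r‖ ≤ C / sc.T (j / 3) ∧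
          ‖deriv P r‖ ≤ C / sc.T (j / 3) ∧ ‖deriv (deriv P) r‖ ≤ C / sc.T (j / 3)) ∧
        (∀ r, ‖P r‖ ≤ 1 ∧ K * ‖P r‖ ≤ 1) ∧
        ∀ j, ∀ r ∈ Icc (sc.t j) (sc.t (j + 1) - 1), P r = 0 := by
  obtain ⟨CP, hCP, hf2, hpul⟩ := exists_pulses f hf hf0 hf1
  refine ⟨4 * CP, by positivity, fun sc pp hpp hT => ?_⟩
  have hTi : ∀ i, 400 ≤ sc.T i := sc.T_ge
  have hT0 : ∀ i, sc.T 0 ≤ sc.T i := fun i => sc.T_mono (Nat.zero_le i)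
  have ht : ∀ j, sc.t j + 1 ≤ sc.t (j + 1) := fun j => by linarith [sc.t_step j, hTi (j / 3)]
  obtain ⟨P, hP0, hP1, hP2⟩ := hpul sc.t pp ht
  have hP3 : ∀ j, ∀ r ∈ Icc (sc.t j) (sc.t (j + 1)), ‖P r‖ ≤ 4 * CP / sc.T (j / 3) ∧
      ‖deriv P r‖ ≤ 4 * CP / sc.T (j / 3) ∧ ‖deriv (deriv P) r‖ ≤ 4 * CP / sc.T (j / 3) := by
    intro j r hr
    obtain ⟨a1, a2, a3⟩ := hP2 j r hr
    have h1 : CP * ‖pp j‖ ≤ 4 * CP / sc.T (j / 3) :=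
      (mul_le_mul_of_nonneg_left (hpp j) hCP).trans (le_of_eq (by ring))
    exact ⟨a1 ▸ (hf2 _ _).trans h1, a2.trans h1, a3.trans h1⟩
  have hP4 : ∀ r, (1 + K) * ‖P r‖ ≤ 1 := by
    intro r
    rcases le_total r (sc.t 0) with h | h
    · simp [(hP1 r h).1]
    · obtain ⟨j, hj⟩ := sc.cover h
      refine (mul_le_mul_of_nonneg_left (hP3 j r hj).1 (by linarith)).trans ?_
      rw [← mul_div_assoc, div_le_one (by linarith [hTi (j / 3)])]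
      linarith [hT0 (j / 3)]
  refine ⟨P, hP0, hP1, fun j r hr => (hP2 j r ⟨by linarith [hr.1, ht j], hr.2⟩).1, hP3,
    fun r => ⟨?_, ?_⟩, fun j r hr => ?_⟩
  · nlinarith [hP4 r, norm_nonneg (P r)]
  · nlinarith [hP4 r, norm_nonneg (P r)]
  · rw [(hP2 j r ⟨hr.1, by linarith [hr.2]⟩).1]
    exact Finset.sum_eq_zero fun z _ => by rw [hf0 z _ (by linarith [hr.2]), smul_zero]

theorem bld_radial {s : ℕ} (hs : 10000 ≤ s) {b0 c : ℝ}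
    (hb : b0 ∈ Icc (1 + 1 / s : ℝ) (1 + 2 / s)) (hc : c ∈ Icc (1 - 11 / s : ℝ) (1 - 10 / s))
    (C : ℝ) : ∃ T : ℝ, ∀ {D : ℕ} {M K : ℝ} (σ : Sec s) (β : Tix D → Ix → Ix → ℝ)
      (cf : V D → Tix D → ℝ) (p : Prof D) (sc : Sch) (S : Sys Ix) (Eo No : ℕ → W →L[ℝ] W)
      (R : ℕ → Ix → W →L[ℝ] ℝ) (d : ℕ → Ix → ℝ), T ≤ sc.T 0 →
      2 * (10 * (s : ℝ) + 1) * (sc.M1 + 6) + 32 ≤ sc.M3 →
      (∀ n, ∑ a, ∑ m ∈ nb (4 * s + 1) D n, |β a n m| ≤ 1) → Continuous cf →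
      (∀ P, ‖P‖ ≤ 1 → ‖cf P‖ ≤ K * ‖P‖) →
      (∀ P n m, ((lv (4 * s + 1) σ.1 n : ℝ) + 1) ^ 2 * ∑ a, cf P a * β a n m =
        M ^ lv (4 * s + 1) σ.1 n / M ^ lv (4 * s + 1) σ.1 m * Bm (4 * s + 1) σ.1 (eP b0 P) n m) →
      (∀ r, K * ‖(p.π r).2‖ ≤ 1) → (∀ r ≤ sc.t 0, (p.π r).2 = 0) →
      (∀ j, ∀ r ∈ Icc (sc.t j) (sc.t (j + 1) - 1), (p.π r).2 = 0) →
      (∀ j, ∀ r ∈ Icc (sc.t (j + 1) - 1) (sc.t (j + 1)), (p.π r).1 = b0) →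
      (∀ n, S.Λ n = lv (4 * s + 1) σ.1 n + 1 ∧ ∀ t, S.q n t =
        lam (p.π t).1 (mm (4 * s + 1) σ.1 n) σ.1.2 n.2 + (p.κ t ^ 2 + deriv p.κ t)) →
      (∀ n i, ∀ r ∈ Icc (sc.u i) (sc.u i + (sc.M3 + 2) * sc.T i),
        |S.q n r - mu (4 * s + 1) b0 c σ.1 n ^ 2| ≤ 1 / 100) → Eo 0 = 0 → (∀ m x, R 0 m x = x m) →
      (∀ j, Good (B1 s σ) (B2 s σ) C (Eo j) (R j) ∧
        Step S (nb (4 * s + 1) D) (cpl β fun r => cf (p.π r).2) (B1 s σ) (sc.t j) (sc.t (j + 1))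
          (Eo j) (R j) (Eo (j + 1)) (R (j + 1)) (No j) (trn s σ.1 (j / 3))
          (strat (trn s σ.1 (j / 3)) (fun m => m.1 = 0) (sc.T (j / 3))⁻¹ j
            (S.Dw sc.t (j - 1)) (S.Dw sc.t j) (d (j - 2)) (d (j - 1))) (d j)) →
      ∀ n ∈ Gd s σ.1, ∃ (C : ℝ) (a : Ix → ℝ) (k : ℝ → Ix → Ix → ℝ) (v v' : Ix → ℝ → ℝ),
        Radial (4 * s + 1) p σ.1 M ((8 * s + 1) * c) C a k v v' ∧ a n ≠ 0 ∧
        ∀ m ∈ Bk (4 * s + 1) σ.1 (10 * s), m ≠ n → a m = 0 := by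
  have hsR : (10000 : ℝ) ≤ s := by exact_mod_cast hs
  obtain ⟨c1, c2, -⟩ := bld_c hs hc
  obtain ⟨T₁, hsol⟩ := bld_sol (C := C) (θ := (8 * (s : ℝ) + 1) * c - 1) (by nlinarith)
  refine ⟨T₁, fun {D M K} σ β cf p sc S Eo No R d hT hM3 hβ hcf hcf1 hcf2 hP4 hP1 hP6 hb7 hSy hbase
    hE0 hR0 hS n hn => ?_⟩
  have hcf0 : cf 0 = 0 := by simpa using hcf1 0 (by simp)
  have hz : ∀ r, (p.π r).2 = 0 → cpl β (fun r => cf (p.π r).2) r = 0 := fun r h => by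
    funext n m
    simp [cpl, h, hcf0]
  obtain ⟨q1, q2, -⟩ := bld_sec σ
  have hcont : ∀ n m, Continuous fun r => cpl β (fun r => cf (p.π r).2) r n m := fun n m => by
    have := p.π_smooth.continuous
    unfold cpl
    fun_prop
  obtain ⟨a, v, v', a1, a2, a3, a4, a5, C', a6⟩ := hsol sc S (nb (4 * s + 1) D)
    (cpl β fun r => cf (p.π r).2) (B1 s σ) (B2 s σ) (trn s σ.1) (10 * s + 1) Eo No R d n hT
    (fun n hn => (mem_Bk q1 q2).mpr (((mem_Bk q1 q2).mp hn).trans (by omega))) hcont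
    (fun r hr => hz r (hP1 r hr)) (fun j r hr => hz r (hP6 j r hr))
    (fun m hm => by
      have : (lv (4 * s + 1) σ.1 m : ℝ) ≤ (10 * s : ℕ) := by exact_mod_cast (mem_Bk q1 q2).mp hm
      push_cast at this
      rw [(hSy m).1]
      linarith)
    (fun m hm => by
      have : ((10 * s + 1 : ℕ) : ℝ) ≤ lv (4 * s + 1) σ.1 m := by
        exact_mod_cast Nat.succ_le_of_lt (not_le.mp fun h' => hm ((mem_Bk q1 q2).mpr h'))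
      push_cast at this
      rw [(hSy m).1]
      nlinarith)
    (fun i => trn_match σ.2 i) hE0 hR0 hS (Finset.mem_filter.mp hn).1
    (bld_prod hs hb hc sc hM3 σ _ hbase hn)
  simp only [sub_add_cancel, (hSy _).1] at a5 a6
  refine ⟨C', a, cpl β fun r => cf (p.π r).2, v, v', ⟨hcont, fun t n => ?_, fun t n m => ?_, a3,
    fun n t => ?_, a5, fun n t => (a6 n t).1, fun n t => (a6 n t).2⟩, a1, a2⟩
  · exact (bld_row hβ _ t n).trans ((hcf1 _ (p.P_le t)).trans (hP4 t))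
  · refine (hcf2 (p.π t).2 n m).trans ?_
    by_cases h : (p.π t).2 = 0
    · simp only [h, funext (eP_zero _)]
    · obtain ⟨j, hj⟩ := sc.cover (not_le.mp fun h' => h (hP1 t h')).le
      have h1 : sc.t (j + 1) - 1 < t := not_le.mp fun h' => h (hP6 j t ⟨hj.1, h'⟩)
      rw [hb7 j t ⟨h1.le, hj.2⟩]
  · have := a4 n t
    rwa [(hSy n).2, Sys.src, (hSy n).1] at this

theorem bld_sched (τ M1 M3 X : ℝ) (j : ℕ) (h1 : 1 ≤ τ) (h2 : 1 ≤ M1) (h3 : 1 ≤ M3) :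
    ∃ sc : Sch, sc.τ = τ ∧ sc.M1 = M1 ∧ sc.M3 = M3 ∧ j ≤ sc.i0 ∧ X ≤ sc.T 0 := by
  obtain ⟨i, hi⟩ := exists_nat_ge X
  refine ⟨⟨τ, M1, M3, i + j + 20, h1, h2, h3, by omega⟩, rfl, rfl, rfl, by simp only; omega, ?_⟩
  simp only [Sch.T]
  push_cast
  nlinarith [Nat.cast_nonneg (α := ℝ) i, Nat.cast_nonneg (α := ℝ) j]

theorem bld_u (sc : Sch) (i : ℕ) : sc.T 0 ≤ sc.u i := by
  have : 0 ≤ (sc.M3 + sc.M1 + 5) * ∑ l ∈ Finset.range i, sc.T l :=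
    mul_nonneg (by linarith [sc.M1_ge, sc.M3_ge])
      (Finset.sum_nonneg fun l _ => by linarith [sc.T_ge l])
  unfold Sch.u
  linarith [sc.τ_ge]

theorem bld_window (sc : Sch) {T : ℝ} (hT : T + 1 ≤ sc.T 0) (j : ℕ) {r : ℝ}
    (hr : r ∈ Icc (sc.t (j + 1) - 1 - T) (sc.t (j + 1) + T)) :
    r ∈ Icc (sc.t (j + 1) - sc.T 0) (sc.t (j + 1) + sc.T 0) ∧ sc.T 0 ≤ r :=
  ⟨⟨by linarith [hr.1], by linarith [hr.2]⟩, by
    linarith [hr.1, sc.t_step j, sc.T_mono (Nat.zero_le (j / 3)), sc.u_le_t j, bld_u sc (j / 3)]⟩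

end Vale.Agent.P225
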