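import Mathlib
import Vale.Agent.P225.BuildC
import Vale.Agent.P225.BuildD
import Vale.Agent.P225.BuildE

/-! Construction of the profile and of the radial solutions. -/

open scoped ContDiff Matrix Topology BoundedContinuousFunction
open Filter Set

noncomputable section

namespace Vale.Agent.P225

theorem bld_num {s : ℕ} (hs : 10000 ≤ s) : 1 ≤ 1 + 1 / (s : ℝ) ∧ 1 + 1 / (s : ℝ) < 1 + 2 / s ∧
    0 < 1 - 11 / (s : ℝ) ∧ 1 - 11 / (s : ℝ) < 1 - 10 / s ∧ 1 - 10 / (s : ℝ) + 1 / s ≤ 1 ∧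
    1 - 1 / (s : ℝ) ≤ 1 ∧ 1 + 2 / (s : ℝ) - (1 - 1 / s) ≤ 1 ∧ 1 / 2 ≤ 1 - 1 / (s : ℝ) ∧
    1 + 2 / (s : ℝ) ≤ 2 ∧ 1 ≤ 30 * (10 * (s : ℝ) + 1) ∧
    1 ≤ 2 * (10 * (s : ℝ) + 1) * (30 * (10 * s + 1) + 6) + 32 := by
  obtain ⟨i1, i2⟩ := bld_inv hs
  have hsR : (10000 : ℝ) ≤ s := by exact_mod_cast hs
  have e2 : (2 : ℝ) / s = 2 * (1 / s) := by ring
  have e10 : (10 : ℝ) / s = 10 * (1 / s) := by ring
  have e11 : (11 : ℝ) / s = 11 * (1 / s) := by ring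
  refine ⟨?_, ?_, ?_, ?_, ?_, ?_, ?_, ?_, ?_, ?_, by nlinarith⟩ <;> linarith

theorem bld_max {a b c d e f x : ℝ} (h : max a (max b (max c (max d (max e f)))) ≤ x) :
    a ≤ x ∧ b ≤ x ∧ c ≤ x ∧ d ≤ x ∧ e ≤ x ∧ f ≤ x := by
  simpa only [max_le_iff] using h

theorem bld_kap {c k k' : ℝ} (h : 99 / 100 ≤ c)
    (hk : c ≤ k ∧ k ≤ 1 ∧ -(1 / 20) ≤ k' ∧ k' ≤ 0) : k ^ 2 + k' ∈ Icc (9 / 10 : ℝ) 1 := by
  obtain ⟨k1, k2, k3, k4⟩ := hk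
  exact ⟨by nlinarith, by nlinarith⟩

theorem build {s : ℕ} (hs : 10000 ≤ s) {M : ℝ} (hM : 1 ≤ M) :
    ∃ (D : ℕ) (p : Prof D) (c : ℝ), 0 < c ∧ c ≤ 1 ∧ (∀ t, c ≤ p.κ t) ∧
      RicNonneg (met (4 * s + 1) p) ∧ ∀ σ ∈ secs s, ∀ n ∈ Gd s σ,
        ∃ (C : ℝ) (a : Ix → ℝ) (k : ℝ → Ix → Ix → ℝ) (v v' : Ix → ℝ → ℝ),
          Radial (4 * s + 1) p σ M ((8 * s + 1) * c) C a k v v' ∧ a n ≠ 0 ∧
          ∀ m ∈ Bk (4 * s + 1) σ (10 * s), m ≠ n → a m = 0 := by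
  obtain ⟨n1, n2, n3, n4, n5, n6, n7, n8, n9, n10, n11⟩ := bld_num hs
  obtain ⟨b0, hb, c, hc, hg⟩ := exists_generic n1 n2 n3 n4
  obtain ⟨c1, c2, c3⟩ := bld_c hs hc
  obtain ⟨D, β, cf, f, K, K', r₀, δ, Tq, hr₀, hδ, hK', hβ, hcf, hcf1, hcf2, hf, hf0, hf1, hctl⟩ :=
    exists_control hs hb hc hg hM
  obtain ⟨η, hη, CR, hric⟩ := ric_nonneg (4 * s + 1) D (bld_inv hs).1
  obtain ⟨κ, τ, a, hτ, ha, hκ, hκ0, hκ1, hκ2, hκ3⟩ := exists_kappa (c := c) (ε := 1 / 20)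
    (bld_inv hs).1 ((add_le_add hc.2 le_rfl).trans n5) (by norm_num)
  obtain ⟨T₀, C, hC⟩ := bld_ctrl hs hb hc (nb (4 * s + 1) D) β hβ K hr₀
  obtain ⟨T₁, hsol⟩ := bld_radial hs hb hc C
  obtain ⟨CP, hCP, hpul⟩ := bld_pulses f hf hf0 hf1 hK'
  obtain ⟨Cb, hCb, hber⟩ := exists_berger
  obtain ⟨Rm, hRm⟩ := Metric.tendsto_atTop.mp hκ3 (min δ (1 / 100)) (lt_min hδ (by norm_num))
  obtain ⟨j1, hj1⟩ := sch_decay τ (30 * (10 * s + 1))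
    (2 * (10 * s + 1) * (30 * (10 * s + 1) + 6) + 32) (|CR| * (3 * CP + 2 * Cb) ^ 2) ha
  obtain ⟨sc, s1, s2, s3, s4, s5⟩ := bld_sched τ _ _ (max T₀ (max T₁ (max Rm (max (Tq + 1)
    (max ((3 * CP + 2 * Cb) / η) (CP * (1 + K'))))))) j1 hτ n10 n11
  obtain ⟨t1, t2, t3, t4, t5, t6⟩ := bld_max s5
  obtain ⟨b, hb0, hb1, hb2, hb3, hb4, hb5, hb6, hb7⟩ := hber sc b0 (1 - 1 / s) n6
    (n1.trans hb.1) ((sub_le_sub_right hb.2 _).trans n7)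
  have hb1' : ∀ t, b t ∈ Icc (1 - 1 / s : ℝ) (1 + 2 / s) := fun t =>
    ⟨(hb1 t).1, (hb1 t).2.trans hb.2⟩
  have hτ0 : ∀ t ≤ (0 : ℝ), t ≤ sc.τ := fun t ht => ht.trans (zero_le_one.trans sc.τ_ge)
  obtain ⟨Sy, hSy⟩ := bld_sys hs hb0.continuous hκ hb1' (fun t ht => (hb2 t (hτ0 t ht)).1) hκ0
    fun t => bld_kap c1 (hκ1 t)
  have hq : ∀ σ n r, ∀ b' ∈ Icc (1 - 1 / s : ℝ) (1 + 2 / s), b r = b' → sc.T 0 ≤ r →
      |(Sy σ).q n r - mu (4 * s + 1) b' c σ.1 n ^ 2| ≤ min δ (1 / 100) := by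
    intro σ n r b' hb' e hr
    rw [(hSy σ n).2, (bld_mu hs hb' hc σ n).2, e, add_sub_add_left_eq_sub]
    exact (hRm r (t3.trans hr)).le
  have hb' : b0 ∈ Icc (1 - 1 / s : ℝ) (1 + 2 / s) := ⟨n6.trans (n1.trans hb.1), hb.2⟩
  have hbase : ∀ σ n i, ∀ r ∈ Icc (sc.u i) (sc.u i + (sc.M3 + 2) * sc.T i),
      |(Sy σ).q n r - mu (4 * s + 1) b0 c σ.1 n ^ 2| ≤ 1 / 100 := fun σ n i r hr =>
    (hq σ n r b0 hb' (hb5 i r hr) ((bld_u sc i).trans hr.1)).trans (min_le_right _ _)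
  choose k hk1 hk2 using fun j => hctl Sy (sc.t (j + 1)) (fun σ n => (hSy σ n).1)
    fun σ n r hr => (hq σ n r b0 hb' (hb7 j r (bld_window sc t4 j hr).1)
      (bld_window sc t4 j hr).2).trans (min_le_left _ _)
  obtain ⟨pp, hpp, hrec⟩ := hC sc Sy k t1 s2.ge (fun σ n => (hSy σ n).1) hbase
    (fun σ n i r hr => (hq σ n r _ ⟨le_rfl, n6.trans (n1.trans n2.le)⟩ (hb6 i r hr)
      ((bld_u sc i).trans ((le_add_of_nonneg_right (mul_nonneg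
        (add_nonneg (zero_le_one.trans sc.M3_ge) (by norm_num)) (sq_nonneg _))).trans hr.1))).trans
      (min_le_right _ _))
    fun j => ⟨hk1 j, fun p hp => (hk2 j p hp).2⟩
  obtain ⟨P, hP0, hP1, hP2, hP3, hP4, hP6⟩ := hpul sc pp (fun j => (hpp j).2) t6
  have h400 : (1 : ℝ) ≤ sc.T 0 := le_trans (by norm_num) (sc.T_ge 0)
  obtain ⟨p, e1, e2⟩ : ∃ p : Prof D, p.κ = κ ∧ p.π = fun t => (b t, P t) :=
    ⟨⟨κ, fun t => (b t, P t), hκ, hb0.prodMk hP0, hκ0, fun t ht => by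
      rw [(hb2 t (hτ0 t ht)).1, (hP1 t (ht.trans (zero_le_one.trans
        (h400.trans ((bld_u sc _).trans (sc.u_le_t 0)))))).1],
      fun t => n8.trans (hb1' t).1, fun t => (hb1' t).2.trans n9, fun t => (hP4 t).1⟩, rfl, rfl⟩
  subst e1
  refine ⟨D, p, c, n3.trans_le hc.1, c2, fun t => (hκ1 t).1, hric p ?_, fun σ hσ => ?_⟩
  · exact bld_ric hs p sc hb0 hP0 e2 hc hη hCb hCP hκ1 (s1 ▸ hκ2) hb1' hb2 hb3 hb4 hP1 hP3 t5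
      (hj1 sc s1 s2 s3 s4)
  obtain ⟨Eo, No, R, d, hE0, hR0, hS⟩ := hrec ⟨σ, hσ⟩
  refine hsol ⟨σ, hσ⟩ (β σ) cf p sc (Sy ⟨σ, hσ⟩) Eo No R d t2 (by rw [s2, s3]) (hβ σ) hcf hcf1
    (hcf2 σ) (by rw [e2]; exact fun r => (hP4 r).2) (by rw [e2]; exact fun r hr => (hP1 r hr).1)
    (by rw [e2]; exact hP6) (by
      rw [e2]
      exact fun j r hr => hb7 j r ⟨(sub_le_sub_left h400 _).trans hr.1,
        hr.2.trans (le_add_of_nonneg_right (zero_le_one.trans h400))⟩)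
    (by rw [e2]; exact hSy _) (hbase _) hE0 hR0 fun j => ⟨(hS j).1, (hS j).2.congr fun r hr => ?_⟩
  funext n m
  simp only [cpl, e2]
  rw [(hk2 j _ (hpp j).1).1 r, hP2 j r hr]

end Vale.Agent.P225
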