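import Mathlib
import Vale.Agent.P225.Comb

/-! Counting the good lanes. -/

open scoped ContDiff Matrix Topology BoundedContinuousFunction
open Filter Set

noncomputable section

namespace Vale.Agent.P225

theorem count_choose (n : ℕ) : 6 * (n + 2).choose 3 = (n + 2) * (n + 1) * n := by
  have h := Nat.descFactorial_eq_factorial_mul_choose (n + 2) 3
  simp only [Nat.descFactorial, Nat.factorial] at h
  rw [show n + 2 - 2 = n by omega, show n + 2 - 1 = n + 1 by omega, Nat.sub_zero] at h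
  linarith

theorem count_sum (n : ℕ) :
    3 * ∑ K ∈ Finset.range (n + 1), (K + 1) * K = (n + 2) * (n + 1) * n := by
  induction n with
  | zero => simp
  | succ n ih =>
    rw [Finset.sum_range_succ, mul_add, ih]
    ring

theorem count_mem {s : ℕ} {σ : ℕ × ℕ} {n : Ix} (hσ : σ ∈ secs s) (hn : n ∈ Gd s σ) :
    (σ, n) ∈ GdAll s :=
  Finset.mem_biUnion.2 ⟨σ, hσ, Finset.mem_image_of_mem _ hn⟩

theorem count_row {q K K0 : ℕ} (h1 : K ≤ K0) (h2 : K0 < 2 * q) :
    (K + 1) * K ≤ 2 * ∑ i ∈ (Finset.range (K + 1)).filter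
      (fun i : ℕ => (2 * (i : ℤ) - K) % q ≠ 0), i + 6 * K0 := by
  have a1 := Finset.sum_filter_add_sum_filter_not (Finset.range (K + 1))
    (fun i : ℕ => (2 * (i : ℤ) - K) % q ≠ 0) (fun i => i)
  have a2 := Finset.sum_range_id_mul_two (K + 1)
  have a3 : (Finset.range (K + 1)).filter (fun i : ℕ => ¬ (2 * (i : ℤ) - K) % q ≠ 0) ⊆
      {(K - q) / 2, K / 2, (K + q) / 2} := by
    intro i hi
    rw [Finset.mem_filter, Finset.mem_range, not_not] at hi
    obtain ⟨w, hw⟩ := Int.dvd_of_emod_eq_zero hi.2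
    have b1 : w < 2 := by
      by_contra hc
      have := mul_le_mul_of_nonneg_left (not_lt.1 hc) (Nat.cast_nonneg (α := ℤ) q)
      omega
    have b2 : -2 < w := by
      by_contra hc
      have := mul_le_mul_of_nonneg_left (not_lt.1 hc) (Nat.cast_nonneg (α := ℤ) q)
      omega
    simp only [Finset.mem_insert, Finset.mem_singleton]
    obtain rfl | rfl | rfl : w = -1 ∨ w = 0 ∨ w = 1 := by omega
    all_goals omega
  have a4 := Finset.sum_le_card_nsmul
    ((Finset.range (K + 1)).filter (fun i : ℕ => ¬ (2 * (i : ℤ) - K) % q ≠ 0)) (fun i => i) K0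
    fun i hi => by
      have := Finset.mem_range.1 (Finset.mem_filter.1 hi).1
      omega
  have a5 := (Finset.card_le_card a3).trans Finset.card_le_three
  have a6 := Nat.mul_le_mul_right K0 a5
  rw [smul_eq_mul] at a4
  rw [Nat.add_sub_cancel] at a2
  omega

theorem count_low {s K0 : ℕ} (h : K0 + 141 = 8 * s) :
    (K0 + 2) * (K0 + 1) * K0 ≤
      6 * ((GdAll s).filter (fun z => lv (4 * s + 1) z.1 z.2 ≤ 8 * s)).card +
        18 * K0 * (K0 + 1) := by
  let G : Finset (Σ _ : ℕ, Σ _ : ℕ, ℕ) := (Finset.range (K0 + 1)).sigma fun K =>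
    ((Finset.range (K + 1)).filter
      (fun i : ℕ => (2 * (i : ℤ) - K) % ((4 * s + 1 : ℕ) : ℤ) ≠ 0)).sigma fun i => Finset.range i
  let f : (Σ _ : ℕ, Σ _ : ℕ, ℕ) → (ℕ × ℕ) × Ix := fun z =>
    ((((2 * (z.2.1 : ℤ) - z.1) % ((4 * s + 1 : ℕ) : ℤ)).toNat, z.2.1 - z.2.2),
      ((2 * (z.2.1 : ℤ) - z.1) / ((4 * s + 1 : ℕ) : ℤ), min z.2.2 (z.1 - z.2.1)))
  have hq : (0 : ℤ) < ((4 * s + 1 : ℕ) : ℤ) := by positivity
  have hG : ∀ z ∈ G, z.1 ≤ K0 ∧ z.2.1 ≤ z.1 ∧ z.2.2 < z.2.1 ∧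
      (2 * (z.2.1 : ℤ) - z.1) % ((4 * s + 1 : ℕ) : ℤ) ≠ 0 := by
    intro z hz
    simp only [G, Finset.mem_sigma, Finset.mem_range, Finset.mem_filter] at hz
    exact ⟨by omega, by omega, hz.2.2, hz.2.1.2⟩
  have hm : ∀ z ∈ G, mm (4 * s + 1) (f z).1 (f z).2 = z.2.1 + z.2.2 - z.1 := by
    intro z hz
    obtain ⟨_, _, a3, _⟩ := hG z hz
    have b1 := Int.emod_add_mul_ediv (2 * (z.2.1 : ℤ) - z.1) ((4 * s + 1 : ℕ) : ℤ)
    have b2 := Int.toNat_of_nonneg (Int.emod_nonneg (2 * (z.2.1 : ℤ) - z.1) hq.ne')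
    simp only [mm, f]
    rw [b2, Nat.cast_sub a3.le]
    linarith
  have hl : ∀ z ∈ G, lv (4 * s + 1) (f z).1 (f z).2 = z.1 := by
    intro z hz
    obtain ⟨_, a2, a3, _⟩ := hG z hz
    unfold lv lev
    rw [hm z hz]
    simp only [f]
    omega
  have h1 : G.card ≤ ((GdAll s).filter (fun z => lv (4 * s + 1) z.1 z.2 ≤ 8 * s)).card := by
    refine Finset.card_le_card_of_injOn f (fun z hz => ?_) fun z hz z' hz' he => ?_
    · obtain ⟨a1, a2, a3, a4⟩ := hG z hz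
      have b1 := Int.emod_nonneg (2 * (z.2.1 : ℤ) - z.1) hq.ne'
      have b2 := Int.emod_lt_of_pos (2 * (z.2.1 : ℤ) - z.1) hq
      have b3 := hl z hz
      have b4 : 1 ≤ (f z).1.1 ∧ (f z).1.1 ≤ 4 * s := by
        simp only [f]
        omega
      refine Finset.mem_coe.2 (Finset.mem_filter.2 ⟨count_mem (σ := (f z).1) (n := (f z).2) ?_
        (Finset.mem_filter.2 ⟨(mem_Bk b4.1 (by omega)).2 (by omega), Or.inr (by omega)⟩),
        by omega⟩)
      refine Finset.mem_product.2 ⟨Finset.mem_Icc.2 b4, Finset.mem_Icc.2 ?_⟩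
      simp only [f]
      omega
    · obtain ⟨_, _, a3, _⟩ := hG z hz
      obtain ⟨_, _, a3', _⟩ := hG z' hz'
      have b1 := hm z hz
      have b2 := hl z hz
      rw [he, hm z' hz'] at b1
      rw [he, hl z' hz'] at b2
      have b3 : z.2.1 - z.2.2 = z'.2.1 - z'.2.2 := congrArg (fun w => w.1.2) he
      obtain ⟨K, i, j⟩ := z
      obtain ⟨K', i', j'⟩ := z'
      simp only at a3 a3' b1 b2 b3
      obtain rfl : K = K' := by omega
      obtain rfl : i = i' := by omega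
      obtain rfl : j = j' := by omega
      rfl
  have h2 : G.card = ∑ K ∈ Finset.range (K0 + 1), ∑ i ∈ (Finset.range (K + 1)).filter
      (fun i : ℕ => (2 * (i : ℤ) - K) % ((4 * s + 1 : ℕ) : ℤ) ≠ 0), i := by
    simp only [G, Finset.card_sigma, Finset.card_range]
  have h3 := Finset.sum_le_sum fun K (hK : K ∈ Finset.range (K0 + 1)) =>
    count_row (q := 4 * s + 1) (K := K) (K0 := K0) (by have := Finset.mem_range.1 hK; omega)
      (by omega)
  rw [Finset.sum_add_distrib, ← Finset.mul_sum, ← h2, Finset.sum_const, Finset.card_range,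
    smul_eq_mul] at h3
  rw [← count_sum]
  linarith

theorem count_high (s : ℕ) : 2 * s ^ 3 ≤
    ((GdAll s).filter (fun z => ¬ lv (4 * s + 1) z.1 z.2 ≤ 8 * s)).card := by
  let H : Finset ((ℕ × ℕ) × ℕ) :=
    (Finset.Icc (3 * s + 1) (4 * s) ×ˢ Finset.Icc 1 s) ×ˢ Finset.Ioc (8 * s) (10 * s)
  have h1 : H.card = 2 * s ^ 3 := by
    simp only [H, Finset.card_product, Nat.card_Icc, Nat.card_Ioc]
    rw [show 4 * s + 1 - (3 * s + 1) = s by omega, show 10 * s - 8 * s = 2 * s by omega,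
      Nat.add_sub_cancel]
    ring
  have h2 : ∀ z ∈ H, z.1 ∈ secs s ∧ 8 * s < z.2 ∧ lv (4 * s + 1) z.1 (chm s z.1 z.2) = z.2 ∧
      InCh s z.1 (chm s z.1 z.2) := by
    intro z hz
    simp only [H, Finset.mem_product, Finset.mem_Icc, Finset.mem_Ioc] at hz
    exact ⟨Finset.mem_product.2 ⟨Finset.mem_Icc.2 (by omega), Finset.mem_Icc.2 (by omega)⟩,
      hz.2.1, comb_chm hz.1.1.2 hz.1.1.1 hz.1.2.2 (by omega) hz.2.2⟩
  rw [← h1]
  refine Finset.card_le_card_of_injOn (fun z => (z.1, chm s z.1 z.2)) (fun z hz => ?_)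
    fun z hz z' hz' he => ?_
  · obtain ⟨a1, a2, a3, a4⟩ := h2 z hz
    obtain ⟨b1, b2, -⟩ := comb_secs a1
    exact Finset.mem_coe.2 (Finset.mem_filter.2 ⟨count_mem a1 (Finset.mem_filter.2
      ⟨(mem_Bk b1 (by omega)).2 a4.2.2.2.2, Or.inl a4⟩), by simp only; omega⟩)
  · obtain ⟨b1, b2⟩ := Prod.mk.inj he
    refine Prod.ext b1 ?_
    rw [← (h2 z hz).2.2.1, ← (h2 z' hz').2.2.1, b2, b1]

theorem count_GdAll {s : ℕ} (hs : 10000 ≤ s) :
    (4 + 8 * s - 1).choose (8 * s) + (4 + 8 * s - 2).choose (8 * s - 1) < 2 * (GdAll s).card := by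
  obtain ⟨K0, h⟩ : ∃ K0, K0 + 141 = 8 * s := ⟨8 * s - 141, by omega⟩
  have h1 := count_low h
  have h2 := count_high s
  have h3 := Finset.card_filter_add_card_filter_not (s := GdAll s)
    (fun z => lv (4 * s + 1) z.1 z.2 ≤ 8 * s)
  have h4 := count_choose (8 * s + 1)
  have h5 := count_choose (8 * s)
  rw [show 4 + 8 * s - 1 = 8 * s + 3 by omega, show 4 + 8 * s - 2 = 8 * s - 1 + 3 by omega,
    Nat.choose_symm_add, Nat.choose_symm_add, show 8 * s - 1 + 3 = 8 * s + 2 by omega]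
  have h6 : 10000 * s ^ 2 ≤ s ^ 3 := by
    rw [pow_succ' s 2]
    exact Nat.mul_le_mul_right _ hs
  have h7 : 10000 * s ≤ s ^ 2 := by
    rw [sq]
    exact Nat.mul_le_mul_right _ hs
  rw [show 8 * s + 1 + 2 = 8 * s + 3 by omega] at h4
  generalize ((GdAll s).filter (fun z => lv (4 * s + 1) z.1 z.2 ≤ 8 * s)).card = a at *
  generalize ((GdAll s).filter (fun z => ¬ lv (4 * s + 1) z.1 z.2 ≤ 8 * s)).card = b at *
  zify at h h1 h2 h3 h4 h5 h6 h7 hs ⊢
  rw [show (K0 : ℤ) = 8 * s - 141 by linarith] at h1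
  linarith

theorem mode_inj {s : ℕ} {σ σ' : ℕ × ℕ} (hσ : σ ∈ secs s) (hσ' : σ' ∈ secs s) {n n' : Ix}
    (h : (mm (4 * s + 1) σ n, σ.2, n.2) = (mm (4 * s + 1) σ' n', σ'.2, n'.2)) :
    (σ, n) = (σ', n') := by
  obtain ⟨a1, a2, -⟩ := comb_secs hσ
  obtain ⟨b1, b2, -⟩ := comb_secs hσ'
  obtain ⟨h1, h2⟩ := Prod.mk.inj h
  obtain ⟨h2, h3⟩ := Prod.mk.inj h2
  unfold mm at h1
  have c1 : n.1 = n'.1 := by
    by_contra hc
    rcases lt_or_gt_of_ne hc with c | c
    · have := mul_le_mul_of_nonneg_left (Int.add_one_le_of_lt c)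
        (Nat.cast_nonneg (α := ℤ) (4 * s + 1))
      rw [mul_add] at this
      omega
    · have := mul_le_mul_of_nonneg_left (Int.add_one_le_of_lt c)
        (Nat.cast_nonneg (α := ℤ) (4 * s + 1))
      rw [mul_add] at this
      omega
  rw [c1] at h1
  exact Prod.ext (Prod.ext (by simp only; omega) h2) (Prod.ext c1 h3)

end Vale.Agent.P225
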