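import Mathlib
import Vale.Agent.P225.Base

/-! Completeness and a lower bound for the distance. -/

open scoped ContDiff Matrix Topology BoundedContinuousFunction
open Filter Set

noncomputable section

namespace Vale.Agent.P225

theorem dist_len_nonneg (G : E → Mat) (γ : ℝ → E) : 0 ≤ len G γ :=
  intervalIntegral.integral_nonneg zero_le_one fun _ _ => Real.sqrt_nonneg _

theorem rdist_nonneg (G : E → Mat) (x y : E) : 0 ≤ rdist G x y := by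
  refine Real.sInf_nonneg ?_
  rintro _ ⟨γ, -, rfl⟩
  exact dist_len_nonneg G γ

theorem dist_cont {G : E → Mat} (hG : IsMetric G) :
    Continuous fun z : E × E => √(z.2 ⬝ᵥ G z.1 *ᵥ z.2) := by
  have h : ∀ i j, Continuous fun x => G x i j := fun i j => (hG.1 i j).continuous
  refine Continuous.sqrt ?_
  simp only [Matrix.mulVec, dotProduct]
  exact continuous_finsetSum _ fun i _ => ((continuous_apply i).comp continuous_snd).mul
    (continuous_finsetSum _ fun j _ => ((h i j).comp continuous_fst).mul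
      ((continuous_apply j).comp continuous_snd))

theorem dist_seg (x y : E) : (fun t : ℝ => x + t • (y - x)) ∈
    {γ : ℝ → E | ContDiff ℝ 1 γ ∧ γ 0 = x ∧ γ 1 = y} :=
  ⟨by fun_prop, by simp, by simp⟩

theorem dist_lip {G : E → Mat} (hG : IsMetric G) {φ : E → ℝ} (hφ : ContDiff ℝ 1 φ) {K : ℝ}
    (hK : 0 < K) (h : ∀ x v, |fderiv ℝ φ x v| ≤ K * √(v ⬝ᵥ G x *ᵥ v)) (x y : E) :
    |φ x - φ y| ≤ K * rdist G x y := by
  rw [← inv_mul_le_iff₀ hK]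
  refine le_csInf ⟨_, _, dist_seg x y, rfl⟩ ?_
  rintro _ ⟨γ, ⟨hγ, rfl, rfl⟩, rfl⟩
  rw [inv_mul_le_iff₀ hK, abs_sub_comm]
  have hd : ∀ t, HasDerivAt (fun t => φ (γ t)) (fderiv ℝ φ (γ t) (deriv γ t)) t := fun t =>
    (hφ.differentiable one_ne_zero (γ t)).hasFDerivAt.comp_hasDerivAt t
      (hγ.differentiable one_ne_zero t).hasDerivAt
  have hγ' : Continuous (deriv γ) := hγ.continuous_deriv le_rfl
  have hc : Continuous fun t => fderiv ℝ φ (γ t) (deriv γ t) :=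
    ((hφ.continuous_fderiv one_ne_zero).comp hγ.continuous).clm_apply hγ'
  rw [← intervalIntegral.integral_eq_sub_of_hasDerivAt (fun t _ => hd t)
    (hc.intervalIntegrable 0 1), len, ← intervalIntegral.integral_const_mul]
  refine (intervalIntegral.abs_integral_le_integral_abs zero_le_one).trans ?_
  refine intervalIntegral.integral_mono_on zero_le_one (hc.abs.intervalIntegrable 0 1)
    ((continuous_const.mul ((dist_cont hG).comp (hγ.continuous.prodMk hγ'))).intervalIntegrable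
      0 1) fun t _ => h _ _

theorem dist_tendsto {G : E → Mat} (hG : IsMetric G) {p : ℕ → E} {x : E}
    (hp : Tendsto p atTop (𝓝 x)) : Tendsto (fun a => rdist G (p a) x) atTop (𝓝 0) := by
  have hc : Continuous fun y : E =>
      ∫ t in (0 : ℝ)..1, √((x - y) ⬝ᵥ G (y + t • (x - y)) *ᵥ (x - y)) :=
    intervalIntegral.continuous_parametric_intervalIntegral_of_continuous'
      (f := fun (y : E) (t : ℝ) => √((x - y) ⬝ᵥ G (y + t • (x - y)) *ᵥ (x - y)))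
      ((dist_cont hG).comp (f := fun z : E × ℝ => (z.1 + z.2 • (x - z.1), x - z.1))
        (by fun_prop)) 0 1
  have h1 := (hc.tendsto x).comp hp
  simp only [sub_self, zero_dotProduct, Real.sqrt_zero, intervalIntegral.integral_zero] at h1
  refine squeeze_zero (fun a => rdist_nonneg G _ _) (fun a => ?_) h1
  refine csInf_le ⟨0, ?_⟩ ⟨_, dist_seg (p a) x, ?_⟩
  · rintro _ ⟨γ, -, rfl⟩
    exact dist_len_nonneg G γ
  · have hd : ∀ t : ℝ, deriv (fun t : ℝ => p a + t • (x - p a)) t = x - p a := fun t => by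
      simpa using (((hasDerivAt_id t).smul_const (x - p a)).const_add (p a)).deriv
    simp only [len, hd, Function.comp_apply]

theorem dist_dot_nonneg (x : E) : 0 ≤ x ⬝ᵥ x :=
  Finset.sum_nonneg fun i _ => mul_self_nonneg (x i)

theorem dist_pow_smooth (α : ℝ) : ContDiff ℝ 1 fun x : E => (1 + x ⬝ᵥ x) ^ α :=
  (contDiff_const.add (base_contDiff_dot.of_le (by simp))).rpow_const_of_ne fun x => by
    linarith [dist_dot_nonneg x]

theorem dist_pow_deriv (α : ℝ) (x v : E) :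
    fderiv ℝ (fun x : E => (1 + x ⬝ᵥ x) ^ α) x v = 2 * (x ⬝ᵥ v) * α * (1 + x ⬝ᵥ x) ^ (α - 1) := by
  refine base_fderiv_line ((dist_pow_smooth α).differentiable one_ne_zero x) ?_
  have h := ((base_line_dot x v).const_add 1).rpow_const (p := α)
    (Or.inl (by simp only [zero_smul, add_zero]; linarith [dist_dot_nonneg x]))
  simpa using h

theorem dist_cs (x v : E) : |x ⬝ᵥ v| ≤ (1 + x ⬝ᵥ x) ^ (1 / 2 : ℝ) * √(v ⬝ᵥ v) := by
  rw [← Real.sqrt_eq_rpow, ← Real.sqrt_mul (by linarith [dist_dot_nonneg x])]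
  refine Real.abs_le_sqrt ?_
  have h := Finset.sum_mul_sq_le_sq_mul_sq Finset.univ x v
  simp only [sq] at h
  have h2 := dist_dot_nonneg v
  calc (x ⬝ᵥ v) ^ 2 ≤ (x ⬝ᵥ x) * (v ⬝ᵥ v) := by rw [sq]; exact h
    _ ≤ _ := by nlinarith

theorem dist_coord (v : E) (i : Fin 4) : |v i| ≤ √(v ⬝ᵥ v) := by
  refine Real.abs_le_sqrt ?_
  rw [sq]
  exact Finset.single_le_sum (f := fun i => v i * v i) (fun i _ => mul_self_nonneg (v i))
    (Finset.mem_univ i)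

theorem dist_cauchy {G : E → Mat} {φ : E → ℝ} {K : ℝ} (hK : 0 < K)
    (h : ∀ x y, |φ x - φ y| ≤ K * rdist G x y) {p : ℕ → E}
    (hp : ∀ ε > 0, ∃ N, ∀ a ≥ N, ∀ b ≥ N, rdist G (p a) (p b) < ε) :
    ∃ L, Tendsto (fun a => φ (p a)) atTop (𝓝 L) := by
  refine cauchySeq_tendsto_of_complete (Metric.cauchySeq_iff.2 fun ε hε => ?_)
  obtain ⟨N, hN⟩ := hp (ε / K) (div_pos hε hK)
  refine ⟨N, fun a ha b hb => (h _ _).trans_lt ?_⟩
  rw [← lt_div_iff₀' hK]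
  exact hN a ha b hb

theorem complete_of_lower {G : E → Mat} (hG : IsMetric G) {c l : ℝ} (hc : 0 < c) (hc1 : c ≤ 1)
    (hl : 0 < l) (h : ∀ x v : E, l * (1 + x ⬝ᵥ x) ^ (c - 1) * (v ⬝ᵥ v) ≤ v ⬝ᵥ G x *ᵥ v) :
    Complete G ∧ ∃ C : ℝ, ∀ x : E, (1 + x ⬝ᵥ x) ^ (c / 2) ≤ C * (1 + rdist G 0 x) := by
  have hs : ∀ x : E, 1 ≤ 1 + x ⬝ᵥ x := fun x => by linarith [dist_dot_nonneg x]
  have hs0 : ∀ x : E, 0 < 1 + x ⬝ᵥ x := fun x => by linarith [hs x]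
  have hl' : 0 < √l := Real.sqrt_pos.2 hl
  have hK : 0 < 2 / √l := by positivity
  have hlow : ∀ x v : E, 2 * ((1 + x ⬝ᵥ x) ^ ((c - 1) / 2) * √(v ⬝ᵥ v)) ≤
      2 / √l * √(v ⬝ᵥ G x *ᵥ v) := by
    intro x v
    have h1 := Real.sqrt_le_sqrt (h x v)
    rw [Real.sqrt_mul (by have := hs0 x; positivity), Real.sqrt_mul hl.le,
      Real.sqrt_eq_rpow (_ ^ _), ← Real.rpow_mul (hs0 x).le, mul_one_div] at h1
    rw [div_mul_eq_mul_div, le_div_iff₀ hl']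
    nlinarith
  have hf : ∀ x y : E, |(1 + x ⬝ᵥ x) ^ (c / 2) - (1 + y ⬝ᵥ y) ^ (c / 2)| ≤
      2 / √l * rdist G x y := by
    refine dist_lip hG (dist_pow_smooth _) hK fun x v => le_trans ?_ (hlow x v)
    have h0 : 0 < (1 + x ⬝ᵥ x) ^ (c / 2 - 1) := Real.rpow_pos_of_pos (hs0 x) _
    have h1 : (1 + x ⬝ᵥ x) ^ ((c - 1) / 2) =
        (1 + x ⬝ᵥ x) ^ (c / 2 - 1) * (1 + x ⬝ᵥ x) ^ (1 / 2 : ℝ) := by
      rw [← Real.rpow_add (hs0 x)]; congr 1; ring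
    rw [dist_pow_deriv, h1, abs_mul, abs_mul, abs_mul, abs_of_pos h0, abs_of_pos (half_pos hc),
      abs_two]
    have h2 := dist_cs x v
    have h3 := abs_nonneg (x ⬝ᵥ v)
    have h4 : |x ⬝ᵥ v| * (c / 2) ≤ (1 + x ⬝ᵥ x) ^ (1 / 2 : ℝ) * √(v ⬝ᵥ v) := by nlinarith
    nlinarith
  have hg : ∀ i, ∀ x y : E, |x i * (1 + x ⬝ᵥ x) ^ (-1 / 2 : ℝ) -
      y i * (1 + y ⬝ᵥ y) ^ (-1 / 2 : ℝ)| ≤ 2 / √l * rdist G x y := by
    intro i
    refine dist_lip hG ((contDiff_apply ℝ ℝ i).mul (dist_pow_smooth _)) hK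
      fun x v => le_trans ?_ (hlow x v)
    rw [fderiv_fun_mul (differentiableAt_apply i x)
      ((dist_pow_smooth _).differentiable one_ne_zero x)]
    have h0 : fderiv ℝ (fun x : E => x i) x v = v i := by
      rw [(hasFDerivAt_apply i x).fderiv]; rfl
    simp only [ContinuousLinearMap.add_apply, ContinuousLinearMap.smul_apply, smul_eq_mul,
      dist_pow_deriv, h0]
    have h1 : (1 + x ⬝ᵥ x) ^ (-1 / 2 : ℝ) ≤ (1 + x ⬝ᵥ x) ^ ((c - 1) / 2) :=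
      Real.rpow_le_rpow_of_exponent_le (hs x) (by linarith)
    have h2 : (1 + x ⬝ᵥ x) ^ (-1 / 2 : ℝ) = (1 + x ⬝ᵥ x) ^ (1 / 2 : ℝ) *
        ((1 + x ⬝ᵥ x) ^ (1 / 2 : ℝ) * (1 + x ⬝ᵥ x) ^ (-1 / 2 - 1 : ℝ)) := by
      rw [← Real.rpow_add (hs0 x), ← Real.rpow_add (hs0 x)]; norm_num
    have h3 : |x i| ≤ (1 + x ⬝ᵥ x) ^ (1 / 2 : ℝ) := by
      rw [← Real.sqrt_eq_rpow]
      exact (dist_coord x i).trans (Real.sqrt_le_sqrt (by linarith))
    have h4 := dist_cs x v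
    have h5 := dist_coord v i
    have h6 : 0 < (1 + x ⬝ᵥ x) ^ (-1 / 2 - 1 : ℝ) := Real.rpow_pos_of_pos (hs0 x) _
    have h7 : 0 < (1 + x ⬝ᵥ x) ^ (-1 / 2 : ℝ) := Real.rpow_pos_of_pos (hs0 x) _
    have h7' : 0 < (1 + x ⬝ᵥ x) ^ (1 / 2 : ℝ) := Real.rpow_pos_of_pos (hs0 x) _
    have h8 : |x i * (2 * (x ⬝ᵥ v) * (-1 / 2) * (1 + x ⬝ᵥ x) ^ (-1 / 2 - 1 : ℝ))| ≤
        (1 + x ⬝ᵥ x) ^ (-1 / 2 : ℝ) * √(v ⬝ᵥ v) := by
      rw [show x i * (2 * (x ⬝ᵥ v) * (-1 / 2) * (1 + x ⬝ᵥ x) ^ (-1 / 2 - 1 : ℝ)) =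
        -(x i * (x ⬝ᵥ v) * (1 + x ⬝ᵥ x) ^ (-1 / 2 - 1 : ℝ)) by ring, abs_neg, abs_mul, abs_mul,
        abs_of_pos h6, h2]
      calc _ ≤ (1 + x ⬝ᵥ x) ^ (1 / 2 : ℝ) * ((1 + x ⬝ᵥ x) ^ (1 / 2 : ℝ) * √(v ⬝ᵥ v)) *
            (1 + x ⬝ᵥ x) ^ (-1 / 2 - 1 : ℝ) := by gcongr
        _ = _ := by ring
    have h9 : |(1 + x ⬝ᵥ x) ^ (-1 / 2 : ℝ) * v i| ≤ (1 + x ⬝ᵥ x) ^ (-1 / 2 : ℝ) * √(v ⬝ᵥ v) := by
      rw [abs_mul, abs_of_pos h7]; gcongr
    have h10 := mul_le_mul_of_nonneg_right h1 (Real.sqrt_nonneg (v ⬝ᵥ v))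
    refine (abs_add_le _ _).trans ?_
    linarith
  refine ⟨fun p hp => ?_, 1 + 2 / √l, fun x => ?_⟩
  · obtain ⟨L, hL⟩ := dist_cauchy hK hf hp
    choose y hy using fun i => dist_cauchy hK (hg i) hp
    refine ⟨fun i => y i * L ^ (1 / c), dist_tendsto hG (tendsto_pi_nhds.2 fun i => ?_)⟩
    refine ((hy i).mul (hL.rpow_const (Or.inr (by positivity)))).congr fun a => ?_
    rw [← Real.rpow_mul (hs0 _).le, mul_assoc, ← Real.rpow_add (hs0 _),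
      show -1 / 2 + c / 2 * (1 / c) = (0 : ℝ) by field_simp; ring, Real.rpow_zero, mul_one]
  · have h1 := hf 0 x
    have h2 := rdist_nonneg G 0 x
    simp only [dotProduct_zero, add_zero, Real.one_rpow] at h1
    have h3 := (abs_le.1 h1).1
    nlinarith

end Vale.Agent.P225
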