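import Mathlib
import Vale.Agent.P225.Base
import Vale.Agent.P225.Jacobi

/-! The modes are eigenfunctions. -/

open scoped ContDiff Matrix Topology BoundedContinuousFunction
open Filter Set

noncomputable section

namespace Vale.Agent.P225

section Alg

variable {R : Type} [CommRing R] [Algebra ℂ R] (D1 D2 D3 : Derivation ℂ R R)

/-- Sum of the squares of three derivations. -/
def maL (f : R) : R := D1 (D1 f) + D2 (D2 f) + D3 (D3 f)

/-- The associated bilinear form. -/
def maG (f g : R) : R := D1 f * D1 g + D2 f * D2 g + D3 f * D3 g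

theorem maL_mul (f g : R) :
    maL D1 D2 D3 (f * g) = f * maL D1 D2 D3 g + g * maL D1 D2 D3 f + 2 * maG D1 D2 D3 f g := by
  simp only [maL, maG, Derivation.leibniz, map_add, smul_eq_mul]
  ring

theorem maG_mul (f g h : R) :
    maG D1 D2 D3 (f * g) h = f * maG D1 D2 D3 g h + g * maG D1 D2 D3 f h := by
  simp only [maG, Derivation.leibniz, smul_eq_mul]
  ring

theorem ma_pow {u b x r : R} (hu : maL D1 D2 D3 u = -3 * u) (hb : maL D1 D2 D3 b = -3 * b)
    (huu : maG D1 D2 D3 u u = -(u * u)) (hub : maG D1 D2 D3 u b = -(u * b))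
    (hbb : maG D1 D2 D3 b b = -(b * b))
    (hux : maG D1 D2 D3 u x = -2 * u * x) (hbx : maG D1 D2 D3 b x = 2 * b * (r - x)) (α c : ℕ) :
    maL D1 D2 D3 (u ^ α * b ^ c) = -((α + c) * (α + c + 2)) * (u ^ α * b ^ c) ∧
      maG D1 D2 D3 (u ^ α * b ^ c) b = -(α + c) * (u ^ α * b ^ c) * b ∧
      maG D1 D2 D3 (u ^ α * b ^ c) x = (u ^ α * b ^ c) * (-2 * (α + c) * x + 2 * c * r) := by
  induction c with
  | zero =>
    suffices h : maL D1 D2 D3 (u ^ α) = -(α * (α + 2)) * u ^ α ∧
        maG D1 D2 D3 (u ^ α) u = -α * u ^ α * u ∧ maG D1 D2 D3 (u ^ α) b = -α * u ^ α * b ∧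
        maG D1 D2 D3 (u ^ α) x = -2 * α * u ^ α * x by
      obtain ⟨h1, -, h2, h3⟩ := h
      simp only [pow_zero, mul_one, h1, h2, h3, Nat.cast_zero, add_zero, true_and]
      ring
    induction α with
    | zero => simp [maL, maG]
    | succ α ih =>
      obtain ⟨h1, h2, h3, h4⟩ := ih
      simp only [pow_succ, maL_mul, maG_mul, h1, h2, h3, h4, hu, huu, hub, hux, Nat.cast_succ]
      refine ⟨?_, ?_, ?_, ?_⟩ <;> ring
  | succ c ih =>
    obtain ⟨h1, h2, h3⟩ := ih
    rw [pow_succ, ← mul_assoc]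
    generalize u ^ α * b ^ c = h at h1 h2 h3
    simp only [maL_mul, maG_mul, h1, h2, h3, hb, hbb, hbx, Nat.cast_succ]
    refine ⟨?_, ?_, ?_⟩ <;> ring

theorem ma_xpow {h x r K c : R} (hL : maL D1 D2 D3 h = -(K * (K + 2)) * h)
    (hG : maG D1 D2 D3 h x = h * (-2 * K * x + 2 * c * r))
    (hx : maL D1 D2 D3 x = 4 * r - 8 * x) (hxx : maG D1 D2 D3 x x = 4 * x * (r - x)) (i : ℕ) :
    maL D1 D2 D3 (h * x ^ (i + 1)) = -((K + 2 * (i + 1)) * (K + 2 * (i + 1) + 2)) *
      (h * x ^ (i + 1)) + 4 * ((i + 1) * (i + c + 1)) * r * (h * x ^ i) := by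
  have h1 : ∀ i : ℕ, maG D1 D2 D3 (h * x ^ i) x =
      h * x ^ i * (-2 * (K + 2 * i) * x + 2 * (c + 2 * i) * r) := by
    intro i
    induction i with
    | zero => simp [hG]
    | succ i ih =>
      rw [pow_succ, ← mul_assoc, maG_mul, ih, hxx, Nat.cast_succ]
      ring
  induction i with
  | zero =>
    rw [zero_add, pow_one, maL_mul, hL, hG, hx]
    push_cast
    ring
  | succ i ih =>
    rw [pow_succ x (i + 1), ← mul_assoc, maL_mul, ih, h1, hx]
    push_cast
    ring

theorem ma_sum {h x r K : R} {c : ℕ} (hL : maL D1 D2 D3 h = -(K * (K + 2)) * h)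
    (hG : maG D1 D2 D3 h x = h * (-2 * K * x + 2 * c * r))
    (hx : maL D1 D2 D3 x = 4 * r - 8 * x) (hxx : maG D1 D2 D3 x x = 4 * x * (r - x))
    (h1 : D1 r = 0) (h2 : D2 r = 0) (h3 : D3 r = 0) (j : ℕ) (k : ℕ → ℂ)
    (hk : ∀ i : ℕ, ((i : R) + 1) * (i + c + 1) * algebraMap ℂ R (k (i + 1)) =
      (i - j) * (i + j + K + 1) * algebraMap ℂ R (k i)) :
    maL D1 D2 D3 (h * ∑ i ∈ Finset.range (j + 1), algebraMap ℂ R (k i) * x ^ i * r ^ (j - i)) =
      -((K + 2 * j) * (K + 2 * j + 2)) *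
        (h * ∑ i ∈ Finset.range (j + 1), algebraMap ℂ R (k i) * x ^ i * r ^ (j - i)) := by
  have e1 : ∀ (f : R) (a : ℂ) (n : ℕ), maL D1 D2 D3 (f * (algebraMap ℂ R a * r ^ n)) =
      maL D1 D2 D3 f * (algebraMap ℂ R a * r ^ n) := by
    intro f a n
    simp [maL, Derivation.leibniz, Derivation.leibniz_pow, h1, h2, h3]
    ring
  have e2 : maL D1 D2 D3 (h * ∑ i ∈ Finset.range (j + 1),
      algebraMap ℂ R (k i) * x ^ i * r ^ (j - i)) = ∑ i ∈ Finset.range (j + 1),
      maL D1 D2 D3 (h * x ^ i) * (algebraMap ℂ R (k i) * r ^ (j - i)) := by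
    simp only [← e1]
    simp only [maL, Finset.mul_sum, map_sum, Finset.sum_add_distrib, mul_assoc, mul_left_comm]
  have e3 : ∑ i ∈ Finset.range (j + 1), (maL D1 D2 D3 (h * x ^ i) +
      (K + 2 * i) * (K + 2 * i + 2) * (h * x ^ i)) * (algebraMap ℂ R (k i) * r ^ (j - i)) =
      ∑ i ∈ Finset.range (j + 1), 4 * ((i - j) * (i + j + K + 1)) *
        (h * x ^ i) * (algebraMap ℂ R (k i) * r ^ (j - i)) := by
    rw [Finset.sum_range_succ', Finset.sum_range_succ, pow_zero, mul_one, hL]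
    refine congrArg₂ (· + ·) (Finset.sum_congr rfl fun i hi => ?_) (by push_cast; ring)
    rw [ma_xpow D1 D2 D3 hL hG hx hxx,
      show j - i = j - (i + 1) + 1 by have := Finset.mem_range.1 hi; omega, pow_succ r]
    push_cast
    linear_combination 4 * r * (h * x ^ i) * r ^ (j - (i + 1)) * hk i
  rw [e2, Finset.mul_sum, Finset.mul_sum, ← sub_eq_zero, ← Finset.sum_sub_distrib,
    ← sub_eq_zero.2 e3, ← Finset.sum_sub_distrib]
  exact Finset.sum_congr rfl fun i _ => by ring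

theorem ma_eig_mul (D : Derivation ℂ R R) {f g s t : R} (hf : D f = s * f) (hg : D g = t * g) :
    D (f * g) = (s + t) * (f * g) := by
  rw [Derivation.leibniz, hf, hg, smul_eq_mul, smul_eq_mul]
  ring

theorem ma_eig_pow (D : Derivation ℂ R R) {f s : R} (hf : D f = s * f) (n : ℕ) :
    D (f ^ n) = (n * s) * f ^ n := by
  induction n with
  | zero => simp
  | succ n ih =>
    rw [pow_succ, ma_eig_mul D ih hf, Nat.cast_succ]
    ring

end Alg

open MvPolynomial

/-- Values of the four complex coordinates. -/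
def maV (y : E) : Fin 4 → ℂ := ![z0 y, (starRingEnd ℂ) (z0 y), z1 y, (starRingEnd ℂ) (z1 y)]

/-- The function defined by a polynomial in the complex coordinates. -/
def maE (P : MvPolynomial (Fin 4) ℂ) (y : E) : ℂ := aeval (maV y) P

theorem maV_lin (i : Fin 4) : ∃ L : E →L[ℝ] ℂ, (fun y => maV y i) = L := by
  refine ⟨LinearMap.toContinuousLinearMap (IsLinearMap.mk' (fun y => maV y i) ⟨?_, ?_⟩), rfl⟩
  · intro x y
    fin_cases i <;> simp [maV, z0, z1] <;> ring
  · intro t y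
    fin_cases i <;> simp [maV, z0, z1] <;> ring

theorem maE_smooth (P : MvPolynomial (Fin 4) ℂ) : ContDiff ℝ ∞ (maE P) := by
  unfold maE
  induction P using MvPolynomial.induction_on with
  | C a => simpa using contDiff_const
  | add p q hp hq => simpa using hp.add hq
  | mul_X p i hp =>
    obtain ⟨L, hL⟩ := maV_lin i
    simpa using hp.mul (hL ▸ L.contDiff : ContDiff ℝ ∞ fun y => maV y i)

theorem maE_dA {M : Mat} {D : Derivation ℂ (MvPolynomial (Fin 4) ℂ) (MvPolynomial (Fin 4) ℂ)}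
    (h : ∀ y i, maV (M *ᵥ y) i = maE (D (X i)) y) (P : MvPolynomial (Fin 4) ℂ) :
    dA M (maE P) = maE (D P) := by
  funext y
  have hd : ∀ Q, DifferentiableAt ℝ (maE Q) y := fun Q =>
    (maE_smooth Q).differentiable (by simp) y
  induction P using MvPolynomial.induction_on with
  | C a =>
    have : maE (C a) = fun _ => a := funext fun y => by simp [maE]
    rw [this, ← algebraMap_eq, Derivation.map_algebraMap]
    simp [dA, maE]
  | add p q hp hq =>
    have : maE (p + q) = maE p + maE q := funext fun y => by simp [maE]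
    unfold dA at hp hq ⊢
    rw [this, fderiv_add (hd p) (hd q), add_apply, hp, hq]
    simp [maE]
  | mul_X p i hp =>
    obtain ⟨L, hL⟩ := maV_lin i
    have e1 : maE (X i) = L := hL ▸ funext fun y => by simp [maE]
    have e2 : maE (p * X i) = maE p * maE (X i) := funext fun y => by simp [maE]
    have e3 : fderiv ℝ (maE (X i)) y (M *ᵥ y) = maE (D (X i)) y := by
      rw [e1, L.fderiv, ← h, ← hL]
    unfold dA at hp ⊢
    rw [e2, fderiv_mul (hd p) (hd _), add_apply,
      smul_apply, smul_apply, hp, e3]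
    simp [maE]

/-- The polynomial of a mode. -/
def maP (m : ℤ) (c j : ℕ) : MvPolynomial (Fin 4) ℂ :=
  X 0 ^ m.toNat * X 1 ^ (-m).toNat * X 2 ^ c * ∑ i ∈ Finset.range (j + 1),
    algebraMap ℂ _ (((pn m.natAbs c j).coeff i : ℝ) : ℂ) * (X 2 * X 3) ^ i *
      (X 0 * X 1 + X 2 * X 3) ^ (j - i)

theorem mode_eq (m : ℤ) (c j : ℕ) : mode m c j = maE (maP m c j) := by
  funext y
  have h1 : z1 y * (starRingEnd ℂ) (z1 y) = (xx y : ℂ) := by
    rw [Complex.mul_conj, z1, Complex.normSq_add_mul_I, xx]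
  have h2 : z0 y * (starRingEnd ℂ) (z0 y) + (xx y : ℂ) = ((y ⬝ᵥ y : ℝ) : ℂ) := by
    rw [Complex.mul_conj, z0, Complex.normSq_add_mul_I, xx, base_dot]
    push_cast
    ring
  simp [mode, maE, maP, ang, maV, h1, h2]

theorem mode_smooth (m : ℤ) (c j : ℕ) : ContDiff ℝ ∞ (mode m c j) := by
  rw [mode_eq]
  exact maE_smooth _

theorem mode_smul (m : ℤ) (c j : ℕ) (t : ℝ) (y : E) :
    mode m c j (t • y) = (t : ℂ) ^ lev m c j * mode m c j y := by
  have h0 : z0 (t • y) = t * z0 y := by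
    simp [z0]
    ring
  have h1 : z1 (t • y) = t * z1 y := by
    simp [z1]
    ring
  have h2 : ∑ i ∈ Finset.range (j + 1), (pn m.natAbs c j).coeff i * xx (t • y) ^ i *
      ((t • y) ⬝ᵥ (t • y)) ^ (j - i) = t ^ (2 * j) * ∑ i ∈ Finset.range (j + 1),
      (pn m.natAbs c j).coeff i * xx y ^ i * (y ⬝ᵥ y) ^ (j - i) := by
    rw [Finset.mul_sum]
    refine Finset.sum_congr rfl fun i hi => ?_
    obtain ⟨l, rfl⟩ := Nat.exists_eq_add_of_le (Nat.lt_succ_iff.1 (Finset.mem_range.1 hi))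
    have : xx (t • y) = t ^ 2 * xx y := by
      simp [xx]
      ring
    rw [this, smul_dotProduct, dotProduct_smul, Nat.add_sub_cancel_left, smul_eq_mul, smul_eq_mul]
    ring
  have e : lev m c j = m.toNat + (-m).toNat + c + 2 * j := by
    unfold lev
    omega
  rw [mode, mode, h2, ang, ang, h0, h1, map_mul, Complex.conj_ofReal, e, Complex.ofReal_mul,
    Complex.ofReal_pow]
  ring

theorem mode_sphere (m : ℤ) (c j : ℕ) {y : E} (hy : y ⬝ᵥ y = 1) :
    mode m c j y = ang m y * z1 y ^ c * (((pn m.natAbs c j).eval (xx y) : ℝ) : ℂ) := by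
  rw [mode, Polynomial.eval_eq_sum_range, pn_natDegree, hy]
  simp only [one_pow, mul_one]

theorem dA_three {H : E → ℂ} (y : E) : dA (A 3) H y = dA TH H y + dA PS H y := by
  rw [dA, dA, dA, A_three, Matrix.add_mulVec, map_add]

theorem ma_weight (D : Derivation ℂ (MvPolynomial (Fin 4) ℂ) (MvPolynomial (Fin 4) ℂ))
    {s t : MvPolynomial (Fin 4) ℂ} (h0 : D (X 0) = s * X 0) (h1 : D (X 1) = -s * X 1)
    (h2 : D (X 2) = t * X 2) (h3 : D (X 3) = -t * X 3) (m : ℤ) (c j : ℕ) :
    D (maP m c j) = (m * s + c * t) * maP m c j := by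
  have hx : D (X 2 * X 3) = 0 := by rw [ma_eig_mul D h2 h3, add_neg_cancel, zero_mul]
  have hr : D (X 0 * X 1 + X 2 * X 3) = 0 := by
    rw [map_add, hx, ma_eig_mul D h0 h1, add_neg_cancel, zero_mul, add_zero]
  have hm : ((m.toNat : ℕ) : MvPolynomial (Fin 4) ℂ) - ((-m).toNat : ℕ) = m := by
    rw [← Int.cast_natCast m.toNat, ← Int.cast_natCast (-m).toNat, ← Int.cast_sub,
      Int.toNat_sub_toNat_neg]
  rw [maP, ma_eig_mul D (ma_eig_mul D (ma_eig_mul D (ma_eig_pow D h0 _) (ma_eig_pow D h1 _))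
    (ma_eig_pow D h2 _)) (t := 0), ← hm]
  · ring
  · rw [map_sum, zero_mul]
    refine Finset.sum_eq_zero fun i _ => ?_
    simp only [Derivation.leibniz _ (_ * _ ^ i), Derivation.leibniz _ _ (_ ^ i),
      Derivation.leibniz_pow, hx, hr, Derivation.map_algebraMap, smul_zero, add_zero]

theorem dA_TH_mode (m : ℤ) (c j : ℕ) (y : E) :
    dA TH (mode m c j) y = Complex.I * m * mode m c j y := by
  rw [mode_eq, maE_dA (D := mkDerivation ℂ ![C Complex.I * X 0, -C Complex.I * X 1, 0, 0]),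
    ma_weight _ (s := C Complex.I) (t := 0) (by simp) (by simp) (by simp) (by simp)]
  · simp [maE, mul_comm]
  · intro y i
    fin_cases i <;>
      simp [maV, maE, z0, z1, TH, Matrix.mulVec, dotProduct, Fin.sum_univ_four, Complex.ext_iff]

theorem dA_PS_mode (m : ℤ) (c j : ℕ) (y : E) :
    dA PS (mode m c j) y = Complex.I * c * mode m c j y := by
  rw [mode_eq, maE_dA (D := mkDerivation ℂ ![0, 0, C Complex.I * X 2, -C Complex.I * X 3]),
    ma_weight _ (s := 0) (t := C Complex.I) (by simp) (by simp) (by simp) (by simp)]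
  · simp [maE, mul_comm]
  · intro y i
    fin_cases i <;>
      simp [maV, maE, z0, z1, PS, Matrix.mulVec, dotProduct, Fin.sum_univ_four, Complex.ext_iff]

theorem ma_casimir {R : Type} [CommRing R] [Algebra ℂ R] (D1 D2 D3 : Derivation ℂ R R)
    {a a' b b' ι : R} (hι : ι * ι = -1) (i2 : D2 ι = 0) (i3 : D3 ι = 0)
    (a1 : D1 a = -b') (a1' : D1 a' = -b) (b1 : D1 b = a') (b1' : D1 b' = a)
    (a2 : D2 a = -ι * b') (a2' : D2 a' = ι * b) (b2 : D2 b = ι * a') (b2' : D2 b' = -ι * a)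
    (a3 : D3 a = ι * a) (a3' : D3 a' = -ι * a') (b3 : D3 b = ι * b) (b3' : D3 b' = -ι * b')
    {u : R} (hu : u = a ∨ u = a') (α c j : ℕ) (k : ℕ → ℂ)
    (hk : ∀ i : ℕ, ((i : R) + 1) * (i + c + 1) * algebraMap ℂ R (k (i + 1)) =
      (i - j) * (i + j + (α + c) + 1) * algebraMap ℂ R (k i)) :
    maL D1 D2 D3 (u ^ α * b ^ c * ∑ i ∈ Finset.range (j + 1),
        algebraMap ℂ R (k i) * (b * b') ^ i * (a * a' + b * b') ^ (j - i)) =
      -((α + c + 2 * j) * (α + c + 2 * j + 2)) * (u ^ α * b ^ c * ∑ i ∈ Finset.range (j + 1),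
        algebraMap ℂ R (k i) * (b * b') ^ i * (a * a' + b * b') ^ (j - i)) := by
  have h2 : ι ^ 2 = -1 := (pow_two ι).trans hι
  have h : maL D1 D2 D3 (u ^ α * b ^ c) = -((α + c) * (α + c + 2)) * (u ^ α * b ^ c) ∧
      maG D1 D2 D3 (u ^ α * b ^ c) b = -(α + c) * (u ^ α * b ^ c) * b ∧
      maG D1 D2 D3 (u ^ α * b ^ c) (b * b') =
        (u ^ α * b ^ c) * (-2 * (α + c) * (b * b') + 2 * c * (a * a' + b * b')) := by
    refine ma_pow D1 D2 D3 ?_ ?_ ?_ ?_ ?_ ?_ ?_ α c
    all_goals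
      rcases hu with rfl | rfl
    all_goals
      simp only [maL, maG, Derivation.leibniz, map_neg, neg_mul, smul_eq_mul, a1, a1',
        b1, b1', a2, a2', b2, b2', a3, a3', b3, b3', i2, i3]
      ring_nf
    all_goals
      simp only [h2]
      ring
  refine ma_sum D1 D2 D3 h.1 h.2.2 ?_ ?_ ?_ ?_ ?_ j k hk
  all_goals
    simp only [maL, maG, Derivation.leibniz, map_add, map_neg, neg_mul, smul_eq_mul, a1, a1', b1,
      b1', a2, a2', b2, b2', a3, a3', b3, b3', i2, i3]
    ring_nf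
  all_goals
    simp only [h2]
    ring

theorem casimir_mode (m : ℤ) (c j : ℕ) (y : E) :
    dA (A 1) (dA (A 1) (mode m c j)) y + dA (A 2) (dA (A 2) (mode m c j)) y +
      dA (A 3) (dA (A 3) (mode m c j)) y =
      -((lev m c j : ℂ) * (lev m c j + 2)) * mode m c j y := by
  have h1 := maE_dA (M := A 1) (D := mkDerivation ℂ ![-X 3, -X 2, X 1, X 0]) fun y i => by
    fin_cases i <;> simp [maV, maE, z0, z1, base_A_mulVec, base_Zm, Complex.ext_iff]
  have h2 := maE_dA (M := A 2) (D := mkDerivation ℂ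
      ![-C Complex.I * X 3, C Complex.I * X 2, C Complex.I * X 1, -C Complex.I * X 0])
    fun y i => by
      fin_cases i <;> simp [maV, maE, z0, z1, base_A_mulVec, base_Zm, Complex.ext_iff]
  have h3 := maE_dA (M := A 3) (D := mkDerivation ℂ
      ![C Complex.I * X 0, -C Complex.I * X 1, C Complex.I * X 2, -C Complex.I * X 3])
    fun y i => by
      fin_cases i <;> simp [maV, maE, z0, z1, base_A_mulVec, base_Zm, Complex.ext_iff]
  obtain ⟨u, hu, e⟩ : ∃ u : MvPolynomial (Fin 4) ℂ, (u = X 0 ∨ u = X 1) ∧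
      X 0 ^ m.toNat * X 1 ^ (-m).toNat = u ^ m.natAbs := by
    rcases le_total 0 m with h | h
    · exact ⟨X 0, Or.inl rfl, by
        rw [show (-m).toNat = 0 by omega, show m.toNat = m.natAbs by omega, pow_zero, mul_one]⟩
    · exact ⟨X 1, Or.inr rfl, by
        rw [show m.toNat = 0 by omega, show (-m).toNat = m.natAbs by omega, pow_zero, one_mul]⟩
  have h4 := ma_casimir (mkDerivation ℂ ![-X 3, -X 2, X 1, X 0]) (mkDerivation ℂ
      ![-C Complex.I * X 3, C Complex.I * X 2, C Complex.I * X 1, -C Complex.I * X 0])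
    (mkDerivation ℂ
      ![C Complex.I * X 0, -C Complex.I * X 1, C Complex.I * X 2, -C Complex.I * X 3])
    (a := X 0) (a' := X 1) (b := X 2) (b' := X 3) (ι := C Complex.I)
    (by rw [← map_mul, Complex.I_mul_I, map_neg, map_one]) (Derivation.map_algebraMap _ _)
    (Derivation.map_algebraMap _ _) (by simp) (by simp) (by simp) (by simp) (by simp) (by simp)
    (by simp) (by simp) (by simp) (by simp) (by simp) (by simp) hu m.natAbs c j
    (fun i => (((pn m.natAbs c j).coeff i : ℝ) : ℂ)) fun i => by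
      have h := congrArg (fun t : ℝ => algebraMap ℂ (MvPolynomial (Fin 4) ℂ) (t : ℂ))
        (pn_rec m.natAbs c j i)
      simp only [Complex.ofReal_mul, Complex.ofReal_add, Complex.ofReal_sub, Complex.ofReal_one,
        Complex.ofReal_natCast, map_mul, map_add, map_sub, map_one, map_natCast] at h
      linear_combination h
  rw [← e, ← maP] at h4
  have h5 := congrArg (aeval (maV y)) h4
  rw [mode_eq, h1, h1, h2, h2, h3, h3]
  simp only [maL, map_add, map_mul, map_neg, map_natCast, map_ofNat] at h5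
  simp only [maE, lev, Nat.cast_add, Nat.cast_mul, Nat.cast_ofNat]
  exact h5

end Vale.Agent.P225
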