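import Mathlib
import Vale.Agent.P225.ModeBd
import Vale.Agent.P225.ModesA

/-! The series: regularity, growth, behaviour near the origin. -/

open scoped ContDiff Matrix Topology BoundedContinuousFunction
open Filter Set

noncomputable section

namespace Vale.Agent.P225

theorem term_eq {q D : ℕ} (p : Prof D) (σ : ℕ × ℕ) (M : ℝ) (γ : ℂ) (v : Ix → ℝ → ℝ) (n : Ix)
    {x : E} (hx : x ≠ 0) : term q p σ M γ v n x =
      v n (tau x) / (M ^ lv q σ n * p.F (tau x)) * (γ * md q σ n (nrm x)).re := by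
  have e : md q σ n x = (Real.exp (lv q σ n * tau x) : ℝ) * md q σ n (nrm x) := by
    rw [Real.exp_nat_mul, Complex.ofReal_pow]
    nth_rw 1 [← exp_tau_smul hx]
    exact mode_smul _ _ _ _ _
  rw [term, e, mul_left_comm γ, Complex.re_ofReal_mul, mul_right_comm (M ^ lv q σ n), ← div_div,
    ← mul_assoc, div_mul_cancel₀ _ (Real.exp_pos _).ne']

theorem harmA_in {q D : ℕ} {p : Prof D} {σ : ℕ × ℕ} {M θ C : ℝ} {a : Ix → ℝ}
    {c : ℝ → Ix → Ix → ℝ} {v v' : Ix → ℝ → ℝ} (h : Radial q p σ M θ C a c v v') (γ : ℂ) (n : Ix)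
    {x : E} (hx : x ⬝ᵥ x ≤ 1) :
    term q p σ M γ v n x = a n / M ^ lv q σ n * (γ * md q σ n x).re := by
  have ht := tau_nonpos hx
  rw [term, h.init n _ ht, p.F_init ht, mul_assoc (M ^ lv q σ n), ← Real.exp_add, add_one_mul,
    mul_div_mul_right _ _ (Real.exp_pos _).ne']

theorem harmA_a {q D : ℕ} {p : Prof D} {σ : ℕ × ℕ} {M θ C : ℝ} {a : Ix → ℝ}
    {c : ℝ → Ix → Ix → ℝ} {v v' : Ix → ℝ → ℝ} (h : Radial q p σ M θ C a c v v') (n : Ix) :
    |a n| ≤ C := by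
  simpa [h.init n 0 le_rfl] using h.le n 0

theorem harmA_lam {b : ℝ} (h1 : 1 / 2 ≤ b) (h2 : b ≤ 2) (m : ℤ) (c j : ℕ) :
    |lam b m c j| ≤ 20 * ((lev m c j : ℝ) + 1) ^ 2 := by
  have b1 : 1 / 4 ≤ b ^ 2 := by nlinarith
  have b2 : b ^ 2 ≤ 4 := by nlinarith
  have x0 : 0 ≤ bX b := by unfold bX; positivity
  have x1 : bX b ≤ 4 := by
    rw [bX, inv_le_comm₀ (by linarith) (by norm_num)]
    linarith
  have z1 : |bZ b| ≤ 16 := by
    rw [show bZ b = b ^ 2 * b ^ 2 - bX b by rw [bZ, bX]; ring, abs_le]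
    constructor <;> nlinarith
  have k0 : (0 : ℝ) ≤ lev m c j := Nat.cast_nonneg _
  have m1 : |(m : ℝ) + c| ≤ lev m c j := by
    have e : ((m.natAbs : ℕ) : ℝ) = |(m : ℝ)| := by rw [Nat.cast_natAbs, Int.cast_abs]
    rw [lev]
    push_cast
    rw [e]
    linarith [abs_add_le (m : ℝ) c, Nat.abs_cast (R := ℝ) c, Nat.cast_nonneg (α := ℝ) j]
  have m2 : ((m : ℝ) + c) ^ 2 ≤ (lev m c j : ℝ) ^ 2 := by
    rw [← sq_abs]
    exact pow_le_pow_left₀ (abs_nonneg _) m1 2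
  rw [lam]
  refine (abs_add_le _ _).trans ?_
  rw [abs_mul, abs_mul (bZ b), abs_of_nonneg x0, abs_of_nonneg (by positivity),
    abs_of_nonneg (sq_nonneg ((m : ℝ) + c))]
  nlinarith [mul_le_mul z1 m2 (sq_nonneg _) (by norm_num),
    mul_le_mul_of_nonneg_right x1 (show 0 ≤ (lev m c j : ℝ) * (lev m c j + 2) by positivity)]

theorem harmA_rad {q D : ℕ} {p : Prof D} {σ : ℕ × ℕ} {M θ C : ℝ} {a : Ix → ℝ}
    {c : ℝ → Ix → Ix → ℝ} {v v' : Ix → ℝ → ℝ} (h : Radial q p σ M θ C a c v v') (T T' : ℝ) :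
    ∃ Q : ℝ, 0 ≤ Q ∧ ∀ n, ∃ w' w'' : ℝ → ℝ,
      (∀ t, HasDerivAt (fun t => v n t * (p.F t)⁻¹) (w' t) t) ∧ (∀ t, HasDerivAt w' (w'' t) t) ∧
      Continuous w'' ∧ ∀ t ∈ Icc T T', |v n t * (p.F t)⁻¹| ≤ Q * ((lv q σ n : ℝ) + 1) ^ 2 ∧
        |w' t| ≤ Q * ((lv q σ n : ℝ) + 1) ^ 2 ∧ |w'' t| ≤ Q * ((lv q σ n : ℝ) + 1) ^ 2 := by
  have C0 : 0 ≤ C := (abs_nonneg _).trans (harmA_a h 0)
  have cκ := p.κ_smooth.continuous
  have cκ' : Continuous (deriv p.κ) := p.κ_smooth.continuous_deriv (by simp)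
  have dκ : ∀ t, HasDerivAt p.κ (deriv p.κ t) t := fun t =>
    (p.κ_smooth.differentiable (by simp) t).hasDerivAt
  have dG : ∀ t, HasDerivAt (fun t => (p.F t)⁻¹) (-(p.κ t * (p.F t)⁻¹)) t := fun t =>
    ((p.F_deriv t).inv (p.F_pos t).ne').congr_deriv (by have := (p.F_pos t).ne'; field_simp)
  have cG : Continuous fun t => (p.F t)⁻¹ := continuous_iff_continuousAt.2 fun t =>
    (dG t).continuousAt
  have cv : ∀ n, Continuous (v n) := fun n => continuous_iff_continuousAt.2 fun t =>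
    (h.d1 n t).continuousAt
  have cv' : ∀ n, Continuous (v' n) := fun n => continuous_iff_continuousAt.2 fun t =>
    (h.d2 n t).continuousAt
  obtain ⟨k, hk⟩ := (isCompact_Icc (a := T) (b := T')).exists_bound_of_continuousOn
    (f := fun t => ((1 : ℝ), p.κ t, deriv p.κ t, (p.F t)⁻¹, Real.exp (θ * max t 0))) (by fun_prop)
  refine ⟨C * k ^ 2 * (21 + 4 * k ^ 2 + 2 * k ^ 2), by positivity, fun n =>
    ⟨fun t => v' n t * (p.F t)⁻¹ - p.κ t * (v n t * (p.F t)⁻¹),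
      fun t => (lam (p.π t).1 (mm q σ n) σ.2 n.2 * v n t + 2 * p.κ t ^ 2 * v n t +
        ((lv q σ n : ℝ) + 1) ^ 2 * ∑ m ∈ nb q D n, c t n m * v m t - 2 * p.κ t * v' n t) *
          (p.F t)⁻¹, fun t => ?_, fun t => ?_, ?_, fun t ht => ?_⟩⟩
  · exact ((h.d1 n t).mul (dG t)).congr_deriv (by ring)
  · exact (((h.d2 n t).mul (dG t)).sub ((dκ t).mul ((h.d1 n t).mul (dG t)))).congr_deriv
      (by simp only [Pi.mul_apply]; ring)
  · have cb : Continuous fun t => (p.π t).1 := p.π_smooth.continuous.fst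
    have cX : Continuous fun t => ((p.π t).1 ^ 2)⁻¹ := (cb.pow 2).inv₀ fun t =>
      pow_ne_zero _ (by linarith [p.b_lo t] : 0 < (p.π t).1).ne'
    have cc := h.c_cont n
    have c1 := cv n
    have c2 := cv' n
    unfold lam bX bZ
    fun_prop
  have hk := hk t ht
  simp only [Prod.norm_mk, max_le_iff, Real.norm_eq_abs, abs_one] at hk
  obtain ⟨k1, k2, -, k4, k5⟩ := hk
  have k0 : 0 ≤ k := zero_le_one.trans k1
  have K1 : (1 : ℝ) ≤ lv q σ n + 1 := le_add_of_nonneg_left (Nat.cast_nonneg _)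
  have hl := harmA_lam (p.b_lo t) (p.b_hi t) (mm q σ n) σ.2 n.2
  have hv : ∀ m, |v m t| ≤ C * k := fun m =>
    (h.le m t).trans (mul_le_mul_of_nonneg_left ((le_abs_self _).trans k5) C0)
  have hv' : |v' n t| ≤ C * (lv q σ n + 1) * k :=
    (h.le' n t).trans (mul_le_mul_of_nonneg_left ((le_abs_self _).trans k5) (by positivity))
  have hs : |∑ m ∈ nb q D n, c t n m * v m t| ≤ C * k := by
    refine (Finset.abs_sum_le_sum_abs _ _).trans ((Finset.sum_le_sum fun m _ =>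
      (abs_mul _ _).trans_le (mul_le_mul_of_nonneg_left (hv m) (abs_nonneg _))).trans ?_)
    rw [← Finset.sum_mul]
    exact mul_le_of_le_one_left (by positivity) (h.c_row t n)
  change _ ≤ 20 * ((lv q σ n : ℝ) + 1) ^ 2 at hl
  generalize (lv q σ n : ℝ) + 1 = K at K1 hl hv' ⊢
  have K0 : 0 ≤ K := zero_le_one.trans K1
  have K2 : K ≤ K ^ 2 := by nlinarith
  have K3 : 1 ≤ K ^ 2 := K1.trans K2
  have k6 : k ≤ k ^ 2 := by nlinarith
  have hn := hv n
  refine ⟨?_, ?_, ?_⟩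
  · calc _ = |v n t| * |(p.F t)⁻¹| := abs_mul _ _
      _ ≤ C * k * k := by gcongr
      _ = C * k ^ 2 * 1 * 1 := by ring
      _ ≤ _ := by gcongr; nlinarith
  · calc _ ≤ |v' n t| * |(p.F t)⁻¹| + |p.κ t| * (|v n t| * |(p.F t)⁻¹|) := by
          simpa only [abs_mul] using abs_sub (v' n t * (p.F t)⁻¹) (p.κ t * (v n t * (p.F t)⁻¹))
      _ ≤ C * K * k * k + k * (C * k * k) := by gcongr
      _ = C * k ^ 2 * (K + k * 1) := by ring
      _ ≤ C * k ^ 2 * (K ^ 2 + k ^ 2 * K ^ 2) := by gcongr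
      _ = C * k ^ 2 * (1 + k ^ 2) * K ^ 2 := by ring
      _ ≤ _ := mul_le_mul_of_nonneg_right (mul_le_mul_of_nonneg_left (by nlinarith)
          (by positivity)) (by positivity)
  · have a1 : |lam (p.π t).1 (mm q σ n) σ.2 n.2 * v n t| ≤ 20 * K ^ 2 * (C * k) := by
      rw [abs_mul]; gcongr
    have a2 : |2 * p.κ t ^ 2 * v n t| ≤ 2 * k ^ 2 * (C * k * K ^ 2) := by
      rw [abs_mul, abs_mul, abs_two, abs_pow, ← mul_one |v n t|]; gcongr
    have a3 : |K ^ 2 * ∑ m ∈ nb q D n, c t n m * v m t| ≤ K ^ 2 * (C * k) := by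
      rw [abs_mul, abs_of_nonneg (sq_nonneg K)]; gcongr
    have a4 : |2 * p.κ t * v' n t| ≤ 2 * k ^ 2 * (C * K ^ 2 * k) := by
      rw [abs_mul, abs_mul, abs_two]
      exact mul_le_mul (by linarith) (hv'.trans (by gcongr)) (abs_nonneg _) (by positivity)
    have a5 := (abs_sub _ _).trans (add_le_add ((abs_add_three _ _ _).trans
      (add_le_add (add_le_add a1 a2) a3)) a4)
    rw [abs_mul]
    refine (mul_le_mul a5 k4 (abs_nonneg _) (by positivity)).trans ?_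
    nlinarith [show 0 ≤ C * k ^ 2 * k ^ 2 * K ^ 2 by positivity]

theorem harmA_md (q : ℕ) (σ : ℕ × ℕ) (n : Ix) (x : E) :
    ‖md q σ n x‖ = √(x ⬝ᵥ x) ^ lv q σ n * ‖md q σ n (nrm x)‖ := by
  have e : x = √(x ⬝ᵥ x) • nrm x := by
    rcases eq_or_ne x 0 with rfl | hx
    · simp
    · rw [← exp_tau hx, exp_tau_smul hx]
  nth_rw 1 [e]
  rw [md, mode_smul, norm_mul, norm_pow, Complex.norm_real, Real.norm_of_nonneg (Real.sqrt_nonneg _)]
  rfl

theorem harmA_nrm (x : E) : ‖nrm x‖ ≤ 1 := by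
  rcases eq_or_ne x 0 with rfl | hx
  · simp [nrm]
  · exact norm_le_of_dot (nrm_dot hx).le

theorem series_bd : ∃ M : ℝ, 1 ≤ M ∧
    (∀ (m : ℤ) (c j : ℕ) (y : E), y ⬝ᵥ y ≤ 1 → ‖mode m c j y‖ ≤ M * (M / 8) ^ lev m c j) ∧
    ∀ {q D : ℕ} (p : Prof D) (σ : ℕ × ℕ), 1 ≤ σ.1 → σ.1 < q →
    ∀ (θ C : ℝ) (a : Ix → ℝ) (c : ℝ → Ix → Ix → ℝ) (v v' : Ix → ℝ → ℝ) (γ : ℂ),
    Radial q p σ M θ C a c v v' →
    (∀ x, ∃ s ∈ 𝓝 x, ∃ b : Ix → ℝ, Summable b ∧ ∀ n, ∀ y ∈ s, Bd2 (term q p σ M γ v n) y (b n)) ∧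
    (∃ C' : ℝ, ∀ x, |∑' n, term q p σ M γ v n x| ≤
      C' * (Real.exp (θ * max (tau x) 0) / p.F (max (tau x) 0))) ∧
    ∀ (K : ℕ) (B : Finset Ix), (∀ n ∉ B, K < lv q σ n) → ∃ C' : ℝ, ∀ x : E, x ⬝ᵥ x ≤ 1 →
      |∑' n, term q p σ M γ v n x - ∑ n ∈ B, a n / M ^ lv q σ n * (γ * md q σ n x).re| ≤
        C' * √(x ⬝ᵥ x) ^ (K + 1) := by
  obtain ⟨M, hM, hb⟩ := mode_bd
  obtain ⟨C0, C00, hτ⟩ := bd2_comp_tau
  have M0 : 0 < M := zero_lt_one.trans_le hM
  refine ⟨8 * M, by linarith, fun m c j y hy => ?_, fun {q D} p σ h1 h2 θ C a c v v' γ h => ?_⟩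
  · refine ((hb m c j y).1 (norm_le_of_dot hy)).2.1.trans ?_
    rw [mul_div_cancel_left₀ _ (by norm_num), pow_succ']
    exact mul_le_mul_of_nonneg_right (by linarith) (by positivity)
  obtain ⟨L, hL⟩ : ∃ L : ℂ →L[ℝ] ℝ, ∀ z, L z = (γ * z).re :=
    ⟨Complex.reCLM ∘L ContinuousLinearMap.mul ℝ ℂ γ, fun _ => rfl⟩
  have hC : 0 ≤ C := (abs_nonneg _).trans (harmA_a h 0)
  have s2 := summable_lv h1 h2
  have s1 : Summable fun n : Ix => (1 / 8 : ℝ) ^ lv q σ n :=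
    s2.of_nonneg_of_le (fun n => by positivity) fun n => le_mul_of_one_le_left (by positivity)
      (one_le_pow₀ (le_add_of_nonneg_left (Nat.cast_nonneg _)))
  have eM : ∀ K : ℕ, ((8 * M) ^ K)⁻¹ * M ^ (K + 1) = M * (1 / 8) ^ K := fun K => by
    rw [mul_pow, one_div, inv_pow]
    field_simp
    ring
  have nL : ∀ (r : ℝ) (K : ℕ), |r| ≤ C →
      ‖(r / (8 * M) ^ K) • L‖ * M ^ (K + 1) ≤ C * ‖L‖ * M * (1 / 8) ^ K := fun r K hr => by
    rw [norm_smul, Real.norm_eq_abs, abs_div, abs_of_pos (by positivity : 0 < (8 * M) ^ K),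
      div_eq_mul_inv, mul_right_comm |r|, mul_assoc, eM, mul_assoc (C * _)]
    gcongr
  have hin : ∀ n y, y ⬝ᵥ y ≤ 1 → |term q p σ (8 * M) γ v n y| ≤
      C * ‖L‖ * M * (1 / 8) ^ lv q σ n * √(y ⬝ᵥ y) ^ lv q σ n := fun n y hy => by
    rw [harmA_in h γ n hy, ← hL]
    refine (((a n / (8 * M) ^ lv q σ n) • L).le_opNorm _).trans ?_
    rw [harmA_md, mul_left_comm, mul_comm]
    exact mul_le_mul_of_nonneg_right ((mul_le_mul_of_nonneg_left ((hb _ _ _ _).1 (harmA_nrm y)).2.1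
      (norm_nonneg _)).trans (nL _ _ (harmA_a h n))) (by positivity)
  have hin' : ∀ n y, y ⬝ᵥ y ≤ 1 → |term q p σ (8 * M) γ v n y| ≤
      C * ‖L‖ * M * (1 / 8) ^ lv q σ n := fun n y hy => (hin n y hy).trans
    (mul_le_of_le_one_right (by positivity) (pow_le_one₀ (Real.sqrt_nonneg _)
      (Real.sqrt_le_one.2 hy)))
  have cd : Continuous fun y : E => y ⬝ᵥ y := by fun_prop
  refine ⟨fun x => ?_, ⟨C * ‖L‖ * M * ∑' n, (1 / 8 : ℝ) ^ lv q σ n, fun x => ?_⟩, fun K B hB =>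
    ⟨C * ‖L‖ * M * ∑' n, (1 / 8 : ℝ) ^ lv q σ n, fun x hx => ?_⟩⟩
  · rcases lt_or_ge (x ⬝ᵥ x) 1 with hx | hx
    · have o := isOpen_lt cd (continuous_const (y := 1))
      refine ⟨_, o.mem_nhds hx, _, s1.mul_left (C * ‖L‖ * M), fun n y hy => ?_⟩
      refine ((((hb _ _ _ y).1 (norm_le_of_dot (le_of_lt hy))).clm
        ((a n / (8 * M) ^ lv q σ n) • L)).mono (nL _ _ (harmA_a h n))).congr ?_
      filter_upwards [o.mem_nhds hy] with z hz
      rw [harmA_in h γ n (le_of_lt hz), ← hL]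
      rfl
    · obtain ⟨Q, Q0, hQ⟩ := harmA_rad h (Real.log (1 / 4) / 2) (Real.log (x ⬝ᵥ x + 1) / 2)
      refine ⟨_, (isOpen_Ioo.preimage cd).mem_nhds (show x ⬝ᵥ x ∈ Ioo (1 / 4) (x ⬝ᵥ x + 1) from
        ⟨by linarith, by linarith⟩), _, s2.mul_left (4 * (C0 * Q) * (‖L‖ * M)), fun n y hy => ?_⟩
      obtain ⟨w', w'', d1, d2, cw, hw⟩ := hQ n
      have y0 : 0 < y ⬝ᵥ y := lt_trans (by norm_num) hy.1
      obtain ⟨b1, b2, b3⟩ := hw (tau y) ⟨div_le_div_of_nonneg_right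
        (Real.log_le_log (by norm_num) hy.1.le) zero_le_two,
        div_le_div_of_nonneg_right (Real.log_le_log y0 hy.2.le) zero_le_two⟩
      refine (((hτ _ w' w'' y _ d1 d2 cw hy.1.le b1 b2 b3).mul (((hb (mm q σ n) σ.2 n.2 y).2
        hy.1.le).clm ((((8 * M) ^ lv q σ n)⁻¹) • L))).mono (le_of_eq ?_)).congr ?_
      · rw [norm_smul, Real.norm_of_nonneg (by positivity), mul_right_comm _ ‖L‖]
        erw [eM]
        simp only [lv]
        ring
      · filter_upwards [isOpen_ne.mem_nhds (show y ≠ 0 by rintro rfl; simp at y0)] with z hz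
        rw [term_eq p σ _ γ v n hz, ← hL, smul_apply, smul_eq_mul, md]
        ring
  · rw [mul_right_comm, ← tsum_mul_left, ← Real.norm_eq_abs]
    refine tsum_of_norm_bounded (s1.mul_left _).hasSum fun n => ?_
    rcases le_or_gt (x ⬝ᵥ x) 1 with hx | hx
    · rw [max_eq_right (tau_nonpos hx), p.F_init le_rfl, mul_zero, div_self (Real.exp_pos _).ne',
        mul_one]
      exact hin' n x hx
    · have t0 : 0 ≤ tau x := div_nonneg (Real.log_nonneg hx.le) zero_le_two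
      have e0 := Real.exp_pos (θ * tau x)
      have a1 := h.le n (tau x)
      have F0 := p.F_pos (tau x)
      rw [max_eq_left t0] at a1 ⊢
      have a2 := nL (v n (tau x) / Real.exp (θ * tau x)) (lv q σ n) (by
        rwa [abs_div, abs_of_pos e0, div_le_iff₀ e0])
      rw [term_eq p σ _ γ v n (by rintro rfl; norm_num at hx), ← hL, mul_right_comm,
        show v n (tau x) / ((8 * M) ^ lv q σ n * p.F (tau x)) * L (md q σ n (nrm x)) =
          ((v n (tau x) / Real.exp (θ * tau x) / (8 * M) ^ lv q σ n) • L) (md q σ n (nrm x)) *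
            (Real.exp (θ * tau x) / p.F (tau x)) by
          rw [smul_apply, smul_eq_mul]; field_simp,
        norm_mul, Real.norm_of_nonneg (div_pos e0 F0).le]
      exact mul_le_mul_of_nonneg_right ((ContinuousLinearMap.le_opNorm _ _).trans
        ((mul_le_mul_of_nonneg_left ((hb _ _ _ _).1 (harmA_nrm x)).2.1 (norm_nonneg _)).trans a2))
        (div_pos e0 F0).le
  · classical
    have a1 : Summable fun n => term q p σ (8 * M) γ v n x :=
      (s1.mul_left (C * ‖L‖ * M)).of_norm_bounded fun n => hin' n x hx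
    have a2 : HasSum (fun n => if n ∈ B then term q p σ (8 * M) γ v n x else 0)
        (∑ n ∈ B, a n / (8 * M) ^ lv q σ n * (γ * md q σ n x).re) := by
      rw [Finset.sum_congr rfl fun n hn => ((if_pos hn).trans (harmA_in h γ n hx)).symm]
      exact hasSum_sum_of_ne_finset_zero fun n hn => if_neg hn
    rw [mul_right_comm, ← tsum_mul_left]
    refine (a1.hasSum.sub a2).norm_le_of_bounded (s1.mul_left _).hasSum fun n => ?_
    split_ifs with hn
    · rw [sub_self, norm_zero]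
      positivity
    · rw [sub_zero, mul_right_comm]
      exact (hin n x hx).trans (mul_le_mul_of_nonneg_left (pow_le_pow_of_le_one (Real.sqrt_nonneg _)
        (Real.sqrt_le_one.2 hx) (hB n hn)) (by positivity))

end Vale.Agent.P225
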