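import Mathlib
import Vale.Agent.P225.Defs

/-! The Laplacian as a second order operator. -/

open scoped ContDiff Matrix Topology BoundedContinuousFunction
open Filter Set

noncomputable section

namespace Vale.Agent.P225

theorem lapgen_det {G : E → Mat} (hG : ∀ i j, ContDiff ℝ ∞ fun x => G x i j) :
    ContDiff ℝ ∞ fun x => (G x).det := by
  simp only [Matrix.det_apply, Units.smul_def, zsmul_eq_mul]
  exact ContDiff.sum fun σ _ => contDiff_const.mul (contDiff_prod fun i _ => hG _ _)

theorem lapgen_adj {G : E → Mat} (hG : ∀ i j, ContDiff ℝ ∞ fun x => G x i j) (i j : Fin 4) :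
    ContDiff ℝ ∞ fun x => (G x).adjugate i j := by
  simp only [Matrix.adjugate_apply]
  refine lapgen_det fun a b => ?_
  by_cases h : a = j
  · subst h
    simp only [Matrix.updateRow_self]
    exact contDiff_const
  · simp only [Matrix.updateRow_ne h]
    exact hG a b

theorem lapgen_inv {G : E → Mat} (hG : IsMetric G) (i j : Fin 4) :
    ContDiff ℝ ∞ fun x => (G x)⁻¹ i j := by
  simp only [Matrix.inv_def, Matrix.smul_apply, smul_eq_mul, Ring.inverse_eq_inv']
  exact ((lapgen_det hG.1).inv fun x => (hG.2 x).det_pos.ne').mul (lapgen_adj hG.1 i j)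

theorem lapgen_sqrt {G : E → Mat} (hG : IsMetric G) : ContDiff ℝ ∞ fun x => √(G x).det :=
  (lapgen_det hG.1).sqrt fun x => (hG.2 x).det_pos.ne'

theorem lap_expand {G : E → Mat} (hG : IsMetric G) :
    ∃ (a : E → Mat) (b : E → E), (∀ i j, Continuous fun x => a x i j) ∧ Continuous b ∧
      ∀ (u : E → ℝ) (x : E), ContDiffAt ℝ 2 u x → lap G u x =
        ∑ i, ∑ j, a x i j * fderiv ℝ (fderiv ℝ u) x (Pi.single i 1) (Pi.single j 1) +
          ∑ j, b x j * fderiv ℝ u x (Pi.single j 1) := by
  have hs := lapgen_sqrt hG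
  have hs0 : ∀ x, √(G x).det ≠ 0 := fun x => (Real.sqrt_pos.2 (hG.2 x).det_pos).ne'
  have hc : ∀ i j, ContDiff ℝ ∞ fun x => √(G x).det * (G x)⁻¹ i j := fun i j =>
    hs.mul (lapgen_inv hG i j)
  refine ⟨fun x => (G x)⁻¹, fun x j => (√(G x).det)⁻¹ *
    ∑ i, pd i (fun y => √(G y).det * (G y)⁻¹ i j) x, fun i j => (lapgen_inv hG i j).continuous,
    continuous_pi fun j => (hs.continuous.inv₀ hs0).mul (continuous_finset_sum _ fun i _ => ?_),
    fun u x hu => ?_⟩
  · exact ((hc i j).continuous_fderiv (by simp)).clm_apply continuous_const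
  have h1 : DifferentiableAt ℝ (fderiv ℝ u) x :=
    (hu.fderiv_right (m := 1) (by norm_num)).differentiableAt (by simp)
  have h2 : ∀ j, HasFDerivAt (pd j u)
      ((ContinuousLinearMap.apply ℝ ℝ (Pi.single j 1 : E)).comp (fderiv ℝ (fderiv ℝ u) x)) x :=
    fun j => (ContinuousLinearMap.apply ℝ ℝ (Pi.single j 1 : E)).hasFDerivAt.comp x h1.hasFDerivAt
  have h3 : ∀ i, pd i (fun y => √(G y).det * ∑ j, (G y)⁻¹ i j * pd j u y) x =
      ∑ j, (√(G x).det * (G x)⁻¹ i j *
        fderiv ℝ (fderiv ℝ u) x (Pi.single i 1) (Pi.single j 1) +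
        pd i (fun y => √(G y).det * (G y)⁻¹ i j) x * fderiv ℝ u x (Pi.single j 1)) := by
    intro i
    have h4 := HasFDerivAt.fun_sum (u := Finset.univ) fun j _ =>
      (((hc i j).differentiable (by simp) x).hasFDerivAt.fun_mul (h2 j))
    simp only [Finset.mul_sum, ← mul_assoc]
    unfold pd at h4 ⊢
    rw [h4.fderiv]
    simp only [ContinuousLinearMap.sum_apply, add_apply, smul_apply,
      ContinuousLinearMap.comp_apply, ContinuousLinearMap.apply_apply, smul_eq_mul]
    exact Finset.sum_congr rfl fun j _ => by ring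
  unfold lap
  simp only [h3, Finset.sum_add_distrib, mul_add]
  congr 1
  · rw [Finset.mul_sum]
    refine Finset.sum_congr rfl fun i _ => ?_
    rw [Finset.mul_sum]
    refine Finset.sum_congr rfl fun j _ => ?_
    have := hs0 x
    field_simp
  · rw [Finset.sum_comm, Finset.mul_sum]
    refine Finset.sum_congr rfl fun j _ => ?_
    rw [← Finset.sum_mul, mul_assoc]

theorem lap_zero_of_ne {G : E → Mat} (hG : IsMetric G) {u : E → ℝ} (hu : ContDiff ℝ 2 u)
    (h : ∀ x, x ≠ 0 → lap G u x = 0) (x : E) : lap G u x = 0 := by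
  obtain ⟨a, b, ha, hb, hl⟩ := lap_expand hG
  have h1 : ContDiff ℝ 1 (fderiv ℝ u) := hu.fderiv_right (m := 1) (by norm_num)
  have h2 : Continuous (fderiv ℝ (fderiv ℝ u)) := h1.continuous_fderiv (by simp)
  have hc : Continuous (lap G u) := by
    have : lap G u = fun x =>
        ∑ i, ∑ j, a x i j * fderiv ℝ (fderiv ℝ u) x (Pi.single i 1) (Pi.single j 1) +
          ∑ j, b x j * fderiv ℝ u x (Pi.single j 1) := funext fun x => hl u x hu.contDiffAt
    rw [this]
    refine (continuous_finset_sum _ fun i _ => continuous_finset_sum _ fun j _ =>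
      (ha i j).mul ((h2.clm_apply continuous_const).clm_apply continuous_const)).add
      (continuous_finset_sum _ fun j _ => ((continuous_apply j).comp hb).mul
        (h1.continuous.clm_apply continuous_const))
  exact congrFun (Continuous.ext_on (dense_compl_singleton (0 : E)) hc continuous_const
    fun y hy => h y hy) x

theorem lap_congr {G : E → Mat} {u v : E → ℝ} {x : E} (h : u =ᶠ[𝓝 x] v) :
    lap G u x = lap G v x := by
  unfold lap
  congr 1
  refine Finset.sum_congr rfl fun i _ => ?_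
  unfold pd
  congr 1
  refine Filter.EventuallyEq.fderiv_eq ?_
  filter_upwards [h.fderiv (𝕜 := ℝ)] with y hy
  rw [hy]

theorem lap_hasSum {G : E → Mat} (hG : IsMetric G) {I : Type} {f : I → E → ℝ} {u : E → ℝ} {x : E}
    (hf : ∀ n, ContDiffAt ℝ 2 (f n) x) (hu : ContDiffAt ℝ 2 u x)
    (h1 : HasSum (fun n => fderiv ℝ (f n) x) (fderiv ℝ u x))
    (h2 : HasSum (fun n => fderiv ℝ (fderiv ℝ (f n)) x) (fderiv ℝ (fderiv ℝ u) x)) :
    HasSum (fun n => lap G (f n) x) (lap G u x) := by
  obtain ⟨a, b, -, -, hl⟩ := lap_expand hG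
  simp only [hl _ x (hf _), hl u x hu]
  refine HasSum.add (hasSum_sum fun i _ => hasSum_sum fun j _ => HasSum.mul_left _ ?_)
    (hasSum_sum fun j _ => HasSum.mul_left _ ?_)
  · exact (ContinuousLinearMap.apply ℝ ℝ (Pi.single j 1 : E)).hasSum
      ((ContinuousLinearMap.apply ℝ (E →L[ℝ] ℝ) (Pi.single i 1 : E)).hasSum h2)
  · exact (ContinuousLinearMap.apply ℝ ℝ (Pi.single j 1 : E)).hasSum h1

end Vale.Agent.P225
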