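import Mathlib
import Vale.Agent.P225.Met

/-! The Laplacian of a function with separated variables. -/

open scoped ContDiff Matrix Topology BoundedContinuousFunction
open Filter Set

noncomputable section

namespace Vale.Agent.P225

variable {q D : ℕ}

theorem lapsep_contDiff_dA {F : Type} [NormedAddCommGroup F] [NormedSpace ℝ F] (M : Mat)
    {H : E → F} (hH : ContDiff ℝ ∞ H) : ContDiff ℝ ∞ (dA M H) := by
  unfold dA
  exact (hH.fderiv_right (m := ∞) le_rfl).clm_apply (met_contDiff_A M)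

theorem lapsep_contDiff_eR {π : ℝ × V D} (hπ : π.1 ≠ 0) (k : Fin 3) :
    ContDiff ℝ ∞ (eR q π k) := by
  refine contDiff_iff_contDiffAt.2 fun y => ?_
  exact (contDiffAt_eR (q := q) k (z := (π, y)) hπ).comp y (f := fun y : E => (π, y))
    (by fun_prop)

theorem lapsep_dA_clm (L : ℂ →L[ℝ] ℝ) (M : Mat) {H : E → ℂ} (hH : ContDiff ℝ ∞ H) :
    dA M (fun z => L (H z)) = fun y => L (dA M H y) := by
  funext y
  unfold dA
  have h := (L.hasFDerivAt.comp y (hH.differentiable (by simp) y).hasFDerivAt).fderiv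
  have h' : fderiv ℝ (fun z => L (H z)) y = L.comp (fderiv ℝ H y) := h
  rw [h']
  rfl

theorem Qop_clm (L : ℂ →L[ℝ] ℝ) {π : ℝ × V D} (hπ : π.1 ≠ 0) {H : E → ℂ} (hH : ContDiff ℝ ∞ H)
    (y : E) : Qop q π (fun z => L (H z)) y = L (Qop q π H y) := by
  have h1 : ∀ k l : Fin 3, ContDiff ℝ ∞
      fun z => eR q π k z • dA TH H z + eR q π l z • dA PS H z := fun k l =>
    ((lapsep_contDiff_eR hπ k).smul (lapsep_contDiff_dA TH hH)).add
      ((lapsep_contDiff_eR hπ l).smul (lapsep_contDiff_dA PS hH))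
  have h2 : ∀ k l : Fin 3, (fun z => eR q π k z • L (dA TH H z) + eR q π l z • L (dA PS H z)) =
      fun z => L (eR q π k z • dA TH H z + eR q π l z • dA PS H z) := fun k l => by
    funext z
    simp only [map_add, map_smul]
  unfold Qop
  simp only [lapsep_dA_clm L _ hH, lapsep_dA_clm L _ (lapsep_contDiff_dA _ hH), h2,
    lapsep_dA_clm L _ (h1 _ _), map_add, map_smul]

/-- The vector field `W` has divergence `d` at `x`. -/
def lsDiv (W : E → E) (x : E) (d : ℝ) : Prop :=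
  DifferentiableAt ℝ W x ∧ ∑ i, fderiv ℝ W x (Pi.single i 1) i = d

theorem lsDiv.add {W W' : E → E} {x : E} {d d' : ℝ} (h : lsDiv W x d) (h' : lsDiv W' x d') :
    lsDiv (fun y => W y + W' y) x (d + d') := by
  refine ⟨h.1.add h'.1, ?_⟩
  rw [fderiv_fun_add h.1 h'.1, ← h.2, ← h'.2, ← Finset.sum_add_distrib]
  rfl

theorem lsDiv.sum_pd {W : E → E} {x : E} {d : ℝ} (h : lsDiv W x d) :
    ∑ i, pd i (fun y => W y i) x = d := by
  rw [← h.2]
  refine Finset.sum_congr rfl fun i _ => ?_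
  unfold pd
  rw [fderiv_apply h.1 i]
  rfl

theorem lsDiv_smul {φ : E → ℝ} {x : E} (hφ : DifferentiableAt ℝ φ x) (M : Mat) :
    lsDiv (fun y => φ y • (M *ᵥ y)) x (fderiv ℝ φ x (M *ᵥ x) + M.trace * φ x) := by
  have hM : HasFDerivAt (fun y : E => M *ᵥ y) (M.mulVecLin.toContinuousLinearMap) x :=
    M.mulVecLin.toContinuousLinearMap.hasFDerivAt
  have h := hφ.hasFDerivAt.smul hM
  refine ⟨h.differentiableAt, ?_⟩
  have h' : fderiv ℝ (fun y => φ y • (M *ᵥ y)) x = _ := h.fderiv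
  rw [h']
  have hx : M *ᵥ x = ∑ i, (M *ᵥ x) i • (Pi.single i 1 : E) := by
    funext j
    simp [Finset.sum_apply, Pi.single_apply]
  conv_rhs => rw [hx, map_sum]
  simp only [add_apply, smul_apply,
    ContinuousLinearMap.smulRight_apply, Pi.add_apply, Pi.smul_apply, smul_eq_mul, map_smul,
    Finset.sum_add_distrib, Matrix.trace, Matrix.diag, Finset.sum_mul]
  rw [add_comm]
  congr 1
  · exact Finset.sum_congr rfl fun i _ => mul_comm _ _
  · refine Finset.sum_congr rfl fun i _ => ?_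
    rw [mul_comm]
    congr 1
    simp

theorem lapsep_chain {Φ : ℝ × E → ℝ} {x : E} (hx : x ≠ 0)
    (hΦ : DifferentiableAt ℝ Φ (tau x, nrm x)) :
    DifferentiableAt ℝ (fun y => Φ (tau y, nrm y)) x ∧
      ∀ v, fderiv ℝ (fun y => Φ (tau y, nrm y)) x v =
        fderiv ℝ Φ (tau x, nrm x) (fderiv ℝ tau x v, fderiv ℝ nrm x v) := by
  have h1 := ((contDiffAt_tau hx).differentiableAt (by simp)).hasFDerivAt
  have h2 := ((contDiffAt_nrm hx).differentiableAt (by simp)).hasFDerivAt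
  have h := hΦ.hasFDerivAt.comp x (f := fun y => (tau y, nrm y)) (h1.prodMk h2)
  refine ⟨h.differentiableAt, fun v => ?_⟩
  have h' : fderiv ℝ (fun y => Φ (tau y, nrm y)) x = _ := h.fderiv
  rw [h']
  rfl

theorem lapsep_trace {M : Mat} (hM : Mᵀ = -M) : M.trace = 0 := by
  have h := Matrix.trace_transpose M
  rw [hM, Matrix.trace_neg] at h
  linarith

theorem lapsep_fd_anti {Φ : ℝ × E → ℝ} {x : E} (hx : x ≠ 0)
    (hΦ : DifferentiableAt ℝ Φ (tau x, nrm x)) {M : Mat} (hM : Mᵀ = -M) :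
    fderiv ℝ (fun y => Φ (tau y, nrm y)) x (M *ᵥ x) =
      dA M (fun z => Φ (tau x, z)) (nrm x) := by
  rw [(lapsep_chain hx hΦ).2, fderiv_tau_anti hM hx, fderiv_nrm_anti hM hx]
  have h := hΦ.hasFDerivAt.comp (nrm x) (f := fun z : E => (tau x, z))
    (hasFDerivAt_prodMk_right (tau x) (nrm x))
  have h' : fderiv ℝ (fun z => Φ (tau x, z)) (nrm x) = _ := h.fderiv
  unfold dA
  rw [h']
  rfl

theorem lapsep_fd_rad {Φ : ℝ × E → ℝ} {x : E} (hx : x ≠ 0)
    (hΦ : DifferentiableAt ℝ Φ (tau x, nrm x)) {d : ℝ}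
    (hd : HasDerivAt (fun t => Φ (t, nrm x)) d (tau x)) :
    fderiv ℝ (fun y => Φ (tau y, nrm y)) x x = d := by
  rw [(lapsep_chain hx hΦ).2, fderiv_tau_self hx, fderiv_nrm_self hx]
  have h := hΦ.hasFDerivAt.comp_hasDerivAt (tau x) (f := fun t : ℝ => (t, nrm x))
    ((hasDerivAt_id (tau x)).prodMk (hasDerivAt_const (tau x) (nrm x)))
  exact h.unique hd

theorem lsDiv_anti {Φ : ℝ × E → ℝ} {x : E} (hx : x ≠ 0)
    (hΦ : DifferentiableAt ℝ Φ (tau x, nrm x)) {M : Mat} (hM : Mᵀ = -M) :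
    lsDiv (fun y => Φ (tau y, nrm y) • (M *ᵥ y)) x (dA M (fun z => Φ (tau x, z)) (nrm x)) := by
  have h := lsDiv_smul (lapsep_chain hx hΦ).1 M
  rwa [lapsep_fd_anti hx hΦ hM, lapsep_trace hM, zero_mul, add_zero] at h

theorem lsDiv_rad {Φ : ℝ × E → ℝ} {x : E} (hx : x ≠ 0)
    (hΦ : DifferentiableAt ℝ Φ (tau x, nrm x)) {d : ℝ}
    (hd : HasDerivAt (fun t => Φ (t, nrm x)) d (tau x)) :
    lsDiv (fun y => Φ (tau y, nrm y) • y) x (d + 4 * Φ (tau x, nrm x)) := by
  have h := lsDiv_smul (lapsep_chain hx hΦ).1 1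
  simp only [Matrix.one_mulVec, Matrix.trace_one, Fintype.card_fin, Nat.cast_ofNat] at h
  rwa [lapsep_fd_rad hx hΦ hd] at h

/-- The product `c t * G (t, z)` version of `lsDiv_anti`. -/
theorem lsDiv_anti_mul {c : ℝ → ℝ} {G : ℝ × E → ℝ} {x : E} (hx : x ≠ 0)
    (hc : DifferentiableAt ℝ c (tau x)) (hG : DifferentiableAt ℝ G (tau x, nrm x)) {M : Mat}
    (hM : Mᵀ = -M) :
    lsDiv (fun y => (c (tau y) * G (tau y, nrm y)) • (M *ᵥ y)) x
      (c (tau x) * dA M (fun z => G (tau x, z)) (nrm x)) := by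
  have hΦ : DifferentiableAt ℝ (fun z : ℝ × E => c z.1 * G z) (tau x, nrm x) :=
    (hc.comp (tau x, nrm x) (f := Prod.fst) differentiableAt_fst).mul hG
  have h := lsDiv_anti hx hΦ hM
  have hG' : DifferentiableAt ℝ (fun z => G (tau x, z)) (nrm x) :=
    hG.comp (nrm x) (f := fun z : E => (tau x, z)) (by fun_prop)
  have h2 : dA M (fun z => c (tau x) * G (tau x, z)) (nrm x) =
      c (tau x) * dA M (fun z => G (tau x, z)) (nrm x) := by
    unfold dA
    rw [fderiv_const_mul hG']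
    rfl
  rw [← h2]
  exact h

theorem lapsep_sum_thv {y : E} (hy : y ≠ 0) : ∑ μ, thv (nrm y) μ • (A μ *ᵥ y) = TH *ᵥ y := by
  have h := sum_thv (nrm y)
  rw [nrm_dot hy, one_smul] at h
  conv_lhs => enter [2, μ, 2]; rw [← exp_tau_smul hy, Matrix.mulVec_smul]
  conv_rhs => rw [← exp_tau_smul hy, Matrix.mulVec_smul, ← h, Finset.smul_sum]
  exact Finset.sum_congr rfl fun μ _ => smul_comm _ _ _

theorem lapsep_sum_psv {y : E} (hy : y ≠ 0) : ∑ μ, psv (nrm y) μ • (A μ *ᵥ y) = PS *ᵥ y := by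
  have h := sum_psv (nrm y)
  rw [nrm_dot hy, one_smul] at h
  conv_lhs => enter [2, μ, 2]; rw [← exp_tau_smul hy, Matrix.mulVec_smul]
  conv_rhs => rw [← exp_tau_smul hy, Matrix.mulVec_smul, ← h, Finset.smul_sum]
  exact Finset.sum_congr rfl fun μ _ => smul_comm _ _ _

theorem lapsep_ZT (y u : E) : (Zm y)ᵀ *ᵥ u = ∑ μ, u μ • (A μ *ᵥ y) := by
  funext i
  simp [Matrix.mulVec, dotProduct, Zm, Finset.sum_apply, mul_comm]

theorem lapsep_Zl (L : E →L[ℝ] ℝ) (y : E) :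
    Zm y *ᵥ (fun j => L (Pi.single j 1)) = fun μ => L (A μ *ᵥ y) := by
  funext μ
  have hx : A μ *ᵥ y = ∑ i, (A μ *ᵥ y) i • (Pi.single i 1 : E) := by
    funext j
    simp [Finset.sum_apply, Pi.single_apply]
  conv_rhs => rw [hx, map_sum]
  simp [Matrix.mulVec, dotProduct, Zm]

theorem lapsep_dot (L : E →L[ℝ] ℝ) (y u : E) :
    u ⬝ᵥ (fun μ => L (A μ *ᵥ y)) = L (∑ μ, u μ • (A μ *ᵥ y)) := by
  simp [dotProduct, map_sum]

/-- The co-metric applied to a covector. -/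
theorem lapsep_flux (π : ℝ × V D) {y : E} (hy : y ≠ 0) (L : E →L[ℝ] ℝ) :
    ((Zm y)ᵀ * ((Sm q π (nrm y))ᵀ * Sm q π (nrm y)) * Zm y) *ᵥ (fun j => L (Pi.single j 1)) =
      L y • y + (bX π.1 * L (A 1 *ᵥ y)) • (A 1 *ᵥ y) + (bX π.1 * L (A 2 *ᵥ y)) • (A 2 *ᵥ y) +
        (bX π.1 * L (A 3 *ᵥ y)) • (A 3 *ᵥ y) + (bZ π.1 * L (A 3 *ᵥ y)) • (A 3 *ᵥ y) +
        (eR q π 0 (nrm y) * L (TH *ᵥ y) + eR q π 1 (nrm y) * L (PS *ᵥ y)) • (TH *ᵥ y) +
        (eR q π 1 (nrm y) * L (TH *ᵥ y) + eR q π 2 (nrm y) * L (PS *ᵥ y)) • (PS *ᵥ y) := by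
  rw [← Matrix.mulVec_mulVec, ← Matrix.mulVec_mulVec, lapsep_Zl, Sm_gram (nrm_dot hy)]
  simp only [Matrix.add_mulVec, Matrix.smul_mulVec, Matrix.vecMulVec_mulVec, Matrix.mulVec_add,
    Matrix.mulVec_smul, lapsep_dot, lapsep_sum_thv hy, lapsep_sum_psv hy, op_smul_eq_smul]
  simp only [lapsep_ZT, lapsep_sum_thv hy, lapsep_sum_psv hy]
  simp only [Fin.sum_univ_four, Matrix.mulVec_diagonal, A_zero, Matrix.one_mulVec,
    Matrix.cons_val_zero, Matrix.cons_val_one, Matrix.cons_val]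
  module

theorem lap_sep (p : Prof D) {w w' : ℝ → ℝ} (hw : ∀ t, HasDerivAt w (w' t) t) {w'' : ℝ}
    {x : E} (hx : x ≠ 0) (hw' : HasDerivAt w' w'' (tau x)) {H : E → ℝ} (hH : ContDiff ℝ ∞ H) :
    lap (met q p) (fun z => w (tau z) * H (nrm z)) x = (p.F (tau x) ^ 2)⁻¹ *
      ((w'' + 2 * p.κ (tau x) * w' (tau x)) * H (nrm x) +
        w (tau x) * Qop q (p.π (tau x)) H (nrm x)) := by
  set ρ : ℝ → ℝ := fun t => p.F t ^ 2 * Real.exp (-4 * t) with hρ
  have hρd : ∀ t, HasDerivAt ρ ((2 * p.κ t - 4) * ρ t) t := fun t => by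
    have h1 := (p.F_deriv t).pow 2
    have h2 := ((hasDerivAt_id t).const_mul (-4 : ℝ)).exp
    refine (h1.mul h2).congr_deriv ?_
    simp only [hρ, id]
    norm_num
    ring
  have hdot : ∀ y : E, y ≠ 0 → y ⬝ᵥ y = Real.exp (2 * tau y) := fun y hy => by
    rw [two_mul, Real.exp_add, exp_tau hy, Real.mul_self_sqrt (dot_self_pos hy).le]
  have hHd : Differentiable ℝ H := hH.differentiable (by simp)
  have hdA : ∀ M, Differentiable ℝ (dA M H) := fun M =>
    (lapsep_contDiff_dA M hH).differentiable (by simp)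
  have hU : ∀ y : E, DifferentiableAt ℝ (fun z : ℝ × E => w z.1 * H z.2) (tau y, nrm y) :=
    fun y => ((hw _).differentiableAt.comp (tau y, nrm y) (f := Prod.fst)
      differentiableAt_fst).mul ((hHd _).comp (tau y, nrm y) (f := Prod.snd) differentiableAt_snd)
  have hU0 : ∀ y : E, y ≠ 0 →
      fderiv ℝ (fun z => w (tau z) * H (nrm z)) y y = w' (tau y) * H (nrm y) := fun y hy =>
    lapsep_fd_rad (Φ := fun z : ℝ × E => w z.1 * H z.2) hy (hU y)
      ((hw (tau y)).mul_const (H (nrm y)))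
  have hU1 : ∀ y : E, y ≠ 0 → ∀ M : Mat, Mᵀ = -M →
      fderiv ℝ (fun z => w (tau z) * H (nrm z)) y (M *ᵥ y) = w (tau y) * dA M H (nrm y) :=
    fun y hy M hM => by
      rw [lapsep_fd_anti (Φ := fun z : ℝ × E => w z.1 * H z.2) hy (hU y) hM]
      unfold dA
      dsimp only
      rw [fderiv_const_mul (hHd _)]
      rfl
  have hπ : Differentiable ℝ p.π := p.π_smooth.differentiable (by simp)
  have hb : Differentiable ℝ fun t => (p.π t).1 := hπ.fst
  have hX : DifferentiableAt ℝ (fun t => bX (p.π t).1) (tau x) :=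
    ((hb _).pow 2).inv (pow_ne_zero 2 (met_b_ne p _))
  have hZ : DifferentiableAt ℝ (fun t => bZ (p.π t).1) (tau x) :=
    ((hb _).pow 4).sub hX
  have hρw : DifferentiableAt ℝ (fun t => ρ t * w t) (tau x) :=
    (hρd _).differentiableAt.mul (hw _).differentiableAt
  have hs : ∀ M, DifferentiableAt ℝ (fun z : ℝ × E => dA M H z.2) (tau x, nrm x) := fun M =>
    (hdA M _).comp (tau x, nrm x) (f := Prod.snd) differentiableAt_snd
  have he : ∀ k, DifferentiableAt ℝ (fun z : ℝ × E => eR q (p.π z.1) k z.2) (tau x, nrm x) :=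
    fun k => ((contDiffAt_eR (q := q) k (z := (p.π (tau x), nrm x))
      (met_b_ne p _)).differentiableAt (by simp)).comp (tau x, nrm x)
      (f := fun z : ℝ × E => (p.π z.1, z.2))
      (((hπ _).comp (tau x, nrm x) (f := Prod.fst) differentiableAt_fst).prodMk
        differentiableAt_snd)
  have h0 := lsDiv_rad (Φ := fun z : ℝ × E => ρ z.1 * w' z.1 * H z.2) hx
    ((((hρd _).differentiableAt.mul hw'.differentiableAt).comp (tau x, nrm x) (f := Prod.fst)
      differentiableAt_fst).mul ((hHd _).comp (tau x, nrm x) (f := Prod.snd) differentiableAt_snd))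
    (((hρd _).mul hw').mul_const (H (nrm x)))
  have h1 := lsDiv_anti_mul hx (hρw.mul hX) (hs (A 1)) (A_antisymm (μ := 1) (by decide))
  have h2 := lsDiv_anti_mul hx (hρw.mul hX) (hs (A 2)) (A_antisymm (μ := 2) (by decide))
  have h3 := lsDiv_anti_mul hx (hρw.mul hX) (hs (A 3)) (A_antisymm (μ := 3) (by decide))
  have h4 := lsDiv_anti_mul hx (hρw.mul hZ) (hs (A 3)) (A_antisymm (μ := 3) (by decide))
  have h5 := lsDiv_anti_mul hx hρw (((he 0).mul (hs TH)).add ((he 1).mul (hs PS))) TH_antisymm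
  have h6 := lsDiv_anti_mul hx hρw (((he 1).mul (hs TH)).add ((he 2).mul (hs PS))) PS_antisymm
  have h := ((((((h0.add h1).add h2).add h3).add h4).add h5).add h6).sum_pd
  have hne : ∀ᶠ y in 𝓝 x, y ≠ 0 := eventually_ne_nhds hx
  unfold lap
  rw [Finset.sum_congr rfl fun i _ => ?_, h]
  · rw [met_det p hx, hdot x hx]
    have hF := (p.F_pos (tau x)).ne'
    have hE : Real.exp (-4 * tau x) = ((Real.exp (2 * tau x)) ^ 2)⁻¹ := by
      rw [← Real.exp_nat_mul, ← Real.exp_neg]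
      congr 1
      push_cast
      ring
    have hE2 := (Real.exp_pos (2 * tau x)).ne'
    simp only [Qop, smul_eq_mul, Pi.mul_apply, Pi.add_apply, hρ, hE]
    field_simp
    ring
  · unfold pd
    congr 1
    refine Filter.EventuallyEq.fderiv_eq ?_
    filter_upwards [hne] with y hy
    have hf := congrFun (lapsep_flux (q := q) (p.π (tau y)) hy
      (fderiv ℝ (fun z => w (tau z) * H (nrm z)) y)) i
    rw [hU0 y hy, hU1 y hy _ (A_antisymm (μ := 1) (by decide)),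
      hU1 y hy _ (A_antisymm (μ := 2) (by decide)), hU1 y hy _ (A_antisymm (μ := 3) (by decide)),
      hU1 y hy _ TH_antisymm, hU1 y hy _ PS_antisymm] at hf
    have hF := (p.F_pos (tau y)).ne'
    have hE : Real.exp (-4 * tau y) = ((Real.exp (2 * tau y)) ^ 2)⁻¹ := by
      rw [← Real.exp_nat_mul, ← Real.exp_neg]
      congr 1
      push_cast
      ring
    have hE2 := (Real.exp_pos (2 * tau y)).ne'
    rw [met_det p hy, met_inv p hy, hdot y hy]
    simp only [Matrix.smul_apply, smul_eq_mul, mul_assoc, ← Finset.mul_sum]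
    simp only [Matrix.mulVec, dotProduct, mul_assoc] at hf
    rw [hf]
    simp only [Pi.add_apply, Pi.smul_apply, smul_eq_mul, Pi.mul_apply, hρ, hE, Matrix.mulVec,
      dotProduct]
    field_simp

end Vale.Agent.P225
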