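import Mathlib
import Vale.Agent.P225.ModesA
import Vale.Agent.P225.Mult
import Vale.Agent.P225.Shear

/-! The tangential Laplacian on the modes. -/

open scoped ContDiff Matrix Topology BoundedContinuousFunction
open Filter Set

noncomputable section

namespace Vale.Agent.P225

variable {q D : ℕ}

theorem ModesB_add (M : Mat) {f g : E → ℂ} (hf : Differentiable ℝ f) (hg : Differentiable ℝ g)
    (y : E) : dA M (fun z => f z + g z) y = dA M f y + dA M g y := by
  rw [dA, fderiv_fun_add (hf y) (hg y)]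
  rfl

theorem ModesB_mul (M : Mat) {f g : E → ℂ} (hf : Differentiable ℝ f) (hg : Differentiable ℝ g)
    (y : E) : dA M (fun z => f z * g z) y = f y * dA M g y + g y * dA M f y := by
  rw [dA, fderiv_fun_mul (hf y) (hg y)]
  rfl

theorem ModesB_const (M : Mat) (r : ℂ) {f : E → ℂ} (hf : Differentiable ℝ f) (y : E) :
    dA M (fun z => r * f z) y = r * dA M f y := by
  rw [dA, fderiv_const_mul (hf y)]
  rfl

/-- Functions with given weights for the two rotations. -/
structure ModesBW (f : E → ℂ) (a b : ℂ) : Prop where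
  d : Differentiable ℝ f
  th : ∀ y, dA TH f y = Complex.I * a * f y
  ps : ∀ y, dA PS f y = Complex.I * b * f y

theorem ModesBW.mul {f g : E → ℂ} {a b a' b' : ℂ} (h : ModesBW f a b) (h' : ModesBW g a' b') :
    ModesBW (fun z => f z * g z) (a + a') (b + b') :=
  ⟨h.d.mul h'.d, fun y => by rw [ModesB_mul _ h.d h'.d, h.th, h'.th]; ring,
    fun y => by rw [ModesB_mul _ h.d h'.d, h.ps, h'.ps]; ring⟩

theorem ModesBW.const (r : ℂ) : ModesBW (fun _ => r) 0 0 :=
  ⟨differentiable_const r, fun y => by simp [dA], fun y => by simp [dA]⟩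

theorem ModesBW.pow {f : E → ℂ} {a b : ℂ} (h : ModesBW f a b) (k : ℕ) :
    ModesBW (fun z => f z ^ k) (k * a) (k * b) := by
  induction k with
  | zero => simpa using ModesBW.const 1
  | succ k ih => simpa only [pow_succ, Nat.cast_succ, add_mul, one_mul] using ih.mul h

theorem ModesB_coord (i : Fin 4) : Differentiable ℝ (fun y : E => (y i : ℂ)) ∧
    ∀ (M : Mat) y, dA M (fun y : E => (y i : ℂ)) y = ((M *ᵥ y) i : ℝ) :=
  let L : E →L[ℝ] ℂ := Complex.ofRealCLM.comp (ContinuousLinearMap.proj (φ := fun _ => ℝ) i)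
  ⟨L.differentiable, fun M y => congrArg (fun L : E →L[ℝ] ℂ => L (M *ᵥ y)) (L.fderiv (x := y))⟩

theorem ModesB_z (r : ℂ) (hr : r * r = -1) :
    ModesBW (fun y => (y 0 : ℂ) + r * y 1) (-Complex.I * r) 0 := by
  have d0 := (ModesB_coord 0).1
  have d1 := (ModesB_coord 1).1
  refine ⟨d0.add (d1.const_mul r), fun y => ?_, fun y => ?_⟩ <;>
    rw [ModesB_add _ d0 (d1.const_mul r), ModesB_const _ _ d1, (ModesB_coord 0).2,
      (ModesB_coord 1).2]
  · simp only [TH, Matrix.mulVec, dotProduct, Fin.sum_univ_four]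
    simp
    linear_combination (-(y 1 : ℂ)) * hr + r * ((y 0 : ℂ) + r * y 1) * Complex.I_mul_I
  · simp [PS, Matrix.mulVec, dotProduct, Fin.sum_univ_four]

theorem ModesB_z0 : ModesBW z0 1 0 := by
  have h := ModesB_z Complex.I Complex.I_mul_I
  rw [neg_mul, Complex.I_mul_I, neg_neg] at h
  rwa [show z0 = fun y => (y 0 : ℂ) + Complex.I * y 1 from funext fun y => by rw [z0, mul_comm]]

theorem ModesB_z0c : ModesBW (fun y => (starRingEnd ℂ) (z0 y)) (-1) 0 := by
  have h := ModesB_z (-Complex.I) (by simp)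
  rw [neg_mul_neg, Complex.I_mul_I] at h
  rwa [show (fun y => (starRingEnd ℂ) (z0 y)) = fun y => (y 0 : ℂ) + -Complex.I * y 1 from
    funext fun y => by simp [z0, mul_comm]]

theorem ModesB_xx : ModesBW (fun y => (xx y : ℂ)) 0 0 := by
  have d2 := (ModesB_coord 2).1
  have d3 := (ModesB_coord 3).1
  rw [show (fun y => (xx y : ℂ)) = fun y => (y 2 : ℂ) * y 2 + (y 3 : ℂ) * y 3 from
    funext fun y => by simp [xx, sq]]
  refine ⟨(d2.mul d2).add (d3.mul d3), fun y => ?_, fun y => ?_⟩ <;>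
    rw [ModesB_add _ (d2.fun_mul d2) (d3.fun_mul d3), ModesB_mul _ d2 d2, ModesB_mul _ d3 d3,
      (ModesB_coord 2).2, (ModesB_coord 3).2]
  · simp [TH, Matrix.mulVec, dotProduct, Fin.sum_univ_four]
  · simp only [PS, Matrix.mulVec, dotProduct, Fin.sum_univ_four]
    simp
    ring

theorem ModesB_md (σ : ℕ × ℕ) (n : Ix) : ModesBW (md q σ n) (mm q σ n) σ.2 :=
  ⟨(mode_smooth _ _ _).differentiable (by simp), dA_TH_mode _ _ _, dA_PS_mode _ _ _⟩

theorem ModesB_poly (σ : ℕ × ℕ) (n : Ix) {y : E} (hy : y ⬝ᵥ y = 1) {e : Pol}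
    (he : e.totalDegree ≤ deg D) : Differentiable ℝ (fun z => ev q z e * md q σ n z) ∧
      dA TH (fun z => ev q z e * md q σ n z) y =
        ∑ n' ∈ nb q D n, Complex.I * mm q σ n' * (Mlin q σ n' n e * md q σ n' y) ∧
      dA PS (fun z => ev q z e * md q σ n z) y =
        ∑ n' ∈ nb q D n, Complex.I * σ.2 * (Mlin q σ n' n e * md q σ n' y) := by
  rw [e.as_sum]
  refine Finset.sum_induction _ (fun e => Differentiable ℝ (fun z => ev q z e * md q σ n z) ∧
      dA TH (fun z => ev q z e * md q σ n z) y =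
        ∑ n' ∈ nb q D n, Complex.I * mm q σ n' * (Mlin q σ n' n e * md q σ n' y) ∧
      dA PS (fun z => ev q z e * md q σ n z) y =
        ∑ n' ∈ nb q D n, Complex.I * σ.2 * (Mlin q σ n' n e * md q σ n' y))
    (fun a b ha hb => ?_) (by simp [dA]) fun μ hμ => ?_
  · simp only [map_add, add_mul, Complex.ofReal_add, mul_add, Finset.sum_add_distrib]
    rw [ModesB_add _ ha.1 hb.1, ModesB_add _ ha.1 hb.1, ha.2.1, ha.2.2, hb.2.1, hb.2.2]
    exact ⟨ha.1.add hb.1, rfl, rfl⟩
  · have h1 : μ 0 + μ 1 + μ 2 ≤ deg D := by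
      have := (MvPolynomial.le_totalDegree hμ).trans he
      rwa [Finsupp.sum_fintype _ _ fun _ => rfl, Fin.sum_univ_three] at this
    generalize MvPolynomial.coeff μ e = r
    have e1 : ∀ z, ev q z (MvPolynomial.monomial μ r) = r * ev q z (MvPolynomial.monomial μ 1) :=
      fun z => by rw [← Complex.real_smul, ← map_smul, MvPolynomial.smul_monomial, smul_eq_mul,
        mul_one]
    have W := ((ModesBW.const r).mul (((ModesB_z0.pow (q * μ 0)).mul
      (ModesB_z0c.pow (q * μ 1))).mul (ModesB_xx.pow (μ 2)))).mul (ModesB_md (q := q) σ n)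
    simp only [← Mult_ev, ← e1] at W
    have e2 : ev q y (MvPolynomial.monomial μ r) * md q σ n y =
        ∑ n' ∈ nb q D n, ((r * Mmon q σ n' n μ : ℝ) : ℂ) * md q σ n' y := by
      simp only [md, mode_sphere _ _ _ hy, Complex.ofReal_mul, mul_assoc (r : ℂ)]
      rw [e1, mul_assoc, monomial_mul_md σ n h1 hy, Finset.mul_sum]
    simp only [Mlin_monomial]
    rw [W.th, W.ps, e2, Finset.mul_sum, Finset.mul_sum]
    refine ⟨W.d, Finset.sum_congr rfl fun n' _ => ?_, Finset.sum_congr rfl fun n' _ => by simp⟩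
    by_cases h : n'.1 = n.1 + μ 0 - μ 1
    · rw [Mult_mm σ h]
      push_cast
      ring
    · simp [Mmon, h]

theorem Qop_md (σ : ℕ × ℕ) (n : Ix) {π : ℝ × V D} (hπ : π.1 ≠ 0) {y : E} (hy : y ⬝ᵥ y = 1) :
    Qop q π (md q σ n) y = -(lam π.1 (mm q σ n) σ.2 n.2 : ℂ) * md q σ n y -
      ∑ n' ∈ nb q D n, (Bm q σ (eP π.1 π.2) n' n : ℂ) * md q σ n' y := by
  have _ := hπ
  have W := ModesB_md (q := q) σ n
  have P := fun k => ModesB_poly (q := q) σ n hy (totalDegree_eP π.1 π.2 k)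
  have e1 : dA (A 3) (md q σ n) = fun z => Complex.I * (mm q σ n + σ.2) * md q σ n z :=
    funext fun z => by rw [dA_three, W.th, W.ps]; ring
  have e2 : ∀ k k', (fun z => eR q π k z • dA TH (md q σ n) z + eR q π k' z • dA PS (md q σ n) z) =
      fun z => Complex.I * mm q σ n * (ev q z (eP π.1 π.2 k) * md q σ n z) +
        Complex.I * σ.2 * (ev q z (eP π.1 π.2 k') * md q σ n z) := fun k k' => funext fun z => by
    rw [W.th, W.ps, Complex.real_smul, Complex.real_smul, eR_coe, eR_coe]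
    ring
  have e3 := casimir_mode (mm q σ n) σ.2 n.2 y
  have e4 : ∑ n' ∈ nb q D n, (Bm q σ (eP π.1 π.2) n' n : ℂ) * md q σ n' y = -(
      Complex.I * mm q σ n * ∑ n' ∈ nb q D n, Complex.I * mm q σ n' *
        (Mlin q σ n' n (eP π.1 π.2 0) * md q σ n' y) +
      Complex.I * σ.2 * ∑ n' ∈ nb q D n, Complex.I * mm q σ n' *
        (Mlin q σ n' n (eP π.1 π.2 1) * md q σ n' y) +
      (Complex.I * mm q σ n * ∑ n' ∈ nb q D n, Complex.I * σ.2 *
        (Mlin q σ n' n (eP π.1 π.2 1) * md q σ n' y) +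
      Complex.I * σ.2 * ∑ n' ∈ nb q D n, Complex.I * σ.2 *
        (Mlin q σ n' n (eP π.1 π.2 2) * md q σ n' y))) := by
    simp only [Finset.mul_sum, ← Finset.sum_add_distrib, ← Finset.sum_neg_distrib]
    refine Finset.sum_congr rfl fun n' _ => ?_
    simp only [Bm, af, Fin.sum_univ_three, Matrix.cons_val]
    push_cast
    linear_combination md q σ n' y * ((mm q σ n : ℂ) * mm q σ n' * Mlin q σ n' n (eP π.1 π.2 0) +
      σ.2 * (mm q σ n + mm q σ n') * Mlin q σ n' n (eP π.1 π.2 1) +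
      σ.2 ^ 2 * Mlin q σ n' n (eP π.1 π.2 2)) * Complex.I_mul_I
  rw [Qop, e2, e2, ModesB_add _ ((P 0).1.const_mul _) ((P 1).1.const_mul _),
    ModesB_add _ ((P 1).1.const_mul _) ((P 2).1.const_mul _), ModesB_const _ _ (P 0).1,
    ModesB_const _ _ (P 1).1, ModesB_const _ _ (P 1).1, ModesB_const _ _ (P 2).1, (P 0).2.1,
    (P 1).2.1, (P 1).2.2, (P 2).2.2, e4, show dA (A 1) (dA (A 1) (md q σ n)) y +
      dA (A 2) (dA (A 2) (md q σ n)) y + dA (A 3) (dA (A 3) (md q σ n)) y = _ from e3, e1,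
    ModesB_const _ _ W.d, e1, Complex.real_smul, Complex.real_smul, lam, md]
  push_cast
  linear_combination (bZ π.1 : ℂ) * ((mm q σ n : ℂ) + σ.2) ^ 2 * mode (mm q σ n) σ.2 n.2 y *
    Complex.I_mul_I

end Vale.Agent.P225
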