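import Mathlib
import Vale.Agent.P225.HarmA
import Vale.Agent.P225.ModesB
import Vale.Agent.P225.LapSep
import Vale.Agent.P225.LapGen

/-! The series is harmonic. -/

open scoped ContDiff Matrix Topology BoundedContinuousFunction
open Filter Set

noncomputable section

namespace Vale.Agent.P225

theorem harmB_swap {I : Type} (N : I → Finset I) (hN : ∀ n m, m ∈ N n ↔ n ∈ N m)
    (f : I → I → ℝ) {B : I → ℝ} (hB : Summable B) (hf : ∀ n, ∑ m ∈ N n, |f n m| ≤ B n) :
    HasSum (fun n => ∑ m ∈ N n, f n m - ∑ m ∈ N n, f m n) 0 := by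
  classical
  let T : I × I → ℝ := fun z => if z.2 ∈ N z.1 then f z.1 z.2 else 0
  have h0 : ∀ (n : I) (g : I → ℝ), HasSum (fun m => if m ∈ N n then g m else 0)
      (∑ m ∈ N n, g m) := fun n g => by
    have h1 := hasSum_sum_of_ne_finset_zero (f := fun m => if m ∈ N n then g m else 0) (s := N n)
      (L := SummationFilter.unconditional I) fun m hm => if_neg hm
    rwa [Finset.sum_congr rfl fun m hm => if_pos hm] at h1
  have h1 : ∀ n, HasSum (fun m => |T (n, m)|) (∑ m ∈ N n, |f n m|) := fun n => by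
    have h2 : (fun m => |T (n, m)|) = fun m => if m ∈ N n then |f n m| else 0 := by
      funext m
      simp only [T]
      split_ifs <;> simp
    rw [h2]
    exact h0 n _
  have h2 : Summable fun z => |T z| := by
    refine (summable_prod_of_nonneg fun z => abs_nonneg _).2 ⟨fun n => (h1 n).summable, ?_⟩
    refine Summable.of_nonneg_of_le (fun n => tsum_nonneg fun m => abs_nonneg _) (fun n => ?_) hB
    rw [(h1 n).tsum_eq]
    exact hf n
  have h3 := h2.of_abs.hasSum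
  have h4 := h3.prod_fiberwise fun n => h0 n (f n)
  have h5 : HasSum (T ∘ Equiv.prodComm I I) (∑' z, T z) := (Equiv.hasSum_iff _).2 h3
  have h6 := h5.prod_fiberwise (g := fun n => ∑ m ∈ N n, f m n) fun n => by
    have h7 : (fun m => (T ∘ Equiv.prodComm I I) (n, m)) =
        fun m => if m ∈ N n then f m n else 0 := by
      funext m
      simp only [T, Function.comp, Equiv.prodComm_apply, Prod.swap, hN n m]
    rw [h7]
    exact h0 n _
  simpa using h4.sub h6

theorem harmB_term {q D : ℕ} (p : Prof D) (σ : ℕ × ℕ) {M : ℝ} (hM : 1 ≤ M)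
    {θ C : ℝ} {a : Ix → ℝ} {c : ℝ → Ix → Ix → ℝ} {v v' : Ix → ℝ → ℝ} (γ : ℂ)
    (h : Radial q p σ M θ C a c v v') {x : E} (hx : x ≠ 0) (f : Ix → Ix → ℝ)
    (hf : ∀ n m, f n m = ((lv q σ n : ℝ) + 1) ^ 2 * c (tau x) n m * v m (tau x) *
      (γ * md q σ n (nrm x)).re / M ^ lv q σ n) (n : Ix) :
    lap (met q p) (term q p σ M γ v n) x =
      (p.F (tau x) ^ 3)⁻¹ * (∑ m ∈ nb q D n, f n m - ∑ m ∈ nb q D n, f m n) := by
  have hM0 : ∀ k : ℕ, M ^ k ≠ 0 := fun k => by positivity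
  have hF : ∀ t, p.F t ≠ 0 := fun t => (p.F_pos t).ne'
  let L : ℂ →L[ℝ] ℝ := Complex.reCLM.comp (ContinuousLinearMap.mul ℝ ℂ γ)
  have hL : ∀ z, L z = (γ * z).re := fun z => rfl
  have hs : ContDiff ℝ ∞ (md q σ n) := mode_smooth _ _ _
  have e1 : term q p σ M γ v n =ᶠ[𝓝 x] fun z =>
      v n (tau z) / (M ^ lv q σ n * p.F (tau z)) * L (md q σ n (nrm z)) := by
    filter_upwards [isOpen_compl_singleton.mem_nhds hx] with z hz
    exact term_eq p σ M γ v n hz
  have hw : ∀ t, HasDerivAt (fun t => v n t / (M ^ lv q σ n * p.F t))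
      ((v' n t - p.κ t * v n t) / (M ^ lv q σ n * p.F t)) t := fun t => by
    have h1 := hM0 (lv q σ n)
    have h2 := hF t
    refine ((h.d1 n t).div ((p.F_deriv t).const_mul _) (mul_ne_zero h1 h2)).congr_deriv ?_
    field_simp
  have hκ : HasDerivAt p.κ (deriv p.κ (tau x)) (tau x) :=
    (p.κ_smooth.differentiable (by simp) _).hasDerivAt
  have hw' := ((h.d2 n (tau x)).sub (hκ.mul (h.d1 n (tau x)))).div
    ((p.F_deriv (tau x)).const_mul (M ^ lv q σ n)) (mul_ne_zero (hM0 _) (hF _))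
  have e2 := lap_sep (q := q) p hw hx hw' (H := fun z => L (md q σ n z))
    (L.contDiff.comp hs)
  have e3 : Qop q (p.π (tau x)) (fun z => L (md q σ n z)) (nrm x) =
      -(lam (p.π (tau x)).1 (mm q σ n) σ.2 n.2 * L (md q σ n (nrm x))) -
        ∑ m ∈ nb q D n, Bm q σ (eP (p.π (tau x)).1 (p.π (tau x)).2) m n *
          L (md q σ m (nrm x)) := by
    rw [Qop_clm L (met_b_ne p _) hs, Qop_md σ n (met_b_ne p _) (nrm_dot hx), map_sub, map_sum,
      neg_mul, map_neg]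
    simp only [← Complex.real_smul, map_smul, smul_eq_mul]
  have e4 : ∑ m ∈ nb q D n, f n m = ((lv q σ n : ℝ) + 1) ^ 2 *
      (∑ m ∈ nb q D n, c (tau x) n m * v m (tau x)) * L (md q σ n (nrm x)) / M ^ lv q σ n := by
    rw [Finset.mul_sum, Finset.sum_mul, Finset.sum_div]
    exact Finset.sum_congr rfl fun m _ => by rw [hf, hL]; ring
  have e5 : ∑ m ∈ nb q D n, f m n = v n (tau x) / M ^ lv q σ n *
      ∑ m ∈ nb q D n, Bm q σ (eP (p.π (tau x)).1 (p.π (tau x)).2) m n *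
        L (md q σ m (nrm x)) := by
    rw [Finset.mul_sum]
    refine Finset.sum_congr rfl fun m _ => ?_
    have h1 := hM0 (lv q σ n)
    have h2 := hM0 (lv q σ m)
    rw [hf, hL, h.c_eq]
    field_simp
  have h1 := hM0 (lv q σ n)
  have h2 := hF (tau x)
  rw [lap_congr e1, e2, e3, e4, e5]
  simp only [Pi.sub_apply, Pi.mul_apply]
  field_simp
  ring

theorem series_harm {q D : ℕ} (p : Prof D) (σ : ℕ × ℕ) (h1 : 1 ≤ σ.1) (h2 : σ.1 < q) {M : ℝ}
    (hM : 1 ≤ M)
    (hM' : ∀ (m : ℤ) (c j : ℕ) (y : E), y ⬝ᵥ y ≤ 1 → ‖mode m c j y‖ ≤ M * (M / 8) ^ lev m c j)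
    {θ C : ℝ} {a : Ix → ℝ} {c : ℝ → Ix → Ix → ℝ} {v v' : Ix → ℝ → ℝ} (γ : ℂ)
    (h : Radial q p σ M θ C a c v v')
    (hb : ∀ x, ∃ s ∈ 𝓝 x, ∃ b : Ix → ℝ, Summable b ∧
      ∀ n, ∀ y ∈ s, Bd2 (term q p σ M γ v n) y (b n)) :
    ContDiff ℝ 2 (fun x => ∑' n, term q p σ M γ v n x) ∧
      ∀ x, lap (met q p) (fun x => ∑' n, term q p σ M γ v n x) x = 0 := by
  have hu : ContDiff ℝ 2 (fun x => ∑' n, term q p σ M γ v n x) :=
    contDiff_iff_contDiffAt.2 fun x => by
      obtain ⟨s, hs, b, b1, b2⟩ := hb x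
      exact (bd2_tsum b1 hs b2).1
  refine ⟨hu, lap_zero_of_ne (met_isMetric p) hu fun x hx => ?_⟩
  obtain ⟨s, hs, b, b1, b2⟩ := hb x
  obtain ⟨k1, k2, k3⟩ := bd2_tsum b1 hs b2
  have k4 := lap_hasSum (met_isMetric (q := q) p) (fun n => (b2 n x (mem_of_mem_nhds hs)).1)
    k1 k2 k3
  let f : Ix → Ix → ℝ := fun n m => ((lv q σ n : ℝ) + 1) ^ 2 * c (tau x) n m * v m (tau x) *
    (γ * md q σ n (nrm x)).re / M ^ lv q σ n
  set C' := C * Real.exp (θ * max (tau x) 0) with hC'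
  have hC0 : 0 ≤ C' := (abs_nonneg _).trans (h.le 0 (tau x))
  have k5 := harmB_swap (nb q D) (fun n m => mem_nb_comm) f
    ((summable_lv h1 h2).mul_left (C' * ‖γ‖ * M)) fun n => by
      have hp : 0 < M ^ lv q σ n := by positivity
      have m1 : |(γ * md q σ n (nrm x)).re| ≤ ‖γ‖ * (M * (M / 8) ^ lv q σ n) :=
        (Complex.abs_re_le_norm _).trans ((norm_mul_le _ _).trans
          (mul_le_mul_of_nonneg_left (hM' _ _ _ _ (nrm_dot hx).le) (norm_nonneg _)))
      have m2 : ∀ m, |f n m| ≤ C' * ‖γ‖ * M *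
          (((lv q σ n : ℝ) + 1) ^ 2 * (1 / 8 : ℝ) ^ lv q σ n) * |c (tau x) n m| := fun m => by
        simp only [f, abs_div, abs_mul, abs_of_pos hp, abs_sq]
        rw [div_le_iff₀ hp]
        have m3 := mul_le_mul (h.le m (tau x)) m1 (abs_nonneg _) hC0
        have m4 := mul_le_mul_of_nonneg_left m3
          (mul_nonneg (sq_nonneg ((lv q σ n : ℝ) + 1)) (abs_nonneg (c (tau x) n m)))
        have m5 : (M / 8) ^ lv q σ n = (1 / 8 : ℝ) ^ lv q σ n * M ^ lv q σ n := by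
          rw [← mul_pow]; congr 1; ring
        rw [m5] at m4
        linarith
      refine (Finset.sum_le_sum fun m _ => m2 m).trans ?_
      rw [← Finset.mul_sum]
      exact mul_le_of_le_one_right (by positivity) (h.c_row _ n)
  have k6 := k5.mul_left (p.F (tau x) ^ 3)⁻¹
  rw [mul_zero] at k6
  refine k4.unique ?_
  have k7 : (fun n => lap (met q p) (term q p σ M γ v n) x) = fun n =>
      (p.F (tau x) ^ 3)⁻¹ * (∑ m ∈ nb q D n, f n m - ∑ m ∈ nb q D n, f m n) :=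
    funext fun n => harmB_term p σ hM γ h hx f (fun _ _ => rfl) n
  rw [k7]
  exact k6

end Vale.Agent.P225
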