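import Mathlib
import Vale.Agent.P225.ModesA

/-! Linear independence. -/

open scoped ContDiff Matrix Topology BoundedContinuousFunction
open Filter Set

noncomputable section

namespace Vale.Agent.P225

theorem lin_poly {Q : Polynomial ℝ} {K : ℕ} (hQ : Q.natDegree ≤ K) {C : ℝ}
    (h : ∀ t ∈ Ioc (0 : ℝ) 1, |Q.eval t| ≤ C * t ^ (K + 1)) : Q = 0 := by
  by_contra hne
  obtain ⟨R, hR, hR0⟩ := Polynomial.exists_eq_pow_rootMultiplicity_mul_and_not_dvd Q hne 0
  set r := Q.rootMultiplicity 0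
  have hRne : R ≠ 0 := by rintro rfl; simp at hR0
  have hr : r ≤ K := by
    have := congrArg Polynomial.natDegree hR
    rw [Polynomial.natDegree_mul (pow_ne_zero _ (Polynomial.X_sub_C_ne_zero 0)) hRne] at this
    simp at this
    omega
  refine hR0 (Polynomial.dvd_iff_isRoot.mpr ?_)
  have h1 : Tendsto (fun t => |R.eval t|) (𝓝[>] 0) (𝓝 |R.eval 0|) :=
    (R.continuous.abs.tendsto 0).mono_left nhdsWithin_le_nhds
  have h2 : Tendsto (fun t : ℝ => |C| * t) (𝓝[>] 0) (𝓝 (|C| * 0)) :=
    ((continuous_const.mul continuous_id).tendsto 0).mono_left nhdsWithin_le_nhds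
  have h3 := le_of_tendsto_of_tendsto h1 h2 (by
    filter_upwards [Ioc_mem_nhdsGT zero_lt_one] with t ht
    have a1 := h t ht
    have a2 : 0 < t ^ r := pow_pos ht.1 r
    rw [hR] at a1
    simp only [Polynomial.eval_mul, Polynomial.eval_pow, Polynomial.eval_sub, Polynomial.eval_X,
      Polynomial.eval_C, sub_zero, abs_mul, abs_of_pos a2] at a1
    have a3 : t ^ (K + 1) ≤ t ^ r * t := by
      rw [← pow_succ]
      exact pow_le_pow_of_le_one ht.1.le ht.2 (by omega)
    refine le_of_mul_le_mul_left (a1.trans ?_) a2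
    calc C * t ^ (K + 1) ≤ |C| * (t ^ r * t) :=
          mul_le_mul (le_abs_self C) a3 (pow_pos ht.1 _).le (abs_nonneg C)
      _ = _ := by ring)
  simpa using h3

/-- Characters of the plane. -/
def linChi (k : ℤ × ℤ) : Multiplicative (ℝ × ℝ) →* ℂ where
  toFun p := Complex.exp ((k.1 * p.toAdd.1 + k.2 * p.toAdd.2) * Complex.I)
  map_one' := by simp
  map_mul' p p' := by
    rw [← Complex.exp_add]
    congr 1
    simp only [toAdd_mul, Prod.fst_add, Prod.snd_add]
    push_cast
    ring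

theorem lin_exp_inj {m m' : ℤ}
    (h : ∀ t : ℝ, Complex.exp (m * t * Complex.I) = Complex.exp (m' * t * Complex.I)) : m = m' := by
  by_contra hne
  have h0 : (m : ℂ) - m' ≠ 0 := by exact_mod_cast sub_ne_zero.mpr hne
  have h1 := h (Real.pi / (m - m'))
  have e : (m : ℂ) * (Real.pi / (m - m') : ℝ) * Complex.I =
      m' * (Real.pi / (m - m') : ℝ) * Complex.I + Real.pi * Complex.I := by
    push_cast
    field_simp
    ring
  rw [e, Complex.exp_add, Complex.exp_pi_mul_I] at h1
  exact Complex.exp_ne_zero _ (by linear_combination (-1 / 2) * h1)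

theorem linChi_inj : Function.Injective linChi := fun k k' h =>
  Prod.ext (lin_exp_inj fun t => by
      simpa [linChi] using DFunLike.congr_fun h (Multiplicative.ofAdd (t, 0)))
    (lin_exp_inj fun t => by
      simpa [linChi] using DFunLike.congr_fun h (Multiplicative.ofAdd (0, t)))

theorem lin_mode {s : ℝ} (hs : s ∈ Ioo (0 : ℝ) 1) (p : Multiplicative (ℝ × ℝ)) :
    ∃ x : E, x ⬝ᵥ x = 1 ∧ ∀ (m : ℤ) (c j : ℕ), mode m c j x =
      ((√(1 - s) ^ m.natAbs * √s ^ c * (pn m.natAbs c j).eval s : ℝ) : ℂ) * linChi (m, c) p := by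
  obtain ⟨θ, φ⟩ := p
  let x : E := ![√(1 - s) * Real.cos θ, √(1 - s) * Real.sin θ, √s * Real.cos φ, √s * Real.sin φ]
  have a1 : √(1 - s) ^ 2 = 1 - s := Real.sq_sqrt (by linarith [hs.2])
  have a2 : √s ^ 2 = s := Real.sq_sqrt hs.1.le
  have hx : x ⬝ᵥ x = 1 := by
    simp only [x, dotProduct, Fin.sum_univ_four, Matrix.cons_val_zero, Matrix.cons_val_one,
      Matrix.cons_val]
    linear_combination (Real.cos θ ^ 2 + Real.sin θ ^ 2) * a1 + (1 - s) * Real.cos_sq_add_sin_sq θ +
      (Real.cos φ ^ 2 + Real.sin φ ^ 2) * a2 + s * Real.cos_sq_add_sin_sq φ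
  have h0 : z0 x = √(1 - s) * Complex.exp (θ * Complex.I) := by
    simp [z0, x, Complex.exp_mul_I]; ring
  have h0' : (starRingEnd ℂ) (z0 x) = √(1 - s) * Complex.exp (-θ * Complex.I) := by
    rw [h0, map_mul, Complex.conj_ofReal, ← Complex.exp_conj]; simp
  have h1 : z1 x = √s * Complex.exp (φ * Complex.I) := by
    simp [z1, x, Complex.exp_mul_I]; ring
  have h2 : xx x = s := by
    simp only [xx, x, Matrix.cons_val]
    linear_combination (Real.cos φ ^ 2 + Real.sin φ ^ 2) * a2 + s * Real.cos_sq_add_sin_sq φ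
  refine ⟨x, hx, fun m c j => ?_⟩
  have e1 : m.toNat + (-m).toNat = m.natAbs := by omega
  have e2 : ((m.toNat : ℂ)) - ((-m).toNat : ℂ) = m := by
    exact_mod_cast (show (m.toNat : ℤ) - ((-m).toNat : ℤ) = m by omega)
  rw [mode_sphere m c j hx, ang, h0', h0, h1, h2, mul_pow, mul_pow, mul_pow, ← Complex.exp_nat_mul,
    ← Complex.exp_nat_mul, ← Complex.exp_nat_mul]
  change _ = _ * Complex.exp (((m : ℤ) * (θ : ℂ) + ((c : ℤ) : ℂ) * (φ : ℂ)) * Complex.I)
  have e3 : Complex.exp (((m : ℤ) * (θ : ℂ) + ((c : ℤ) : ℂ) * (φ : ℂ)) * Complex.I) =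
      Complex.exp (m.toNat * (θ * Complex.I)) * Complex.exp ((-m).toNat * (-θ * Complex.I)) *
        Complex.exp (c * (φ * Complex.I)) := by
    rw [← Complex.exp_add, ← Complex.exp_add, ← e2]
    congr 1
    push_cast
    ring
  rw [e3, show √(1 - s) ^ m.natAbs = √(1 - s) ^ m.toNat * √(1 - s) ^ (-m).toNat by
    rw [← pow_add, e1]]
  push_cast
  ring

theorem linInd_of_jet {ι : Type} [Fintype ι] (t : ι → ℤ × ℕ × ℕ) (ht : Function.Injective t)
    (hc : ∀ i, 1 ≤ (t i).2.1) {K : ℕ} (hK : ∀ i, lev (t i).1 (t i).2.1 (t i).2.2 ≤ K)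
    (u : ι × Fin 2 → E → ℝ) (a : ι → ℝ) (ha : ∀ i, a i ≠ 0) (C : ℝ)
    (h : ∀ i e, ∀ x : E, x ⬝ᵥ x ≤ 1 → |u (i, e) x -
      a i * (Complex.I ^ (e : ℕ) * mode (t i).1 (t i).2.1 (t i).2.2 x).re| ≤
        C * √(x ⬝ᵥ x) ^ (K + 1)) :
    LinearIndependent ℝ u := by
  classical
  refine Fintype.linearIndependent_iff.mpr fun g hg => ?_
  let γ : ι → ℂ := fun i => a i * (g (i, 0) + g (i, 1) * Complex.I)
  have hγ : ∀ x, ∑ z, g z * (a z.1 * (Complex.I ^ (z.2 : ℕ) *
      mode (t z.1).1 (t z.1).2.1 (t z.1).2.2 x).re) =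
      ∑ i, (γ i * mode (t i).1 (t i).2.1 (t i).2.2 x).re := fun x => by
    rw [Fintype.sum_prod_type]
    refine Finset.sum_congr rfl fun i _ => ?_
    simp [γ]
    ring
  have h1 : ∀ x : E, x ⬝ᵥ x = 1 → ∑ i, (γ i * mode (t i).1 (t i).2.1 (t i).2.2 x).re = 0 := by
    intro x hx
    have := lin_poly (K := K) (C := ∑ z, |g z| * C) (Q := ∑ i, Polynomial.monomial
      (lev (t i).1 (t i).2.1 (t i).2.2) (γ i * mode (t i).1 (t i).2.1 (t i).2.2 x).re)
      (Polynomial.natDegree_sum_le_of_forall_le _ _ fun i _ =>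
        (Polynomial.natDegree_monomial_le _).trans (hK i)) fun r hr => by
        have e : (r • x) ⬝ᵥ (r • x) = r ^ 2 := by
          rw [smul_dotProduct, dotProduct_smul, hx]; simp [sq]
        have e1 : ∑ z, g z * u z (r • x) = 0 := by simpa using congrFun hg (r • x)
        have e2 : Polynomial.eval r (∑ i, Polynomial.monomial (lev (t i).1 (t i).2.1 (t i).2.2)
            (γ i * mode (t i).1 (t i).2.1 (t i).2.2 x).re) =
            ∑ i, (γ i * mode (t i).1 (t i).2.1 (t i).2.2 (r • x)).re := by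
          rw [Polynomial.eval_finsetSum]
          refine Finset.sum_congr rfl fun i _ => ?_
          rw [mode_smul, Polynomial.eval_monomial, mul_left_comm, ← Complex.ofReal_pow,
            Complex.re_ofReal_mul, mul_comm]
        rw [e2, ← hγ, ← abs_neg, ← zero_sub, ← e1, ← Finset.sum_sub_distrib, Finset.sum_mul]
        refine (Finset.abs_sum_le_sum_abs _ _).trans (Finset.sum_le_sum fun z _ => ?_)
        have := h z.1 z.2 (r • x) (by rw [e]; nlinarith [hr.1, hr.2])
        rw [e, Real.sqrt_sq hr.1.le] at this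
        rw [← mul_sub, abs_mul, mul_assoc]
        exact mul_le_mul_of_nonneg_left this (abs_nonneg _)
    simpa [Polynomial.eval_finsetSum] using congrArg (Polynomial.eval 1) this
  have h2 : ∀ i0, ∀ s ∈ Ioo (0 : ℝ) 1, ∑ i, (if ((t i).1, (t i).2.1) = ((t i0).1, (t i0).2.1) then
      γ i * ((pn (t i0).1.natAbs (t i0).2.1 (t i).2.2).eval s : ℝ) else 0) = 0 := by
    intro i0 s hs
    let ρ : ι → ℂ := fun i => γ i * ((√(1 - s) ^ (t i).1.natAbs * √s ^ (t i).2.1 *
      (pn (t i).1.natAbs (t i).2.1 (t i).2.2).eval s : ℝ) : ℂ)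
    have li := linearIndependent_iff.mp ((linearIndependent_monoidHom _ ℂ).comp _ linChi_inj)
      (∑ i, (Finsupp.single ((t i).1, ((t i).2.1 : ℤ)) (ρ i) +
        Finsupp.single (-(t i).1, -((t i).2.1 : ℤ)) ((starRingEnd ℂ) (ρ i)))) (by
        funext p
        obtain ⟨x, hx, hm⟩ := lin_mode hs p
        have a1 := h1 x hx
        have a2 : ∀ k : ℤ × ℤ, linChi (-k.1, -k.2) p = (starRingEnd ℂ) (linChi k p) := fun k => by
          simp only [linChi, MonoidHom.coe_mk, OneHom.coe_mk, ← Complex.exp_conj]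
          congr 1
          simp
          ring
        simp only [map_sum, map_add, Finsupp.linearCombination_single, Finset.sum_apply,
          Pi.add_apply, Pi.smul_apply, Function.comp, smul_eq_mul, Pi.zero_apply]
        rw [← Complex.ofReal_zero, ← mul_zero 2, ← a1, Finset.mul_sum, Complex.ofReal_sum]
        refine Finset.sum_congr rfl fun i _ => ?_
        rw [a2 ((t i).1, ((t i).2.1 : ℤ)), ← map_mul, Complex.add_conj, hm, ← mul_assoc])
    have a3 := DFunLike.congr_fun li ((t i0).1, ((t i0).2.1 : ℤ))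
    have a4 : ((√(1 - s) ^ (t i0).1.natAbs * √s ^ (t i0).2.1 : ℝ) : ℂ) ≠ 0 := by
      have := Real.sqrt_pos.mpr (sub_pos.mpr hs.2)
      have := Real.sqrt_pos.mpr hs.1
      exact_mod_cast (by positivity : 0 < √(1 - s) ^ (t i0).1.natAbs * √s ^ (t i0).2.1).ne'
    refine mul_left_cancel₀ a4 ?_
    rw [Finsupp.finsetSum_apply, Finsupp.zero_apply] at a3
    rw [mul_zero, Finset.mul_sum]
    refine Eq.trans ?_ a3
    refine Finset.sum_congr rfl fun i _ => ?_
    have a5 : ¬(-(t i).1, -((t i).2.1 : ℤ)) = ((t i0).1, ((t i0).2.1 : ℤ)) := by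
      have := hc i
      simp only [Prod.mk.injEq]
      omega
    rw [Finsupp.add_apply, Finsupp.single_eq_of_ne' a5, add_zero]
    simp only [Finsupp.single_apply, Prod.mk.injEq, Nat.cast_inj, ρ]
    split_ifs with h
    · rw [h.1, h.2]; push_cast; ring
    · simp
  have h3 : ∀ (L : ℂ →L[ℝ] ℝ) i0, L (γ i0) = 0 := by
    intro L i0
    set α := (t i0).1.natAbs
    set c := (t i0).2.1
    have b1 : (∑ i, if ((t i).1, (t i).2.1) = ((t i0).1, c) then
        Polynomial.C (L (γ i)) * pn α c (t i).2.2 else 0) = 0 := by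
      refine Polynomial.eq_zero_of_infinite_isRoot _ ((Ioo_infinite zero_lt_one).mono fun s hs => ?_)
      have := congrArg L (h2 i0 s hs)
      rw [map_sum, map_zero] at this
      change Polynomial.eval s _ = 0
      rw [Polynomial.eval_finsetSum]
      refine Eq.trans ?_ this
      refine Finset.sum_congr rfl fun i _ => ?_
      split_ifs
      · rw [mul_comm (γ i), ← Complex.real_smul, map_smul]; simp [mul_comm, α, c]
      · simp
    have b2 : ∀ x : ℝ, ∑ i, (if ((t i).1, (t i).2.1) = ((t i0).1, c) then L (γ i) else 0) *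
        (x ^ c * (1 - x) ^ α * ((pn α c (t i).2.2).eval x * (pn α c (t i0).2.2).eval x)) = 0 := by
      intro x
      have := congrArg (fun Q => x ^ c * (1 - x) ^ α * (pn α c (t i0).2.2).eval x * Q.eval x) b1
      simp only [Polynomial.eval_finsetSum, Polynomial.eval_zero, mul_zero, Finset.mul_sum] at this
      refine Eq.trans ?_ this
      refine Finset.sum_congr rfl fun i _ => ?_
      split_ifs
      · simp only [Polynomial.eval_mul, Polynomial.eval_C]; ring
      · simp
    have b3 := congrArg (fun f : ℝ → ℝ => ∫ x in (0 : ℝ)..1, f x) (funext b2)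
    simp only [intervalIntegral.integral_zero] at b3
    rw [intervalIntegral.integral_finsetSum fun i _ => by
      have := (pn α c (t i).2.2).continuous
      have := (pn α c (t i0).2.2).continuous
      apply Continuous.intervalIntegrable; fun_prop] at b3
    simp only [intervalIntegral.integral_const_mul, pn_orth] at b3
    rw [Finset.sum_eq_single_of_mem i0 (Finset.mem_univ _) fun i _ hi => ?_] at b3
    · simpa [c] using b3
    · split_ifs with k1 k2
      · rw [Prod.mk.injEq] at k1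
        exact absurd (ht (Prod.ext k1.1 (Prod.ext k1.2 k2))) hi
      all_goals simp
  rintro ⟨i, e⟩
  have c1 := h3 Complex.reCLM i
  have c2 := h3 Complex.imCLM i
  simp [γ, ha i] at c1 c2
  fin_cases e
  · exact c1
  · exact c2

end Vale.Agent.P225
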