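import Mathlib

/-!
Riemannian metrics on `ℝⁿ` in the standard coordinates: Ricci curvature, the Laplace-Beltrami
operator, the Riemannian distance, completeness, harmonic functions of polynomial growth.
-/

open scoped ContDiff Matrix Topology
open Filter

noncomputable section

namespace Vale.Agent.P225

variable {n : ℕ}

/-- The derivative `∂ᵢ f` at `x`. -/
def pd (i : Fin n) (f : (Fin n → ℝ) → ℝ) (x : Fin n → ℝ) : ℝ := fderiv ℝ f x (Pi.single i 1)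

/-- A smooth Riemannian metric on `ℝⁿ`: a smooth field of positive definite symmetric matrices. -/
def IsMetric (G : (Fin n → ℝ) → Matrix (Fin n) (Fin n) ℝ) : Prop :=
  (∀ i j, ContDiff ℝ ∞ fun x => G x i j) ∧ ∀ x, (G x).PosDef

/-- The Christoffel symbol `Γᵏᵢⱼ = gᵏˡ (∂ᵢ gⱼₗ + ∂ⱼ gᵢₗ - ∂ₗ gᵢⱼ) / 2`. -/
def chr (G : (Fin n → ℝ) → Matrix (Fin n) (Fin n) ℝ) (x : Fin n → ℝ) (k i j : Fin n) : ℝ :=
  ∑ l, (G x)⁻¹ k l *
    (pd i (fun y => G y j l) x + pd j (fun y => G y i l) x - pd l (fun y => G y i j) x) / 2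

/-- The Ricci tensor `Rⱼₖ = ∂ᵢ Γⁱⱼₖ - ∂ⱼ Γⁱᵢₖ + Γⁱᵢₗ Γˡⱼₖ - Γⁱⱼₗ Γˡᵢₖ`. -/
def ric (G : (Fin n → ℝ) → Matrix (Fin n) (Fin n) ℝ) (x : Fin n → ℝ) (j k : Fin n) : ℝ :=
  ∑ i, (pd i (fun y => chr G y i j k) x - pd j (fun y => chr G y i i k) x +
    ∑ l, (chr G x i i l * chr G x l j k - chr G x i j l * chr G x l i k))

/-- Nonnegative Ricci curvature. -/
def RicNonneg (G : (Fin n → ℝ) → Matrix (Fin n) (Fin n) ℝ) : Prop :=
  ∀ x v : Fin n → ℝ, 0 ≤ ∑ j, ∑ k, ric G x j k * v j * v k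

/-- The Laplace-Beltrami operator `Δ u = (det g)^(-1/2) ∂ᵢ ((det g)^(1/2) gⁱʲ ∂ⱼ u)`. -/
def lap (G : (Fin n → ℝ) → Matrix (Fin n) (Fin n) ℝ) (u : (Fin n → ℝ) → ℝ) (x : Fin n → ℝ) : ℝ :=
  (√(G x).det)⁻¹ * ∑ i, pd i (fun y => √(G y).det * ∑ j, (G y)⁻¹ i j * pd j u y) x

/-- The length of the curve `γ` on the parameter interval `[0, 1]`. -/
def len (G : (Fin n → ℝ) → Matrix (Fin n) (Fin n) ℝ) (γ : ℝ → Fin n → ℝ) : ℝ :=
  ∫ t in (0 : ℝ)..1, √(deriv γ t ⬝ᵥ G (γ t) *ᵥ deriv γ t)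

/-- The Riemannian distance: the infimum of the lengths of `C¹` curves from `x` to `y`. -/
def rdist (G : (Fin n → ℝ) → Matrix (Fin n) (Fin n) ℝ) (x y : Fin n → ℝ) : ℝ :=
  sInf (len G '' {γ | ContDiff ℝ 1 γ ∧ γ 0 = x ∧ γ 1 = y})

/-- Completeness: Cauchy sequences for the Riemannian distance converge for that distance. -/
def Complete (G : (Fin n → ℝ) → Matrix (Fin n) (Fin n) ℝ) : Prop :=
  ∀ p : ℕ → Fin n → ℝ, (∀ ε > 0, ∃ N, ∀ a ≥ N, ∀ b ≥ N, rdist G (p a) (p b) < ε) →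
    ∃ x, Tendsto (fun a => rdist G (p a) x) atTop (𝓝 0)

/-- `u` is harmonic, of polynomial growth of degree at most `k` (base point the origin). -/
def PolyHarmonic (G : (Fin n → ℝ) → Matrix (Fin n) (Fin n) ℝ) (k : ℕ) (u : (Fin n → ℝ) → ℝ) :
    Prop :=
  ContDiff ℝ 2 u ∧ (∀ x, lap G u x = 0) ∧ ∃ C : ℝ, ∀ x, |u x| ≤ C * (1 + rdist G 0 x) ^ k

end Vale.Agent.P225
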